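import Vale.Agent.P184L.ExtD

/-! Pull-back along affine maps. Hint: `pb A` is an algebra map; `ExteriorAlgebra.map_apply_ι`. For `vol_pb` compare two linear maps on the exterior algebra with `ExteriorAlgebra.lhom_ext` (`liftAlternating_comp_ιMulti`, `ExteriorAlgebra.map_apply_ιMulti`, `Module.Basis.det_comp`). -/

namespace Vale.Agent.P184L

open Finset MeasureTheory ProbabilityTheory Classical Vale.Agent.P184
open scoped ContDiff

noncomputable section

universe u

variable {G : Type u} [Group G]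

namespace PullX

theorem eq_sum {k : ℕ} (u : E k) : u = ∑ j, u j • ev j := by
  funext i
  simp [ev, Finset.sum_apply, Pi.single_apply]

theorem mulVec_ev {k d : ℕ} (A : Matrix (Fin k) (Fin d) ℝ) (l : Fin d) :
    A.mulVec (ev l) = ∑ i, A i l • ev i := by
  rw [eq_sum (A.mulVec (ev l))]
  simp [ev]

theorem curv_eq {k : ℕ} {a : Form k} (ha : ContDiff ℝ ∞ a) (T : E k) (i j : Fin k) :
    curv a T i j = fderiv ℝ a T (ev i) (ev j) := by
  have h : HasFDerivAt a (fderiv ℝ a T) T :=
    (ha.differentiable (by simp)).differentiableAt.hasFDerivAt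
  have h2 := (ContinuousLinearMap.apply ℝ ℝ (ev j)).hasFDerivAt.comp T h
  exact congrArg (fun L : E k →L[ℝ] ℝ => L (ev i)) h2.fderiv

end PullX

theorem pb_iota {k d : ℕ} (A : Matrix (Fin k) (Fin d) ℝ) (u : E k) :
    pb A (ExteriorAlgebra.ι ℝ u) = ExteriorAlgebra.ι ℝ (A.transpose.mulVec u) := by
  rw [pb, ExteriorAlgebra.map_apply_ι, Matrix.toLin'_apply]

theorem pb_two {k d : ℕ} (A : Matrix (Fin k) (Fin d) ℝ) (M : Matrix (Fin k) (Fin k) ℝ) :
    pb A (two M) = two (A.transpose * M * A) := by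
  simp only [two, map_sum, map_smul, map_mul, pb_iota, PullX.mulVec_ev, Matrix.mul_apply,
    Matrix.transpose_apply, Finset.sum_mul, Finset.mul_sum, Finset.smul_sum, Finset.sum_smul,
    smul_mul_smul_comm, smul_smul]
  calc _ = ∑ i, ∑ j, ∑ l, ∑ m, (A i l * M i j * A j m) •
        (ExteriorAlgebra.ι ℝ (ev l) * ExteriorAlgebra.ι ℝ (ev m)) := by
        refine sum_congr rfl fun i _ => sum_congr rfl fun j _ => ?_
        rw [sum_comm]
        refine sum_congr rfl fun l _ => sum_congr rfl fun m _ => ?_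
        congr 1
        ring
    _ = ∑ j, ∑ i, ∑ l, ∑ m, (A i l * M i j * A j m) •
        (ExteriorAlgebra.ι ℝ (ev l) * ExteriorAlgebra.ι ℝ (ev m)) := sum_comm
    _ = ∑ p : Fin k × Fin k, ∑ q : Fin d × Fin d, (A p.2 q.1 * M p.2 p.1 * A p.1 q.2) •
        (ExteriorAlgebra.ι ℝ (ev q.1) * ExteriorAlgebra.ι ℝ (ev q.2)) := by
        simp only [Fintype.sum_prod_type]
    _ = ∑ q : Fin d × Fin d, ∑ p : Fin k × Fin k, (A p.2 q.1 * M p.2 p.1 * A p.1 q.2) •
        (ExteriorAlgebra.ι ℝ (ev q.1) * ExteriorAlgebra.ι ℝ (ev q.2)) := sum_comm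
    _ = _ := by simp only [Fintype.sum_prod_type]

theorem vol_pb {k : ℕ} (A : Matrix (Fin k) (Fin k) ℝ) (X : Ext k) :
    vol k (pb A X) = A.det * vol k X := by
  have h : vol k ∘ₗ (pb A).toLinearMap = A.det • vol k := by
    refine ExteriorAlgebra.lhom_ext fun i => AlternatingMap.ext fun v => ?_
    simp only [LinearMap.compAlternatingMap_apply, LinearMap.comp_apply, AlgHom.toLinearMap_apply,
      pb, ExteriorAlgebra.map_apply_ιMulti, LinearMap.smul_apply, vol,
      ExteriorAlgebra.liftAlternating_apply_ιMulti, smul_eq_mul]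
    by_cases hi : i = k
    · subst hi
      rw [Function.update_self, Module.Basis.det_comp, LinearMap.det_toLin', Matrix.det_transpose]
    · rw [Function.update_of_ne hi]
      simp
  exact LinearMap.congr_fun h X

theorem curv_pull {k d : ℕ} (A : Matrix (Fin k) (Fin d) ℝ) (c : E k) (φ : E d → ℝ) {a : Form k}
    {a' : Form d} (ha : ContDiff ℝ ∞ a)
    (h : ∀ σ v, a' σ v = a (A.mulVec σ + c) (A.mulVec v) + φ v) (σ : E d) :
    curv a' σ = A.transpose * curv a (A.mulVec σ + c) * A := by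
  funext l m
  have h0 : HasFDerivAt a (fderiv ℝ a (A.mulVec σ + c)) (A.mulVec σ + c) :=
    (ha.differentiable (by simp)).differentiableAt.hasFDerivAt
  have h1 : HasFDerivAt (fun S : E d => A.mulVec S + c)
      (LinearMap.toContinuousLinearMap (Matrix.toLin' A)) σ :=
    (LinearMap.toContinuousLinearMap (Matrix.toLin' A)).hasFDerivAt.add_const c
  have h2 := ((ContinuousLinearMap.apply ℝ ℝ (A.mulVec (ev m))).hasFDerivAt.comp σ
    (h0.comp σ h1)).add_const (φ (ev m))
  have e : (fun S => a' S (ev m)) = fun S => a (A.mulVec S + c) (A.mulVec (ev m)) + φ (ev m) :=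
    funext fun S => h S _
  have h3 : curv a' σ l m = fderiv ℝ a (A.mulVec σ + c) (A.mulVec (ev l)) (A.mulVec (ev m)) := by
    rw [curv, e]
    exact congrArg (fun L : E d →L[ℝ] ℝ => L (ev l)) h2.fderiv
  rw [h3, PullX.mulVec_ev, PullX.mulVec_ev]
  simp only [map_sum, map_smul, ContinuousLinearMap.sum_apply, ContinuousLinearMap.smul_apply,
    smul_eq_mul, Matrix.mul_apply, Matrix.transpose_apply, PullX.curv_eq ha]
  exact sum_congr rfl fun j _ => mul_comm _ _

theorem tf_pull {k d : ℕ} (n : ℕ) (A : Matrix (Fin k) (Fin d) ℝ) (c : E k) (φ : E d → ℝ)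
    {a b : Form k} {a' b' : Form d} (ha : ContDiff ℝ ∞ a) (hb : ContDiff ℝ ∞ b)
    (h : ∀ σ v, a' σ v = a (A.mulVec σ + c) (A.mulVec v) + φ v)
    (h' : ∀ σ v, b' σ v = b (A.mulVec σ + c) (A.mulVec v) + φ v) (σ : E d) :
    tf n a' b' σ = pb A (tf n a b (A.mulVec σ + c)) := by
  have e : co (a' σ - b' σ) =
      A.transpose.mulVec (co (a (A.mulVec σ + c) - b (A.mulVec σ + c))) := by
    funext l
    simp only [co, ContinuousLinearMap.sub_apply, h, h', add_sub_add_right_eq_sub, PullX.mulVec_ev,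
      map_sum, map_smul, smul_eq_mul, Matrix.mulVec, dotProduct, Matrix.transpose_apply, mul_sub,
      Finset.sum_sub_distrib]
  simp only [tf, tp, map_mul, map_sum, map_pow, pb_iota, pb_two, e, curv_pull A c φ ha h,
    curv_pull A c φ hb h']

end

end Vale.Agent.P184L
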