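import Vale.Agent.P184L.ExtD

/-! The model connection. Hint: `nx T` on `castSucc i` is `T i`, on `last` it is `T 0 + 1`. For `face` the summand `j` vanishes and the others match (`Fin.sum_univ_succAbove _ j`). For `th0_est`: `curv (th0 k) T` is `∑ j, vecMulVec (ev (j + 1)) (ev j) - 1` (indices mod `k + 1`), so pairing with an antisymmetric `A` gives `∑ j, A (j + 1) j`, and `wn w (ev j) ≤ 1`. -/

namespace Vale.Agent.P184L

open Finset MeasureTheory ProbabilityTheory Classical Vale.Agent.P184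
open scoped ContDiff

noncomputable section

universe u

variable {G : Type u} [Group G]

namespace Th0X

theorem nx_cast {k : ℕ} (T : E (k + 1)) (i : Fin (k + 1)) : nx T i.castSucc = T i :=
  Fin.snoc_castSucc ..

theorem nx_last {k : ℕ} (T : E (k + 1)) : nx T (Fin.last (k + 1)) = T 0 + 1 :=
  Fin.snoc_last ..

theorem nx_aff {k : ℕ} (m : Fin (k + 2)) :
    ∃ (i : Fin (k + 1)) (c : ℝ), ∀ T : E (k + 1), nx T m = T i + c := by
  induction m using Fin.lastCases with
  | last => exact ⟨0, 1, nx_last⟩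
  | cast i => exact ⟨i, 0, fun T => by rw [nx_cast, add_zero]⟩

theorem th0_apply {k : ℕ} (T v : E (k + 1)) : th0 k T v = ∑ j, (nx T j.succ - T j) * v j := by
  simp [th0]

theorem smooth (k : ℕ) : ContDiff ℝ ∞ (th0 k) := by
  refine ContDiff.sum fun j _ => ContDiff.smul (ContDiff.sub ?_ (contDiff_apply ℝ ℝ j)) contDiff_const
  obtain ⟨i, c, h⟩ := nx_aff j.succ
  simp only [h]
  exact (contDiff_apply ℝ ℝ i).add contDiff_const

theorem pred_succ {k : ℕ} (j : Fin (k + 2)) (l : Fin (k + 1)) :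
    j.predAbove (j.succAbove l).succ = l.succ ∧
      j.predAbove (j.succAbove l).castSucc = l.castSucc := by
  have h1 : ∀ m : Fin (k + 3), (j.predAbove m : ℕ) = if (j : ℕ) < m then (m : ℕ) - 1 else m := by
    intro m
    unfold Fin.predAbove
    by_cases h : j.castSucc < m
    · rw [dif_pos h, if_pos (show (j : ℕ) < m from h)]
      rfl
    · rw [dif_neg h, if_neg (show ¬ (j : ℕ) < m from h)]
      rfl
  have h2 : (j.succAbove l : ℕ) = if (l : ℕ) < j then (l : ℕ) else l + 1 := by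
    unfold Fin.succAbove
    by_cases h : l.castSucc < j
    · rw [if_pos h, if_pos (show (l : ℕ) < j from h)]
      rfl
    · rw [if_neg h, if_neg (show ¬ (l : ℕ) < j from h)]
      rfl
  constructor <;>
  · apply Fin.ext
    simp only [h1, h2, Fin.val_succ, Fin.val_castSucc]
    split_ifs <;> omega

theorem nx_face {k : ℕ} (j : Fin (k + 2)) (T : E (k + 1)) (m : Fin (k + 3)) :
    nx (faceA j T) m = nx T (j.predAbove m) := by
  induction m using Fin.lastCases with
  | last =>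
    rw [nx_last, Fin.predAbove_right_last, nx_last, faceA, Fin.castSucc_zero,
      Fin.predAbove_right_zero, ← Fin.castSucc_zero, nx_cast]
  | cast i => rw [nx_cast, faceA]

theorem co_th0 {k : ℕ} (T : E (k + 1)) (j : Fin (k + 1)) :
    co (th0 k T) j = nx T j.succ - T j := by
  rw [co, th0_apply, sum_eq_single j]
  · simp [ev]
  · intro i _ hi
    simp [ev, Pi.single_eq_of_ne hi]
  · simp

theorem co_le {k : ℕ} {T : E (k + 1)} (hT : Ord T) (j : Fin (k + 1)) : |co (th0 k T) j| ≤ 1 := by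
  have h : ∀ m, T 0 ≤ nx T m ∧ nx T m ≤ T 0 + 1 := fun m => by
    induction m using Fin.lastCases with
    | last => rw [nx_last]; constructor <;> linarith
    | cast i => rw [nx_cast]; exact ⟨hT.1 (Fin.zero_le i), hT.2 i⟩
  have h1 := h j.succ
  have h2 := h j.castSucc
  rw [nx_cast] at h2
  rw [co_th0, abs_le]
  constructor <;> linarith [h1.1, h1.2, h2.1, h2.2]

theorem curv_th0 (k : ℕ) : ∃ σ : Fin (k + 1) → Fin (k + 1), ∀ (T : E (k + 1)) i j,
    curv (th0 k) T i j = ev i (σ j) - ev i j := by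
  choose σ c h using fun j : Fin (k + 1) => nx_aff j.succ
  refine ⟨σ, fun T i j => ?_⟩
  have e : (fun S => th0 k S (ev j)) = fun S : E (k + 1) => S (σ j) + c j - S j :=
    funext fun S => by rw [← h]; exact co_th0 S j
  have hd : HasFDerivAt (fun S : E (k + 1) => S (σ j) + c j - S j) _ T :=
    ((hasFDerivAt_apply (𝕜 := ℝ) (σ j) T).add_const (c j)).sub (hasFDerivAt_apply j T)
  rw [curv, e, hd.fderiv]
  rfl

theorem wn_le {k : ℕ} {w u : E k} (hw : ∀ j, 1 ≤ w j) : wn w u ≤ √(∑ j, u j ^ 2) := by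
  refine Real.sqrt_le_sqrt (sum_le_sum fun j _ => ?_)
  rw [div_pow]
  exact div_le_self (sq_nonneg _) (one_le_pow₀ (hw j))

theorem wn_ev {k : ℕ} {w : E k} (hw : ∀ j, 1 ≤ w j) (j : Fin k) : wn w (ev j) ≤ 1 := by
  refine (wn_le hw).trans (le_of_eq ?_)
  rw [sum_eq_single j]
  · simp [ev]
  · intro i _ hi
    simp [ev, Pi.single_eq_of_ne hi]
  · simp

theorem ev_mem {k : ℕ} (i j : Fin k) : 0 ≤ ev i j ∧ ev i j ≤ 1 := by
  rw [ev, Pi.single_apply]
  split_ifs <;> simp

end Th0X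

theorem th0_pre (g : G) : IsPre g (fun k _ => th0 k : Fam G) := by
  refine ⟨fun k _ => Th0X.smooth k, fun k _ T s => ?_, fun k _ T v => ?_, fun k _ j T v => ?_⟩
  · refine sum_congr rfl fun j _ => ?_
    obtain ⟨i, c, h⟩ := Th0X.nx_aff j.succ
    simp only [h, Pi.add_apply]
    congr 1
    ring
  · rw [Th0X.th0_apply, Th0X.th0_apply, Fin.sum_univ_castSucc, Fin.sum_univ_succ, add_comm]
    congr 1
    · simp only [Fin.succ_last, Th0X.nx_last, rotA, rotL, Fin.snoc_last]
      ring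
    · refine sum_congr rfl fun i _ => ?_
      simp only [Fin.succ_castSucc, Th0X.nx_cast, rotA, rotL, Fin.snoc_castSucc]
  · rw [Th0X.th0_apply, Th0X.th0_apply, Fin.sum_univ_succAbove _ j]
    simp only [Th0X.nx_face, faceA, faceL, (Th0X.pred_succ j _).1, (Th0X.pred_succ j _).2,
      Fin.predAbove_succ_self, Fin.predAbove_castSucc_self, sub_self, zero_mul, zero_add,
      Th0X.nx_cast, Fin.snoc_castSucc]

theorem nn_th0 (k : ℕ) (T : E (k + 1)) : nn (th0 k) T = 1 := by
  rw [nn, Th0X.th0_apply]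
  simp only [mul_one, sum_sub_distrib]
  have h1 := Fin.sum_univ_succ (nx T)
  have h2 := Fin.sum_univ_castSucc (nx T)
  simp only [Th0X.nx_cast, Th0X.nx_last] at h2
  rw [← Fin.castSucc_zero, Th0X.nx_cast] at h1
  linarith

theorem th0_nuc {k : ℕ} {w : E (k + 1)} (hw : ∀ j, 1 ≤ w j) (T : E (k + 1)) :
    Nuc w (curv (th0 k) T) (k + 1) := by
  obtain ⟨σ, h⟩ := Th0X.curv_th0 k
  intro A c hA hc hb
  have h0 : ∀ j, A j j = 0 := fun j => by linarith [hA j j]
  have h1 : ∀ i j, |A i j| ≤ c := fun i j => by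
    have h2 := hb (ev i) (ev j)
    have e : ∑ a, ∑ b, ev i a * ev j b * A a b = A i j := by
      simp [ev, Pi.single_apply]
    rw [e, mul_assoc] at h2
    exact h2.trans (mul_le_of_le_one_right hc
      (mul_le_one₀ (Th0X.wn_ev hw i) (Real.sqrt_nonneg _) (Th0X.wn_ev hw j)))
  have e : ∑ i, ∑ j, curv (th0 k) T i j * A i j = ∑ j, A (σ j) j := by
    rw [sum_comm]
    refine sum_congr rfl fun j _ => ?_
    simp [h, ev, Pi.single_apply, sub_mul, h0]
  rw [e]
  refine (abs_sum_le_sum_abs _ _).trans ((sum_le_sum fun j _ => h1 _ j).trans (le_of_eq ?_))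
  simp [mul_comm]

theorem th0_wn {k : ℕ} {w : E (k + 1)} (hw : ∀ j, 1 ≤ w j) {T : E (k + 1)} (hT : Ord T) :
    wn w (co (th0 k T)) ≤ k + 1 := by
  refine (Th0X.wn_le hw).trans (Real.sqrt_le_iff.2 ⟨by positivity, ?_⟩)
  refine (sum_le_sum fun j _ => (sq_le_one_iff_abs_le_one _).2 (Th0X.co_le hT j)).trans ?_
  have : (0 : ℝ) ≤ k := Nat.cast_nonneg k
  simp only [sum_const, card_univ, Fintype.card_fin, nsmul_eq_mul, mul_one]
  push_cast
  nlinarith

theorem th0_entries {k : ℕ} {τ : E k} (h : τ ∈ simp k) :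
    (∀ i, |co (sl (th0 k) τ) i| ≤ 1) ∧
      ∀ i j, |curv (sl (th0 k)) τ i j - curv (sl (th0 k)) τ j i| ≤ 2 := by
  obtain ⟨σ, hσ⟩ := Th0X.curv_th0 k
  refine ⟨fun i => ?_, fun i j => ?_⟩
  · rw [co_sl]
    exact Th0X.co_le (ord_consL h) _
  · rw [curv_sl (Th0X.smooth k), Matrix.submatrix_apply, Matrix.submatrix_apply, hσ, hσ, abs_le]
    have h1 := Th0X.ev_mem i.succ (σ j.succ)
    have h2 := Th0X.ev_mem i.succ j.succ
    have h3 := Th0X.ev_mem j.succ (σ i.succ)
    have h4 := Th0X.ev_mem j.succ i.succ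
    constructor <;> linarith [h1.1, h1.2, h2.1, h2.2, h3.1, h3.2, h4.1, h4.2]

end

end Vale.Agent.P184L
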