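import Vale.Agent.P184L.Simp
import Vale.Agent.P184L.Pull
import Vale.Agent.P184L.Th0

/-! The characteristic number of the model connection: the curvature form is the constant
`∑ j, ι (ev (j + 1)) * ι (ev j)`, a sum of commuting square zero blocks. -/

namespace Vale.Agent.P184L

open Finset MeasureTheory ProbabilityTheory Classical Vale.Agent.P184
open scoped ContDiff

noncomputable section

universe u

variable {G : Type u} [Group G]

namespace ChrThX

theorem add_pow_sq_zero {A : Type*} [Ring A] {s L : A} (h : Commute s L) (hL : L * L = 0)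
    (j : ℕ) : (s + L) ^ (j + 1) = s ^ (j + 1) + (j + 1) • (s ^ j * L) := by
  induction j with
  | zero => simp
  | succ j ih =>
    rw [pow_succ, ih, add_mul, mul_add, mul_add, smul_mul_assoc, smul_mul_assoc,
      mul_assoc (s ^ j) L L, hL, mul_zero, smul_zero, add_zero, mul_assoc (s ^ j) L s, ← h.eq,
      ← mul_assoc, ← pow_succ, ← pow_succ, add_smul (j + 1) 1, one_smul]
    abel

theorem sum_pow {A : Type*} [Ring A] (L : ℕ → A) (hc : ∀ i j, Commute (L i) (L j))
    (h0 : ∀ i, L i * L i = 0) (m : ℕ) :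
    (∑ i ∈ range m, L i) ^ m = m.factorial • ((List.range m).map L).prod ∧
      (∑ i ∈ range m, L i) ^ (m + 1) = 0 := by
  induction m with
  | zero => simp
  | succ m ih =>
    have hcm : Commute (∑ i ∈ range m, L i) (L m) := Commute.sum_left _ _ _ fun i _ => hc i m
    rw [sum_range_succ]
    constructor
    · rw [add_pow_sq_zero hcm (h0 m), ih.2, ih.1, zero_add, List.range_succ, List.map_append,
        List.prod_append, Nat.factorial_succ, smul_mul_assoc, smul_smul]
      simp
    · rw [add_pow_sq_zero hcm (h0 m), pow_succ _ (m + 1), ih.2]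
      simp

variable {k : ℕ}

theorem anti (a b : E k) :
    (ExteriorAlgebra.ι ℝ a * ExteriorAlgebra.ι ℝ b : Ext k) =
      -(ExteriorAlgebra.ι ℝ b * ExteriorAlgebra.ι ℝ a) :=
  eq_neg_of_add_eq_zero_left (ExteriorAlgebra.ι_add_mul_swap a b)

theorem comm1 (a b c : E k) :
    Commute (ExteriorAlgebra.ι ℝ a * ExteriorAlgebra.ι ℝ b : Ext k) (ExteriorAlgebra.ι ℝ c) := by
  show _ = _
  rw [mul_assoc, anti b c, mul_neg, ← mul_assoc, anti a c, neg_mul, neg_neg, mul_assoc]

theorem sq0 (a b : E k) :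
    (ExteriorAlgebra.ι ℝ a * ExteriorAlgebra.ι ℝ b : Ext k) *
      (ExteriorAlgebra.ι ℝ a * ExteriorAlgebra.ι ℝ b) = 0 := by
  rw [← mul_assoc, (comm1 a b a).eq, ← mul_assoc, ExteriorAlgebra.ι_sq_zero]
  simp

/-- Ordered product of the first `m` vectors. -/
def R (v : ℕ → E k) (m : ℕ) : Ext k := ((List.range m).map fun j => ExteriorAlgebra.ι ℝ (v j)).prod

theorem R_succ (v : ℕ → E k) (m : ℕ) : R v (m + 1) = R v m * ExteriorAlgebra.ι ℝ (v m) := by
  simp [R, List.range_succ]

/-- The commuting blocks. -/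
def B (v : ℕ → E k) (i : ℕ) : Ext k :=
  ExteriorAlgebra.ι ℝ (v (2 * i + 1)) * ExteriorAlgebra.ι ℝ (v (2 * i) - v (2 * i + 2))

theorem prod_B (v : ℕ → E k) (m : ℕ) :
    ((List.range m).map (B v)).prod * ExteriorAlgebra.ι ℝ (v (2 * m)) =
      (-1 : ℝ) ^ m • R v (2 * m + 1) := by
  induction m with
  | zero => simp [R]
  | succ m ih =>
    have e1 : B v m * ExteriorAlgebra.ι ℝ (v (2 * m + 2)) =
        -(ExteriorAlgebra.ι ℝ (v (2 * m)) * ExteriorAlgebra.ι ℝ (v (2 * m + 1)) *
          ExteriorAlgebra.ι ℝ (v (2 * m + 2))) := by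
      rw [B, map_sub, mul_assoc, sub_mul, ExteriorAlgebra.ι_sq_zero, sub_zero, ← mul_assoc,
        anti (v (2 * m + 1)) (v (2 * m)), neg_mul]
    rw [List.range_succ, List.map_append, List.prod_append, List.map_singleton,
      List.prod_singleton, show 2 * (m + 1) = 2 * m + 2 by ring, mul_assoc, e1, mul_neg,
      ← mul_assoc, ← mul_assoc, ih, R_succ v (2 * m + 2), R_succ v (2 * m + 1), pow_succ,
      smul_mul_assoc, smul_mul_assoc, mul_neg_one, neg_smul]

theorem prod_B' (v : ℕ → E k) (n : ℕ) (hv : v (2 * n + 2) = 0) :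
    ((List.range (n + 1)).map (B v)).prod = (-1 : ℝ) ^ (n + 1) • R v (2 * n + 2) := by
  rw [List.range_succ, List.map_append, List.prod_append, List.map_singleton,
    List.prod_singleton, B, hv, sub_zero, anti (v (2 * n + 1)) (v (2 * n)), mul_neg, ← mul_assoc,
    prod_B, R_succ v (2 * n + 1), pow_succ, smul_mul_assoc, mul_neg_one, neg_smul]

theorem sum_B (v : ℕ → E k) (m : ℕ) :
    ∑ j ∈ range (2 * m), (ExteriorAlgebra.ι ℝ (v (j + 1)) * ExteriorAlgebra.ι ℝ (v j) : Ext k) =
      ∑ i ∈ range m, B v i := by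
  induction m with
  | zero => simp
  | succ m ih =>
    rw [show 2 * (m + 1) = 2 * m + 1 + 1 by ring, sum_range_succ, sum_range_succ, ih,
      sum_range_succ, B, map_sub, mul_sub, anti (v (2 * m + 1 + 1)) (v (2 * m + 1))]
    abel

/-- Basis vectors indexed by natural numbers. -/
def bv (k : ℕ) (j : ℕ) : E k := if h : j < k then ev ⟨j, h⟩ else 0

theorem vol_R (k : ℕ) : vol k (R (bv k) k) = 1 := by
  have h : R (bv k) k = ExteriorAlgebra.ιMulti ℝ k (fun i : Fin k => ev i) := by
    rw [ExteriorAlgebra.ιMulti_apply, R]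
    congr 1
    refine List.ext_getElem (by simp) fun i h1 h2 => ?_
    have hi : i < k := by simpa using h1
    simp [bv, hi]
  rw [h, vol, ExteriorAlgebra.liftAlternating_apply_ιMulti, Function.update_self]
  have : (fun i : Fin k => ev i) = Pi.basisFun ℝ (Fin k) := by
    funext i
    simp [ev]
  rw [this, Module.Basis.det_self]

theorem sl_th0 (τ : E k) (j : Fin k) :
    sl (th0 k) τ (ev j) = (if h : j + 1 < k then τ ⟨j + 1, h⟩ else 1) - τ j := by
  have h1 : ∀ i : Fin (k + 1), consL k (ev j) i = if i = j.succ then 1 else 0 := by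
    intro i
    refine Fin.cases ?_ (fun i => ?_) i
    · simp [consL, (Fin.succ_ne_zero j).symm]
    · simp [consL, ev, Pi.single_apply]
  simp only [sl, th0, ContinuousLinearMap.comp_apply, _root_.sum_apply,
    smul_apply, ContinuousLinearMap.proj_apply, h1, smul_eq_mul, mul_ite,
    mul_one, mul_zero, sum_ite_eq', mem_univ, if_true]
  congr 1
  · split_ifs with h
    · have : j.succ.succ = (Fin.succ ⟨j + 1, h⟩).castSucc := by ext; simp
      rw [this, nx, Fin.snoc_castSucc]
      simp [consL]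
    · have : j.succ.succ = Fin.last (k + 1) := by
        ext
        have := j.2
        simp
        omega
      rw [this, nx, Fin.snoc_last]
      simp [consL]

theorem curv_th0 (τ : E k) (i j : Fin k) :
    curv (sl (th0 k)) τ i j = bv k (j + 1) i - ev j i := by
  simp only [curv, sl_th0]
  by_cases h : j + 1 < k
  · simp only [h, dif_pos, bv]
    have : HasFDerivAt (fun S : E k => S ⟨j + 1, h⟩ - S j)
        ((ContinuousLinearMap.proj (R := ℝ) (φ := fun _ : Fin k => ℝ) ⟨j + 1, h⟩) -
          ContinuousLinearMap.proj (R := ℝ) (φ := fun _ : Fin k => ℝ) j) τ :=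
      (hasFDerivAt_apply _ τ).sub (hasFDerivAt_apply j τ)
    rw [this.fderiv]
    simp [ev, Pi.single_apply, eq_comm]
  · simp only [h, dif_neg, not_false_eq_true, bv]
    have : HasFDerivAt (fun S : E k => 1 - S j)
        (-ContinuousLinearMap.proj (R := ℝ) (φ := fun _ : Fin k => ℝ) j) τ :=
      (hasFDerivAt_apply j τ).const_sub 1
    rw [this.fderiv]
    simp [ev, Pi.single_apply, eq_comm]

theorem sum_ev (u : E k) : ∑ i, u i • ExteriorAlgebra.ι ℝ (ev i) = (ExteriorAlgebra.ι ℝ u : Ext k) := by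
  simp only [← map_smul, ← map_sum]
  congr 1
  funext l
  simp [ev, Pi.single_apply]

theorem two_th0 (τ : E k) :
    two (curv (sl (th0 k)) τ) =
      ∑ j ∈ range k, ExteriorAlgebra.ι ℝ (bv k (j + 1)) * ExteriorAlgebra.ι ℝ (bv k j) := by
  rw [two, sum_comm, ← Fin.sum_univ_eq_sum_range
    (fun j => (ExteriorAlgebra.ι ℝ (bv k (j + 1)) * ExteriorAlgebra.ι ℝ (bv k j) : Ext k))]
  refine sum_congr rfl fun j _ => ?_
  have hj : bv k j = ev j := by simp [bv]
  simp only [curv_th0, ← smul_mul_assoc, ← sum_mul, sub_smul, sum_sub_distrib, sum_ev]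
  rw [sub_mul, ExteriorAlgebra.ι_sq_zero, sub_zero, hj]

theorem vol_pow (n : ℕ) (τ : E (2 * n + 1 + 1)) :
    vol _ (two (curv (sl (th0 (2 * n + 1 + 1))) τ) ^ (n + 1)) =
      (n + 1).factorial * (-1 : ℝ) ^ (n + 1) := by
  have h1 := sum_B (bv (2 * n + 1 + 1)) (n + 1)
  rw [show 2 * (n + 1) = 2 * n + 1 + 1 by ring] at h1
  rw [two_th0, h1, (sum_pow (B (bv (2 * n + 1 + 1)))
    (fun i j => (comm1 _ _ _).mul_right (comm1 _ _ _)) (fun i => sq0 _ _) (n + 1)).1,
    prod_B' _ n (by simp [bv]), map_nsmul, map_smul, vol_R]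
  simp

end ChrThX

theorem chr_th0 (n : ℕ) :
    |chr (n + 1) (th0 (2 * n + 1 + 1))| = (n + 1).factorial / (2 * n + 1 + 1).factorial := by
  simp only [chr, ChrThX.vol_pow]
  rw [setIntegral_const, volume_simp, smul_eq_mul, abs_mul, abs_mul, abs_pow, abs_neg, abs_one,
    one_pow, abs_of_nonneg (by positivity), Nat.abs_cast]
  ring

end

end Vale.Agent.P184L
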