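import Vale.Agent.P184L.ExtD

/-! Bound for the Pfaffian. Hint: (1) weighted Hadamard inequality `|vol (ι u₁ * ... * ι u_k)| ≤ (∏ w j) * ∏ wn w (u i)` (rescale coordinates; for `w = 1` use `gramSchmidt`/`Orientation.abs_volumeForm_apply_le` on `EuclideanSpace`), for lists of vectors of any length (the top coefficient vanishes if the length is not `k`). (2) For `Nuc w S lam`: by induction on `j`, `|vol (two S ^ j * (us.map ι).prod)| ≤ lam ^ j * (∏ w) * (us.map (wn w)).prod`, applying `Nuc` to `A i j = vol (ι (ev i) * ι (ev j) * Y)`. (3) Induction on the list of rank one terms: `two (vecMulVec u v) = ι u * ι v =: L` is central with `L * L = 0`, `(s + L) ^ j = s ^ j + j • s ^ (j - 1) * L`; claim `≤ j! * z⁻¹ ^ j * exp (z lam) * ∏ (1 + z l) * ...` with base case `(z lam) ^ j ≤ j! * exp (z lam)` (`Real.pow_div_factorial_le_exp`). -/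

namespace Vale.Agent.P184L

open Finset MeasureTheory ProbabilityTheory Classical Vale.Agent.P184
open scoped ContDiff

noncomputable section

universe u

variable {G : Type u} [Group G]

namespace PfX

open ExteriorAlgebra

variable {k : ℕ} {w : E k}

theorem had (u : Fin k → E k) :
    |Matrix.det (Matrix.of fun i j => u j i)| ≤ ∏ j, √(∑ i, u j i ^ 2) := by
  have : Fact (Module.finrank ℝ (EuclideanSpace ℝ (Fin k)) = k) := ⟨by simp⟩
  have h := (EuclideanSpace.basisFun (Fin k) ℝ).toBasis.orientation.abs_volumeForm_apply_le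
    fun j => WithLp.toLp 2 (u j)
  rw [Orientation.volumeForm_robust' _ (EuclideanSpace.basisFun (Fin k) ℝ),
    Module.Basis.det_apply] at h
  simp only [EuclideanSpace.norm_eq, Real.norm_eq_abs, sq_abs] at h
  exact h

theorem wn_nonneg (w u : E k) : 0 ≤ wn w u := Real.sqrt_nonneg _

theorem N_nonneg (w : E k) (us : List (E k)) : 0 ≤ (us.map (wn w)).prod :=
  List.prod_nonneg fun x hx => by
    obtain ⟨u, -, rfl⟩ := List.mem_map.1 hx
    exact wn_nonneg w u

theorem hadF (hw : ∀ j, 0 < w j) {n : ℕ} (v : Fin n → E k) :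
    |vol k (ιMulti ℝ n v)| ≤ (∏ j, w j) * ∏ i, wn w (v i) := by
  have hW : 0 ≤ ∏ j, w j := prod_nonneg fun j _ => (hw j).le
  rw [vol, liftAlternating_apply_ιMulti]
  by_cases h : n = k
  · subst h
    rw [Function.update_self, Module.Basis.det_apply]
    have e : (Pi.basisFun ℝ (Fin n)).toMatrix v = Matrix.of fun i j =>
        w i * (Matrix.of fun i j => v j i / w i) i j := by
      ext i j
      rw [Module.Basis.toMatrix_apply, Pi.basisFun_repr, Matrix.of_apply, Matrix.of_apply,
        mul_div_cancel₀ _ (hw i).ne']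
    rw [e, Matrix.det_mul_column, abs_mul, abs_of_nonneg hW]
    exact mul_le_mul_of_nonneg_left (had fun j i => v j i / w i) hW
  · rw [Function.update_of_ne h, AlternatingMap.zero_apply, abs_zero]
    exact mul_nonneg hW (prod_nonneg fun i _ => wn_nonneg _ _)

theorem hadL (hw : ∀ j, 0 < w j) (us : List (E k)) :
    |vol k (us.map (ι ℝ)).prod| ≤ (∏ j, w j) * (us.map (wn w)).prod := by
  have h := hadF hw us.get
  rw [ιMulti_apply, ← List.prod_ofFn (f := fun i => wn w (us.get i))] at h
  have e1 : (List.ofFn fun i => ι ℝ (us.get i)) = us.map (ι ℝ) := by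
    rw [← List.ofFn_get us, List.map_ofFn, List.ofFn_get]
    simp only [Function.comp_def]
  have e2 : (List.ofFn fun i => wn w (us.get i)) = us.map (wn w) := by
    rw [← List.ofFn_get us, List.map_ofFn, List.ofFn_get]
    simp only [Function.comp_def]
  rwa [e1, e2] at h

theorem iota_eq (u : E k) : ι ℝ u = ∑ i, u i • ι ℝ (ev i) := by
  conv_lhs => rw [pi_eq_sum_univ' u, map_sum]
  simp only [map_smul, ev]

theorem two_rank (u v : E k) : two (Matrix.vecMulVec u v) = ι ℝ u * ι ℝ v := by
  rw [iota_eq u, iota_eq v, sum_mul_sum, two]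
  simp only [Matrix.vecMulVec_apply, smul_mul_smul_comm]

theorem two_add (M N : Matrix (Fin k) (Fin k) ℝ) : two (M + N) = two M + two N := by
  simp only [two, Matrix.add_apply, add_smul, sum_add_distrib]

theorem vol_two (M : Matrix (Fin k) (Fin k) ℝ) (Y : Ext k) :
    vol k (two M * Y) = ∑ i, ∑ j, M i j * vol k (ι ℝ (ev i) * ι ℝ (ev j) * Y) := by
  simp only [two, sum_mul, map_sum, smul_mul_assoc, map_smul, smul_eq_mul]

theorem nuc (hw : ∀ j, 0 < w j) {S : Matrix (Fin k) (Fin k) ℝ} {lam : ℝ} (h : Nuc w S lam)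
    (hl : 0 ≤ lam) (j : ℕ) (us : List (E k)) :
    |vol k (two S ^ j * (us.map (ι ℝ)).prod)| ≤ lam ^ j * (∏ j, w j) * (us.map (wn w)).prod := by
  have hW : 0 ≤ ∏ j, w j := prod_nonneg fun j _ => (hw j).le
  induction j generalizing us with
  | zero => simpa only [pow_zero, one_mul] using hadL hw us
  | succ j ih =>
    rw [pow_succ', mul_assoc, vol_two]
    refine (h _ (lam ^ j * (∏ j, w j) * (us.map (wn w)).prod) (fun a b => ?_)
      (mul_nonneg (mul_nonneg (pow_nonneg hl _) hW) (N_nonneg _ _)) fun u v => ?_).trans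
      (le_of_eq (by ring))
    · rw [← map_neg, ← neg_mul, eq_neg_of_add_eq_zero_left (ι_add_mul_swap (ev b) (ev a))]
    · have e := vol_two (Matrix.vecMulVec u v) (two S ^ j * (us.map (ι ℝ)).prod)
      simp only [Matrix.vecMulVec_apply] at e
      have a := ih (u :: v :: us)
      simp only [List.map_cons, List.prod_cons] at a
      rw [← e, two_rank, ← mul_assoc, ← ((two_comm S (ι ℝ u * ι ℝ v)).pow_left j).eq, mul_assoc,
        mul_assoc]
      exact a.trans (le_of_eq (by ring))

theorem pow_add_nil {s L : Ext k} (hc : Commute s L) (h0 : L * L = 0) (i : ℕ) :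
    (s + L) ^ (i + 1) = s ^ (i + 1) + ((i : ℝ) + 1) • (s ^ i * L) := by
  induction i with
  | zero => simp
  | succ i ih =>
    rw [pow_succ, ih, add_mul, mul_add, mul_add, smul_mul_assoc, smul_mul_assoc, mul_assoc,
      mul_assoc, h0, mul_zero, smul_zero, add_zero, ← hc.eq, ← mul_assoc, ← pow_succ, ← pow_succ,
      Nat.cast_succ, add_smul ((i : ℝ) + 1) 1, one_smul]
    abel

theorem step {M : Matrix (Fin k) (Fin k) ℝ} {C z l : ℝ} (hC : 0 ≤ C) (hz : 0 < z) {u v : E k}
    (hl : wn w u * wn w v ≤ l)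
    (h : ∀ (j : ℕ) (us : List (E k)), |vol k (two M ^ j * (us.map (ι ℝ)).prod)| ≤
      j.factorial * z⁻¹ ^ j * C * (us.map (wn w)).prod) (j : ℕ) (us : List (E k)) :
    |vol k (two (Matrix.vecMulVec u v + M) ^ j * (us.map (ι ℝ)).prod)| ≤
      j.factorial * z⁻¹ ^ j * ((1 + z * l) * C) * (us.map (wn w)).prod := by
  have h0 : 0 ≤ l := (mul_nonneg (wn_nonneg _ _) (wn_nonneg _ _)).trans hl
  have hN := N_nonneg w us
  cases j with
  | zero =>
    have a := h 0 us
    rw [pow_zero] at a ⊢
    refine a.trans ?_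
    gcongr
    nlinarith [mul_nonneg (mul_nonneg hz.le h0) hC]
  | succ i =>
    have e0 : ι ℝ u * ι ℝ v * (ι ℝ u * ι ℝ v) = 0 := by
      rw [← mul_assoc, mul_assoc (ι ℝ u), eq_neg_of_add_eq_zero_left (ι_add_mul_swap v u),
        mul_neg, ← mul_assoc, ι_sq_zero, zero_mul, neg_zero, zero_mul]
    rw [add_comm _ M, two_add, two_rank, pow_add_nil (two_comm M _) e0, add_mul, smul_mul_assoc,
      map_add, map_smul, smul_eq_mul, mul_assoc, mul_assoc]
    have a := h (i + 1) us
    have b := h i (u :: v :: us)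
    simp only [List.map_cons, List.prod_cons] at b
    have b' : (i.factorial : ℝ) * z⁻¹ ^ i * C * (wn w u * (wn w v * (us.map (wn w)).prod)) ≤
        i.factorial * z⁻¹ ^ i * C * (l * (us.map (wn w)).prod) := by
      rw [← mul_assoc (wn w u)]
      gcongr
    refine (abs_add_le _ _).trans ?_
    rw [abs_mul, abs_of_nonneg (by positivity : (0 : ℝ) ≤ i + 1)]
    refine (add_le_add a (mul_le_mul_of_nonneg_left (b.trans b') (by positivity))).trans
      (le_of_eq ?_)
    rw [Nat.factorial_succ, pow_succ]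
    push_cast
    generalize z⁻¹ ^ i = y
    field_simp

end PfX

theorem pf_bound {k : ℕ} (n : ℕ) {w : E k} (hw : ∀ j, 0 < w j) {M : Matrix (Fin k) (Fin k) ℝ}
    {lam : ℝ} {ls : List ℝ} (h : Split w M lam ls) (hl : 0 ≤ lam) {z : ℝ} (hz : 0 < z) :
    |vol k (two M ^ n)| ≤ n.factorial * (∏ j, w j) * z⁻¹ ^ n * Real.exp (z * lam) *
      (ls.map fun l => 1 + z * l).prod := by
  obtain ⟨S, ps, hS, rfl, hf⟩ := h
  have hW : 0 ≤ ∏ j, w j := prod_nonneg fun j _ => (hw j).le
  have key : 0 ≤ (ls.map fun l => 1 + z * l).prod ∧ ∀ (j : ℕ) (us : List (E k)),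
      |vol k (two (S + (ps.map fun p => Matrix.vecMulVec p.1 p.2).sum) ^ j *
        (us.map (ExteriorAlgebra.ι ℝ)).prod)| ≤ j.factorial * z⁻¹ ^ j *
          ((ls.map fun l => 1 + z * l).prod * ((∏ j, w j) * Real.exp (z * lam))) *
            (us.map (wn w)).prod := by
    induction hf with
    | nil =>
      refine ⟨by simp, fun j us => ?_⟩
      simp only [List.map_nil, List.sum_nil, List.prod_nil, add_zero, one_mul]
      refine (PfX.nuc hw hS hl j us).trans (mul_le_mul_of_nonneg_right ?_ (PfX.N_nonneg _ _))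
      have a := Real.pow_div_factorial_le_exp (z * lam) (mul_nonneg hz.le hl) j
      rw [div_le_iff₀ (by positivity)] at a
      have b := mul_le_mul_of_nonneg_left a (show 0 ≤ z⁻¹ ^ j * ∏ j, w j by positivity)
      refine le_trans (le_of_eq ?_) (b.trans (le_of_eq (by ring)))
      rw [mul_pow, inv_pow]
      field_simp
    | @cons p l ps ls hp _ ih =>
      have h0 : 0 ≤ l := (mul_nonneg (PfX.wn_nonneg _ _) (PfX.wn_nonneg _ _)).trans hp
      simp only [List.map_cons, List.sum_cons, List.prod_cons]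
      have := ih.1
      refine ⟨by positivity, fun j us => ?_⟩
      rw [add_left_comm, mul_assoc (1 + z * l)]
      exact PfX.step (by positivity) hz hp ih.2 j us
  have := key.2 n []
  simp only [List.map_nil, List.prod_nil, mul_one] at this
  exact this.trans (le_of_eq (by ring))

end

end Vale.Agent.P184L
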