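import Vale.Agent.P184L.EstAlg
import Vale.Agent.P184L.Pf

/-! Consequences of the size predicate. Hint: in `Split` all `l ≥ 0`, so `z * ls.sum ≤ ∏ (1 + z l) ≤ exp P`. For `Est.pf` restrict to the slice (`curv_sl`; extend a test matrix by zero; `wn (Fin.tail w) (Fin.tail u) ≤ wn w u`) and use `pf_bound`. For `Est.row`: `∑ i j, M i j * (u i - u j)` is the pairing of `M` with the antisymmetric matrix `u i - u j`; take `u i = v i / w i ^ 2` with `v i = ∑ j, (M i j - M j i)`. -/

namespace Vale.Agent.P184L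

open Finset MeasureTheory ProbabilityTheory Classical Vale.Agent.P184
open scoped ContDiff

noncomputable section

universe u

variable {G : Type u} [Group G]

namespace EstPfX

theorem nonneg {k : ℕ} {w : E k} {us : List (E k × E k)} {ls : List ℝ}
    (h : List.Forall₂ (fun p l => wn w p.1 * wn w p.2 ≤ l) us ls) : ∀ l ∈ ls, 0 ≤ l := by
  induction h with
  | nil => simp
  | cons h _ ih =>
    intro l hl
    rcases List.mem_cons.1 hl with rfl | hl
    exacts [(mul_nonneg (wn_nonneg _ _) (wn_nonneg _ _)).trans h, ih l hl]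

theorem prod_eq {z : ℝ} (hz : 0 < z) {ls : List ℝ} (h : ∀ l ∈ ls, 0 ≤ l) :
    (ls.map fun l => 1 + z * l).prod = Real.exp (ls.map fun l => Real.log (1 + z * l)).sum ∧
      0 ≤ ls.sum ∧ 1 + z * ls.sum ≤ (ls.map fun l => 1 + z * l).prod := by
  induction ls with
  | nil => simp
  | cons a ls ih =>
    obtain ⟨h1, h2, h3⟩ := ih fun l hl => h l (List.mem_cons_of_mem _ hl)
    have ha := h a List.mem_cons_self
    have hp : 0 < 1 + z * a := by positivity
    simp only [List.map_cons, List.prod_cons, List.sum_cons]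
    refine ⟨by rw [Real.exp_add, Real.exp_log hp, h1], by positivity, ?_⟩
    refine le_trans ?_ (mul_le_mul_of_nonneg_left h3 hp.le)
    have : 0 ≤ z * a * (z * ls.sum) := by positivity
    linarith

theorem nuc_list {k : ℕ} {w : E k} {us : List (E k × E k)} {ls : List ℝ}
    (h : List.Forall₂ (fun p l => wn w p.1 * wn w p.2 ≤ l) us ls) :
    Nuc w (us.map fun p => Matrix.vecMulVec p.1 p.2).sum ls.sum := by
  induction h with
  | nil => exact Nuc.of_symm w fun _ _ => rfl
  | cons h _ ih =>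
    refine Nuc.add (fun A c _ hc hA => (hA _ _).trans ?_) ih
    rw [mul_assoc]
    exact mul_le_mul_of_nonneg_left h hc

theorem main {k : ℕ} {w : E k} {z : ℝ} (hz : 1 ≤ z) {a : Form k} {T : E k} {l P : ℝ}
    (h : Est w z a T l P) :
    wn w (co (a T)) ≤ l + Real.exp P ∧ Nuc w (curv a T) (l + Real.exp P) := by
  obtain ⟨-, ls, ⟨S, us, hS, hM, hl⟩, h2, h3⟩ := h
  obtain ⟨e1, e2, e3⟩ := prod_eq (zero_lt_one.trans_le hz) (nonneg hl)
  have e4 := Real.exp_le_exp.2 h3
  have e5 : ls.sum ≤ Real.exp P := by nlinarith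
  exact ⟨by linarith, hM ▸ (hS.add (nuc_list hl)).mono (by linarith)⟩

theorem abs_le_wn {k : ℕ} {w : E k} {W : ℝ} (hw : ∀ j, 1 ≤ w j ∧ w j ≤ W) (u : E k) (j : Fin k) :
    |u j| ≤ W * wn w u := by
  have h0 : 0 < w j := zero_lt_one.trans_le (hw j).1
  have h1 : |u j / w j| ≤ wn w u :=
    Real.abs_le_sqrt (single_le_sum (f := fun j => (u j / w j) ^ 2) (fun _ _ => sq_nonneg _)
      (mem_univ j))
  rw [abs_div, abs_of_pos h0, div_le_iff₀' h0] at h1
  exact h1.trans (mul_le_mul_of_nonneg_right (hw j).2 (wn_nonneg _ _))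

theorem wn_tail {k : ℕ} (w u : E (k + 1)) : wn (Fin.tail w) (Fin.tail u) ≤ wn w u :=
  Real.sqrt_le_sqrt (by
    rw [Fin.sum_univ_succ]; exact le_add_of_nonneg_left (sq_nonneg _))

theorem split_tail {k : ℕ} {w : E (k + 1)} {M : Matrix (Fin (k + 1)) (Fin (k + 1)) ℝ} {lam : ℝ}
    {ls : List ℝ} (h : Split w M lam ls) :
    Split (Fin.tail w) (M.submatrix Fin.succ Fin.succ) lam ls := by
  obtain ⟨S, us, hS, hM, hl⟩ := h
  refine ⟨S.submatrix Fin.succ Fin.succ, us.map fun p => (Fin.tail p.1, Fin.tail p.2),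
    fun A c hA hc hb => ?_, ?_, ?_⟩
  · have := hS (fun i j => Fin.cases 0 (fun i => Fin.cases 0 (fun j => A i j) j) i) c
      (fun i j => by
        refine Fin.cases ?_ (fun i => ?_) i <;> refine Fin.cases ?_ (fun j => ?_) j
        exacts [by simp, by simp, by simp, hA i j]) hc fun u v => by
        have := hb (Fin.tail u) (Fin.tail v)
        simp only [Fin.sum_univ_succ, Fin.cases_zero, Fin.cases_succ, mul_zero, zero_add,
          sum_const_zero]
        refine this.trans ?_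
        rw [mul_assoc, mul_assoc]
        exact mul_le_mul_of_nonneg_left (mul_le_mul (wn_tail _ _) (wn_tail _ _) (wn_nonneg _ _)
          (wn_nonneg _ _)) hc
    simpa [Fin.sum_univ_succ] using this
  · rw [hM, Matrix.submatrix_add]
    simp only [Pi.add_apply]
    congr 1
    clear hM hl
    induction us with
    | nil => simp
    | cons p us ih =>
      simp only [List.map_cons, List.sum_cons, ← ih]
      rfl
  · rw [List.forall₂_map_left_iff]
    exact hl.imp fun p l h => (mul_le_mul (wn_tail _ _) (wn_tail _ _) (wn_nonneg _ _)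
      (wn_nonneg _ _)).trans h

end EstPfX
open EstPfX

theorem Est.pf {k : ℕ} (n : ℕ) {w : E (k + 1)} (hw : ∀ j, 1 ≤ w j) {z : ℝ} (hz : 0 < z)
    {a : Form (k + 1)} (ha : ContDiff ℝ ∞ a) {τ : E k} {l P : ℝ}
    (h : Est w z a (consL k τ) l P) :
    |vol k (two (curv (sl a) τ) ^ n)| ≤
      n.factorial * (∏ j, w j) * z⁻¹ ^ n * Real.exp (z * l + P) := by
  obtain ⟨hl, ls, hs, -, h3⟩ := h
  rw [curv_sl ha]
  refine (pf_bound n (fun j => zero_lt_one.trans_le (hw _)) (split_tail hs) hl hz).trans ?_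
  obtain ⟨S, us, -, -, hf⟩ := hs
  rw [(prod_eq hz (nonneg hf)).1, mul_assoc, ← Real.exp_add]
  have h0 : 0 ≤ ∏ j, Fin.tail w j := prod_nonneg fun j _ => zero_le_one.trans (hw _)
  have h1 : ∏ j, Fin.tail w j ≤ ∏ j, w j := by
    rw [Fin.prod_univ_succ]
    exact le_mul_of_one_le_left h0 (hw 0)
  have h2 := h0.trans h1
  gcongr
  exact h1

theorem Est.entries {k : ℕ} {w : E k} {W : ℝ} (hw : ∀ j, 1 ≤ w j ∧ w j ≤ W) {z : ℝ} (hz : 1 ≤ z)
    {a : Form k} {T : E k} {l P : ℝ} (h : Est w z a T l P) :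
    (∀ j, |co (a T) j| ≤ W * (l + Real.exp P)) ∧
      ∀ i j, |curv a T i j - curv a T j i| ≤ 2 * W ^ 2 * (l + Real.exp P) := by
  obtain ⟨h1, h2⟩ := main hz h
  refine ⟨fun j => (abs_le_wn hw _ j).trans
    (mul_le_mul_of_nonneg_left h1 (by linarith [hw j])), fun i j => ?_⟩
  have e : ∀ M : Matrix (Fin k) (Fin k) ℝ, ∑ a, ∑ b, M a b *
      ((if i = a ∧ j = b then 1 else 0) - if j = a ∧ i = b then 1 else 0 : ℝ) = M i j - M j i :=
    fun M => by simp [mul_sub, sum_sub_distrib, ite_and]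
  have W0 : 0 ≤ W := by linarith [hw j]
  rw [← e]
  refine h2 (fun a b => (if i = a ∧ j = b then 1 else 0) - if j = a ∧ i = b then 1 else 0) _
    (fun a b => by simp only [and_comm, neg_sub]) (by positivity) fun u v => ?_
  rw [e fun a b => u a * v b]
  have k1 : ∀ a b, |u a * v b| ≤ W * wn w u * (W * wn w v) := fun a b => by
    rw [abs_mul]
    exact mul_le_mul (abs_le_wn hw u a) (abs_le_wn hw v b) (abs_nonneg _)
      (mul_nonneg W0 (wn_nonneg _ _))
  linarith [abs_sub (u i * v j) (u j * v i), k1 i j, k1 j i]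

theorem Est.row {k : ℕ} {w : E k} {W : ℝ} (hw : ∀ j, 1 ≤ w j ∧ w j ≤ W) {z : ℝ} (hz : 1 ≤ z)
    {a : Form k} {T : E k} {l P : ℝ} (h : Est w z a T l P) :
    wn w (co (a T)) ≤ l + Real.exp P ∧
      wn w (fun i => ∑ j, (curv a T i j - curv a T j i)) ≤ 2 * W * k * (l + Real.exp P) := by
  obtain ⟨h1, h2⟩ := main hz h
  refine ⟨h1, ?_⟩
  rcases Nat.eq_zero_or_pos k with rfl | hk
  · simp [wn]
  have W0 : 0 ≤ W := by linarith [hw ⟨0, hk⟩]
  have L0 := (wn_nonneg _ _).trans h1
  set v : E k := fun i => ∑ j, (curv a T i j - curv a T j i) with hv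
  have k1 : ∀ x : E k, |∑ i, x i * (v i / w i ^ 2)| ≤ wn w x * wn w v := fun x => by
    rw [wn, wn, ← Real.sqrt_mul (by positivity)]
    refine Real.abs_le_sqrt (le_trans (le_of_eq ?_) (sum_mul_sq_le_sq_mul_sq _ _ _))
    congr 1
    exact sum_congr rfl fun i _ => by ring
  have k2 : ∀ x : E k, |∑ i, x i| ≤ k * (W * wn w x) := fun x =>
    (abs_sum_le_sum_abs _ _).trans ((sum_le_sum fun i _ => abs_le_wn hw x i).trans (by simp))
  have v0 := wn_nonneg w v
  have k3 := h2 (fun i j => v i / w i ^ 2 - v j / w j ^ 2) (2 * W * k * wn w v)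
    (fun i j => by ring) (by positivity) fun x y => by
      have e : ∑ i, ∑ j, x i * y j * (v i / w i ^ 2 - v j / w j ^ 2) =
          (∑ i, x i * (v i / w i ^ 2)) * ∑ j, y j - (∑ i, x i) * ∑ j, y j * (v j / w j ^ 2) := by
        rw [sum_mul_sum, sum_mul_sum, ← sum_sub_distrib]
        refine sum_congr rfl fun i _ => ?_
        rw [← sum_sub_distrib]
        exact sum_congr rfl fun j _ => by ring
      rw [e]
      refine (abs_sub _ _).trans ?_
      rw [abs_mul, abs_mul]
      have a1 := mul_le_mul (k1 x) (k2 y) (abs_nonneg _) (mul_nonneg (wn_nonneg _ _) v0)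
      have a2 := mul_le_mul (k2 x) (k1 y) (abs_nonneg _) ((abs_nonneg _).trans (k2 x))
      linarith
  have e : ∑ i, ∑ j, curv a T i j * (v i / w i ^ 2 - v j / w j ^ 2) = wn w v ^ 2 := by
    rw [wn, Real.sq_sqrt (by positivity)]
    simp only [mul_sub, sum_sub_distrib]
    rw [sum_comm (f := fun i j => curv a T i j * (v j / w j ^ 2)), ← sum_sub_distrib]
    refine sum_congr rfl fun i _ => ?_
    rw [← sum_mul, ← sum_mul, ← sub_mul, ← sum_sub_distrib]
    change v i * _ = _
    ring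
  rw [e, abs_of_nonneg (sq_nonneg _)] at k3
  rcases v0.eq_or_lt with h0 | h0
  · rw [← h0]; positivity
  · exact le_of_mul_le_mul_left (by linarith) h0

end

end Vale.Agent.P184L
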