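import Vale.Agent.P184L.Conn
import Vale.Agent.P184L.EstPf

/-! Size of the connection. Hint: `curv (conn R a k x) T = ψ • curv a + vecMulVec dψ (co a) + (χ • curv th0 + vecMulVec dχ (co th0))` with `ψ = nrm R N`, `χ = 1 - N ψ` (`curv_smul`), `dψ`, `dχ` multiples of `dN` (`nrm_bounds`, `co_fderiv_nn`, `Est.row`). New list: the old sizes multiplied by `ψ ≤ 1`, and twice `X = C W (k + 1) ^ 2 (l + exp P + 1) ^ 2`. Use `th0_nuc`, `th0_wn`, `Nuc.add`, `Nuc.smul`. In the good case `χ = 0`, `dχ = 0`. -/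

namespace Vale.Agent.P184L

open Finset MeasureTheory ProbabilityTheory Classical Vale.Agent.P184
open scoped ContDiff

noncomputable section

universe u

variable {G : Type u} [Group G]

namespace ConnBX

theorem curv_add {k : ℕ} {a b : Form k} (ha : ContDiff ℝ ∞ a) (hb : ContDiff ℝ ∞ b) (T : E k) :
    curv (fun S => a S + b S) T = curv a T + curv b T := by
  ext i j
  have h1 : DifferentiableAt ℝ (fun S => a S (ev j)) T :=
    ((ha.clm_apply contDiff_const).differentiable (by simp)) T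
  have h2 : DifferentiableAt ℝ (fun S => b S (ev j)) T :=
    ((hb.clm_apply contDiff_const).differentiable (by simp)) T
  show fderiv ℝ (fun S => a S (ev j) + b S (ev j)) T (ev i) = _
  rw [fderiv_fun_add h1 h2]
  rfl

theorem co_smul {k : ℕ} (c : ℝ) (φ : E k →L[ℝ] ℝ) : co (c • φ) = c • co φ := rfl

theorem co_add {k : ℕ} (φ φ' : E k →L[ℝ] ℝ) : co (φ + φ') = co φ + co φ' := rfl

theorem list_smul {k : ℕ} (c : ℝ) (us : List (E k × E k)) :
    ((us.map fun p => (c • p.1, p.2)).map fun p => Matrix.vecMulVec p.1 p.2).sum =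
      c • (us.map fun p => Matrix.vecMulVec p.1 p.2).sum := by
  induction us with
  | nil => simp
  | cons p us ih =>
    rw [List.map_cons, List.map_cons, List.map_cons, List.sum_cons, List.sum_cons, ih, smul_add,
      Matrix.smul_vecMulVec]

theorem list_est {k : ℕ} {w : E k} {c z z' : ℝ} (hc : 0 ≤ c) (hc1 : c ≤ 1) (hz : 0 ≤ z')
    (hzz : z' ≤ z) {us : List (E k × E k)} {ls : List ℝ}
    (h : List.Forall₂ (fun p l => wn w p.1 * wn w p.2 ≤ l) us ls) :
    List.Forall₂ (fun p l => wn w p.1 * wn w p.2 ≤ l) (us.map fun p => (c • p.1, p.2))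
        (ls.map fun l => c * l) ∧ (ls.map fun l => c * l).sum = c * ls.sum ∧
      ((ls.map fun l => c * l).map fun l => Real.log (1 + z' * l)).sum ≤
        (ls.map fun l => Real.log (1 + z * l)).sum := by
  induction h with
  | nil => simp
  | @cons p l us ls hp _ ih =>
    have h0 : 0 ≤ l := (mul_nonneg (wn_nonneg _ _) (wn_nonneg _ _)).trans hp
    refine ⟨?_, ?_, ?_⟩
    · rw [List.map_cons, List.map_cons]
      refine List.Forall₂.cons ?_ ih.1
      rw [wn_smul, abs_of_nonneg hc, mul_assoc]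
      exact mul_le_mul_of_nonneg_left hp hc
    · rw [List.map_cons, List.sum_cons, List.sum_cons, ih.2.1, mul_add]
    · rw [List.map_cons, List.map_cons, List.map_cons, List.sum_cons, List.sum_cons]
      refine add_le_add (Real.log_le_log (by positivity) ?_) ih.2.2
      have h1 : c * l ≤ l := by nlinarith
      have h2 : z' * (c * l) ≤ z' * l := mul_le_mul_of_nonneg_left h1 hz
      have h3 : z' * l ≤ z * l := mul_le_mul_of_nonneg_right hzz h0
      linarith

theorem key {k : ℕ} {a b : Form k} (ha : ContDiff ℝ ∞ a) (hb : ContDiff ℝ ∞ b) {f h : E k → ℝ}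
    (hf : ContDiff ℝ ∞ f) (hh : ContDiff ℝ ∞ h) {w T : E k} {z z' l P m X lam : ℝ}
    (hE : Est w z a T l P) (hf0 : 0 ≤ f T) (hf1 : f T ≤ 1) (hh0 : 0 ≤ h T)
    (hn : Nuc w (curv b T) m) (hbw : wn w (co (b T)) ≤ m)
    (hX1 : wn w (co (fderiv ℝ f T)) * wn w (co (a T)) ≤ X)
    (hX2 : wn w (co (fderiv ℝ h T)) * wn w (co (b T)) ≤ X)
    (hl : f T * l + h T * m ≤ lam) (hz : 0 ≤ z') (hzz : z' ≤ z) :
    Est w z' (fun S => f S • a S + h S • b S) T lam (P + 2 * Real.log (1 + z' * X)) := by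
  obtain ⟨hl0, ls, ⟨S, us, hS, hM, hF⟩, hw, hP⟩ := hE
  have hm0 : 0 ≤ m := (wn_nonneg _ _).trans hbw
  have hX0 : 0 ≤ X := (mul_nonneg (wn_nonneg _ _) (wn_nonneg _ _)).trans hX1
  obtain ⟨h1, h2, h3⟩ := list_est hf0 hf1 hz hzz hF
  refine ⟨le_trans (by positivity) hl, X :: X :: ls.map fun l => f T * l,
    ⟨f T • S + h T • curv b T, (co (fderiv ℝ f T), co (a T)) :: (co (fderiv ℝ h T), co (b T)) ::
      us.map fun p => (f T • p.1, p.2), ?_, ?_, .cons hX1 (.cons hX2 h1)⟩, ?_, ?_⟩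
  · refine ((hS.smul (f T)).add (hn.smul (h T))).mono ?_
    rwa [abs_of_nonneg hf0, abs_of_nonneg hh0]
  · rw [curv_add (a := fun S => f S • a S) (b := fun S => h S • b S) (hf.smul ha) (hh.smul hb),
      curv_smul hf ha, curv_smul hh hb, List.map_cons,
      List.map_cons, List.sum_cons, List.sum_cons, list_smul, hM, smul_add]
    abel
  · rw [co_add, co_smul, co_smul, List.sum_cons, List.sum_cons, h2]
    refine (wn_add_le _ _ _).trans ?_
    rw [wn_smul, wn_smul, abs_of_nonneg hf0, abs_of_nonneg hh0]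
    have e1 := mul_le_mul_of_nonneg_left hw hf0
    have e2 := mul_le_mul_of_nonneg_left hbw hh0
    linarith
  · rw [List.map_cons, List.map_cons, List.sum_cons, List.sum_cons]
    linarith

theorem wn_comp {k : ℕ} {φ : ℝ → ℝ} (hφ : ContDiff ℝ ∞ φ) {N : E k → ℝ} (hN : ContDiff ℝ ∞ N)
    (w T : E k) : wn w (co (fderiv ℝ (fun S => φ (N S)) T)) =
      |deriv φ (N T)| * wn w (co (fderiv ℝ N T)) := by
  have h1 := ((hφ.differentiable (by simp)) (N T)).hasDerivAt
  have h2 := ((hN.differentiable (by simp)) T).hasFDerivAt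
  have h3 : HasFDerivAt (fun S => φ (N S)) (deriv φ (N T) • fderiv ℝ N T) T :=
    h1.comp_hasFDerivAt T h2
  rw [h3.fderiv, co_smul, wn_smul]

end ConnBX

open ConnBX in
theorem conn_est : ∃ C : ℝ, 1 ≤ C ∧ ∀ (g : G) (a : Fam G), IsPre g a → ∀ (R z W l P : ℝ),
    8 ≤ R → 1 ≤ z → ∀ (k : ℕ) (x : Fin (k + 1) → G) (w T : E (k + 1)),
    (∀ j, 1 ≤ w j ∧ w j ≤ W) → Ord T → Est w z (a k x) T l P →
    Est w 1 (conn R a k x) T (8 * l / R + 2 * (k + 1))
        (P + 2 * Real.log (1 + C * W * (k + 1) ^ 2 * (l + Real.exp P + 1) ^ 2)) ∧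
      (R / 4 ≤ nn (a k x) T → Est w z (conn R a k x) T (8 * l / R)
        (P + 2 * Real.log (1 + z * (C * W * (k + 1) ^ 2 * (l + Real.exp P + 1) ^ 2)))) := by
  obtain ⟨C, hC, hb⟩ := nrm_bounds
  refine ⟨2 * C, by linarith, ?_⟩
  intro g a ha R z W l P hR hz k x w T hw hT hE
  have hR0 : 0 < R := by linarith
  have hs := ha.smooth k x
  have hs0 : ContDiff ℝ ∞ (th0 k) := (th0_pre g).smooth k x
  have hN : ContDiff ℝ ∞ (nn (a k x)) := hs.clm_apply contDiff_const
  have hφ := contDiff_nrm hR0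
  have hφ' : ContDiff ℝ ∞ fun y => 1 - y * nrm R y := contDiff_const.sub (contDiff_id.mul hφ)
  obtain ⟨b1, b2, b3, b4, b5, b6, b7⟩ := hb R hR (nn (a k x) T)
  obtain ⟨r1, r2⟩ := hE.row hw hz
  rw [← co_fderiv_nn ha] at r2
  push_cast at r2
  have hl0 : 0 ≤ l := hE.1
  have hW : 1 ≤ W := (hw 0).1.trans (hw 0).2
  have hk : (1 : ℝ) ≤ k + 1 := by have : (0 : ℝ) ≤ k := Nat.cast_nonneg k; linarith
  have hY : 0 < Real.exp P := Real.exp_pos P
  set Y := l + Real.exp P with hYe
  have hY0 : 0 ≤ Y := by linarith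
  set K : ℝ := k + 1 with hK
  have t1 := th0_nuc (fun j => (hw j).1) T
  have t2 := th0_wn (fun j => (hw j).1) hT
  have hX1 : wn w (co (fderiv ℝ (fun S => nrm R (nn (a k x) S)) T)) * wn w (co (a k x T)) ≤
      2 * C * W * K ^ 2 * (Y + 1) ^ 2 := by
    rw [wn_comp hφ hN]
    calc _ ≤ C * (2 * W * K * Y) * Y := by
          have := wn_nonneg w (co (fderiv ℝ (nn (a k x)) T))
          have := wn_nonneg w (co (a k x T))
          gcongr
      _ = 2 * C * W * K * Y ^ 2 := by ring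
      _ ≤ _ := by
          gcongr
          · nlinarith
          · linarith
  have hX2 : wn w (co (fderiv ℝ (fun S => 1 - nn (a k x) S * nrm R (nn (a k x) S)) T)) *
      wn w (co (th0 k T)) ≤ 2 * C * W * K ^ 2 * (Y + 1) ^ 2 := by
    rw [wn_comp hφ' hN, deriv_const_sub, abs_neg]
    calc _ ≤ C * (2 * W * K * Y) * K := by
          have := wn_nonneg w (co (fderiv ℝ (nn (a k x)) T))
          have := wn_nonneg w (co (th0 k T))
          gcongr
      _ = 2 * C * W * K ^ 2 * Y := by ring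
      _ ≤ _ := by
          gcongr
          nlinarith
  have hf1 : nrm R (nn (a k x) T) ≤ 1 := b2.trans ((div_le_one hR0).2 hR)
  have hl1 : nrm R (nn (a k x) T) * l ≤ 8 * l / R := by
    rw [mul_div_right_comm]
    exact mul_le_mul_of_nonneg_right b2 hl0
  constructor
  · have := key (z' := 1) (lam := 8 * l / R + 2 * K) hs hs0 (hφ.comp hN) (hφ'.comp hN) hE b1 hf1
      (sub_nonneg.2 b4) t1 t2 hX1 hX2 (by simp only [Function.comp]; nlinarith) zero_le_one hz
    rw [one_mul] at this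
    exact this
  · intro hg
    exact key (z' := z) (lam := 8 * l / R) hs hs0 (hφ.comp hN) (hφ'.comp hN) hE b1 hf1
      (sub_nonneg.2 b4) t1 t2 hX1 hX2 (by simp only [Function.comp]; rw [(b7 hg).1]; linarith)
      (by linarith) le_rfl

end

end Vale.Agent.P184L
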