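import Vale.Agent.P184L.Pull
import Vale.Agent.P184L.Th0

/-! Antisymmetry of the transgression number under rotation. Hint: `d = e + 1`; `R τ = A τ + c` with `R τ i = (Fin.snoc τ 1) i.succ - τ 0`, so `consL (R τ) = rotA (consL τ) - τ 0`, `consL (A v) = rotL (consL v) - v 0`. By `transl`, `rot` and `nn = 1`: `sl (θ x) τ v = sl (θ (rotX x)) (R τ) (A v) + v 0`, the same for `th0`; `tf_pull`, `vol_pb`; `A.det = (-1) ^ d` (add column 0 ..., or `A = P * U` with a cyclic permutation matrix `finRotate` and a triangular matrix); `R` is a bijection of `simp d`; change variables with `integral_image_eq_integral_abs_det_fderiv_smul`. -/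

namespace Vale.Agent.P184L

open Finset MeasureTheory ProbabilityTheory Classical Vale.Agent.P184
open scoped ContDiff

noncomputable section

universe u

variable {G : Type u} [Group G]

namespace RotX

variable {e : ℕ}

/-- The rotation in slice coordinates. -/
def S (v : E (e + 1)) (a : ℝ) : E (e + 1) :=
  fun i => Fin.snoc (α := fun _ => ℝ) v a i.succ - v 0

theorem S_last (v : E (e + 1)) (a : ℝ) : S v a (Fin.last e) = a - v 0 := by simp [S]

theorem S_cast (v : E (e + 1)) (a : ℝ) (i : Fin e) : S v a i.castSucc = v i.succ - v 0 := by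
  rw [S, Fin.succ_castSucc, Fin.snoc_castSucc]

/-- Its linear part. -/
def SL (e : ℕ) : E (e + 1) →ₗ[ℝ] E (e + 1) where
  toFun v := S v 0
  map_add' u v := by
    funext i
    refine Fin.lastCases ?_ (fun i => ?_) i <;> simp [S_last, S_cast] <;> ring
  map_smul' c v := by
    funext i
    refine Fin.lastCases ?_ (fun i => ?_) i <;> simp [S_last, S_cast, mul_sub]

/-- The matrix of the linear part. -/
def A (e : ℕ) : Matrix (Fin (e + 1)) (Fin (e + 1)) ℝ := LinearMap.toMatrix' (SL e)

theorem A_mul (v : E (e + 1)) : (A e).mulVec v = S v 0 := LinearMap.toMatrix'_mulVec _ _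

theorem A_aff (v : E (e + 1)) : (A e).mulVec v + S 0 1 = S v 1 := by
  funext i
  refine Fin.lastCases ?_ (fun i => ?_) i <;> simp [A_mul, S_last, S_cast]
  ring

theorem A_det : (A e).det = (-1) ^ (e + 1) := by
  have h : ∀ i j, A e i j = S (Pi.single j 1) 0 i := fun i j => by
    simp [A, SL]
  rw [Matrix.det_succ_row _ (Fin.last e), Fin.sum_univ_succ, sum_eq_zero fun j _ => by
    simp [h, S_last]]
  have h1 : (A e).submatrix (Fin.last e).succAbove (Fin.succAbove 0) = 1 := by
    ext i j
    simp [h, S_cast, Pi.single_apply, Matrix.one_apply]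
  rw [h1]
  simp [h, S_last, pow_succ]

theorem cons_S (v : E (e + 1)) (a : ℝ) : consL _ (S v a) =
    (fun i => Fin.snoc (α := fun _ => ℝ) (consL _ v) a i.succ) + fun _ => -v 0 := by
  have h : ∀ i : Fin (e + 2), Fin.snoc (α := fun _ => ℝ) (consL _ v) a i.succ =
      Fin.snoc (α := fun _ => ℝ) v a i := fun i => by
    refine Fin.lastCases (by simp) (fun i => ?_) i
    rw [Fin.succ_castSucc, Fin.snoc_castSucc, Fin.snoc_castSucc]
    rfl
  funext i
  rw [Pi.add_apply, h]
  refine Fin.cases ?_ (fun i => ?_) i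
  · simp [consL]
  · simp [consL, S, sub_eq_add_neg]

theorem key {g : G} {θ : Fam G} (h : IsPre g θ) (h1 : ∀ k x T, nn (θ k x) T = 1)
    (x : Fin (e + 2) → G) (τ v : E (e + 1)) : sl (θ _ x) τ v =
      sl (θ _ (rotX g x)) ((A e).mulVec τ + S 0 1) ((A e).mulVec v) + v 0 := by
  have a1 : consL _ (S τ 1) = rotA (consL _ τ) + fun _ => -τ 0 := by
    rw [cons_S]; congr 1; funext i; simp [rotA, nx, consL]
  have a2 : consL _ (S v 0) = rotL (consL _ v) + (-v 0) • fun _ => 1 := by
    rw [cons_S]; congr 1; funext i; simp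
  have a3 := h1 _ (rotX g x) (rotA (consL _ τ))
  rw [A_aff, A_mul]
  simp only [sl, ContinuousLinearMap.comp_apply]
  rw [a1, a2, h.transl, map_add, map_smul, h.rot, show θ _ (rotX g x) (rotA (consL _ τ))
    (fun _ => 1) = 1 from a3]
  simp

theorem image : (fun τ => S τ 1) '' simp (e + 1) = simp (e + 1) := by
  ext σ
  constructor
  · rintro ⟨τ, ⟨h1, h2⟩, rfl⟩
    refine ⟨fun i j => ?_, fun i => ?_⟩
    · refine Fin.lastCases ?_ (fun i => ?_) i <;> refine Fin.lastCases ?_ (fun j => ?_) j <;>
        intro h <;> simp only [S_last, S_cast]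
      · rfl
      · exact absurd h (not_le.2 (Fin.castSucc_lt_last j))
      · linarith [(h2 i.succ).2]
      · linarith [h1 (Fin.succ_le_succ_iff.2 (Fin.castSucc_le_castSucc_iff.1 h))]
    · refine Fin.lastCases ?_ (fun i => ?_) i <;> simp only [S_last, S_cast] <;> constructor
      · linarith [h2 0]
      · linarith [h2 0]
      · linarith [h1 (Fin.zero_le i.succ)]
      · linarith [h2 0, h2 i.succ]
  · rintro ⟨h1, h2⟩
    refine ⟨Fin.cons (1 - σ (Fin.last e)) fun i => σ i.castSucc + (1 - σ (Fin.last e)),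
      ⟨fun i j => ?_, fun i => ?_⟩, ?_⟩
    · refine Fin.cases ?_ (fun i => ?_) i <;> refine Fin.cases ?_ (fun j => ?_) j <;>
        intro h <;> simp only [Fin.cons_zero, Fin.cons_succ]
      · rfl
      · linarith [(h2 j.castSucc).1]
      · exact absurd h (not_le.2 (Fin.succ_pos i))
      · linarith [h1 (Fin.castSucc_le_castSucc_iff.2 (Fin.succ_le_succ_iff.1 h))]
    · refine Fin.cases ?_ (fun i => ?_) i <;> simp only [Fin.cons_zero, Fin.cons_succ] <;>
        constructor
      · linarith [h2 (Fin.last e)]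
      · linarith [h2 (Fin.last e)]
      · linarith [h2 (Fin.last e), h2 i.castSucc]
      · linarith [h1 (Fin.le_last i.castSucc)]
    · funext i
      refine Fin.lastCases ?_ (fun i => ?_) i <;> simp [S_last, S_cast]

theorem inj : Function.Injective fun τ : E (e + 1) => S τ 1 := fun τ τ' h => by
  have h0 := congrFun h (Fin.last e)
  simp only [S_last] at h0
  funext i
  refine Fin.cases (by linarith) (fun i => ?_) i
  have h1 := congrFun h i.castSucc
  simp only [S_cast] at h1
  linarith

theorem cov (F : E (e + 1) → ℝ) : ∫ τ in simp (e + 1), F (S τ 1) = ∫ τ in simp (e + 1), F τ := by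
  have hd : ∀ τ, HasFDerivAt (fun τ : E (e + 1) => S τ 1)
      (LinearMap.toContinuousLinearMap (Matrix.toLin' (A e))) τ := fun τ => by
    rw [← funext A_aff]
    exact (LinearMap.toContinuousLinearMap (Matrix.toLin' (A e))).hasFDerivAt.add_const _
  have := integral_image_eq_integral_abs_det_fderiv_smul volume
    (isCompact_simp (e + 1)).isClosed.measurableSet (fun τ _ => (hd τ).hasFDerivWithinAt)
    inj.injOn F
  rw [image] at this
  simp [this, A_det]

end RotX
open RotX

theorem trg_rot {g : G} {θ : Fam G} (h : IsPre g θ) (h1 : ∀ k x T, nn (θ k x) T = 1) (n : ℕ)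
    {d : ℕ} (hd : Odd d) (x : Fin (d + 1) → G) :
    trg n (θ d (rotX g x)) = -trg n (θ d x) := by
  obtain ⟨e, rfl⟩ : ∃ e, d = e + 1 := ⟨d - 1, by have := hd.pos; omega⟩
  have h2 := fun τ => tf_pull n (A e) (S 0 1) (fun v => v 0)
    (contDiff_sl (h.smooth _ (rotX g x))) (contDiff_sl ((th0_pre g).smooth _ x))
    (key h h1 x) (key (th0_pre g) (fun k _ => nn_th0 k) x) τ
  simp only [trg, h2, vol_pb, A_aff, A_det, hd.neg_one_pow, neg_mul, one_mul, integral_neg, neg_neg]
  exact (cov fun τ => vol _ (tf n _ _ τ)).symm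

end

end Vale.Agent.P184L
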