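import Vale.Agent.P184L.Defs3

/-! Symmetries and marginals of uniform iid fields. Hint: `Measure.infinitePi_map_pi`-type lemmas or `Measure.eq_infinitePi`; see `iid_integral_comp`, `iid_and`, `measurable_of_dep` in `Vale/Agent/P184/Prob.lean`. A bijection of a finite type preserves `uniformOn univ`; `Prod.fst`, `Prod.snd` push uniform to uniform. `iid_count`: the restriction map to `B → X` pushes `iid` to `Measure.pi` (`Measure.infinitePi_map_restrict`), which is the uniform measure (`Measure.pi` of singletons). -/

namespace Vale.Agent.P184L

open Finset MeasureTheory ProbabilityTheory Classical Vale.Agent.P184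
open scoped ContDiff

noncomputable section

universe u

variable {G : Type u} [Group G]

variable {J J' X Y : Type*} [Fintype X] [Nonempty X] [MeasurableSpace X]
  [MeasurableSingletonClass X] [Fintype Y] [Nonempty Y] [MeasurableSpace Y]
  [MeasurableSingletonClass Y]

namespace TwistX

omit [Nonempty X] in
theorem single (x : X) : unif X {x} = (Fintype.card X : ENNReal)⁻¹ := by
  rw [unif, uniformOn_univ, Measure.count_singleton, one_div]

omit [Nonempty X] in
theorem map_equiv (τ : X ≃ X) : (unif X).map τ = unif X := by
  refine Measure.ext_iff_singleton.2 fun x => ?_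
  rw [Measure.map_apply (measurable_of_finite _) (measurableSet_singleton x), single,
    ← τ.image_symm_eq_preimage, Set.image_singleton, single]

theorem unif_prod : unif (X × Y) = (unif X).prod (unif Y) := by
  refine Measure.ext_iff_singleton.2 fun x => ?_
  rw [single, ← Prod.mk.eta (p := x), ← Set.singleton_prod_singleton, Measure.prod_prod, single,
    single, Fintype.card_prod, Nat.cast_mul, ENNReal.mul_inv (by simp) (by simp)]

theorem map_real {f : J → X → Y} (hf : ∀ j, (unif X).map (f j) = unif Y) {p : (J → Y) → Prop}
    {B : Finset J} (hp : DependsOn p (B : Set J)) :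
    (iid (unif X) J).real {o | p fun j => f j (o j)} = (iid (unif Y) J).real {o | p o} := by
  have h := Measure.infinitePi_map_pi (fun _ : J => unif X) (f := f)
    fun _ => measurable_of_finite _
  simp only [hf] at h
  have hm : Measurable fun (o : J → X) j => f j (o j) := measurable_pi_lambda _ fun j =>
    (measurable_of_finite (f j)).comp (measurable_pi_apply j)
  rw [iid, iid, ← h, map_measureReal_apply hm (measurableSet_of_dep hp)]
  rfl

end TwistX

theorem iid_twist (γ : J ≃ J) (τ : J → X ≃ X) (f : (J → X) → ℝ) :
    ∫ o, f (fun j => τ j (o (γ j))) ∂(iid (unif X) J) = ∫ o, f o ∂(iid (unif X) J) := by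
  let e : (J → X) ≃ᵐ (J → X) :=
    { toFun := fun o j => τ j (o j)
      invFun := fun o j => (τ j).symm (o j)
      left_inv := fun o => by ext; simp
      right_inv := fun o => by ext; simp
      measurable_toFun := measurable_pi_lambda _ fun j =>
        (measurable_of_finite (τ j)).comp (measurable_pi_apply j)
      measurable_invFun := measurable_pi_lambda _ fun j =>
        (measurable_of_finite (τ j).symm).comp (measurable_pi_apply j) }
  have h := Measure.infinitePi_map_pi (fun _ : J => unif X) (f := fun j => τ j)
    fun _ => measurable_of_finite _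
  simp only [TwistX.map_equiv] at h
  have h1 : MeasurePreserving e (iid (unif X) J) (iid (unif X) J) := ⟨e.measurable, h⟩
  exact (iid_integral_comp (unif X) γ fun o => f fun j => τ j (o j)).trans (h1.integral_comp' f)

theorem iid_inj {γ : J' → J} (hγ : Function.Injective γ) {p : (J' → X) → Prop} {B : Finset J'}
    (hp : DependsOn p (B : Set J')) :
    (iid (unif X) J).real {o | p (o ∘ γ)} = (iid (unif X) J').real {o | p o} := by
  have h := Measure.map_infinitePi_infinitePi_of_inj (P := fun _ : J => unif X) hγ
  have hm : Measurable fun (o : J → X) j => o (γ j) :=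
    measurable_pi_lambda _ fun j => measurable_pi_apply _
  rw [iid, iid, ← h, map_measureReal_apply hm (measurableSet_of_dep hp)]
  rfl

theorem iid_fst {p : (J → X) → Prop} {B : Finset J} (hp : DependsOn p (B : Set J)) :
    (iid (unif (X × Y)) J).real {o | p fun j => (o j).1} = (iid (unif X) J).real {o | p o} :=
  TwistX.map_real (f := fun _ => Prod.fst) (fun _ => by
    rw [TwistX.unif_prod, Measure.map_fst_prod, measure_univ, one_smul]) hp

theorem iid_snd {p : (J → Y) → Prop} {B : Finset J} (hp : DependsOn p (B : Set J)) :
    (iid (unif (X × Y)) J).real {o | p fun j => (o j).2} = (iid (unif Y) J).real {o | p o} :=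
  TwistX.map_real (f := fun _ => Prod.snd) (fun _ => by
    rw [TwistX.unif_prod, Measure.map_snd_prod, measure_univ, one_smul]) hp

theorem iid_count {p : (J → X) → Prop} {B : Finset J} (hp : DependsOn p (B : Set J)) (x₀ : X) :
    (iid (unif X) J).real {o | p o} =
      ((univ.filter fun s : B → X => p fun j => if h : j ∈ B then s ⟨j, h⟩ else x₀).card : ℝ) /
        Fintype.card (B → X) := by
  have e : {o | p o} = B.restrict ⁻¹' ((univ.filter fun s : B → X =>
      p fun j => if h : j ∈ B then s ⟨j, h⟩ else x₀ : Finset (B → X)) : Set (B → X)) := by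
    ext o
    simp only [Set.mem_ofPred_eq, Set.mem_preimage, coe_filter, mem_univ, true_and]
    refine Iff.of_eq (hp fun j hj => ?_)
    rw [dif_pos (mem_coe.1 hj)]
    rfl
  have h : Measure.pi (fun _ : B => unif X) = unif (B → X) := by
    refine Measure.ext_iff_singleton.2 fun s => ?_
    rw [Measure.pi_singleton, TwistX.single]
    simp [TwistX.single, ENNReal.inv_pow]
  rw [e, ← map_measureReal_apply (Finset.measurable_restrict B) (Finset.measurableSet _), iid,
    Measure.infinitePi_map_restrict, h, Measure.real, unif, uniformOn_univ,
    Measure.count_apply_finset, ENNReal.toReal_div, ENNReal.toReal_natCast,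
    ENNReal.toReal_natCast]

theorem iid_agree (B : Finset J) (s : J → X) :
    (iid (unif X) J).real {o | ∀ j ∈ B, o j = s j} = (1 / Fintype.card X) ^ B.card := by
  have e : {o : J → X | ∀ j ∈ B, o j = s j} = Set.pi (B : Set J) fun j => {s j} := rfl
  rw [e, Measure.real, iid, Measure.infinitePi_pi _ fun _ _ => measurableSet_singleton _]
  simp [TwistX.single]

end

end Vale.Agent.P184L
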