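import Vale.Agent.P184L.Face
import Vale.Agent.P184L.Rot
import Vale.Agent.P184L.ChrTh
import Vale.Agent.P184L.ConnB
import Vale.Agent.P184L.Twist

/-! Averaging over the random field. With `θ o = conn R (α o)`, `c = chr (n + 1) (th0 _)` put `Φ x = (∫ o, chr (n + 1) (θ o _ x)) / c`, `Tr x = ∫ o, trg n (θ o _ x)`, `s j = s' j / c` (`chr_face`). Integrability by `integrable_of_dep` and `RF.loc`; rotation by `trg_rot`; invariance by `RF.inv` and `iid_twist`; boundedness of `Tr` by the second part of `RF.est`, `conn_est`, `Est.entries`, `th0_entries`, `tp_bound`, `abs_int_simp`. Bounds: `conn_est`, `Est.pf`, `abs_int_simp`, `chr_th0`. With `m = 2 n + 2`, `8 lam / R ≤ m / z`, for large `m` one has `1 + z X ≤ exp (3 m)` where `X = C W (m + 1) ^ 2 (lam + exp m + 1) ^ 2`, so the cost is at most `exp (11 m)` always and `z⁻¹ ^ (n + 1) exp (8 m)` on the good event (which depends on finitely many coordinates, hence is measurable); take `δ = exp (-11 m) * (√z)⁻¹ ^ m`.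 -/

namespace Vale.Agent.P184L

open Finset MeasureTheory ProbabilityTheory Classical Vale.Agent.P184
open scoped ContDiff

noncomputable section

universe u

variable {G : Type u} [Group G]

namespace AvgX

theorem avg_bound {Ω : Type*} [MeasurableSpace Ω] (μ : Measure Ω) [IsProbabilityMeasure μ]
    {S : Set Ω} (hS : MeasurableSet S) {f : Ω → ℝ} {A B δ : ℝ} (hA0 : 0 ≤ A) (hB0 : 0 ≤ B)
    (hA : ∀ o, |f o| ≤ A) (hB : ∀ o, o ∉ S → |f o| ≤ B) (hδ : μ.real S ≤ δ) :
    |∫ o, f o ∂μ| ≤ B + A * δ := by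
  have hi : Integrable (S.indicator fun _ => A) μ := (integrable_const A).indicator hS
  have h := norm_integral_le_of_norm_le (f := f) ((integrable_const B).add hi)
    (Filter.Eventually.of_forall fun o => by
      by_cases ho : o ∈ S
      · simp only [Pi.add_apply, Set.indicator_of_mem ho, Real.norm_eq_abs]
        linarith [hA o]
      · simp only [Pi.add_apply, Set.indicator_of_notMem ho, Real.norm_eq_abs]
        linarith [hB o ho])
  simp only [Pi.add_apply] at h
  rw [integral_add (integrable_const B) hi, integral_indicator hS] at h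
  simp only [integral_const, probReal_univ, smul_eq_mul, one_mul, Real.norm_eq_abs,
    MeasureTheory.measureReal_restrict_apply_univ] at h
  nlinarith [mul_le_mul_of_nonneg_left hδ hA0]

theorem abs_avg {Ω : Type*} [MeasurableSpace Ω] (μ : Measure Ω) [IsProbabilityMeasure μ]
    {f : Ω → ℝ} {A : ℝ} (hA : ∀ o, |f o| ≤ A) : |∫ o, f o ∂μ| ≤ A := by
  have h := norm_integral_le_of_norm_le_const (μ := μ) (f := f) (C := A)
    (Filter.Eventually.of_forall hA)
  simpa using h

theorem num {C W R z lam m : ℝ} (hC : 1 ≤ C) (hW : 1 ≤ W) (hR : 8 ≤ R) (hz : 1 ≤ z)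
    (hl : 0 ≤ lam) (hm : 1 + z * (C * W * (R / 8 + 2) ^ 2) ≤ m) (h : z * (8 * lam) ≤ R * m)
    {y : ℝ} (hy0 : 0 ≤ y) (hy : y ≤ z) :
    Real.log (1 + y * (C * W * (m + 1) ^ 2 * (lam + Real.exp m + 1) ^ 2)) ≤ 5 * m := by
  have hK : 0 ≤ z * (C * W * (R / 8 + 2) ^ 2) := by positivity
  have hm0 : 0 ≤ m := by linarith
  have h1 : m + 1 ≤ Real.exp m := Real.add_one_le_exp m
  have h2 : lam ≤ R / 8 * Real.exp m := by
    have : 8 * lam ≤ z * (8 * lam) := le_mul_of_one_le_left (by positivity) hz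
    nlinarith [mul_le_mul_of_nonneg_left (by linarith : m ≤ Real.exp m) (by linarith : 0 ≤ R)]
  have h3 : lam + Real.exp m + 1 ≤ (R / 8 + 2) * Real.exp m := by nlinarith
  have hE : 1 ≤ Real.exp m := by linarith
  have h4 : y * (C * W * (m + 1) ^ 2 * (lam + Real.exp m + 1) ^ 2) ≤
      z * (C * W * Real.exp m ^ 2 * ((R / 8 + 2) * Real.exp m) ^ 2) := by
    gcongr
  have h5 : 1 ≤ Real.exp m ^ 4 := one_le_pow₀ hE
  have h6 : 1 + y * (C * W * (m + 1) ^ 2 * (lam + Real.exp m + 1) ^ 2) ≤ Real.exp (5 * m) := by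
    calc _ ≤ (1 + z * (C * W * (R / 8 + 2) ^ 2)) * Real.exp m ^ 4 := by nlinarith
      _ ≤ Real.exp m * Real.exp m ^ 4 := by gcongr; linarith
      _ = Real.exp (5 * m) := by
        rw [show 5 * m = ((5 : ℕ) : ℝ) * m by norm_num, Real.exp_nat_mul]; ring
  rw [Real.log_le_iff_le_exp (by positivity)]
  exact h6

theorem conn_congr {a b : Fam G} {k : ℕ} {x y : Fin (k + 1) → G} (R : ℝ) (h : a k x = b k y) :
    conn R a k x = conn R b k y := by
  funext T
  simp only [conn, h]

theorem chr_le {k n : ℕ} {w : E (k + 1)} (hw : ∀ j, 1 ≤ w j) {z : ℝ} (hz : 0 < z)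
    {a : Form (k + 1)} (ha : ContDiff ℝ ∞ a) {l P M w0 c : ℝ}
    (h : ∀ T, Ord T → Est w z a T l P) (hM : z * l + P ≤ M) (h0 : ∏ j, w j ≤ w0)
    (hc : |c| = n.factorial / k.factorial) :
    |chr n a / c| ≤ w0 * (z⁻¹ ^ n * Real.exp M) := by
  have h1 : |chr n a| ≤ n.factorial * w0 * z⁻¹ ^ n * Real.exp M / k.factorial :=
    abs_int_simp fun τ hτ => (Est.pf n hw hz ha (h _ (ord_consL hτ))).trans (by
      have : 0 ≤ ∏ j, w j := prod_nonneg fun j _ => le_trans zero_le_one (hw j)
      have : 0 ≤ w0 := this.trans h0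
      gcongr)
  have h2 : (0 : ℝ) < n.factorial := Nat.cast_pos.2 n.factorial_pos
  have h3 : (0 : ℝ) < k.factorial := Nat.cast_pos.2 k.factorial_pos
  rw [abs_div, hc, div_le_iff₀ (by positivity)]
  refine h1.trans (le_of_eq ?_)
  ring

theorem trg_le (k n : ℕ) (W l P : ℝ) (hW : 1 ≤ W) : ∃ K : ℝ, ∀ a : Form (k + 1), ContDiff ℝ ∞ a →
    (∀ T, Ord T → Est (fun _ => W) 1 a T l P) → |trg n a| ≤ K := by
  obtain ⟨K, hK⟩ := tp_bound k n (2 * W ^ 2 * (l + Real.exp P) + 2)
  refine ⟨K / k.factorial, fun a ha h => abs_int_simp fun τ hτ => ?_⟩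
  have h1 := h _ (ord_consL hτ)
  obtain ⟨h2, h3⟩ := Est.entries (W := W) (fun _ => ⟨hW, le_rfl⟩) le_rfl h1
  obtain ⟨h4, h5⟩ := th0_entries hτ
  have h6 : 0 ≤ l + Real.exp P := add_nonneg h1.1 (Real.exp_pos P).le
  have h7 : W * (l + Real.exp P) ≤ 2 * W ^ 2 * (l + Real.exp P) :=
    mul_le_mul_of_nonneg_right (by nlinarith) h6
  have h8 : 0 ≤ 2 * W ^ 2 * (l + Real.exp P) := by positivity
  refine hK _ _ _ (fun i => ?_) (fun i j => ?_) fun i j => ?_
  · have e : co (sl a τ - sl (th0 k) τ) i = co (sl a τ) i - co (sl (th0 k) τ) i := rfl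
    have h9 := h2 i.succ
    have e2 : co (sl a τ) i = co (a (consL k τ)) i.succ := by rw [co_sl]; rfl
    rw [e, e2]
    linarith [abs_sub (co (a (consL k τ)) i.succ) (co (sl (th0 k) τ) i), h4 i]
  · rw [curv_sl ha]
    simp only [Matrix.submatrix_apply]
    linarith [h3 i.succ j.succ]
  · linarith [h5 i j]

end AvgX

open AvgX in
theorem small_of_rf (W : ℕ) (hW : 1 ≤ W) (R z A0 : ℝ) (hR : 8 ≤ R) (hz : 1 ≤ z) :
    ∃ n0 : ℕ, ∀ n, n0 ≤ n → ∃ δ : ℝ, 0 < δ ∧ ∀ (A : Gen G) (g : G) (lam : ℝ) (J : Type u)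
      (X : Type) [Fintype X] [Nonempty X] [MeasurableSpace X] [MeasurableSingletonClass X]
      (α : (J → X) → Fam G), z * (8 * lam) ≤ R * (2 * n + 2) →
      RF A g (2 * n + 1 + 1) W R z lam (2 * n + 2) A0 δ α →
      Small A g (Real.exp 20) A0 (Real.exp 20 / √z) n := by
  obtain ⟨C, hC, hest⟩ := conn_est (G := G)
  have hW' : (1 : ℝ) ≤ W := by exact_mod_cast hW
  have hz0 : 0 < z := by linarith
  have hR0 : 0 < R := by linarith
  refine ⟨⌈1 + z * (C * W * (R / 8 + 2) ^ 2)⌉₊, fun n hn => ⟨z⁻¹ ^ (n + 1), by positivity, ?_⟩⟩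
  intro A g lam J X _ _ _ _ α hl h
  set m : ℝ := 2 * n + 2 with hm
  have hn0 : (0 : ℝ) ≤ n := Nat.cast_nonneg n
  have hm1 : 1 + z * (C * W * (R / 8 + 2) ^ 2) ≤ m := by
    have := Nat.ceil_le.1 hn
    linarith
  have hm2 : ((2 * n + 1 + 1 : ℕ) : ℝ) = m := by rw [hm]; push_cast; ring
  have hpre : ∀ o, IsPre g (conn R (α o)) := fun o => conn_pre (h.pre o) hR0
  have hint : ∀ k x (F : Form (k + 1) → ℝ),
      Integrable (fun o => F (conn R (α o) k x)) (iid (unif X) J) := fun k x F => by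
    obtain ⟨B, hB⟩ := h.loc k x
    exact integrable_of_dep _ (A := B) fun o o' ho => congrArg F (conn_congr R (hB ho))
  obtain ⟨s, hs⟩ := chr_face (G := G) n (2 * n + 1)
  set c := chr (n + 1) (th0 (2 * n + 1 + 1)) with hc
  have hc1 : |c| = (n + 1).factorial / (2 * n + 1 + 1).factorial := chr_th0 n
  have hc0 : c ≠ 0 := by
    refine abs_ne_zero.1 ?_
    rw [hc1]
    have h2 : (0 : ℝ) < (n + 1).factorial := Nat.cast_pos.2 (Nat.factorial_pos _)
    have h3 : (0 : ℝ) < (2 * n + 1 + 1).factorial := Nat.cast_pos.2 (Nat.factorial_pos _)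
    positivity
  refine ⟨fun x => ∫ o, chr (n + 1) (conn R (α o) _ x) / c ∂(iid (unif X) J),
    fun x => ∫ o, trg n (conn R (α o) _ x) ∂(iid (unif X) J), fun j => s j / c,
    fun x => ?_, fun x => ?_, ⟨?_, fun u hu x => ?_⟩, fun x w hw => ?_⟩
  · have e : ∀ o, chr (n + 1) (conn R (α o) _ x) / c =
        1 + ∑ j, s j / c * trg n (conn R (α o) _ fun i => x (j.succAbove i)) := fun o => by
      have e1 := hs g _ (hpre o) x
      simp only [div_mul_eq_mul_div]
      rw [← sum_div, ← e1]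
      field_simp
      ring
    have hi : ∀ j, Integrable (fun o => s j / c * trg n (conn R (α o) _
        fun i => x (j.succAbove i))) (iid (unif X) J) := fun j => (hint _ _ _).const_mul _
    simp only [e]
    rw [integral_add (integrable_const _) (integrable_finsetSum _ fun j _ => hi j),
      integral_finsetSum _ fun j _ => hi j]
    simp only [integral_const, probReal_univ, smul_eq_mul, one_mul, integral_const_mul]
    ring
  · rw [← integral_neg]
    exact integral_congr_ae (Filter.Eventually.of_forall fun o =>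
      trg_rot (hpre o) (nn_conn _ R) n ⟨n, rfl⟩ x)
  · obtain ⟨K, hK⟩ := trg_le (2 * n + 1) n W (8 * lam / R + 2 * ((2 * n + 1 : ℕ) + 1))
      (m + 2 * Real.log (1 + C * W * ((2 * n + 1 : ℕ) + 1) ^ 2 * (lam + Real.exp m + 1) ^ 2)) hW'
    refine ⟨K, fun x => abs_avg _ fun o => hK _ ((hpre o).smooth _ _) fun T hT => ?_⟩
    exact (hest g _ (h.pre o) R z W lam m hR hz _ x _ T (fun _ => ⟨hW', le_rfl⟩) hT
      (h.est o _ (Nat.le_succ _) x T hT).2).1
  · obtain ⟨γ, τ, hγ⟩ := h.inv u hu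
    refine Eq.trans ?_ (iid_twist γ τ fun o => trg n (conn R (α o) _ x))
    exact integral_congr_ae (Filter.Eventually.of_forall fun o =>
      congrArg (trg n) (conn_congr R (hγ o _ x).symm))
  · set w' : E (2 * n + 1 + 1 + 1) := fun j => (min (w j) W : ℕ) with hw'
    have hw1 : ∀ j, 1 ≤ w' j ∧ w' j ≤ W := fun j =>
      ⟨by simp only [hw']; exact_mod_cast le_min (hw j).1 hW,
        by simp only [hw']; exact_mod_cast min_le_right _ _⟩
    have hw2 : ∏ j, w' j ≤ ∏ j, (w j : ℝ) :=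
      prod_le_prod (fun j _ => le_trans zero_le_one (hw1 j).1) fun j _ => by
        simp only [hw']; exact_mod_cast min_le_left _ _
    have hw0 : 0 ≤ ∏ j, (w j : ℝ) := prod_nonneg fun j _ => Nat.cast_nonneg _
    have he : ∀ o T, Ord T → Est w' z (α o _ x) T lam m := fun o T hT =>
      (h.est o _ le_rfl x T hT).1 w hw
    have hl0 : 0 ≤ lam := (he (fun _ => Classical.arbitrary X) (fun _ => 0)
      ⟨monotone_const, fun _ => by simp⟩).1
    have hl1 : z * (8 * lam / R) ≤ m := by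
      rw [← mul_div_assoc, div_le_iff₀ hR0]; linarith
    have hl2 : 8 * lam / R ≤ m := le_trans (le_mul_of_one_le_left (by positivity) hz) hl1
    have n1 := num hC hW' hR hz hl0 hm1 hl zero_le_one hz
    have n2 := num hC hW' hR hz hl0 hm1 hl hz0.le le_rfl
    rw [one_mul] at n1
    have b1 : ∀ o, |chr (n + 1) (conn R (α o) _ x) / c| ≤
        (∏ j, (w j : ℝ)) * ((1 : ℝ)⁻¹ ^ (n + 1) * Real.exp (15 * m)) := fun o =>
      chr_le (fun j => (hw1 j).1) one_pos ((hpre o).smooth _ _)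
        (fun T hT => (hest g _ (h.pre o) R z W lam m hR hz _ x w' T hw1 hT (he o T hT)).1)
        (by rw [hm2]; linarith) hw2 hc1
    simp only [inv_one, one_pow, one_mul] at b1
    have ex : Real.exp 20 ^ (2 * n + 2) = Real.exp (20 * m) := by
      rw [← Real.exp_nat_mul, hm]; push_cast; ring_nf
    refine ⟨(abs_avg _ b1).trans ?_, fun hA => ?_⟩
    · rw [ex]
      gcongr
      linarith
    · obtain ⟨B, hB⟩ := h.loc _ x
      have hS : MeasurableSet {y : J → X | ¬ ∀ T, Ord T → R / 4 ≤ nn (α y _ x) T} :=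
        measurableSet_of_dep (A := B) fun o o' ho => by
          have e := hB ho
          simp only at e ⊢
          rw [e]
      have b2 : ∀ o, o ∉ {y : J → X | ¬ ∀ T, Ord T → R / 4 ≤ nn (α y _ x) T} →
          |chr (n + 1) (conn R (α o) _ x) / c| ≤
            (∏ j, (w j : ℝ)) * (z⁻¹ ^ (n + 1) * Real.exp (12 * m)) := fun o ho =>
        chr_le (fun j => (hw1 j).1) hz0 ((hpre o).smooth _ _)
          (fun T hT => (hest g _ (h.pre o) R z W lam m hR hz _ x w' T hw1 hT (he o T hT)).2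
            (not_not.1 ho T hT))
          (by rw [hm2]; linarith) hw2 hc1
      refine (avg_bound _ hS (by positivity) (by positivity) b1 b2
        (h.low x w hw (by rw [hm2]; exact hA))).trans ?_
      have e2 : (Real.exp 20 / √z) ^ (2 * n + 2) = z⁻¹ ^ (n + 1) * Real.exp (20 * m) := by
        rw [div_pow, ex, show 2 * n + 2 = 2 * (n + 1) by ring, pow_mul, Real.sq_sqrt hz0.le,
          inv_pow, div_eq_inv_mul]
      have e3 : Real.exp (12 * m) + Real.exp (15 * m) ≤ Real.exp (20 * m) := by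
        have a1 : Real.exp (12 * m) ≤ Real.exp (15 * m) := Real.exp_le_exp.2 (by linarith)
        have a2 : Real.exp (20 * m) = Real.exp (15 * m) * Real.exp (5 * m) := by
          rw [← Real.exp_add]; ring_nf
        have a3 := Real.add_one_le_exp (5 * m)
        nlinarith [Real.exp_pos (15 * m)]
      rw [e2]
      calc _ = (∏ j, (w j : ℝ)) * (z⁻¹ ^ (n + 1) * (Real.exp (12 * m) + Real.exp (15 * m))) := by
            ring
        _ ≤ _ := by gcongr

end

end Vale.Agent.P184L
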