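import Vale.Agent.P184L.Defs3

/-! Low modes of the discrete Fourier transform carry almost all the energy. Hint: with `N = 2 P + 1` and `a^ n = ∑ j, e (n j) a j / √N` one has `∑ n : ZMod N, a^ n * conj (b^ n) = ∑ j, a j b j` (`AddChar.sum_mulShift`); integers `|n| ≤ P` represent `ZMod N` once. The difference `a (j + 1) - a j` has transform `(e (-n) - 1) a^ n` and `‖e n - 1‖ = 2 |sin (π n / N)| ≥ 4 |n| / N` (`Real.mul_le_sin`), so the modes `n0 < |n| ≤ P` carry at most `(N / (4 n0)) ^ 2 ∑ (a (j + 1) - a j) ^ 2`; finish with `|x y| ≤ (x ^ 2 + y ^ 2) / 2`. -/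

namespace Vale.Agent.P184L

open Finset MeasureTheory ProbabilityTheory Classical Vale.Agent.P184
open scoped ContDiff

noncomputable section

universe u

variable {G : Type u} [Group G]

namespace DftX

/-- The transform. -/
def FF (P : ℕ) (a : ZMod (2 * P + 1) → ℝ) (m : ZMod (2 * P + 1)) : ℂ :=
  ∑ j, ZMod.stdAddChar (m * j) / (√(2 * P + 1 : ℝ) : ℝ) * a j

theorem conj_e {N : ℕ} [NeZero N] (x : ZMod N) :
    (starRingEnd ℂ) (ZMod.stdAddChar x) = ZMod.stdAddChar (-x) :=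
  (AddChar.map_neg_eq_conj _ x).symm

theorem pars (P : ℕ) (a b : ZMod (2 * P + 1) → ℝ) :
    ∑ m, (FF P a m * (starRingEnd ℂ) (FF P b m)).re = ∑ j, a j * b j := by
  have h0 : (0 : ℝ) < 2 * P + 1 := by positivity
  have h1 : ((√(2 * P + 1 : ℝ) : ℝ) : ℂ) * (√(2 * P + 1 : ℝ) : ℝ) = (2 * P + 1 : ℕ) := by
    rw [← Complex.ofReal_mul, Real.mul_self_sqrt h0.le]
    push_cast
    rfl
  have h2 : ∀ m, FF P a m * (starRingEnd ℂ) (FF P b m) =
      ∑ j, ∑ k, ZMod.stdAddChar (m * (j - k)) * (a j * b k / (2 * P + 1 : ℕ)) := fun m => by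
    rw [FF, FF, map_sum, Finset.sum_mul_sum]
    refine Finset.sum_congr rfl fun j _ => Finset.sum_congr rfl fun k _ => ?_
    rw [map_mul (starRingEnd ℂ), map_div₀, conj_e, Complex.conj_ofReal, Complex.conj_ofReal, ← h1, mul_sub,
      sub_eq_add_neg, AddChar.map_add_eq_mul]
    ring
  have h3 : ∑ m, FF P a m * (starRingEnd ℂ) (FF P b m) = ((∑ j, a j * b j : ℝ) : ℂ) := by
    simp only [h2]
    rw [Finset.sum_comm, Complex.ofReal_sum]
    refine Finset.sum_congr rfl fun j _ => ?_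
    rw [Finset.sum_comm]
    simp only [← Finset.sum_mul, AddChar.sum_mulShift _ (ZMod.isPrimitive_stdAddChar _),
      sub_eq_zero, ZMod.card, Nat.cast_ite, Nat.cast_zero, ite_mul, zero_mul, Finset.sum_ite_eq,
      Finset.mem_univ, if_true]
    rw [mul_div_cancel₀ _ (Nat.cast_ne_zero.2 (by omega)), Complex.ofReal_mul]
  rw [← Complex.re_sum, h3, Complex.ofReal_re]

theorem sum_int (P : ℕ) (f : ZMod (2 * P + 1) → ℝ) :
    ∑ n ∈ Icc (-(P : ℤ)) P, f n = ∑ m, f m := by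
  refine Finset.sum_bij' (fun n _ => (n : ZMod (2 * P + 1))) (fun m _ => m.valMinAbs)
    (fun _ _ => mem_univ _) (fun m _ => ?_) (fun n hn => ?_) (fun m _ => m.coe_valMinAbs)
    fun _ _ => rfl
  · have h := m.natAbs_valMinAbs_le
    rw [mem_Icc]
    omega
  · rw [mem_Icc] at hn
    refine (ZMod.valMinAbs_spec _ _).2 ⟨rfl, ?_⟩
    rw [Set.mem_Ioc]
    push_cast
    omega

theorem diff (P : ℕ) (a : ZMod (2 * P + 1) → ℝ) (m : ZMod (2 * P + 1)) :
    FF P (fun j => a (j + 1) - a j) m = (ZMod.stdAddChar (-m) - 1) * FF P a m := by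
  have h := Equiv.sum_comp (Equiv.addRight (1 : ZMod (2 * P + 1))) fun j =>
    ZMod.stdAddChar (-m) * (ZMod.stdAddChar (m * j) / (√(2 * P + 1 : ℝ) : ℝ) * a j)
  rw [FF, FF, sub_mul, one_mul, Finset.mul_sum, ← h, ← Finset.sum_sub_distrib]
  refine Finset.sum_congr rfl fun j _ => ?_
  have e : ZMod.stdAddChar (m * j) = ZMod.stdAddChar (-m) * ZMod.stdAddChar (m * (j + 1)) := by
    rw [← AddChar.map_add_eq_mul]
    congr 1
    ring
  rw [Equiv.coe_addRight, Complex.ofReal_sub, mul_sub]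
  nth_rw 1 [e]
  ring

theorem low (P : ℕ) {n : ℤ} (h : |n| ≤ P) :
    4 * |(n : ℝ)| / (2 * P + 1) ≤ ‖ZMod.stdAddChar (-(n : ZMod (2 * P + 1))) - 1‖ := by
  have h0 : (0 : ℝ) < 2 * P + 1 := by positivity
  have h1 : |(n : ℝ)| ≤ P := by exact_mod_cast h
  have hp := Real.pi_pos
  have e : ZMod.stdAddChar (-(n : ZMod (2 * P + 1))) =
      Complex.exp (Complex.I * (2 * (-(Real.pi * n / (2 * P + 1))) : ℝ)) := by
    rw [← Int.cast_neg, ZMod.stdAddChar_coe]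
    congr 1
    push_cast
    ring
  have e2 : |Real.pi * n / (2 * P + 1)| = Real.pi * |(n : ℝ)| / (2 * P + 1) := by
    rw [abs_div, abs_mul, abs_of_pos hp, abs_of_pos h0]
  have h2 := Real.mul_abs_le_abs_sin (x := Real.pi * n / (2 * P + 1)) (by
    rw [e2, div_le_div_iff₀ h0 two_pos]
    nlinarith)
  rw [e, Complex.norm_exp_I_mul_ofReal_sub_one, mul_div_cancel_left₀ _ two_ne_zero, Real.sin_neg,
    Real.norm_eq_abs, abs_mul, abs_neg, abs_two]
  rw [e2] at h2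
  refine le_trans (le_of_eq ?_) (mul_le_mul_of_nonneg_left h2 zero_le_two)
  field_simp
  ring

theorem high (P : ℕ) {n0 : ℕ} (hn : 1 ≤ n0) (a : ZMod (2 * P + 1) → ℝ) {n : ℤ} (h : |n| ≤ P)
    (h' : (n0 : ℤ) ≤ |n|) : ‖FF P a n‖ ^ 2 ≤
      ((2 * P + 1 : ℝ) / (4 * n0)) ^ 2 * ‖FF P (fun j => a (j + 1) - a j) n‖ ^ 2 := by
  have h0 : (0 : ℝ) < 2 * P + 1 := by positivity
  have h1 : (1 : ℝ) ≤ n0 := by exact_mod_cast hn
  have h2 : (n0 : ℝ) ≤ |(n : ℝ)| := by exact_mod_cast h'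
  have h3 := low P h
  rw [← mul_pow, diff, norm_mul, ← mul_assoc]
  refine pow_le_pow_left₀ (norm_nonneg _) (le_mul_of_one_le_left (norm_nonneg _) ?_) 2
  rw [div_le_iff₀ h0] at h3
  rw [div_mul_eq_mul_div, le_div_iff₀ (by positivity)]
  linarith

theorem sq (P : ℕ) (a : ZMod (2 * P + 1) → ℝ) :
    ∑ n ∈ Icc (-(P : ℤ)) P, ‖FF P a n‖ ^ 2 = ∑ j, a j ^ 2 := by
  rw [sum_int P fun m => ‖FF P a m‖ ^ 2]
  simp only [pow_two (a _), ← pars P a a, Complex.mul_conj, Complex.ofReal_re,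
    Complex.normSq_eq_norm_sq]

end DftX

theorem dft_lower (P : ℕ) {n0 : ℕ} (hn : 1 ≤ n0) (a b : ZMod (2 * P + 1) → ℝ) :
    ∑ j, a j * b j - ((2 * P + 1 : ℝ) / (4 * n0)) ^ 2 *
        ((∑ j, (a (j + 1) - a j) ^ 2 + ∑ j, (b (j + 1) - b j) ^ 2) / 2) ≤
      ∑ n ∈ Icc (-(n0 : ℤ)) n0, if 2 * |n| < 2 * P + 1 then
        ((∑ j, ZMod.stdAddChar ((n : ZMod (2 * P + 1)) * j) / (√(2 * P + 1 : ℝ) : ℝ) * a j) *
          (starRingEnd ℂ) (∑ j, ZMod.stdAddChar ((n : ZMod (2 * P + 1)) * j) /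
            (√(2 * P + 1 : ℝ) : ℝ) * b j)).re
      else 0 := by
  have e : ∀ f : ℤ → ℝ, (∑ n ∈ Icc (-(n0 : ℤ)) n0, if 2 * |n| < 2 * P + 1 then f n else 0) =
      ∑ n ∈ Icc (-(P : ℤ)) P, if |n| ≤ n0 then f n else 0 := fun f => by
    rw [← Finset.sum_filter, ← Finset.sum_filter]
    refine Finset.sum_congr (Finset.ext fun n => ?_) fun _ _ => rfl
    simp only [mem_filter, mem_Icc, ← abs_le]
    omega
  refine le_trans ?_ (e fun n => (DftX.FF P a n * (starRingEnd ℂ) (DftX.FF P b n)).re).ge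
  rw [← DftX.pars, ← DftX.sq, ← DftX.sq,
    ← DftX.sum_int P fun m => (DftX.FF P a m * (starRingEnd ℂ) (DftX.FF P b m)).re,
    ← Finset.sum_add_distrib, Finset.sum_div, Finset.mul_sum, ← Finset.sum_sub_distrib]
  refine Finset.sum_le_sum fun n hn' => ?_
  split_ifs with h
  · exact sub_le_self _ (by positivity)
  · have h1 := abs_le.2 (mem_Icc.1 hn')
    have h2 := DftX.high P hn a h1 (not_le.1 h).le
    have h3 := DftX.high P hn b h1 (not_le.1 h).le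
    have h4 := Complex.re_le_norm (DftX.FF P a n * (starRingEnd ℂ) (DftX.FF P b n))
    rw [norm_mul, Complex.norm_conj] at h4
    nlinarith [sq_nonneg (‖DftX.FF P a n‖ - ‖DftX.FF P b n‖)]

end

end Vale.Agent.P184L
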