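import Vale.Agent.P184L.Gb2

/-! Discrete gradient of `dB` along rails. Hint: for `l ∈ s`: `|ψ (sh l) - ψ l| ≤ ι`, `|u (sh l) - u l| ≤ a ι`, `pr (sh l) = pr l`. Write `dB ψ u l = √(pr l) (H' (ψ l) u l + β H (ψ l)) / √Z`, `|β| ≤ C b a Rs`; mean value inequality with `profile` gives a difference at most `C b ^ 2 a Rs ι √(pr l) H0 (ψ l) / √Z`, and it vanishes unless `ψ l < Rt + 1`; `gibbs_key`. -/

namespace Vale.Agent.P184L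

open Finset MeasureTheory ProbabilityTheory Classical Vale.Agent.P184
open scoped ContDiff

noncomputable section

universe u

variable {G : Type u} [Group G]

namespace GradX

theorem sum_sub {X : Type*} (t : Finset X) (c : X → ℝ) {f f' : X → ℝ} {ι : ℝ}
    (h : ∀ x, |f' x - f x| ≤ ι) :
    |∑ x ∈ t, c x * f' x - ∑ x ∈ t, c x * f x| ≤ (∑ x ∈ t, |c x|) * ι := by
  rw [← sum_sub_distrib, sum_mul]
  refine (abs_sum_le_sum_abs _ _).trans (sum_le_sum fun x _ => ?_)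
  rw [← mul_sub, abs_mul]
  exact mul_le_mul_of_nonneg_left (h x) (abs_nonneg _)

theorem mvt {f : ℝ → ℝ} (hf : Differentiable ℝ f) {p p' K ι : ℝ} (hK : 0 ≤ K)
    (h : ∀ t ∈ Set.uIcc p p', |deriv f t| ≤ K) (hp : |p' - p| ≤ ι) : |f p' - f p| ≤ K * ι :=
  ((convex_uIcc p p').norm_image_sub_le_of_norm_deriv_le (fun _ _ => hf _) h Set.left_mem_uIcc
    Set.right_mem_uIcc).trans (mul_le_mul_of_nonneg_left hp hK)

theorem pt {π : Par} {C C₁ a ι p p' u u' β : ℝ} (hC : 1 ≤ C) (hC₁ : 1 ≤ C₁)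
    (hP : ∀ s : ℝ, 0 ≤ s → s ≤ π.Rs →
      |deriv π.H s| ≤ C * π.b * π.H0 s ∧ |deriv (deriv π.H) s| ≤ C * π.b ^ 2 * π.H0 s ∧
      (s ≤ π.Rt / 2 - 1 → π.H0 s ^ 2 ≤ C * π.gg s) ∧
      ∀ s' : ℝ, 0 ≤ s' → s' ≤ π.Rs → π.b * |s' - s| ≤ 1 → π.H0 s' ≤ C * π.H0 s)
    (hπ : π.Ok) (hb1 : 1 ≤ π.b) (hR : (1 : ℝ) ≤ π.Rs) (ha : 0 ≤ a) (hι : 0 ≤ ι) (hb : π.b * ι ≤ 1)
    (h0 : 0 ≤ p ∧ p ≤ π.Rs) (h0' : 0 ≤ p' ∧ p' ≤ π.Rs) (h1 : |p' - p| ≤ ι) (h2 : |u' - u| ≤ a * ι)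
    (h3 : |u'| ≤ a * π.Rs) (hβ : |β| ≤ C₁ * (a * π.Rs)) :
    |deriv π.H p' * u' - deriv π.H p * u + π.b / 2 * β * (π.H p' - π.H p)| ≤
      (C ^ 2 + C + C₁ * C ^ 2) * (π.b ^ 2 * a * π.Rs * ι) * π.H0 p := by
  have hH : 0 ≤ π.H0 p := (hπ.H0_bounds h0.1 h0.2).1.trans (hπ.H0_bounds h0.1 h0.2).2.1
  have key : ∀ t ∈ Set.uIcc p p', |deriv π.H t| ≤ C * π.b * (C * π.H0 p) ∧
      |deriv (deriv π.H) t| ≤ C * π.b ^ 2 * (C * π.H0 p) := fun t ht => by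
    have t0 : 0 ≤ t := (le_min h0.1 h0'.1).trans ht.1
    have t1 : t ≤ π.Rs := ht.2.trans (max_le h0.2 h0'.2)
    have t2 := (hP p h0.1 h0.2).2.2.2 t t0 t1 ((mul_le_mul_of_nonneg_left
      ((Set.abs_sub_left_of_mem_uIcc ht).trans h1) (by positivity)).trans hb)
    exact ⟨(hP t t0 t1).1.trans (by gcongr), (hP t t0 t1).2.1.trans (by gcongr)⟩
  have d := contDiff_infty_iff_deriv.1 π.contDiff_H
  have k1 := mvt d.1 (by positivity) (fun t ht => (key t ht).1) h1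
  have k2 := mvt (d.2.differentiable (by simp)) (by positivity) (fun t ht => (key t ht).2) h1
  have k3 := (hP p h0.1 h0.2).1
  rw [show deriv π.H p' * u' - deriv π.H p * u + π.b / 2 * β * (π.H p' - π.H p) =
    (deriv π.H p' - deriv π.H p) * u' + deriv π.H p * (u' - u) +
      π.b / 2 * (β * (π.H p' - π.H p)) by ring]
  refine (abs_add_three _ _ _).trans ?_
  rw [abs_mul, abs_mul, abs_mul, abs_mul, abs_of_nonneg (by positivity : 0 ≤ π.b / 2)]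
  have k4 : π.b / 2 ≤ π.b := by linarith
  have k5 : π.b * 1 * 1 ≤ π.b * π.b * π.Rs := by gcongr
  calc _ ≤ C * π.b ^ 2 * (C * π.H0 p) * ι * (a * π.Rs) + C * π.b * π.H0 p * (a * ι) +
        π.b * (C₁ * (a * π.Rs) * (C * π.b * (C * π.H0 p) * ι)) := by gcongr
    _ ≤ _ := by
      nlinarith [mul_le_mul_of_nonneg_left k5 (by positivity : 0 ≤ C * π.H0 p * (a * ι))]

end GradX

theorem grad_le (G : Type u) [Group G] : ∃ C : ℝ, 1 ≤ C ∧ ∀ (π : Par) (g : G) (L : Type u)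
    (Λ : Lab π g L), π.Ok → ∀ ψ u (a ι : ℝ), Λ.Adm ψ → Λ.Sgn a u → 0 ≤ ι → π.b * ι ≤ 1 →
    ∀ s : Finset L, (∀ l ∈ s, ∀ x, |Λ.f (Λ.sh l) x - Λ.f l x| ≤ ι) →
    ∑ l ∈ s, (Λ.dB ψ u (Λ.sh l) - Λ.dB ψ u l) ^ 2 ≤ C * (π.b ^ 2 * a * π.Rs * ι) ^ 2 := by
  obtain ⟨C, hC, hP⟩ := profile
  obtain ⟨C₁, hC₁, hN⟩ := gibbs_norm G
  obtain ⟨C₂, hC₂, hK⟩ := gibbs_key G
  refine ⟨(C ^ 2 + C + C₁ * C ^ 2) ^ 2 * C₂, one_le_mul_of_one_le_of_one_le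
    (one_le_pow₀ (by nlinarith [mul_nonneg (zero_le_one.trans hC₁) (sq_nonneg C)])) hC₂, ?_⟩
  intro π g L Λ hπ ψ u a ι hψ hu hι hb s hs
  have hb1 : 1 ≤ π.b := le_trans (by norm_num) hπ.1
  have hR : (1 : ℝ) ≤ π.Rs := by
    rw [π.Rs_eq]
    linarith [(Nat.cast_nonneg π.Rt : (0 : ℝ) ≤ _)]
  have ha : 0 ≤ a := by
    obtain ⟨t, c, h, -⟩ := hu
    exact (sum_nonneg fun _ _ => abs_nonneg _).trans h
  have hZ := (Λ.z0_le hπ ψ).2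
  have hβ := ((hN π g L Λ hπ ψ hψ).2.1 u _ (by positivity) hu.abs_le).1
  have h1 : ∀ l ∈ s, |ψ (Λ.sh l) - ψ l| ≤ ι := fun l hl => by
    obtain ⟨t, p, p0, p1, h⟩ := hψ
    rw [h, h]
    refine (GradX.sum_sub t p (hs l hl)).trans_eq ?_
    rw [sum_congr rfl fun x _ => abs_of_nonneg (p0 x), p1, one_mul]
  have h2 : ∀ l ∈ s, |u (Λ.sh l) - u l| ≤ a * ι := fun l hl => by
    obtain ⟨t, c, c1, h⟩ := hu
    rw [h, h]
    exact (GradX.sum_sub t c (hs l hl)).trans (mul_le_mul_of_nonneg_right c1 hι)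
  rw [← sum_filter_of_ne (p := fun l => ψ l < π.Rt + 1) fun l hl h => by
    by_contra h0
    have h3 := (abs_le.1 (h1 l hl)).1
    rw [(Lab.B_zero (by nlinarith) u).2, (Lab.B_zero (by linarith) u).2] at h
    simp at h]
  refine (sum_le_sum (g := fun l => ((C ^ 2 + C + C₁ * C ^ 2) * (π.b ^ 2 * a * π.Rs * ι)) ^ 2 /
    Λ.Z ψ * (Λ.pr l * π.H0 (ψ l) ^ 2)) fun l hl => ?_).trans ?_
  · have hl := (mem_filter.1 hl).1
    have h3 := GradX.pt hC hC₁ (hP π hπ) hπ hb1 hR ha hι hb (hψ.bounds l) (hψ.bounds (Λ.sh l))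
      (h1 l hl) (h2 l hl) (hu.abs_le (Λ.sh l)) hβ
    have e : Λ.dB ψ u (Λ.sh l) - Λ.dB ψ u l = √(Λ.pr l) / √(Λ.Z ψ) *
        (deriv π.H (ψ (Λ.sh l)) * u (Λ.sh l) - deriv π.H (ψ l) * u l +
          π.b / 2 * (∑ᶠ l, Λ.B ψ l ^ 2 * u l) * (π.H (ψ (Λ.sh l)) - π.H (ψ l))) := by
      rw [Lab.dB, Lab.dB]
      generalize ∑ᶠ l, Λ.B ψ l ^ 2 * u l = β
      rw [Lab.B, Lab.B, Λ.pr_sh]
      ring
    rw [e, mul_pow, div_pow, Real.sq_sqrt (Λ.pr_nonneg l), Real.sq_sqrt hZ.le, ← sq_abs (_ + _)]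
    refine (mul_le_mul_of_nonneg_left (pow_le_pow_left₀ (abs_nonneg _) h3 2)
      (div_nonneg (Λ.pr_nonneg l) hZ.le)).trans_eq ?_
    ring
  · rw [← mul_sum]
    refine (mul_le_mul_of_nonneg_left (hK π g L Λ hπ ψ hψ _ fun l hl => (mem_filter.1 hl).2)
      (by positivity)).trans_eq ?_
    field_simp

end

end Vale.Agent.P184L
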