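import Vale.Agent.P184L.LabG

/-! Heights and the colour sketch. Hint: `ht_left`: `g` has infinite order, `zpow_right_injective`-type cancellation (`injective_zpow_iff_not_isOfFinOrder`). `labG_eig`: `ZMod.stdAddChar_coe`, `labG_count` with `c = 1 / (2 P + 1)`. Use `Gen.Val.orb`, `lab_left`, `val_left`. -/

namespace Vale.Agent.P184L

open Finset MeasureTheory ProbabilityTheory Classical Vale.Agent.P184
open scoped ContDiff

noncomputable section

universe u

variable {G : Type u} [Group G]

variable {A : Gen G} {π : Par} {ρ : ℕ} {ι : ℝ} {g : G} {M P : ℕ} (h : GOk A π g ρ ι M P)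

theorem ht_spec (g y : G) : y = g ^ ht g y * (pj g y).out := by
  exact Classical.epsilon_spec (pj_eq.1 (pj_out g (pj g y)))

theorem LabG3X.zpow (hg : ¬ IsOfFinOrder g) (j : ℤ) (y : G) :
    ht g (g ^ j * y) = ht g y + j := by
  have h3 := ht_spec g (g ^ j * y)
  rw [(pj_eq.2 ⟨j, rfl⟩ : pj g y = _).symm] at h3
  have h4 : g ^ j * y = g ^ (ht g y + j) * (pj g y).out := by
    rw [add_comm, zpow_add, mul_assoc, ← ht_spec]
  exact injective_zpow_iff_not_isOfFinOrder.2 hg (mul_right_cancel (h3.symm.trans h4))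

theorem ht_left (hg : ¬ IsOfFinOrder g) {u : G} (hu : u * g = g * u) (y : G) :
    ht g (u * y) = ht g y + ht g (u * (pj g y).out) := by
  have e : u * y = g ^ ht g y * (u * (pj g y).out) := by
    rw [← mul_assoc, ← ((show Commute u g from hu).zpow_right _).eq, mul_assoc, ← ht_spec]
  rw [e, LabG3X.zpow hg, add_comm]

theorem ht_zpow (hg : ¬ IsOfFinOrder g) (j : ℤ) (y : G) : ht g (g ^ j * y) = ht g y + j := by
  exact LabG3X.zpow hg j y

theorem labG_eig {Q Dc : ℕ} (σ : VV g → Alf Q Dc P) (cn : Fin (Dc + 1) × ℤ) :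
    (labG h).Eig (etaG A ρ g σ cn) (thG P cn) := by
  have hN : (0 : ℝ) < 2 * P + 1 := by positivity
  refine ⟨?_, fun l => ?_, fun x s hs => ?_⟩
  · unfold thG
    split_ifs with h1
    · have h2 : 2 * |(cn.2 : ℝ)| < 2 * P + 1 := by exact_mod_cast h1
      rw [abs_div, abs_mul, abs_of_pos hN, abs_of_pos Real.two_pi_pos, div_le_iff₀ hN]
      nlinarith [Real.pi_pos]
    · simpa using Real.pi_pos.le
  · change etaG A ρ g σ cn (shS g l) = _
    by_cases hl : A.Val ρ g l
    · have hv := (val_left (u := g) rfl l).2 hl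
      have hm : g * rep l ∈ shS g l := ⟨_, hl.rep.1, rfl⟩
      obtain ⟨o1, o2, o3⟩ := hv.orb hm
      have o4 : A.Exc ρ g (g * rep l) ↔ A.Exc ρ g (rep l) := by
        rw [Gen.Exc, Gen.Exc, Zs_left rfl]
      simp only [etaG, hl, hv, true_and, ← o1, ← o2, o4, pj_g, thG]
      split_ifs with h1 h2 h3 h4 h5
      · have e := ht_zpow (h.inf _ h2) 1 (rep l)
        rw [zpow_one] at e
        rw [← o3 (o4.2 h2), e, Int.cast_add, Int.cast_one, ← add_assoc, mul_add, mul_one,
          AddChar.map_add_eq_mul, ZMod.stdAddChar_coe, mul_comm, mul_div_assoc]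
        congr 2
        push_cast
        ring
      all_goals simp_all
    · simp [etaG, hl, val_left (u := g) rfl l]
  · refine (labG_count h.ι_pos (c := 1 / (2 * P + 1)) (by positivity) (fun l => ?_) x s hs).trans
      (le_trans (mul_le_mul_of_nonneg_left ?_ (by positivity)) h.ok.mass)
    · unfold etaG
      split_ifs
      · rw [norm_div, ZMod.stdAddChar_apply, Circle.norm_coe, Complex.norm_real,
          Real.norm_of_nonneg (Real.sqrt_nonneg _), div_pow, one_pow, Real.sq_sqrt hN.le]
      all_goals simp [hN.le]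
    · have h1 := h.hP
      have h2 : 1 / (2 * (P : ℝ) + 1) * (2 * π.Rs / ι + 1) ≤ 1 := by
        rw [one_div_mul_eq_div, div_le_one hN]
        linarith [M.cast_nonneg (α := ℝ), P.cast_nonneg (α := ℝ)]
      linarith [π.Rs.cast_nonneg (α := ℝ)]

end

end Vale.Agent.P184L
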