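import Vale.Agent.P184L.LabG2
import Vale.Agent.P184L.LabG3
import Vale.Agent.P184L.Grad
import Vale.Agent.P184L.Dft

/-! The colour sketch is almost isometric. Hint: let `v = dB ψ u`, `v' = dB ψ' u'`, both supported in the finite set `U₀ = {l | ψ l < Rt ∨ ψ' l < Rt} ⊆ U` of valid labels. By `labG_nb` and injectivity, two labels of `U` have the same colour iff they lie in the same orbit. Split all sums by colour `c` (`Finset.sum_product`, `Finset.sum_fiberwise`). For a colour class `Uc`: empty (trivial); ordinary orbit: `Uc` is one label (`labG_same`), only `n = 0` contributes, equality; exceptional orbit: `pos` is injective on `Uc` (`labG_same`, `ht_zpow`), put `a j = ∑ l ∈ Uc with pos l = j, v l` and apply `dft_lower`; with `y₀ = rep` of one member, all members are `{g ^ i y₀}`, `|i| < P`, and `a (pos y₀ + i) = v {g ^ i y₀}` for `|i| ≤ P`, so `∑ j, (a (j + 1) - a j) ^ 2 = ∑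 i ∈ [-P, P), (v (sh l) - v l) ^ 2` over `l = {g ^ i y₀}` (the wrap around term is `0 - 0`). These labels are distinct for different colours, so the total is bounded by `grad_le` (`labG_grad`); use `hP'`. -/

namespace Vale.Agent.P184L

open Finset MeasureTheory ProbabilityTheory Classical Vale.Agent.P184
open scoped ContDiff

noncomputable section

universe u

variable {G : Type u} [Group G]

namespace ColX

theorem vma (P : ℕ) {j : ℤ} (hj : j ∈ Icc (-(P : ℤ)) P) :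
    (j : ZMod (2 * P + 1)).valMinAbs = j := by
  have := mem_Icc.1 hj
  refine (ZMod.valMinAbs_spec _ _).2 ⟨rfl, ?_, ?_⟩ <;> push_cast <;> omega

theorem sum_zmod {M : Type*} [AddCommMonoid M] (P : ℕ) (p : ZMod (2 * P + 1))
    (F : ZMod (2 * P + 1) → M) : ∑ m, F m = ∑ j ∈ Icc (-(P : ℤ)) P, F (p + j) := by
  refine (sum_nbij' (fun j : ℤ => p + j) (fun m => (m - p).valMinAbs) (fun _ _ => mem_univ _)
    (fun m _ => ?_) (fun j hj => ?_) (fun m _ => ?_) fun _ _ => rfl).symm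
  · obtain ⟨h1, h2⟩ := ZMod.valMinAbs_mem_Ioc (m - p)
    push_cast at h1 h2
    exact mem_Icc.2 ⟨by omega, by omega⟩
  · rw [add_sub_cancel_left, vma P hj]
  · rw [ZMod.coe_valMinAbs, add_sub_cancel]

theorem shift (P : ℕ) {w : ℤ → ℝ} (hw : ∀ j, (P : ℤ) ≤ |j| → w j = 0) {j : ℤ}
    (hj : j ∈ Icc (-(P : ℤ)) P) : w ((j : ZMod (2 * P + 1)) + 1).valMinAbs = w (j + 1) := by
  have h1 := mem_Icc.1 hj
  rcases eq_or_lt_of_le h1.2 with h2 | h2
  · have e : (j : ZMod (2 * P + 1)) + 1 = ((-(P : ℤ) : ℤ) : ZMod (2 * P + 1)) := by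
      have e2 : (((2 * P + 1 : ℕ) : ℤ) : ZMod (2 * P + 1)) = 0 := by
        rw [Int.cast_natCast, ZMod.natCast_self]
      rw [h2]
      push_cast at e2 ⊢
      linear_combination e2
    rw [e, vma P (mem_Icc.2 ⟨le_rfl, by omega⟩), hw _ (by simp), hw _ (le_abs.2 (by omega))]
  · have e : (j : ZMod (2 * P + 1)) + 1 = ((j + 1 : ℤ) : ZMod (2 * P + 1)) := by push_cast; rfl
    rw [e, vma P (mem_Icc.2 ⟨by omega, by omega⟩)]

/-- the mode `n` at the position `m` -/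
def md (P : ℕ) (n : ℤ) (m : ZMod (2 * P + 1)) : ℂ :=
  if 2 * |n| < 2 * P + 1 then
    ZMod.stdAddChar ((n : ZMod (2 * P + 1)) * m) / (√(2 * P + 1 : ℝ) : ℝ) else 0

theorem dft_int (P : ℕ) {n0 : ℕ} (hn : 1 ≤ n0) (p : ZMod (2 * P + 1)) {w w' : ℤ → ℝ}
    (hw : ∀ j, (P : ℤ) ≤ |j| → w j = 0) (hw' : ∀ j, (P : ℤ) ≤ |j| → w' j = 0) :
    ∑ j ∈ Icc (-(P : ℤ)) P, w j * w' j - ((2 * P + 1 : ℝ) / (4 * n0)) ^ 2 *
        ((∑ j ∈ Icc (-(P : ℤ)) P, (w (j + 1) - w j) ^ 2 +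
          ∑ j ∈ Icc (-(P : ℤ)) P, (w' (j + 1) - w' j) ^ 2) / 2) ≤
      ∑ n ∈ Icc (-(n0 : ℤ)) n0, ((∑ j ∈ Icc (-(P : ℤ)) P, md P n (p + j) * w j) *
        (starRingEnd ℂ) (∑ j ∈ Icc (-(P : ℤ)) P, md P n (p + j) * w' j)).re := by
  have h := dft_lower P hn (fun m => w (m - p).valMinAbs) fun m => w' (m - p).valMinAbs
  have e1 : ∀ w : ℤ → ℝ, (∀ j, (P : ℤ) ≤ |j| → w j = 0) →
      ∑ m : ZMod (2 * P + 1), (w (m + 1 - p).valMinAbs - w (m - p).valMinAbs) ^ 2 =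
        ∑ j ∈ Icc (-(P : ℤ)) P, (w (j + 1) - w j) ^ 2 := fun w hw => by
    rw [sum_zmod P p]
    refine sum_congr rfl fun j hj => ?_
    rw [add_sub_cancel_left, vma P hj, add_assoc, add_sub_cancel_left, shift P hw hj]
  have e2 : ∑ m : ZMod (2 * P + 1), w (m - p).valMinAbs * w' (m - p).valMinAbs =
      ∑ j ∈ Icc (-(P : ℤ)) P, w j * w' j := by
    rw [sum_zmod P p]
    exact sum_congr rfl fun j hj => by rw [add_sub_cancel_left, vma P hj]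
  have e3 : ∀ (w : ℤ → ℝ) (n : ℤ), 2 * |n| < 2 * P + 1 →
      ∑ m : ZMod (2 * P + 1), ZMod.stdAddChar ((n : ZMod (2 * P + 1)) * m) /
        (√(2 * P + 1 : ℝ) : ℝ) * (w (m - p).valMinAbs : ℝ) =
        ∑ j ∈ Icc (-(P : ℤ)) P, md P n (p + j) * w j := fun w n hn => by
    rw [sum_zmod P p]
    exact sum_congr rfl fun j hj => by rw [add_sub_cancel_left, vma P hj, md, if_pos hn]
  rw [e1 w hw, e1 w' hw', e2] at h
  refine h.trans_eq (sum_congr rfl fun n _ => ?_)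
  split_ifs with h1
  · rw [e3 w n h1, e3 w' n h1]
  · simp only [md, if_neg h1, zero_mul, sum_const_zero, Complex.zero_re]

theorem rep_sing (y : G) : rep ({y} : Set G) = y :=
  Classical.epsilon_spec (p := (· ∈ ({y} : Set G))) ⟨y, rfl⟩

variable {A : Gen G} {π : Par} {ρ : ℕ} {ι : ℝ} {g : G} {M P Q Dc : ℕ}

theorem exc_pow {y : G} (hy : A.Exc ρ g y) (j : ℤ) : A.Exc ρ g (g ^ j * y) := by
  rw [Gen.Exc, Zs_left ((Commute.refl g).zpow_left j).eq]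
  exact hy

theorem pj_pow (y : G) (j : ℤ) : pj g (g ^ j * y) = pj g y := (pj_eq.2 ⟨j, rfl⟩).symm

theorem eta_exc (hg : ¬ IsOfFinOrder g) (σ : VV g → Alf Q Dc P) {y : G} (hy : A.Exc ρ g y)
    (n j : ℤ) : etaG A ρ g σ ((σ (pj g y)).2.1, n) {g ^ j * y} =
      md P n ((σ (pj g y)).2.2 + ht g y + j) := by
  have h1 : A.Val ρ g {g ^ j * y} := ⟨g ^ j * y, by rw [Gen.lab, if_pos (exc_pow hy j)]⟩
  rw [etaG, rep_sing, pj_pow, if_pos ⟨h1, rfl⟩, if_pos (exc_pow hy j), ht_zpow hg, md]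
  push_cast
  rw [add_assoc]

theorem sk_eq (σ : VV g → Alf Q Dc P) (c : Fin (Dc + 1)) (n : ℤ) {v : Set G → ℝ}
    {T : Finset (Set G)} (hT : ∀ l, v l ≠ 0 → (σ (pj g (rep l))).2.1 = c → l ∈ T) :
    Lab.sk (etaG A ρ g σ (c, n)) v = ∑ l ∈ T, etaG A ρ g σ (c, n) l * v l := by
  refine finsum_eq_sum_of_support_subset _ fun l hl => ?_
  have h1 := mul_ne_zero_iff.1 (Function.mem_support.1 hl)
  refine hT l (fun h0 => h1.2 (by rw [h0, Complex.ofReal_zero])) ?_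
  by_contra hc
  exact h1.1 (if_neg fun h => hc h.2)

theorem colour (h : GOk A π g ρ ι M P) (σ : VV g → Alf Q Dc P) {n0 : ℕ} (hn : 1 ≤ n0)
    (c : Fin (Dc + 1)) {v v' : Set G → ℝ} {U : Finset (Set G)} (hv : ∀ l, v l ≠ 0 → l ∈ U)
    (hv' : ∀ l, v' l ≠ 0 → l ∈ U) (hU : ∀ l ∈ U, ∀ l' ∈ U, (labG h).Nb l l')
    (hc : ∀ l ∈ U, ∀ l' ∈ U, (σ (pj g (rep l))).2.1 = (σ (pj g (rep l'))).2.1 →
      pj g (rep l) = pj g (rep l')) :
    ∃ S : Finset (Set G), (∀ l ∈ S, (σ (pj g (rep l))).2.1 = c ∧ ∃ y, A.Exc ρ g y ∧ l = {y}) ∧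
      ∑ l ∈ U with (σ (pj g (rep l))).2.1 = c, v l * v' l - ((2 * P + 1 : ℝ) / (4 * n0)) ^ 2 *
        ((∑ l ∈ S, (v (shS g l) - v l) ^ 2 + ∑ l ∈ S, (v' (shS g l) - v' l) ^ 2) / 2) ≤
      ∑ n ∈ Icc (-(n0 : ℤ)) n0, (Lab.sk (etaG A ρ g σ (c, n)) v *
        (starRingEnd ℂ) (Lab.sk (etaG A ρ g σ (c, n)) v')).re := by
  rcases (U.filter fun l => (σ (pj g (rep l))).2.1 = c).eq_empty_or_nonempty with h0 | ⟨l₁, hl₁⟩
  · refine ⟨∅, by simp, ?_⟩
    have e : ∀ n, Lab.sk (etaG A ρ g σ (c, n)) v = 0 := fun n => by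
      rw [sk_eq σ c n (T := ∅) fun l h1 h2 => h0 ▸ mem_filter.2 ⟨hv l h1, h2⟩, sum_empty]
    simp [h0, e]
  obtain ⟨h1, h2⟩ := mem_filter.1 hl₁
  have h3 : ∀ l ∈ U, (σ (pj g (rep l))).2.1 = c → _ := fun l hl hl' =>
    labG_same h (hU l₁ h1 l hl) (hc l₁ h1 l hl (h2.trans hl'.symm))
  by_cases hE : A.Exc ρ g (rep l₁)
  · obtain ⟨y, hy⟩ : ∃ y, y = rep l₁ := ⟨_, rfl⟩
    rw [← hy] at hE h2 h3
    subst h2
    have hg := h.inf y hE
    have inj : Function.Injective fun j : ℤ => ({g ^ j * y} : Set G) := fun i j hij =>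
      injective_zpow_iff_not_isOfFinOrder.2 hg
        (mul_right_cancel (Set.singleton_injective hij))
    have h4 : ∀ l ∈ U, (σ (pj g (rep l))).2.1 = (σ (pj g y)).2.1 →
        ∃ j : ℤ, |j| < P ∧ l = {g ^ j * y} := fun l hl hl' => by
      obtain ⟨j, a1, a2, -, a4⟩ := (h3 l hl hl').2 hE
      exact ⟨j, a1, a2 ▸ a4⟩
    obtain ⟨S, hS⟩ : ∃ S : Finset (Set G),
      S = (Icc (-(P : ℤ)) P).image fun j : ℤ => ({g ^ j * y} : Set G) := ⟨_, rfl⟩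
    have h5 : ∀ l ∈ U, (σ (pj g (rep l))).2.1 = (σ (pj g y)).2.1 → l ∈ S := fun l hl hl' => by
      obtain ⟨j, a1, a2⟩ := h4 l hl hl'
      have := abs_lt.1 a1
      exact hS ▸ mem_image.2 ⟨j, mem_Icc.2 ⟨by omega, by omega⟩, a2.symm⟩
    have h6 : ∀ l ∈ S, (σ (pj g (rep l))).2.1 = (σ (pj g y)).2.1 ∧
        ∃ y, A.Exc ρ g y ∧ l = {y} := fun l hl => by
      obtain ⟨j, -, rfl⟩ := mem_image.1 (hS ▸ hl)
      exact ⟨by rw [rep_sing, pj_pow], _, exc_pow hE j, rfl⟩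
    have h7 : ∀ v : Set G → ℝ, (∀ l, v l ≠ 0 → l ∈ U) → ∀ j : ℤ, (P : ℤ) ≤ |j| →
        v {g ^ j * y} = 0 := fun v hv j hj => by
      by_contra h0
      obtain ⟨i, a1, a2⟩ := h4 _ (hv _ h0) (by rw [rep_sing, pj_pow])
      rw [inj a2] at hj
      omega
    have h8 : ∀ j : ℤ, shS g {g ^ j * y} = {g ^ (j + 1) * y} := fun j => by
      rw [add_comm, zpow_add, zpow_one, mul_assoc]
      exact Set.image_singleton
    have h9 : ∑ l ∈ U with (σ (pj g (rep l))).2.1 = (σ (pj g y)).2.1, v l * v' l =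
        ∑ l ∈ S, v l * v' l :=
      sum_subset (fun l hl => h5 l (mem_filter.1 hl).1 (mem_filter.1 hl).2) fun l hl hl' => by
        by_contra h0
        exact hl' (mem_filter.2 ⟨hv l (left_ne_zero_of_mul h0), (h6 l hl).1⟩)
    refine ⟨S, h6, ?_⟩
    simp only [h9, fun n => sk_eq (A := A) (ρ := ρ) σ _ n fun l a1 a2 => h5 l (hv l a1) a2,
      fun n => sk_eq (A := A) (ρ := ρ) σ _ n fun l a1 a2 => h5 l (hv' l a1) a2]
    simp only [hS, sum_image inj.injOn, h8, eta_exc hg σ hE]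
    exact dft_int P hn _ (h7 v hv) (h7 v' hv')
  · refine ⟨∅, by simp, ?_⟩
    have h4 : ∀ l ∈ U, (σ (pj g (rep l))).2.1 = c → l ∈ ({l₁} : Finset (Set G)) :=
      fun l hl hl' => mem_singleton.2 ((h3 l hl hl').1 hE).symm
    obtain ⟨x, hx, -⟩ := hU l₁ h1 l₁ h1
    have h5 : ∀ n, etaG A ρ g σ (c, n) l₁ = if n = 0 then 1 else 0 := fun n => by
      rw [etaG, if_pos ⟨(fG_lt h.ι_pos hx).1, h2⟩, if_neg hE]
    have h6 : (U.filter fun l => (σ (pj g (rep l))).2.1 = c) = {l₁} :=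
      eq_singleton_iff_unique_mem.2 ⟨hl₁, fun l hl =>
        mem_singleton.1 (h4 l (mem_filter.1 hl).1 (mem_filter.1 hl).2)⟩
    simp only [h6, fun n => sk_eq (A := A) (ρ := ρ) σ _ n fun l a1 a2 => h4 l (hv l a1) a2,
      fun n => sk_eq (A := A) (ρ := ρ) σ _ n fun l a1 a2 => h4 l (hv' l a1) a2, sum_singleton, h5]
    rw [sum_eq_single (0 : ℤ) (fun n _ hn => by simp [hn]) fun h0 => absurd (by simp) h0]
    simp

end ColX

theorem col_pair (G : Type u) [Group G] : ∃ C : ℝ, 1 ≤ C ∧ ∀ (A : Gen G) (π : Par) (g : G)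
    (ρ : ℕ) (ι : ℝ) (M P : ℕ) (h : GOk A π g ρ ι M P) (Q Dc : ℕ) (σ : VV g → Alf Q Dc P)
    (n0 : ℕ), 1 ≤ n0 → ∀ l₀ : Set G,
    Set.InjOn (fun a => (σ a).2.1) ((A.sch g).ball (2 * π.Rs) (pj g (rep l₀))) →
    (labG h).Pair (univ ×ˢ Icc (-(n0 : ℤ)) n0) (etaG A ρ g σ)
      (C * (π.b ^ 2 * π.Rs ^ 2) ^ 2 / n0 ^ 2) l₀ := by
  obtain ⟨C, C1, hC⟩ := grad_le G
  have K1 := one_le_CK
  refine ⟨25 * C * CK ^ 2, by nlinarith [one_le_pow₀ (n := 2) K1], ?_⟩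
  intro A π g ρ ι M P h Q Dc σ n0 hn l₀ hinj U hU hl₀ ψ ψ' u u' hψ hψ' hu hu' h1 h1'
  have hR : (π.Rt : ℝ) ≤ π.Rs := by
    rw [Par.Rs_eq]
    linarith [(Nat.cast_nonneg π.Rt : (0 : ℝ) ≤ π.Rt)]
  have hf : {l | ψ l < π.Rt ∨ ψ' l < π.Rt}.Finite := (hψ.fin.union hψ'.fin).subset fun l hl =>
    hl.imp (fun a => a.trans_le hR) fun a => a.trans_le hR
  have h2 : ∀ l ∈ hf.toFinset, l ∈ U := fun l hl => (hf.mem_toFinset.1 hl).elim (h1 l) (h1' l)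
  have hv : ∀ l, (labG h).dB ψ u l ≠ 0 → l ∈ hf.toFinset := fun l hl =>
    hf.mem_toFinset.2 (Or.inl (not_le.1 fun a => hl (Lab.B_zero a u).2))
  have hv' : ∀ l, (labG h).dB ψ' u' l ≠ 0 → l ∈ hf.toFinset := fun l hl =>
    hf.mem_toFinset.2 (Or.inr (not_le.1 fun a => hl (Lab.B_zero a u').2))
  have h3 := fun c => ColX.colour h σ hn c hv hv' (fun l a l' a' => hU l (h2 l a) l' (h2 l' a'))
    fun l a l' a' e => hinj (labG_nb h (hU l (h2 l a) l₀ hl₀)) (labG_nb h (hU l' (h2 l' a') l₀ hl₀)) e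
  choose S hS hle using h3
  have h4 := sum_le_sum fun c (_ : c ∈ univ) => hle c
  have hd : Set.PairwiseDisjoint ((univ : Finset (Fin (Dc + 1))) : Set (Fin (Dc + 1))) S :=
    fun c _ c' _ hne => disjoint_left.2 fun l a a' => hne ((hS c l a).1.symm.trans (hS c' l a').1)
  have h5 : ∀ l ∈ univ.biUnion S, ∀ x, |(labG h).f ((labG h).sh l) x - (labG h).f l x| ≤ ι :=
    fun l hl x => by
      obtain ⟨c, -, hc⟩ := mem_biUnion.1 hl
      obtain ⟨y, hy, rfl⟩ := (hS c l hc).2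
      exact labG_grad h hy x
  have h6 := hC π g _ (labG h) h.ok.1 ψ u _ ι hψ hu h.ι_pos.le h.hb _ h5
  have h7 := hC π g _ (labG h) h.ok.1 ψ' u' _ ι hψ' hu' h.ι_pos.le h.hb _ h5
  rw [sum_biUnion hd] at h6 h7
  rw [sum_sub_distrib, sum_fiberwise, ← mul_sum, ← sum_div, sum_add_distrib] at h4
  rw [sum_product, finsum_eq_sum_of_support_subset _ fun l hl =>
    mem_coe.2 (hv l (left_ne_zero_of_mul (Function.mem_support.1 hl)))]
  refine le_trans (sub_le_sub_left ?_ _) h4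
  have h8 := add_le_add h6 h7
  have n0p : (0 : ℝ) < n0 := by exact_mod_cast hn
  refine (mul_le_mul_of_nonneg_left (div_le_div_of_nonneg_right h8 zero_le_two)
    (sq_nonneg _)).trans ?_
  have h9 : ((2 * P + 1) * ι) ^ 2 ≤ (10 * π.Rs : ℝ) ^ 2 :=
    pow_le_pow_left₀ (mul_nonneg (by positivity) h.ι_pos.le) h.hP' 2
  have h10 := mul_le_mul_of_nonneg_left h9
    (show 0 ≤ C * (π.b ^ 2 * CK * π.Rs) ^ 2 / (4 * (n0 : ℝ) ^ 2) by positivity)
  refine le_trans (le_of_eq ?_) (h10.trans_eq ?_) <;> field_simp <;> ring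

end

end Vale.Agent.P184L
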