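import Vale.Agent.P184L.EstAlg
import Vale.Agent.P184L.Th0

/-! The connection `conn R a = ψ(N) a + (1 - N ψ(N)) th0`, `N = nn a`, `ψ = nrm R`. Hint: `nrm R` is smooth (it vanishes for `y ≤ R / 8`), `0 ≤ nrm R y ≤ 8 / R ≤ 1`, `y * nrm R y = smoothTransition (8 y / R - 1)` for all `y` (also `y = 0`), its derivative and that of `nrm R` are bounded by an absolute constant when `8 ≤ R`; for `y ≥ R / 4` one has `y * nrm R y = 1` with derivative `0` (a maximum). `nn` is invariant because `rotL 1 = 1`, `faceL j 1 = 1`. `curv (f • a) T = f T • curv a T + vecMulVec (co (fderiv f T)) (co (a T))`. The gradient of `N` is `∂_i N = ∑ j, curv a T i j = ∑ j, (curv a T i j - curv a T j i)` since `∑ j, curv a T j i = 0` by `transl`; bound it by `Est.row`. Use `th0_nuc`, `th0_wn`. -/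

namespace Vale.Agent.P184L

open Finset MeasureTheory ProbabilityTheory Classical Vale.Agent.P184
open scoped ContDiff

noncomputable section

universe u

variable {G : Type u} [Group G]

namespace ConnX

theorem nrm_zero {R y : ℝ} (hR : 0 < R) (h : y ≤ R / 8) : nrm R y = 0 := by
  have : 8 * y / R - 1 ≤ 0 := by
    rw [sub_nonpos, div_le_one hR]
    linarith
  rw [nrm, Real.smoothTransition.zero_of_nonpos this, zero_div]

theorem nrm_ev {R y : ℝ} (hR : 0 < R) (h : y < R / 8) : nrm R =ᶠ[nhds y] fun _ => 0 := by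
  filter_upwards [Iio_mem_nhds h] with z hz
  exact nrm_zero hR (le_of_lt hz)

theorem mul_nrm (R : ℝ) : (fun y => y * nrm R y) =
    fun y => Real.smoothTransition (8 * y / R - 1) := by
  funext y
  by_cases h : y = 0
  · rw [h, zero_mul, Real.smoothTransition.zero_of_nonpos (by norm_num)]
  · rw [nrm, mul_div_cancel₀ _ h]

theorem st_one {u : ℝ} (h : 1 ≤ u) : deriv Real.smoothTransition u = 0 := by
  refine IsLocalMax.deriv_eq_zero (Filter.Eventually.of_forall fun v => ?_)
  rw [Real.smoothTransition.one_of_one_le h]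
  exact Real.smoothTransition.le_one v

theorem st_zero {u : ℝ} (h : u ≤ 0) : deriv Real.smoothTransition u = 0 := by
  refine IsLocalMin.deriv_eq_zero (Filter.Eventually.of_forall fun v => ?_)
  rw [Real.smoothTransition.zero_of_nonpos h]
  exact Real.smoothTransition.nonneg v

theorem st_bd : ∃ B : ℝ, 0 ≤ B ∧ ∀ u, |deriv Real.smoothTransition u| ≤ B := by
  have hc : Continuous (deriv Real.smoothTransition) :=
    (Real.smoothTransition.contDiff (n := 1)).continuous_deriv le_rfl
  obtain ⟨B, hB⟩ := (isCompact_Icc (a := (0 : ℝ)) (b := 1)).exists_bound_of_continuousOn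
    hc.continuousOn
  have h0 : 0 ≤ B := (norm_nonneg _).trans (hB 0 ⟨le_rfl, zero_le_one⟩)
  refine ⟨B, h0, fun u => ?_⟩
  by_cases h1 : u ≤ 0
  · rwa [st_zero h1, abs_zero]
  by_cases h2 : 1 ≤ u
  · rwa [st_one h2, abs_zero]
  exact hB u ⟨by linarith, by linarith⟩

theorem st_deriv (R y : ℝ) : HasDerivAt (fun y => Real.smoothTransition (8 * y / R - 1))
    (deriv Real.smoothTransition (8 * y / R - 1) * (8 / R)) y := by
  have h1 : HasDerivAt (fun y : ℝ => 8 * y / R - 1) (8 / R) y := by
    simpa using (((hasDerivAt_id y).const_mul 8).div_const R).sub_const 1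
  have h2 := ((Real.smoothTransition.contDiff (n := 1)).differentiable one_ne_zero
    (8 * y / R - 1)).hasDerivAt
  exact h2.comp y h1

theorem ones (k : ℕ) : (fun _ => 1 : E k) = ∑ j, ev j := by
  funext i
  simp [ev, Finset.sum_apply, Pi.single_apply]

theorem snoc_one {k : ℕ} (i : Fin (k + 1)) :
    Fin.snoc (α := fun _ => ℝ) (fun _ : Fin k => (1 : ℝ)) 1 i = 1 := by
  refine Fin.lastCases ?_ (fun j => ?_) i <;> simp

theorem diff_ev {k : ℕ} {a : Form k} (ha : ContDiff ℝ ∞ a) (v : E k) :
    Differentiable ℝ fun S => a S v :=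
  (ha.clm_apply contDiff_const).differentiable (by simp)

end ConnX

open ConnX

theorem contDiff_nrm {R : ℝ} (hR : 0 < R) : ContDiff ℝ ∞ (nrm R) := by
  rw [contDiff_iff_contDiffAt]
  intro y
  by_cases h : y < R / 8
  · exact contDiffAt_const.congr_of_eventuallyEq (nrm_ev hR h)
  · have h0 : y ≠ 0 := by
      intro h0
      rw [h0] at h
      exact h (by positivity)
    refine ContDiffAt.div ?_ contDiffAt_id h0
    exact Real.smoothTransition.contDiffAt.comp y
      (((contDiffAt_const.mul contDiffAt_id).div_const R).sub contDiffAt_const)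

theorem nrm_bounds : ∃ C : ℝ, 1 ≤ C ∧ ∀ R : ℝ, 8 ≤ R → ∀ y : ℝ,
    0 ≤ nrm R y ∧ nrm R y ≤ 8 / R ∧ 0 ≤ y * nrm R y ∧ y * nrm R y ≤ 1 ∧ |deriv (nrm R) y| ≤ C ∧
      |deriv (fun y => y * nrm R y) y| ≤ C ∧
      (R / 4 ≤ y → y * nrm R y = 1 ∧ deriv (fun y => y * nrm R y) y = 0) := by
  obtain ⟨B, hB0, hB⟩ := st_bd
  refine ⟨B + 1, by linarith, fun R hR y => ?_⟩
  have hR0 : 0 < R := by linarith
  have h8 : 8 / R ≤ 1 := (div_le_one hR0).2 hR
  have h80 : 0 ≤ 8 / R := by positivity
  have e := congrFun (mul_nrm R) y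
  have s0 := Real.smoothTransition.nonneg (8 * y / R - 1)
  have s1 := Real.smoothTransition.le_one (8 * y / R - 1)
  have hd : |deriv Real.smoothTransition (8 * y / R - 1) * (8 / R)| ≤ B := by
    rw [abs_mul, abs_of_nonneg h80]
    have := mul_le_mul (hB (8 * y / R - 1)) h8 h80 hB0
    linarith
  rw [e, mul_nrm, (st_deriv R y).deriv]
  refine ⟨?_, ?_, s0, s1, ?_, by linarith, fun h => ?_⟩
  · by_cases h : y ≤ R / 8
    · rw [nrm_zero hR0 h]
    · exact div_nonneg s0 (by linarith)
  · by_cases h : y ≤ R / 8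
    · rwa [nrm_zero hR0 h]
    · have hy : 0 < y := by linarith
      rw [nrm, div_le_div_iff₀ hy hR0]
      nlinarith
  · by_cases h : y < R / 8
    · rw [(nrm_ev hR0 h).deriv_eq, deriv_const, abs_zero]
      linarith
    · have hy : 1 ≤ y := by linarith
      have hy0 : y ≠ 0 := by positivity
      have h1 := ((st_deriv R y).div (hasDerivAt_id y) hy0).deriv
      have e2 : nrm R = (fun y => Real.smoothTransition (8 * y / R - 1)) / id := rfl
      rw [e2, h1]
      simp only [id, mul_one]
      rw [abs_div, abs_of_pos (by positivity : 0 < y ^ 2), div_le_iff₀ (by positivity)]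
      refine (abs_sub _ _).trans ?_
      rw [abs_mul, abs_of_nonneg s0, abs_of_nonneg (by linarith : 0 ≤ y)]
      have h2 := mul_le_mul_of_nonneg_right hd (by linarith : 0 ≤ y)
      have h3 : y ≤ y ^ 2 := by nlinarith
      have h4 := mul_le_mul_of_nonneg_left h3 hB0
      linarith
  · have h1 : 1 ≤ 8 * y / R - 1 := by
      rw [le_sub_iff_add_le, le_div_iff₀ hR0]
      linarith
    exact ⟨Real.smoothTransition.one_of_one_le h1, by rw [st_one h1, zero_mul]⟩

theorem curv_smul {k : ℕ} {f : E k → ℝ} {a : Form k} (hf : ContDiff ℝ ∞ f) (ha : ContDiff ℝ ∞ a)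
    (T : E k) : curv (fun S => f S • a S) T =
      f T • curv a T + Matrix.vecMulVec (co (fderiv ℝ f T)) (co (a T)) := by
  ext i j
  have h1 := hf.differentiable (by simp) T
  have h2 := diff_ev ha (ev j) T
  have e : (fun S => (f S • a S) (ev j)) = fun S => f S * a S (ev j) := rfl
  simp only [curv, e, Matrix.add_apply, Matrix.smul_apply, Matrix.vecMulVec_apply, co]
  rw [fderiv_fun_mul h1 h2]
  simp only [_root_.add_apply, _root_.smul_apply, smul_eq_mul]
  ring

theorem co_fderiv_nn {g : G} {a : Fam G} (h : IsPre g a) (k : ℕ) (x : Fin (k + 1) → G)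
    (T : E (k + 1)) : co (fderiv ℝ (nn (a k x)) T) =
      fun i => ∑ j, (curv (a k x) T i j - curv (a k x) T j i) := by
  funext i
  have hs := h.smooth k x
  have e : nn (a k x) = fun S => ∑ j, a k x S (ev j) := by
    funext S
    rw [nn, ones, map_sum]
  have h1 : ∑ j, curv (a k x) T j i = 0 := by
    have e1 : ∑ j, curv (a k x) T j i =
        fderiv ℝ (fun S => a k x S (ev i)) T fun _ => 1 := by
      rw [ones, map_sum]
      rfl
    have d1 : HasDerivAt (fun s : ℝ => T + fun _ => s) (fun _ => 1) 0 :=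
      (hasDerivAt_pi.2 fun _ => hasDerivAt_id 0).const_add T
    have d2 := (diff_ev hs (ev i) (T + fun _ => 0)).hasFDerivAt.comp_hasDerivAt 0 d1
    have e2 : ((fun S => a k x S (ev i)) ∘ fun s : ℝ => T + fun _ => s) =
        fun _ => a k x T (ev i) := by
      funext s
      simp only [Function.comp, h.transl]
    have e3 : (T + fun _ => 0) = T := add_zero T
    rw [e2, e3] at d2
    rw [e1]
    exact d2.unique (hasDerivAt_const _ _)
  rw [Finset.sum_sub_distrib, h1, sub_zero, co, e,
    fderiv_fun_sum fun j _ => diff_ev hs (ev j) T, _root_.sum_apply]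
  rfl

theorem conn_pre {g : G} {a : Fam G} (h : IsPre g a) {R : ℝ} (hR : 0 < R) :
    IsPre g (conn R a) := by
  have h0 := th0_pre g
  refine ⟨fun k x => ?_, fun k x T s => ?_, fun k x T v => ?_, fun k x j T v => ?_⟩
  · have h1 : ContDiff ℝ ∞ (nn (a k x)) := (h.smooth k x).clm_apply contDiff_const
    have h2 := (contDiff_nrm hR).comp h1
    exact (h2.smul (h.smooth k x)).add ((contDiff_const.sub (h1.mul h2)).smul (h0.smooth k x))
  · have h1 := h0.transl k x T s
    simp only [conn, nn, h.transl, h1]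
  · have e : rotL (fun _ => 1 : E (k + 1)) = fun _ => 1 := funext fun i => snoc_one _
    have h1 : nn (a k (rotX g x)) (rotA T) = nn (a k x) T := by
      rw [nn, nn, ← h.rot k x T, e]
    have h2 := h0.rot k x T v
    simp only [conn, h1, _root_.add_apply, _root_.smul_apply, h.rot, h2]
  · have e : faceL j (fun _ => 1 : E (k + 1)) = fun _ => 1 := funext fun i => snoc_one _
    have h1 : nn (a (k + 1) x) (faceA j T) = nn (a k fun i => x (j.succAbove i)) T := by
      rw [nn, nn, ← h.face k x j T, e]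
    have h2 := h0.face k x j T v
    simp only [conn, h1, _root_.add_apply, _root_.smul_apply, h.face,
      h2]

omit [Group G] in
theorem nn_conn (a : Fam G) (R : ℝ) (k : ℕ) (x : Fin (k + 1) → G) (T : E (k + 1)) :
    nn (conn R a k x) T = 1 := by
  have h1 := nn_th0 k T
  have e : nn (conn R a k x) T = nrm R (nn (a k x) T) * nn (a k x) T +
      (1 - nn (a k x) T * nrm R (nn (a k x) T)) * nn (th0 k) T := rfl
  rw [e, h1]
  ring

end

end Vale.Agent.P184L
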