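import Vale.Agent.P184.Main

/-! Definitions for the l1 Bass theorem: forms on cells, kernels, Gibbs vectors. -/

namespace Vale.Agent.P184L

open Finset MeasureTheory
open scoped ContDiff

noncomputable section

/-- Coordinates. -/
abbrev E (k : ℕ) := Fin k → ℝ

/-- One-forms. -/
abbrev Form (k : ℕ) := E k → E k →L[ℝ] ℝ

/-- Exterior algebra of coefficient vectors. -/
abbrev Ext (k : ℕ) := ExteriorAlgebra ℝ (E k)

/-- Basis vector. -/
def ev {k : ℕ} (j : Fin k) : E k := Pi.single j 1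

/-- Top coefficient of an element of the exterior algebra. -/
def vol (k : ℕ) : Ext k →ₗ[ℝ] ℝ :=
  ExteriorAlgebra.liftAlternating
    (Function.update (fun _ => 0) k (Pi.basisFun ℝ (Fin k)).det)

/-- The two-form with coefficient matrix `M`. -/
def two {k : ℕ} (M : Matrix (Fin k) (Fin k) ℝ) : Ext k :=
  ∑ i, ∑ j, M i j • (ExteriorAlgebra.ι ℝ (ev i) * ExteriorAlgebra.ι ℝ (ev j))

/-- Coefficient matrix of the exterior derivative. -/
def curv {k : ℕ} (a : Form k) (T : E k) : Matrix (Fin k) (Fin k) ℝ :=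
  fun i j => fderiv ℝ (fun S => a S (ev j)) T (ev i)

/-- Coefficient vector of a covector. -/
def co {k : ℕ} (φ : E k →L[ℝ] ℝ) : E k := fun j => φ (ev j)

/-- The linear map `v ↦ (0, v)`. -/
def consL (k : ℕ) : E k →L[ℝ] E (k + 1) :=
  ContinuousLinearMap.pi fun i => Fin.cases 0 (fun j => ContinuousLinearMap.proj j) i

/-- Restriction of a form to the slice `T 0 = 0`. -/
def sl {k : ℕ} (a : Form (k + 1)) : Form k := fun τ => (a (consL k τ)).comp (consL k)

/-- The ordered simplex. -/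
def simp (k : ℕ) : Set (E k) := {τ | Monotone τ ∧ ∀ i, 0 ≤ τ i ∧ τ i ≤ 1}

/-- Ordered jump times. -/
def Ord {k : ℕ} (T : E (k + 1)) : Prop := Monotone T ∧ ∀ i, T i ≤ T 0 + 1

/-- Jump times with the first jump of the next period appended. -/
def nx {k : ℕ} (T : E (k + 1)) : Fin (k + 2) → ℝ := Fin.snoc (α := fun _ => ℝ) T (T 0 + 1)

/-- Embedding of the face where vertex `j` has zero duration. -/
def faceA {k : ℕ} (j : Fin (k + 2)) (T : E (k + 1)) : E (k + 2) :=
  fun i => nx T (j.predAbove i.castSucc)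

/-- Linear part of `faceA`. -/
def faceL {k : ℕ} (j : Fin (k + 2)) (v : E (k + 1)) : E (k + 2) :=
  fun i => Fin.snoc (α := fun _ => ℝ) v (v 0) (j.predAbove i.castSucc)

/-- Rotation of jump times. -/
def rotA {k : ℕ} (T : E (k + 1)) : E (k + 1) := fun i => nx T i.succ

/-- Linear part of `rotA`. -/
def rotL {k : ℕ} (v : E (k + 1)) : E (k + 1) :=
  fun i => Fin.snoc (α := fun _ => ℝ) v (v 0) i.succ

variable {G : Type*} [Group G]

/-- Rotation of a twisted cyclic word. -/
def rotX (g : G) {k : ℕ} (x : Fin (k + 1) → G) : Fin (k + 1) → G :=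
  fun i => Fin.snoc (α := fun _ => G) x (g * x 0) i.succ

/-- The vertex before vertex `j`. -/
def prv (g : G) {k : ℕ} (x : Fin (k + 1) → G) : Fin (k + 1) → G :=
  fun j => Fin.cons (α := fun _ => G) (g⁻¹ * x (Fin.last k)) x j.castSucc

/-- Families of one-forms on all cells. -/
abbrev Fam (G : Type*) := ∀ k : ℕ, (Fin (k + 1) → G) → Form (k + 1)

/-- Invariant, face compatible families. -/
structure IsPre (g : G) (a : Fam G) : Prop where
  smooth : ∀ k x, ContDiff ℝ ∞ (a k x)
  transl : ∀ k x T (s : ℝ), a k x (T + fun _ => s) = a k x T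
  rot : ∀ k x T v, a k (rotX g x) (rotA T) (rotL v) = a k x T v
  face : ∀ k (x : Fin (k + 2) → G) j T v,
    a (k + 1) x (faceA j T) (faceL j v) = a k (fun i => x (j.succAbove i)) T v

/-- Value on the rotation field. -/
def nn {k : ℕ} (a : Form k) (T : E k) : ℝ := a T fun _ => 1

/-- The model connection. -/
def th0 (k : ℕ) : Form (k + 1) :=
  fun T => ∑ j, (nx T j.succ - T j) • ContinuousLinearMap.proj j

/-- Characteristic number of a cell. -/
def chr {k : ℕ} (n : ℕ) (a : Form (k + 1)) : ℝ :=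
  ∫ τ in simp k, vol k (two (curv (sl a) τ) ^ n)

/-- The transgression polynomial. -/
def tp {k : ℕ} (n : ℕ) (u : E k) (M N : Matrix (Fin k) (Fin k) ℝ) : Ext k :=
  ExteriorAlgebra.ι ℝ u * ∑ i ∈ range (n + 1), two M ^ i * two N ^ (n - i)

/-- The transgression form of two one-forms. -/
def tf {k : ℕ} (n : ℕ) (a b : Form k) (τ : E k) : Ext k :=
  tp n (co (a τ - b τ)) (curv a τ) (curv b τ)

/-- Transgression number of a cell. -/
def trg {k : ℕ} (n : ℕ) (a : Form (k + 1)) : ℝ :=
  ∫ τ in simp k, vol k (tf n (sl a) (sl (th0 k)) τ)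

/-- Face maps of the ordered simplex. -/
def fc {d : ℕ} (j : Fin (d + 2)) (σ : E d) : E (d + 1) :=
  Fin.tail (faceA j (consL d σ))

/-- Matrix of the linear part of `fc`. -/
def fcM {d : ℕ} (j : Fin (d + 2)) : Matrix (Fin (d + 1)) (Fin d) ℝ :=
  fun i l => faceL j (consL d (ev l)) i.succ

/-- Pull-back of coefficient vectors along the linear map with matrix `A`. -/
def pb {k d : ℕ} (A : Matrix (Fin k) (Fin d) ℝ) : Ext k →ₐ[ℝ] Ext d :=
  ExteriorAlgebra.map (Matrix.toLin' A.transpose)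

/-- Weighted Euclidean norm. -/
def wn {k : ℕ} (w u : E k) : ℝ := √(∑ j, (u j / w j) ^ 2)

/-- Nuclear bound for the antisymmetric part of a matrix, by duality. -/
def Nuc {k : ℕ} (w : E k) (M : Matrix (Fin k) (Fin k) ℝ) (lam : ℝ) : Prop :=
  ∀ (A : Matrix (Fin k) (Fin k) ℝ) (c : ℝ), (∀ i j, A j i = -A i j) → 0 ≤ c →
    (∀ u v : E k, |∑ i, ∑ j, u i * v j * A i j| ≤ c * wn w u * wn w v) →
    |∑ i, ∑ j, M i j * A i j| ≤ c * lam

/-- A matrix is nuclear with bound `lam` up to rank one terms of sizes `ls`. -/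
def Split {k : ℕ} (w : E k) (M : Matrix (Fin k) (Fin k) ℝ) (lam : ℝ) (ls : List ℝ) : Prop :=
  ∃ (S : Matrix (Fin k) (Fin k) ℝ) (us : List (E k × E k)), Nuc w S lam ∧
    M = S + (us.map fun p => Matrix.vecMulVec p.1 p.2).sum ∧
    List.Forall₂ (fun p l => wn w p.1 * wn w p.2 ≤ l) us ls

/-- Size of a form at a point: nuclear part `lam`, logarithmic size `P` of the rank one part. -/
def Est {k : ℕ} (w : E k) (z : ℝ) (a : Form k) (T : E k) (lam P : ℝ) : Prop :=
  0 ≤ lam ∧ ∃ ls : List ℝ, Split w (curv a T) lam ls ∧ wn w (co (a T)) ≤ lam + ls.sum ∧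
    (ls.map fun l => Real.log (1 + z * l)).sum ≤ P

end

end Vale.Agent.P184L
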