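import Vale.Agent.P184L.Defs

/-! Kernels, label systems, Gibbs vectors and the basic forms. -/

namespace Vale.Agent.P184L

open Finset MeasureTheory
open scoped ContDiff

noncomputable section

/-- Smooth step from `0` (left of `-1`) to `1` (right of `1`). -/
def P0 (u : ℝ) : ℝ := Real.smoothTransition ((u + 1) / 2)

/-- Primitive of `P0`. -/
def P1 (u : ℝ) : ℝ := ∫ v in (-1 : ℝ)..u, P0 v

/-- The step at scale `r`. -/
def Pr (r u : ℝ) : ℝ := P0 (u / r)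

/-- Primitive of `Pr r - Pr r'`. -/
def Qr (r r' u : ℝ) : ℝ := r * P1 (u / r) - r' * P1 (u / r')

/-- A bound for the first two derivatives of `P0`. -/
def CK : ℝ := 1 + (⨆ u, |deriv P0 u|) + ⨆ u, |deriv (deriv P0) u|

/-- `P` is smooth and constant on both sides of `[-w, w]`. -/
def Ker (P : ℝ → ℝ) (w : ℝ) : Prop :=
  ContDiff ℝ ∞ P ∧ 0 < w ∧ (∀ u, u ≤ -w → P u = P (-w)) ∧ ∀ u, w ≤ u → P u = P w

/-- Weight of vertex `i` in period `p` seen from time `t`. -/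
def wt {k : ℕ} (P : ℝ → ℝ) (T : E (k + 1)) (t : ℝ) (p : ℤ) (i : Fin (k + 1)) : ℝ :=
  P (nx T i.succ + p - t) - P (T i + p - t)

/-- Periodisation of the absolute value of a function. -/
def per (q : ℝ → ℝ) (u : ℝ) : ℝ := ∑ᶠ p : ℤ, |q (u + p)|

variable {G : Type*} [Group G]

/-- Average of `y` along the twisted step loop against the kernel `P'`. -/
def av (g : G) (P : ℝ → ℝ) (y : G → ℝ) {k : ℕ} (x : Fin (k + 1) → G) (T : E (k + 1))
    (t : ℝ) : ℝ :=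
  ∑ᶠ p : ℤ, ∑ i, y (g ^ p * x i) * wt P T t p i

/-- Numerical parameters. -/
structure Par where
  b : ℝ
  R : ℕ
  k : ℕ

namespace Par

variable (π : Par)

/-- Cutoff level of the potentials. -/
def Rt : ℕ := 4 * (π.R + 1)

/-- Truncation level of the distance. -/
def Rs : ℕ := 3 * (π.Rt + 1)

/-- Length scale of the polynomial profile. -/
def L : ℝ := 2 * π.k / π.b

/-- Admissible parameters. -/
def Ok : Prop := 8 ≤ π.b ∧ 8 ≤ π.R ∧ π.b ^ 2 * (π.Rs : ℝ) ^ 2 ≤ π.k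

/-- Polynomial profile. -/
def H0 (s : ℝ) : ℝ := (1 - s / π.L) ^ π.k

/-- Truncated profile. -/
def H (s : ℝ) : ℝ := π.H0 s * Real.smoothTransition ((π.Rt - s) / (π.Rt / 2))

/-- Weight function with derivative `-b H ^ 2`. -/
def gg (s : ℝ) : ℝ := π.b * ∫ u in s..(π.Rt : ℝ), π.H u ^ 2

/-- Weight of the cemetery. -/
def z0 : ℝ := Real.exp (-(π.b * π.R))

/-- Bound for the mass of the labels seeing one point. -/
def Qm : ℝ := Real.exp (π.b * π.Rt / 8)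

end Par

/-- A label system. -/
structure Lab (π : Par) (g : G) (L : Type*) where
  sh : L ≃ L
  f : L → G → ℝ
  pr : L → ℝ
  f_sh : ∀ l x, f (sh l) (g * x) = f l x
  pr_sh : ∀ l, pr (sh l) = pr l
  f_nonneg : ∀ l x, 0 ≤ f l x
  f_le : ∀ l x, f l x ≤ π.Rs
  pr_nonneg : ∀ l, 0 ≤ pr l
  fin : ∀ x, {l | f l x < π.Rs}.Finite
  mass_le : ∀ x (s : Finset L), (∀ l ∈ s, f l x < π.Rs) → ∑ l ∈ s, pr l ≤ π.Qm

namespace Lab

variable {π : Par} {g : G} {L : Type*} (Λ : Lab π g L)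

/-- Two labels see a common point. -/
def Nb (l l' : L) : Prop := ∃ x, Λ.f l x < π.Rs ∧ Λ.f l' x < π.Rs

/-- Partition function. -/
def Z (ψ : L → ℝ) : ℝ := π.z0 + ∑ᶠ l, Λ.pr l * π.gg (ψ l)

/-- Gibbs vector. -/
def B (ψ : L → ℝ) (l : L) : ℝ := √(Λ.pr l) * π.H (ψ l) / √(Λ.Z ψ)

/-- Free energy. -/
def F (ψ : L → ℝ) : ℝ := -Real.log (Λ.Z ψ) / π.b

/-- Derivative of the Gibbs vector at `ψ` in direction `u`. -/
def dB (ψ u : L → ℝ) (l : L) : ℝ :=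
  √(Λ.pr l) * deriv π.H (ψ l) * u l / √(Λ.Z ψ) +
    π.b / 2 * Λ.B ψ l * ∑ᶠ l', Λ.B ψ l' ^ 2 * u l'

/-- Potentials coming from finitely supported probability measures. -/
def Adm (ψ : L → ℝ) : Prop :=
  ∃ (s : Finset G) (p : G → ℝ), (∀ x, 0 ≤ p x) ∧ ∑ x ∈ s, p x = 1 ∧
    ∀ l, ψ l = ∑ x ∈ s, p x * Λ.f l x

/-- Directions coming from finitely supported signed measures of bounded variation. -/
def Sgn (a : ℝ) (u : L → ℝ) : Prop :=
  ∃ (s : Finset G) (c : G → ℝ), ∑ x ∈ s, |c x| ≤ a ∧ ∀ l, u l = ∑ x ∈ s, c x * Λ.f l x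

/-- Exponential sums over the labels seeing a point are bounded. -/
def SumLe : Prop := ∀ x (s : Finset L), (∀ l ∈ s, Λ.f l x < π.Rs) →
  ∑ l ∈ s, Λ.pr l * Real.exp (-(π.b / 2 * Λ.f l x)) ≤ Real.exp π.b

/-- A label does not see two consecutive translates of a point, or sees at most `K` translates. -/
def Sparse (K : ℕ) : Prop := ∀ l x,
  (∀ p : ℤ, ¬ (Λ.f l (g ^ p * x) < π.Rs ∧ Λ.f l (g ^ (p + 1) * x) < π.Rs)) ∨
    ∀ s : Finset ℤ, (∀ p ∈ s, Λ.f l (g ^ p * x) < π.Rs) → s.card ≤ K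

/-- Smoothed potential. -/
def Psi (r : ℝ) {k : ℕ} (x : Fin (k + 1) → G) (T : E (k + 1)) (t : ℝ) (l : L) : ℝ :=
  av g (Pr r) (Λ.f l) x T t

/-- Time primitive of the change of potential between two scales. -/
def Xi (r r' : ℝ) {k : ℕ} (x : Fin (k + 1) → G) (T : E (k + 1)) (t : ℝ) (l : L) : ℝ :=
  av g (Qr r r') (Λ.f l) x T t

/-- Time derivative of the potential. -/
def dPsi (r : ℝ) {k : ℕ} (x : Fin (k + 1) → G) (T : E (k + 1)) (t : ℝ) (l : L) : ℝ :=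
  -av g (deriv (Pr r)) (Λ.f l) x T t

/-- Time derivative of the Gibbs vector. -/
def dBt (r : ℝ) {k : ℕ} (x : Fin (k + 1) → G) (T : E (k + 1)) (t : ℝ) (l : L) : ℝ :=
  Λ.dB (Λ.Psi r x T t) (Λ.dPsi r x T t) l

/-- Mean free energy at scale `r`. -/
def A (r : ℝ) {k : ℕ} (x : Fin (k + 1) → G) (T : E (k + 1)) : ℝ :=
  ∫ t in (0 : ℝ)..1, Λ.F (Λ.Psi r x T t)

/-- The form used at small scales. -/
def aI (r r' : ℝ) : Fam G := fun _ x T =>
  -∫ t in (0 : ℝ)..1, ∑ᶠ l, Λ.B (Λ.Psi r x T t) l ^ 2 • fderiv ℝ (fun S => Λ.Xi r r' x S t l) T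

/-- Sketch of a vector. -/
def sk (η : L → ℂ) (v : L → ℝ) : ℂ := ∑ᶠ l, η l * v l

/-- Fourier coefficient of the sketched Gibbs vector. -/
def hat (r : ℝ) (η : L → ℂ) (ξ : ℝ) {k : ℕ} (x : Fin (k + 1) → G) (T : E (k + 1)) : ℂ :=
  ∫ t in (0 : ℝ)..1, sk η (Λ.B (Λ.Psi r x T t)) * Complex.exp (-(Complex.I * ξ * t))

/-- The rank two form attached to a Fourier coefficient. -/
def aF (r : ℝ) (η : L → ℂ) (ξ : ℝ) : Fam G := fun _ x T =>
  (-ξ) • ((Λ.hat r η ξ x T).re • fderiv ℝ (fun S => (Λ.hat r η ξ x S).im) T -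
    (Λ.hat r η ξ x T).im • fderiv ℝ (fun S => (Λ.hat r η ξ x S).re) T)

/-- Frequencies `2 π n + ϑ` with `|n| ≤ K`. -/
def aK (r : ℝ) (η : L → ℂ) (ϑ : ℝ) (K : ℕ) : Fam G := fun k x T =>
  ∑ n ∈ Icc (-(K : ℤ)) K, Λ.aF r η (2 * Real.pi * n + ϑ) k x T

/-- `η` is an eigenfunction of the shift with bounded local square sums. -/
def Eig (η : L → ℂ) (ϑ : ℝ) : Prop :=
  |ϑ| ≤ Real.pi ∧ (∀ l, η (Λ.sh l) = Complex.exp (Complex.I * ϑ) * η l) ∧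
    ∀ x (s : Finset L), (∀ l ∈ s, Λ.f l x < π.Rs) → ∑ l ∈ s, ‖η l‖ ^ 2 ≤ π.Qm

/-- The family `η q`, `q ∈ F`, does not decrease inner products of derivatives of Gibbs vectors
living near `l₀` by more than `e`. -/
def Pair {ι : Type*} (F : Finset ι) (η : ι → L → ℂ) (e : ℝ) (l₀ : L) : Prop :=
  ∀ U : Set L, (∀ l ∈ U, ∀ l' ∈ U, Λ.Nb l l') → l₀ ∈ U → ∀ ψ ψ' u u' : L → ℝ,
    Λ.Adm ψ → Λ.Adm ψ' → Λ.Sgn (2 * CK) u → Λ.Sgn (2 * CK) u' →
    (∀ l, ψ l < π.Rt → l ∈ U) → (∀ l, ψ' l < π.Rt → l ∈ U) →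
    ∑ᶠ l, Λ.dB ψ u l * Λ.dB ψ' u' l - e ≤
      ∑ q ∈ F, (sk (η q) (Λ.dB ψ u) * (starRingEnd ℂ) (sk (η q) (Λ.dB ψ' u'))).re

/-- Step sizes of a cell as seen by the labels. -/
def Step {k : ℕ} (x : Fin (k + 1) → G) (w : E (k + 1)) : Prop :=
  ∀ j, 1 ≤ w j ∧ ∀ l, |Λ.f l (x j) - Λ.f l (prv g x j)| ≤ w j

/-- Average of the time derivative of the Gibbs vector over a short interval. -/
def sm (κ : Measure ℝ) (r : ℝ) {k : ℕ} (x : Fin (k + 1) → G) (T : E (k + 1)) (t : ℝ)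
    (l : L) : ℝ :=
  ∫ u, Λ.dBt r x T (t + u) l ∂κ

end Lab

/-- Averaging measure on `[0, ℓ]` with Fourier transform at most `ε` beyond `Ξ`. -/
def Filt (κ : Measure ℝ) (ℓ Ξ ε : ℝ) : Prop :=
  IsProbabilityMeasure κ ∧ κ (Set.Icc 0 ℓ)ᶜ = 0 ∧
    ∀ ξ : ℝ, Ξ ≤ |ξ| → ‖∫ u, Complex.exp (Complex.I * ξ * u) ∂κ‖ ≤ ε

/-- Normalising function. -/
def nrm (R y : ℝ) : ℝ := Real.smoothTransition (8 * y / R - 1) / y

/-- The connection attached to a family of forms. -/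
def conn (R : ℝ) (a : Fam G) : Fam G := fun k x T =>
  nrm R (nn (a k x) T) • a k x T + (1 - nn (a k x) T * nrm R (nn (a k x) T)) • th0 k T

end

end Vale.Agent.P184L
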