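import Vale.Agent.P184L.Defs2

/-! Graphs, concrete labels, sketches, scales, the pairing with an idempotent. -/

namespace Vale.Agent.P184L

open Finset MeasureTheory ProbabilityTheory Classical Vale.Agent.P184

noncomputable section

variable {G : Type*} [Group G]

/-- A finite symmetric set containing `1`. -/
structure Gen (G : Type*) [Group G] where
  S : Finset G
  h1 : 1 ∈ S
  hS : ∀ a ∈ S, a⁻¹ ∈ S

namespace Gen

variable (A : Gen G)

/-- The Cayley graph. -/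
def cay : Gr G where
  N x := A.S.image (x * ·)
  D := A.S.card
  card_le _ := card_image_le
  symm x y h := by
    obtain ⟨a, ha, rfl⟩ := mem_image.1 h
    exact mem_image.2 ⟨a⁻¹, A.hS a ha, by simp⟩
  refl x := mem_image.2 ⟨1, A.h1, by simp⟩

/-- The Schreier graph of the orbits of left multiplication by `g`. -/
def sch (g : G) : Gr (VV g) := schreier g A.S A.h1 A.hS

/-- The inverse temperature dominates the growth. -/
def Ok (π : Par) : Prop := π.Ok ∧ (A.S.card : ℝ) ^ 200 ≤ Real.exp π.b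

/-- Integer step sizes of a cell. -/
def Steps (g : G) {k : ℕ} (x : Fin (k + 1) → G) (w : Fin (k + 1) → ℕ) : Prop :=
  ∀ j, 1 ≤ w j ∧ x j ∈ A.cay.ball (w j) (prv g x j)

/-- The subgroup generated by the exponents moving `y` by at most `ρ`. -/
def Zs (ρ : ℕ) (g y : G) : AddSubgroup ℤ :=
  AddSubgroup.closure {k : ℤ | g ^ k * y ∈ A.cay.ball ρ y}

/-- Exceptional points. -/
def Exc (ρ : ℕ) (g y : G) : Prop := A.Zs ρ g y = ⊤

/-- The label of a point. -/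
def lab (ρ : ℕ) (g y : G) : Set G :=
  if A.Exc ρ g y then {y} else {y' | ∃ k ∈ A.Zs ρ g y, y' = g ^ k * y}

/-- Valid labels. -/
def Val (ρ : ℕ) (g : G) (l : Set G) : Prop := ∃ y, l = A.lab ρ g y

/-- Distance from a point, with rails along exceptional orbits. -/
def fE (π : Par) (ρ : ℕ) (ι : ℝ) (g y x : G) : ℝ :=
  if A.Exc ρ g y then ⨅ k : ℤ, min (π.Rs : ℝ) (A.cay.dd π.Rs (g ^ k * y) x + ι * |(k : ℝ)|)
  else A.cay.dd π.Rs y x

/-- Distance from a label. -/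
def fG (π : Par) (ρ : ℕ) (ι : ℝ) (g : G) (l : Set G) (x : G) : ℝ :=
  if A.Val ρ g l then ⨅ y : l, A.fE π ρ ι g y x else π.Rs

end Gen

theorem cay_left (A : Gen G) (u : G) {n : ℕ} {a b : G} :
    u * b ∈ A.cay.ball n (u * a) ↔ b ∈ A.cay.ball n a :=
  Gr.Aut.ball_iff (Γ := A.cay) (γ := Equiv.mulLeft u) fun x y => by
    simp [Gen.cay, mul_assoc]

/-- A point of a set. -/
def rep (l : Set G) : G := Classical.epsilon (· ∈ l)

/-- Prior weight of a label. -/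
def Gen.prG (A : Gen G) (ρ : ℕ) (ι : ℝ) (g : G) (l : Set G) : ℝ :=
  if A.Val ρ g l then (if A.Exc ρ g (rep l) then ι else 1) else 0

/-- Left translation of sets. -/
def shS (z : G) : Set G ≃ Set G := Equiv.Set.congr (Equiv.mulLeft z)

/-- Hypotheses for the fine labels. -/
structure GOk (A : Gen G) (π : Par) (g : G) (ρ : ℕ) (ι : ℝ) (M P : ℕ) : Prop where
  ok : A.Ok π
  hρ : 2 * π.Rs ≤ ρ
  ι_pos : 0 < ι
  hb : π.b * ι ≤ 1
  hιM : ι * M ≤ 1
  inf : ∀ y, A.Exc ρ g y → ¬ IsOfFinOrder g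
  hM : ∀ y (i : ℤ), A.Exc ρ g y → g ^ i * y ∈ A.cay.ball ρ y → |i| ≤ M
  hP : M + 2 * π.Rs / ι + 1 ≤ P
  hP' : (2 * P + 1) * ι ≤ 10 * π.Rs

/-- Height of a point in its orbit. -/
def ht (g y : G) : ℤ := Classical.epsilon fun k : ℤ => y = g ^ k * (pj g y).out

/-- The alphabet of the random field: signs, colour, shift. -/
abbrev Alf (Q Dc P : ℕ) := (Fin Q → Bool) × Fin (Dc + 1) × ZMod (2 * P + 1)

/-- Uniform measure. -/
abbrev unif (X : Type*) [MeasurableSpace X] : Measure X := uniformOn Set.univ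

/-- Sign. -/
def sg (b : Bool) : ℝ := if b then 1 else -1

/-- Sign sketch. -/
def etaV {V : Type*} {Q : ℕ} (s : V → Fin Q → Bool) (q : Fin Q) (a : V) : ℂ :=
  (sg (s a q) / √(Q : ℝ) : ℝ)

/-- Colour and Fourier mode sketch. -/
def etaG (A : Gen G) (ρ : ℕ) (g : G) {Q Dc P : ℕ} (σ : VV g → Alf Q Dc P)
    (cn : Fin (Dc + 1) × ℤ) (l : Set G) : ℂ :=
  if A.Val ρ g l ∧ (σ (pj g (rep l))).2.1 = cn.1 then
    if A.Exc ρ g (rep l) then
      if 2 * |cn.2| < 2 * P + 1 then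
        ZMod.stdAddChar ((cn.2 : ZMod (2 * P + 1)) *
          ((σ (pj g (rep l))).2.2 + (ht g (rep l) : ZMod (2 * P + 1)))) /
          (√(2 * P + 1 : ℝ) : ℝ)
      else 0
    else if cn.2 = 0 then 1 else 0
  else 0

/-- Eigenvalue of `etaG`. -/
def thG (P : ℕ) {C : Type*} (cn : C × ℤ) : ℝ :=
  if 2 * |cn.2| < 2 * P + 1 then 2 * Real.pi * cn.2 / (2 * P + 1) else 0

section Graph

variable {V : Type*} [DecidableEq V] (Γ : Gr V)

/-- Atoms. -/
def atom (π : Par) (xs : Fin (π.k - 1) → V) (y : V) (b : Bool) (a : V) : ℝ :=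
  (∏ i, (1 - (Γ.dd π.Rs a (xs i) : ℝ) / π.L)) *
    if b then (Γ.dd π.Rs a y : ℝ) / π.Rs else 1 - (Γ.dd π.Rs a y : ℝ) / π.L

/-- The signs preserve the inner product of `w` and `w'` on `U` up to `θ`. -/
def JL {Q : ℕ} (θ : ℝ) (U : Finset V) (s : V → Fin Q → Bool) (w w' : V → ℝ) : Prop :=
  |(∑ q, (∑ a ∈ U, sg (s a q) * w a) * ∑ a ∈ U, sg (s a q) * w' a) / Q - ∑ a ∈ U, w a * w' a| ≤
    θ * √(∑ a ∈ U, w a ^ 2) * √(∑ a ∈ U, w' a ^ 2)

/-- Good signs near `v`. -/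
def GoodJ (π : Par) {Q : ℕ} (θ : ℝ) (s : V → Fin Q → Bool) (v : V) : Prop :=
  ∀ xs y b xs' y' b', JL θ (Γ.ball (2 * π.Rs) v) s (atom Γ π xs y b) (atom Γ π xs' y' b')

/-- Bad vertices of a field. -/
def Bad (π : Par) (θ : ℝ) {Q Dc P : ℕ} (σ : V → Alf Q Dc P) (v : V) : Prop :=
  ¬ GoodJ Γ π θ (fun a => (σ a).1) v ∨
    ¬ Set.InjOn (fun a => (σ a).2.1) (Γ.ball (2 * π.Rs) v)

/-- Clusters of vertices with property `P`. -/
def clus (ρ : ℕ) (P : V → Prop) (v y : V) : Prop :=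
  Relation.ReflTransGen (fun a b => b ∈ Γ.ball (2 * ρ) a ∧ P b) v y

end Graph

/-- Parameters of the scales. -/
structure Sc where
  c : ℕ
  i0 : ℕ
  m : ℕ
  p0 : ℕ
  n0 : ℕ

namespace Sc

variable (s : Sc)

/-- Base of the scale. -/
def y (i : ℕ) : ℝ := 1 + i / s.i0

/-- The scales. -/
def r (i : ℕ) : ℝ := s.y i ^ s.c / s.m

/-- Relative increments. -/
def γ (i : ℕ) : ℝ := s.r (i + 1) / s.r i - 1

/-- Order of the filter. -/
def p (i : ℕ) : ℕ := ⌈s.p0 * s.y i⌉₊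

/-- Number of modes along the rails. -/
def n (i : ℕ) : ℕ := ⌈s.n0 * s.y i⌉₊

/-- Number of time frequencies. -/
def K (i : ℕ) : ℕ := ⌈4 * s.p i / (s.r i * s.γ i)⌉₊

/-- Admissible scales. -/
def Ok : Prop := 14 ≤ s.c ∧ 2 * s.c ≤ s.i0 ∧ 1 ≤ s.m ∧ 1 ≤ s.p0 ∧ 1 ≤ s.n0

end Sc

/-- Sum of the Fourier forms of a family of sketches. -/
def Lab.skF {π : Par} {g : G} {L : Type*} (Λ : Lab π g L) {ι : Type*} (F : Finset ι)
    (η : ι → L → ℂ) (ϑ : ι → ℝ) (a r : ℝ) (K : ℕ) : Fam G := fun k x T =>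
  ∑ q ∈ F, (a * r ^ 2) • Λ.aK r (η q) (ϑ q) K k x T

/-- Length of the part of the loop in the window of radius `r` around `t`. -/
def wl {k : ℕ} (w : E (k + 1)) (r : ℝ) (T : E (k + 1)) (t : ℝ) : ℝ :=
  ∑ j, w j * per (Set.indicator (Set.Icc (-r) r) 1) (T j - t)

/-- Sum of the norms of the entries. -/
def nm {q : ℕ} (M : Matrix (Fin q) (Fin q) ℂ) : ℝ := ∑ i, ∑ j, ‖M i j‖

/-- An idempotent with exponential decay. -/
structure WI (G : Type*) [Group G] (q : ℕ) extends Gen G where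
  κ : ℝ
  κ_pos : 0 < κ
  e : G → Matrix (Fin q) (Fin q) ℂ
  len : G → ℕ
  mem : ∀ h, e h ≠ 0 → h ∈ toGen.cay.ball (len h) 1
  summ : Summable fun h => nm (e h) * Real.exp (κ * len h)
  idem : ∀ g, HasSum (fun h => e h * e (h⁻¹ * g)) (e g)

/-- An element conjugating `u` to `g`. -/
def cj (g u : G) : G := Classical.epsilon fun c => c * u * c⁻¹ = g

/-- The cell with letters `h`. -/
def cell (g : G) {k : ℕ} (h : Fin (k + 1) → G) : Fin (k + 1) → G :=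
  fun i => cj g (List.ofFn h).prod * Fin.partialProd h i.castSucc

/-- Pairing of a cochain with `e`. -/
def mu {q : ℕ} (e : G → Matrix (Fin q) (Fin q) ℂ) (g : G) {k : ℕ}
    (Φ : (Fin (k + 1) → G) → ℝ) : ℂ :=
  ∑' h : Fin (k + 1) → G, if IsConj (List.ofFn h).prod g then
    (List.ofFn fun i => e (h i)).prod.trace * Φ (cell g h) else 0

/-- Bounded cochains invariant under the centraliser. -/
def Inv (g : G) {k : ℕ} (Φ : (Fin (k + 1) → G) → ℝ) : Prop :=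
  (∃ K, ∀ x, |Φ x| ≤ K) ∧ ∀ z, z * g = g * z → ∀ x, Φ (fun i => z * x i) = Φ x

/-- The constant cochain of degree `2 n + 2` is cohomologous to a small one. -/
def Small (A : Gen G) (g : G) (C1 A0 ε : ℝ) (n : ℕ) : Prop :=
  ∃ (Φ : (Fin (2 * n + 1 + 1 + 1) → G) → ℝ) (Tr : (Fin (2 * n + 1 + 1) → G) → ℝ)
    (s : Fin (2 * n + 1 + 1 + 1) → ℝ),
    (∀ x, Φ x - 1 = ∑ j, s j * Tr fun i => x (j.succAbove i)) ∧
    (∀ x, Tr (rotX g x) = -Tr x) ∧ Inv g Tr ∧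
    ∀ x w, A.Steps g x w → |Φ x| ≤ (∏ j, (w j : ℝ)) * C1 ^ (2 * n + 2) ∧
      ((∑ j, (w j : ℝ)) ≤ A0 * (2 * n + 2) → |Φ x| ≤ (∏ j, (w j : ℝ)) * ε ^ (2 * n + 2))

/-- A random family of forms with good estimates on cells of dimension at most `m`. -/
structure RF (A : Gen G) (g : G) (m W : ℕ) (R z lam P A0 δ : ℝ) {J X : Type*} [Fintype X]
    [Nonempty X] [MeasurableSpace X] [MeasurableSingletonClass X]
    (α : (J → X) → Fam G) : Prop where
  pre : ∀ ω, IsPre g (α ω)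
  loc : ∀ k x, ∃ B : Finset J, DependsOn (fun ω => α ω k x) B
  inv : ∀ u, u * g = g * u → ∃ (γ : J ≃ J) (τ : J → X ≃ X), ∀ ω k x,
    α (fun j => τ j (ω (γ j))) k x = α ω k fun i => u * x i
  est : ∀ ω k, k ≤ m → ∀ x T, Ord T →
    (∀ w, A.Steps g x w → Est (fun j => (min (w j) W : ℕ)) z (α ω k x) T lam P) ∧
      Est (fun _ => (W : ℝ)) z (α ω k x) T lam P
  low : ∀ (x : Fin (m + 1) → G) w, A.Steps g x w → (∑ j, (w j : ℝ)) ≤ A0 * m →
    (iid (unif X) J).real {ω | ¬ ∀ T, Ord T → R / 4 ≤ nn (α ω m x) T} ≤ δ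

end

end Vale.Agent.P184L
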