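import Vale.Agent.P184L.LabG

/-! The total form and the numerical conditions. -/

namespace Vale.Agent.P184L

open Finset MeasureTheory ProbabilityTheory Classical Vale.Agent.P184
open scoped ContDiff

noncomputable section

universe u

variable {G : Type u} [Group G]

/-- All parameters of the construction. -/
structure Tot (A : Gen G) (g : G) where
  π : Par
  s : Sc
  I1 : ℕ
  I3 : ℕ
  Q : ℕ
  Dc : ℕ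
  P : ℕ
  M : ℕ
  ρ : ℕ
  ι : ℝ
  h : GOk A π g ρ ι M P

namespace Tot

variable {A : Gen G} {g : G} (t : Tot A g)

/-- The part coming from small scales. -/
def alI : Fam G := fun k x T =>
  ∑ i ∈ range t.I1, (4 : ℝ) • (labV t.h.ok g).aI (t.s.r i) (t.s.r (i + 1)) k x T

/-- The sketched part. -/
def alS (σ : VV g → Alf t.Q t.Dc t.P) : Fam G := fun k x T =>
  ∑ i ∈ Ico t.I1 t.s.i0, (labV t.h.ok g).skF univ (etaV fun a => (σ a).1) (fun _ => 0) 4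
      (t.s.r i) (t.s.K i) k x T +
    ∑ i ∈ Ico t.s.i0 t.I3, (labG t.h).skF (univ ×ˢ Icc (-(t.s.n i : ℤ)) (t.s.n i))
      (etaG A t.ρ g σ) (thG t.P) 1 (t.s.r i) (t.s.K i) k x T

/-- The total form. -/
def al (σ σ' : VV g → Alf t.Q t.Dc t.P) : Fam G := fun k x T =>
  t.alI k x T + t.alS σ k x T + t.alS σ' k x T

end Tot

/-- Logarithmic size of one family of Fourier forms. -/
def Sc.lg (s : Sc) (X : ℝ) (i : ℕ) : ℝ :=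
  2 * (2 * s.K i + 1) * Real.log (1 + X * (s.r i ^ 2 * (s.m + 1) * (s.K i + 1)))

/-- Total logarithmic size. -/
def Sc.PP (s : Sc) (X : ℝ) (Q Dc I1 I3 : ℕ) : ℝ :=
  ∑ i ∈ Ico I1 s.i0, 2 * Q * s.lg X i +
    ∑ i ∈ Ico s.i0 I3, 2 * (Dc + 1) * (2 * s.n i + 1) * s.lg X i

/-- Total loss of energy. -/
def Sc.Err (s : Sc) (π : Par) (C θ A0 : ℝ) (Q Dc I1 I3 ρ0 : ℕ) : ℝ :=
  C + 16 * A0 + (π.R + C) * (2 * 2 ^ s.c * A0) / ρ0 +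
    C * π.b ^ 2 * π.Rs ^ 3 * ∑ i ∈ range I3, s.γ i ^ 2 +
    ∑ i ∈ Ico I1 s.i0, (C * (π.b * π.Rs) ^ 2 * (θ + Real.exp (-(π.b * π.R / 8))) +
      C * (1 / 4) ^ s.p i * Q * π.Qm * (π.b * π.Rs) ^ 2) +
    ∑ i ∈ Ico s.i0 I3, (C * (π.b ^ 2 * π.Rs ^ 2) ^ 2 / s.n i ^ 2 +
      C * (1 / 4) ^ s.p i * ((Dc + 1) * (2 * s.n i + 1)) * π.Qm * (π.b * π.Rs) ^ 2)

/-- Probability bound for bad signs. -/
def pJ (C θ : ℝ) (D Q : ℕ) (π : Par) : ℝ :=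
  (2 * ((D : ℝ) ^ (3 * π.Rs) + 1) ^ π.k) ^ 2 * (4 * Real.exp (-(Q * θ ^ 2 / C)))

/-- Logarithmic factor. -/
def YY (C z : ℝ) (π : Par) (c i0 p0 : ℕ) : ℝ :=
  Real.log (21 * (z * C * π.b ^ 2 * π.Qm) * p0 * i0) + 2 * c + 2

/-- Conditions on the parameters which do not depend on the dimension. -/
structure NumOk (C z A0 θ X1 : ℝ) (D : ℕ) (π : Par) (c i0 p0 n0 Q Dc ρ0 : ℕ) : Prop where
  ok : π.Ok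
  hD : (D : ℝ) ^ 200 ≤ Real.exp π.b
  θ_pos : 0 < θ
  θ_le : θ ≤ 1
  hQ : 1 ≤ Q
  hρ : 1 ≤ ρ0
  hc : 14 ≤ c
  hi : 2 * c ≤ i0
  hp : 1 ≤ p0
  hn : 1 ≤ n0
  hγ : C * π.Rs * (2 * c) ≤ i0
  j1 : 4 * Q * (D : ℝ) ^ (4 * π.Rs) * pJ C θ D Q π ≤ 1
  j2 : D ^ (4 * π.Rs) ≤ Dc
  j3 : (D : ℝ) ^ (12 * (2 * π.Rs)) * (pJ C θ D Q π + (D : ℝ) ^ (4 * π.Rs) / (Dc + 1)) ≤ 1 / 2
  e1 : C * π.b ^ 2 * π.Rs ^ 3 * (8 * c ^ 2) ≤ i0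
  e2 : i0 * (C * (π.b * π.Rs) ^ 2 * (θ + Real.exp (-(π.b * π.R / 8)))) ≤ 1
  e3 : i0 * (C * (1 / 4) ^ p0 * Q * π.Qm * (π.b * π.Rs) ^ 2) ≤ 1
  e4 : C * (π.b ^ 2 * π.Rs ^ 2) ^ 2 * (2 * i0) ≤ n0 ^ 2
  e5 : C * (1 / 4) ^ p0 * (Dc + 1) * π.Qm * (π.b * π.Rs) ^ 2 * (240 * n0 * i0) ≤ 1
  e6 : (π.R + C) * (2 * 2 ^ c * A0) ≤ ρ0
  e7 : C + 16 * A0 + 6 ≤ 3 / 4 * π.R
  x1 : 1 ≤ X1
  x2 : X1 ≤ 2 ^ c
  g1 : 2048 * Q * p0 * i0 ^ 2 * YY C z π c i0 p0 ≤ X1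
  g2 : 163840 * (Dc + 1) * n0 * p0 * i0 ^ 2 * YY C z π c i0 p0 ≤ 2 ^ c
  l1 : 32 * z * C * π.b * Real.log (2 * X1) ≤ π.R

end

end Vale.Agent.P184L
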