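import Vale.Agent.P184L.ExtD

/-! Divergence theorem on the ordered simplex. Hint: `MeasurableEquiv.piFinSuccAbove _ i` and `volume_preserving_piFinSuccAbove`: `τ = i.insertNth s σ` lies in `simp (d + 1)` iff `σ ∈ simp d` and `s` lies between `lo = (Fin.cons 0 σ) i` and `hi = (Fin.snoc σ 1) i`; `fc i.castSucc σ = i.insertNth lo σ` and `fc i.succ σ = i.insertNth hi σ`. Fubini and the fundamental theorem of calculus in `s`. -/

namespace Vale.Agent.P184L

open Finset MeasureTheory ProbabilityTheory Classical Vale.Agent.P184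
open scoped ContDiff

noncomputable section

universe u

variable {G : Type u} [Group G]

namespace DivX

/-- The jump times with both ends, indexed by natural numbers. -/
def nn {d : ℕ} (σ : E d) (n : ℕ) : ℝ :=
  if n = 0 then 0 else if h : n - 1 < d then σ ⟨n - 1, h⟩ else 1

theorem nn_succ {d : ℕ} (σ : E d) (l : Fin d) : nn σ (l + 1) = σ l := by
  simp [nn]

theorem nx_eq {d : ℕ} (σ : E d) (x : Fin (d + 2)) : nx (consL d σ) x = nn σ x := by
  refine Fin.lastCases ?_ (fun y => ?_) x
  · simp [nx, nn, consL]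
  · refine Fin.cases ?_ (fun l => ?_) y
    · simp [nx, nn, consL]
    · rw [nx, Fin.snoc_castSucc, Fin.val_castSucc, Fin.val_succ, nn_succ]
      simp [consL]

theorem fc_apply {d : ℕ} (j : Fin (d + 2)) (σ : E d) (m : Fin (d + 1)) :
    fc j σ m = nn σ (if (j : ℕ) ≤ m then m else m + 1) := by
  change nx (consL d σ) (j.predAbove m.succ.castSucc) = _
  rw [nx_eq, Fin.predAbove]
  have e : j.castSucc < m.succ.castSucc ↔ (j : ℕ) ≤ m := by
    rw [Fin.lt_def, Fin.val_castSucc, Fin.val_castSucc, Fin.val_succ]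
    omega
  simp only [e]
  split_ifs <;> rfl

theorem ins_apply {d : ℕ} (i : Fin (d + 1)) (s : ℝ) (σ : E d) (m : Fin (d + 1)) :
    (i.insertNth s σ : E (d + 1)) m =
      if (m : ℕ) < i then nn σ (m + 1) else if (m : ℕ) = i then s else nn σ m := by
  refine Fin.succAboveCases i ?_ (fun l => ?_) m
  · simp
  · rw [Fin.insertNth_apply_succAbove, Fin.succAbove]
    by_cases h : l.castSucc < i
    · rw [if_pos h, if_pos (Fin.lt_def.1 h), Fin.val_castSucc, nn_succ]
    · have h' : ¬(l : ℕ) < i := h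
      rw [if_neg h, Fin.val_succ, if_neg (by omega), if_neg (by omega), nn_succ]

theorem fc_lo {d : ℕ} (i : Fin (d + 1)) (σ : E d) :
    fc i.castSucc σ = i.insertNth (nn σ i) σ := by
  funext m
  rw [fc_apply, ins_apply, Fin.val_castSucc]
  split_ifs with h1 h2 h3 h2 h3
  · omega
  · rw [h3]
  · rfl
  · rfl
  · omega
  · omega

theorem fc_hi {d : ℕ} (i : Fin (d + 1)) (σ : E d) :
    fc i.succ σ = i.insertNth (nn σ (i + 1)) σ := by
  funext m
  rw [fc_apply, ins_apply, Fin.val_succ]
  split_ifs with h1 h2 h3 h2 h3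
  · omega
  · omega
  · rfl
  · rfl
  · rw [h3]
  · omega

theorem nn_mono {d : ℕ} {σ : E d} (h : σ ∈ simp d) : Monotone (nn σ) := by
  intro a b hab
  unfold nn
  split_ifs with h1 h2 h3 h4 h5 h6 h7 h8
  · exact le_rfl
  · exact (h.2 _).1
  · exact zero_le_one
  · omega
  · exact h.1 (Fin.mk_le_mk.2 (by omega))
  · exact (h.2 _).2
  · omega
  · omega
  · exact le_rfl

theorem nn_mem {d : ℕ} {σ : E d} (h : σ ∈ simp d) (n : ℕ) : 0 ≤ nn σ n ∧ nn σ n ≤ 1 := by
  unfold nn
  split_ifs
  · exact ⟨le_rfl, zero_le_one⟩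
  · exact h.2 _
  · exact ⟨zero_le_one, le_rfl⟩

theorem ins_mem {d : ℕ} (i : Fin (d + 1)) (s : ℝ) (σ : E d) :
    (i.insertNth s σ : E (d + 1)) ∈ simp (d + 1) ↔
      σ ∈ simp d ∧ s ∈ Set.Icc (nn σ i) (nn σ (i + 1)) := by
  constructor
  · rintro ⟨h1, h2⟩
    have hi := ins_apply i s σ i
    rw [if_neg (lt_irrefl _), if_pos rfl] at hi
    refine ⟨⟨fun a b hab => ?_, fun l => ?_⟩, ?_, ?_⟩
    · simpa using h1 ((Fin.strictMono_succAbove i).monotone hab)
    · simpa using h2 (i.succAbove l)
    · by_cases h0 : (i : ℕ) = 0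
      · rw [h0, ← hi]
        exact (h2 i).1
      · have h3 := h1 (a := ⟨i - 1, by omega⟩) (b := i) (Fin.le_def.2 (Nat.sub_le _ _))
        rw [hi, ins_apply, if_pos (show (i : ℕ) - 1 < i by omega)] at h3
        rwa [show (i : ℕ) - 1 + 1 = i by omega] at h3
    · by_cases h0 : (i : ℕ) = d
      · have : nn σ (i + 1) = 1 := by simp [nn, h0]
        rw [this, ← hi]
        exact (h2 i).2
      · have h3 := h1 (a := i) (b := ⟨i + 1, by omega⟩) (Fin.le_def.2 (Nat.le_succ _))
        rwa [hi, ins_apply, if_neg (show ¬(i : ℕ) + 1 < i by omega),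
          if_neg (show ¬(i : ℕ) + 1 = i by omega)] at h3
  · rintro ⟨h1, h2, h3⟩
    have hm := nn_mono h1
    refine ⟨fun a b hab => ?_, fun m => ?_⟩
    · have hab' : (a : ℕ) ≤ b := hab
      rw [ins_apply, ins_apply]
      split_ifs
      · exact hm (by omega)
      · exact (hm (by omega)).trans h2
      · exact hm (by omega)
      · omega
      · exact le_rfl
      · exact h3.trans (hm (by omega))
      · omega
      · omega
      · exact hm hab'
    · rw [ins_apply]
      split_ifs
      · exact nn_mem h1 _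
      · exact ⟨(nn_mem h1 _).1.trans h2, h3.trans (nn_mem h1 _).2⟩
      · exact nn_mem h1 _

theorem cpt (d : ℕ) : IsCompact (simp d) := by
  refine (isCompact_Icc (a := (0 : E d)) (b := 1)).of_isClosed_subset ?_ fun τ h =>
    ⟨fun i => (h.2 i).1, fun i => (h.2 i).2⟩
  have e : simp d = (⋂ a, ⋂ b, ⋂ _ : a ≤ b, {τ : E d | τ a ≤ τ b}) ∩ Set.Icc 0 1 := by
    ext τ
    simp only [simp, Set.mem_setOf_eq, Set.mem_inter_iff, Set.mem_iInter, Set.mem_Icc, Pi.le_def,
      forall_and]
    rfl
  rw [e]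
  exact (isClosed_iInter fun a => isClosed_iInter fun b => isClosed_iInter fun _ =>
    isClosed_le (continuous_apply a) (continuous_apply b)).inter isClosed_Icc

theorem ins_eq {d : ℕ} (i : Fin (d + 1)) (s : ℝ) (σ : E d) :
    (i.insertNth s σ : E (d + 1)) = i.insertNth 0 σ + s • ev i := by
  funext m
  refine Fin.succAboveCases i ?_ (fun l => ?_) m
  · simp [ev]
  · simp [ev]

end DivX

open DivX in
theorem div_simp {d : ℕ} {F : E (d + 1) → ℝ} (hF : ContDiff ℝ ∞ F) (i : Fin (d + 1)) :
    ∫ τ in simp (d + 1), fderiv ℝ F τ (ev i) =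
      ∫ σ in simp d, (F (fc i.succ σ) - F (fc i.castSucc σ)) := by
  have hc : Continuous fun τ => fderiv ℝ F τ (ev i) :=
    (hF.continuous_fderiv (by simp)).clm_apply continuous_const
  have hm := fun d => (cpt d).measurableSet
  have hi : Integrable ((simp (d + 1)).indicator fun τ => fderiv ℝ F τ (ev i)) :=
    (integrable_indicator_iff (hm _)).2 (hc.continuousOn.integrableOn_compact (cpt _))
  have hp := (volume_preserving_piFinSuccAbove (fun _ : Fin (d + 1) => ℝ) i).symm
  rw [← integral_indicator (hm _), ← integral_indicator (hm _), ← hp.integral_comp',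
    Measure.volume_eq_prod]
  refine (integral_prod_symm _ ((hp.integrable_comp_emb
    (MeasurableEquiv.measurableEmbedding _)).2 hi)).trans
    (integral_congr_ae (Filter.Eventually.of_forall fun σ => ?_))
  change ∫ s, (simp (d + 1)).indicator (fun τ => fderiv ℝ F τ (ev i)) (i.insertNth s σ) = _
  by_cases hσ : σ ∈ simp d
  · have e : ∀ s, (simp (d + 1)).indicator (fun τ => fderiv ℝ F τ (ev i)) (i.insertNth s σ) =
        (Set.Icc (DivX.nn σ i) (DivX.nn σ (i + 1))).indicator
          (fun s => fderiv ℝ F (i.insertNth 0 σ + s • ev i) (ev i)) s := fun s => by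
      simp only [Set.indicator, ins_mem, hσ, true_and, ← ins_eq]
    have hle : DivX.nn σ i ≤ DivX.nn σ (i + 1) := nn_mono hσ (Nat.le_succ _)
    simp only [e]
    rw [integral_indicator measurableSet_Icc, integral_Icc_eq_integral_Ioc,
      ← intervalIntegral.integral_of_le hle, Set.indicator_of_mem hσ, fc_lo, fc_hi,
      ins_eq i (DivX.nn σ i), ins_eq i (DivX.nn σ (i + 1))]
    refine intervalIntegral.integral_eq_sub_of_hasDerivAt
      (f := fun s => F (i.insertNth 0 σ + s • ev i)) (fun s _ => ?_)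
      ((hc.comp (f := fun s : ℝ => (i.insertNth 0 σ : E (d + 1)) + s • ev i)
        (by fun_prop)).intervalIntegrable _ _)
    have h1 : HasDerivAt (fun s : ℝ => (i.insertNth 0 σ : E (d + 1)) + s • ev i) (ev i) s := by
      simpa using ((hasDerivAt_id s).smul_const (ev i)).const_add (i.insertNth 0 σ : E (d + 1))
    exact (hF.differentiable (by simp) _).hasFDerivAt.comp_hasDerivAt s h1
  · rw [Set.indicator_of_notMem hσ]
    simp only [Set.indicator, ins_mem, hσ, false_and, if_false, integral_zero]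

end

end Vale.Agent.P184L
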