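import Vale.Agent.P184L.ExtD

/-! Algebra of the size predicate. Hint: `wn w u` is the Euclidean norm of `fun j => u j / w j` (triangle inequality, homogeneity, Cauchy-Schwarz). `curv` is additive for smooth forms; append the lists of rank one terms. -/

namespace Vale.Agent.P184L

open Finset MeasureTheory ProbabilityTheory Classical Vale.Agent.P184
open scoped ContDiff

noncomputable section

universe u

variable {G : Type u} [Group G]

namespace EstAlgX

theorem wn_eq {k : ℕ} (w u : E k) :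
    wn w u = ‖(WithLp.toLp 2 fun j => u j / w j : EuclideanSpace ℝ (Fin k))‖ := by
  simp only [wn, EuclideanSpace.norm_eq, Real.norm_eq_abs, sq_abs]

theorem curv_add {k : ℕ} {a b : Form k} (ha : ContDiff ℝ ∞ a) (hb : ContDiff ℝ ∞ b) (T : E k) :
    curv (fun S => a S + b S) T = curv a T + curv b T := by
  funext i j
  have h1 : DifferentiableAt ℝ (fun S => a S (ev j)) T :=
    ((ha.differentiable (by simp)) T).clm_apply (differentiableAt_const _)
  have h2 : DifferentiableAt ℝ (fun S => b S (ev j)) T :=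
    ((hb.differentiable (by simp)) T).clm_apply (differentiableAt_const _)
  simp only [curv, ContinuousLinearMap.add_apply, Matrix.add_apply]
  rw [fderiv_fun_add h1 h2, ContinuousLinearMap.add_apply]

end EstAlgX

theorem wn_nonneg {k : ℕ} (w u : E k) : 0 ≤ wn w u := Real.sqrt_nonneg _

theorem wn_add_le {k : ℕ} (w u v : E k) : wn w (u + v) ≤ wn w u + wn w v := by
  simp only [EstAlgX.wn_eq, Pi.add_apply, add_div]
  exact norm_add_le (WithLp.toLp 2 fun j => u j / w j : EuclideanSpace ℝ (Fin k))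
    (WithLp.toLp 2 fun j => v j / w j)

theorem wn_smul {k : ℕ} (w u : E k) (c : ℝ) : wn w (c • u) = |c| * wn w u := by
  simp only [wn, Pi.smul_apply, smul_eq_mul, mul_div_assoc, mul_pow, ← mul_sum]
  rw [Real.sqrt_mul (sq_nonneg c), Real.sqrt_sq_eq_abs]

theorem wn_le_of_abs {k : ℕ} {w u : E k} (hw : ∀ j, 0 < w j) {c : ℝ} (hc : 0 ≤ c)
    (h : ∀ j, |u j| ≤ c * w j) : wn w u ≤ c * √k := by
  rw [wn, ← Real.sqrt_sq hc, ← Real.sqrt_mul (sq_nonneg c)]
  refine Real.sqrt_le_sqrt ((sum_le_sum (g := fun _ => c ^ 2) fun j _ => ?_).trans_eq (by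
    simp [mul_comm]))
  rw [← sq_abs, abs_div, abs_of_pos (hw j)]
  exact pow_le_pow_left₀ (div_nonneg (abs_nonneg _) (hw j).le) ((div_le_iff₀ (hw j)).2 (h j)) 2

theorem Nuc.of_symm {k : ℕ} (w : E k) {M : Matrix (Fin k) (Fin k) ℝ} (h : ∀ i j, M j i = M i j) :
    Nuc w M 0 := by
  intro A c hA _ _
  have e : ∑ i, ∑ j, M i j * A i j = -∑ i, ∑ j, M i j * A i j := by
    conv_lhs => rw [sum_comm]
    simp only [← sum_neg_distrib]
    exact sum_congr rfl fun i _ => sum_congr rfl fun j _ => by rw [h i j, hA i j, mul_neg]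
  have e2 : ∑ i, ∑ j, M i j * A i j = 0 := by linarith
  simp [e2]

theorem Nuc.add {k : ℕ} {w : E k} {M N : Matrix (Fin k) (Fin k) ℝ} {a b : ℝ} (h : Nuc w M a)
    (h' : Nuc w N b) : Nuc w (M + N) (a + b) := by
  intro A c hA hc hb
  simp only [Matrix.add_apply, add_mul, sum_add_distrib, mul_add]
  exact (abs_add_le _ _).trans (add_le_add (h A c hA hc hb) (h' A c hA hc hb))

theorem Nuc.smul {k : ℕ} {w : E k} {M : Matrix (Fin k) (Fin k) ℝ} {a : ℝ} (h : Nuc w M a)
    (c : ℝ) : Nuc w (c • M) (|c| * a) := by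
  intro A d hA hd hb
  simp only [Matrix.smul_apply, smul_eq_mul, mul_assoc, ← mul_sum]
  rw [abs_mul, mul_left_comm]
  exact mul_le_mul_of_nonneg_left (h A d hA hd hb) (abs_nonneg c)

theorem Nuc.mono {k : ℕ} {w : E k} {M : Matrix (Fin k) (Fin k) ℝ} {a b : ℝ} (h : Nuc w M a)
    (hab : a ≤ b) : Nuc w M b := fun A c hA hc hb =>
  (h A c hA hc hb).trans (mul_le_mul_of_nonneg_left hab hc)

theorem Est.mono {k : ℕ} {w : E k} {z : ℝ} {a : Form k} {T : E k} {l P l' P' : ℝ}
    (h : Est w z a T l P) (hl : l ≤ l') (hP : P ≤ P') : Est w z a T l' P' := by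
  obtain ⟨h0, ls, ⟨S, us, h1, h2, h3⟩, h4, h5⟩ := h
  exact ⟨h0.trans hl, ls, ⟨S, us, h1.mono hl, h2, h3⟩, by linarith, h5.trans hP⟩

theorem Est.add {k : ℕ} {w : E k} {z : ℝ} {a b : Form k} {T : E k} {l P l' P' : ℝ}
    (ha : ContDiff ℝ ∞ a) (hb : ContDiff ℝ ∞ b) (h : Est w z a T l P) (h' : Est w z b T l' P') :
    Est w z (fun S => a S + b S) T (l + l') (P + P') := by
  obtain ⟨h0, ls, ⟨S, us, h1, h2, h3⟩, h4, h5⟩ := h
  obtain ⟨k0, ls', ⟨S', us', k1, k2, k3⟩, k4, k5⟩ := h'
  refine ⟨add_nonneg h0 k0, ls ++ ls', ⟨S + S', us ++ us', h1.add k1, ?_,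
    List.rel_append h3 k3⟩, ?_, ?_⟩
  · rw [EstAlgX.curv_add ha hb, h2, k2, List.map_append, List.sum_append]
    abel
  · have := wn_add_le w (co (a T)) (co (b T))
    rw [List.sum_append]
    exact this.trans (by linarith)
  · rw [List.map_append, List.sum_append]
    exact add_le_add h5 k5

theorem Est.sum {k : ℕ} {w : E k} {z : ℝ} {ι : Type*} (F : Finset ι) {a : ι → Form k} {T : E k}
    {l P : ι → ℝ} (ha : ∀ i ∈ F, ContDiff ℝ ∞ (a i)) (h : ∀ i ∈ F, Est w z (a i) T (l i) (P i)) :
    Est w z (fun S => ∑ i ∈ F, a i S) T (∑ i ∈ F, l i) (∑ i ∈ F, P i) := by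
  induction F using Finset.induction_on with
  | empty =>
    refine ⟨by simp, [], ⟨0, [], ?_, ?_, List.Forall₂.nil⟩, ?_, by simp⟩
    · simpa using Nuc.of_symm w (M := 0) fun _ _ => rfl
    · funext i j
      simp [curv]
    · simp [wn, co]
  | insert i F hi ih =>
    simp only [sum_insert hi]
    exact Est.add (ha i (mem_insert_self i F))
      (ContDiff.sum fun j hj => ha j (mem_insert_of_mem hj)) (h i (mem_insert_self i F))
      (ih (fun j hj => ha j (mem_insert_of_mem hj)) fun j hj => h j (mem_insert_of_mem hj))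

theorem IsPre.add {g : G} {a b : Fam G} (ha : IsPre g a) (hb : IsPre g b) :
    IsPre g fun k x T => a k x T + b k x T :=
  ⟨fun k x => (ha.smooth k x).add (hb.smooth k x),
    fun k x T s => by simp only [ha.transl, hb.transl],
    fun k x T v => by simp only [ContinuousLinearMap.add_apply, ha.rot, hb.rot],
    fun k x j T v => by simp only [ContinuousLinearMap.add_apply, ha.face, hb.face]⟩

theorem IsPre.smul {g : G} {a : Fam G} (ha : IsPre g a) (c : ℝ) :
    IsPre g fun k x T => c • a k x T :=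
  ⟨fun k x => (ha.smooth k x).const_smul c,
    fun k x T s => by simp only [ha.transl],
    fun k x T v => by simp only [ContinuousLinearMap.smul_apply, ha.rot],
    fun k x j T v => by simp only [ContinuousLinearMap.smul_apply, ha.face]⟩

theorem IsPre.sum {g : G} {ι : Type*} (F : Finset ι) {a : ι → Fam G}
    (ha : ∀ i ∈ F, IsPre g (a i)) : IsPre g fun k x T => ∑ i ∈ F, a i k x T :=
  ⟨fun k x => ContDiff.sum fun i hi => (ha i hi).smooth k x,
    fun k x T s => sum_congr rfl fun i hi => (ha i hi).transl k x T s,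
    fun k x T v => by
      simp only [ContinuousLinearMap.sum_apply]
      exact sum_congr rfl fun i hi => (ha i hi).rot k x T v,
    fun k x j T v => by
      simp only [ContinuousLinearMap.sum_apply]
      exact sum_congr rfl fun i hi => (ha i hi).face k x j T v⟩

end

end Vale.Agent.P184L
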