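import Vale.Agent.P184L.LabG

/-! Exceptional classes. Hint: with `u = y⁻¹ g y` one has `g ^ k * y ∈ ball ρ y ↔ u ^ k ∈ ball ρ 1`. If `Exc ρ u 1` then `zpowers u = closure s` for `s = {v ∈ ball ρ 1 | v ∈ zpowers u}`, a subset of a finite set. For fixed `s` there are finitely many `u` with `zpowers u = closure s`: if `u` has finite order the subgroup is finite; otherwise `u' = u` or `u⁻¹` (`Subgroup.zpowers_eq_zpowers_iff`-type lemma). For `u` of infinite order only finitely many `i` have `u ^ i ∈ ball ρ 1`. -/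

namespace Vale.Agent.P184L

open Finset MeasureTheory ProbabilityTheory Classical Vale.Agent.P184
open scoped ContDiff

noncomputable section

universe u

variable {G : Type u} [Group G]

namespace ExcX

theorem mem_iff (A : Gen G) (ρ : ℕ) (g y : G) (k : ℤ) :
    g ^ k * y ∈ A.cay.ball ρ y ↔ (y⁻¹ * g * y) ^ k ∈ A.cay.ball ρ 1 := by
  have e : y * (y⁻¹ * g * y) ^ k = g ^ k * y := by
    have h := conj_zpow (i := k) (a := y⁻¹) (b := g)
    rw [inv_inv] at h
    rw [h]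
    group
  rw [← cay_left A y (a := 1), e, mul_one]

theorem fin_gen (H : Subgroup G) : {u : G | Subgroup.zpowers u = H}.Finite := by
  rcases Set.eq_empty_or_nonempty {u : G | Subgroup.zpowers u = H} with h | ⟨v, hv⟩
  · rw [h]
    exact Set.finite_empty
  have hv' : Subgroup.zpowers v = H := hv
  by_cases hf : IsOfFinOrder v
  · refine (finite_zpowers.2 hf).subset fun u hu => ?_
    have hu' : Subgroup.zpowers u = H := hu
    rw [hv', ← hu']
    exact Subgroup.mem_zpowers u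
  · refine (Set.toFinite {v, v⁻¹}).subset fun u hu => ?_
    rcases (Subgroup.zpowers_eq_zpowers_iff hf).1 (hv'.trans (Eq.symm hu)) with h | h
    · exact Or.inl h.symm
    · exact Or.inr h.symm

end ExcX

theorem exc_iff (A : Gen G) (ρ : ℕ) (g y : G) : A.Exc ρ g y ↔ A.Exc ρ (y⁻¹ * g * y) 1 := by
  simp only [Gen.Exc, Gen.Zs, mul_one, ExcX.mem_iff A ρ g y]

theorem finite_exc (A : Gen G) (ρ : ℕ) : {u : G | A.Exc ρ u 1}.Finite := by
  refine ((A.cay.ball ρ 1).powerset.finite_toSet.biUnion fun s _ =>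
    ExcX.fin_gen (Subgroup.closure (s : Set G))).subset fun u hu => ?_
  refine Set.mem_biUnion (x := (A.cay.ball ρ 1).filter (· ∈ Subgroup.zpowers u))
    (mem_coe.2 (mem_powerset.2 (filter_subset _ _))) (le_antisymm ?_ ?_)
  · have h : ∀ k ∈ A.Zs ρ u 1, u ^ k ∈ Subgroup.closure
        (((A.cay.ball ρ 1).filter (· ∈ Subgroup.zpowers u) : Finset G) : Set G) := by
      intro k hk
      induction hk using AddSubgroup.closure_induction with
      | mem k hk =>
        refine Subgroup.subset_closure (mem_coe.2 (mem_filter.2 ⟨?_, k, rfl⟩))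
        simpa only [Set.mem_ofPred_eq, mul_one] using hk
      | zero =>
        rw [zpow_zero]
        exact one_mem _
      | add k l _ _ h1 h2 =>
        rw [zpow_add]
        exact mul_mem h1 h2
      | neg k _ h1 =>
        rw [zpow_neg]
        exact inv_mem h1
    rintro _ ⟨k, rfl⟩
    refine h k ?_
    rw [show A.Zs ρ u 1 = ⊤ from hu]
    exact AddSubgroup.mem_top k
  · exact (Subgroup.closure_le _).2 fun v hv => (mem_filter.1 (mem_coe.1 hv)).2

theorem exists_M (A : Gen G) (ρ : ℕ) (g : G) (hg : ∀ y, A.Exc ρ g y → ¬ IsOfFinOrder g) :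
    ∃ M : ℕ, ∀ y (i : ℤ), A.Exc ρ g y → g ^ i * y ∈ A.cay.ball ρ y → |i| ≤ M := by
  have h1 : (⋃ u ∈ {u : G | A.Exc ρ u 1 ∧ ¬ IsOfFinOrder u},
      (fun i : ℤ => u ^ i) ⁻¹' (A.cay.ball ρ 1 : Set G)).Finite :=
    ((finite_exc A ρ).subset fun u hu => hu.1).biUnion fun u hu =>
      (A.cay.ball ρ 1).finite_toSet.preimage
        (injective_zpow_iff_not_isOfFinOrder.2 hu.2).injOn
  obtain ⟨M, hM⟩ := (h1.image Int.natAbs).bddAbove
  refine ⟨M, fun y i hy hi => ?_⟩
  have h2 : ¬ IsOfFinOrder (y⁻¹ * g * y) := fun h => hg y hy (by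
    have h3 := (MulAut.conj y).toMonoidHom.isOfFinOrder h
    simpa [mul_assoc] using h3)
  have h3 : i.natAbs ≤ M := hM ⟨i, Set.mem_biUnion (x := y⁻¹ * g * y)
    ⟨(exc_iff A ρ g y).1 hy, h2⟩ ((ExcX.mem_iff A ρ g y i).1 hi), rfl⟩
  rw [Int.abs_eq_natAbs]
  exact_mod_cast h3

theorem exists_gok {A : Gen G} {π : Par} (h : A.Ok π) {ρ : ℕ} (hρ : 2 * π.Rs ≤ ρ) (g : G)
    (hg : ∀ y, A.Exc ρ g y → ¬ IsOfFinOrder g) : ∃ ι M P, GOk A π g ρ ι M P := by
  obtain ⟨M, hM⟩ := exists_M A ρ g hg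
  have hb : 8 ≤ π.b := h.1.1
  have hM0 : (0 : ℝ) ≤ M := Nat.cast_nonneg M
  have hR : (3 : ℝ) ≤ π.Rs := by
    have : 3 ≤ π.Rs := by
      unfold Par.Rs
      omega
    exact_mod_cast this
  have h0 : 0 < π.b + M := by linarith
  have h1 : 0 < (π.b + M)⁻¹ := inv_pos.2 h0
  have h2 : (π.b + M) * (π.b + M)⁻¹ = 1 := mul_inv_cancel₀ h0.ne'
  have h3 := mul_nonneg hM0 h1.le
  have h4 := mul_le_mul_of_nonneg_right hb h1.le
  refine ⟨(π.b + M)⁻¹, M, ⌈M + 2 * π.Rs / (π.b + M)⁻¹ + 1⌉₊, h, hρ, h1, by linarith, by linarith,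
    hg, hM, Nat.le_ceil _, ?_⟩
  have h5 := Nat.ceil_lt_add_one (a := M + 2 * π.Rs / (π.b + M)⁻¹ + 1) (by positivity)
  have h6 := mul_le_mul_of_nonneg_right h5.le h1.le
  have h7 : 2 * π.Rs / (π.b + M)⁻¹ * (π.b + M)⁻¹ = 2 * π.Rs := div_mul_cancel₀ _ h1.ne'
  linarith

end

end Vale.Agent.P184L
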