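import Vale.Agent.P184L.Defs3

/-! Smoothness of top coefficients. Hint: call `Ω : Y → Ext k` finite if `Ω y = ∑ m, f m y • X m` with finitely many smooth real `f m`; finite maps are closed under sums and products and contain constants, `ι (u y) = ∑ j, u y j • ι (ev j)` and `two (M y)`. For `tp_bound` use `two_anti` and continuity on a compact box (or a direct expansion). -/

namespace Vale.Agent.P184L

open Finset MeasureTheory ProbabilityTheory Classical Vale.Agent.P184
open scoped ContDiff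

noncomputable section

universe u

variable {G : Type u} [Group G]

namespace ExtDX

variable {Y : Type*} [NormedAddCommGroup Y] [NormedSpace ℝ Y] {k : ℕ}

/-- all linear functionals of the map are smooth -/
def Sm (Ω : Y → Ext k) : Prop := ∀ φ : Ext k →ₗ[ℝ] ℝ, ContDiff ℝ ∞ fun y => φ (Ω y)

theorem sm_const (X : Ext k) : Sm fun _ : Y => X := fun _ => contDiff_const

theorem Sm.left {Ω : Y → Ext k} (h : Sm Ω) (X : Ext k) : Sm fun y => X * Ω y :=
  fun φ => h (φ ∘ₗ LinearMap.mulLeft ℝ X)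

theorem Sm.smul {Ω : Y → Ext k} (h : Sm Ω) {f : Y → ℝ} (hf : ContDiff ℝ ∞ f) :
    Sm fun y => f y • Ω y := fun φ => by
  simp only [map_smul, smul_eq_mul]
  exact hf.mul (h φ)

theorem sm_sum {α : Type*} (A : Finset α) {Ω : α → Y → Ext k} (h : ∀ a ∈ A, Sm (Ω a)) :
    Sm fun y => ∑ a ∈ A, Ω a y := fun φ => by
  simp only [map_sum]
  exact ContDiff.sum fun a ha => h a ha φ

theorem Sm.two_mul {Ω : Y → Ext k} (h : Sm Ω) {M : Y → Matrix (Fin k) (Fin k) ℝ}
    (hM : ∀ i j, ContDiff ℝ ∞ fun y => M y i j) : Sm fun y => two (M y) * Ω y := by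
  simp only [two, Finset.sum_mul, smul_mul_assoc]
  exact sm_sum _ fun i _ => sm_sum _ fun j _ => (h.left _).smul (hM i j)

theorem Sm.pow_mul {Ω : Y → Ext k} (h : Sm Ω) {M : Y → Matrix (Fin k) (Fin k) ℝ}
    (hM : ∀ i j, ContDiff ℝ ∞ fun y => M y i j) (n : ℕ) : Sm fun y => two (M y) ^ n * Ω y := by
  induction n with
  | zero => simpa only [pow_zero, one_mul] using h
  | succ n ih => simpa only [pow_succ', mul_assoc] using ih.two_mul hM

theorem sm_pow {M : Y → Matrix (Fin k) (Fin k) ℝ}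
    (hM : ∀ i j, ContDiff ℝ ∞ fun y => M y i j) (n : ℕ) : Sm fun y => two (M y) ^ n := by
  simpa only [mul_one] using (sm_const (Y := Y) (1 : Ext k)).pow_mul hM n

theorem iota_eq (u : E k) :
    ExteriorAlgebra.ι ℝ u = ∑ j, u j • ExteriorAlgebra.ι ℝ (ev j) := by
  conv_lhs => rw [pi_eq_sum_univ' u]
  simp only [map_sum, map_smul, ev]

theorem Sm.iota_mul {Ω : Y → Ext k} (h : Sm Ω) {u : Y → E k} (hu : ContDiff ℝ ∞ u) :
    Sm fun y => ExteriorAlgebra.ι ℝ (u y) * Ω y := by
  have e : (fun y => ExteriorAlgebra.ι ℝ (u y) * Ω y) =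
      fun y => ∑ j, u y j • (ExteriorAlgebra.ι ℝ (ev j) * Ω y) := funext fun y => by
    rw [iota_eq (u y), Finset.sum_mul]
    simp only [smul_mul_assoc]
  rw [e]
  exact sm_sum _ fun j _ => (h.left _).smul (contDiff_pi.1 hu j)

theorem consL_ev (j : Fin k) : consL k (ev j) = ev j.succ := by
  funext i
  refine Fin.cases ?_ (fun l => ?_) i
  · simp [consL, ev, (Fin.succ_ne_zero j).symm]
  · simp [consL, ev, Pi.single_apply]

theorem swap (x y : E k) : ExteriorAlgebra.ι ℝ x * ExteriorAlgebra.ι ℝ y =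
    -(ExteriorAlgebra.ι ℝ y * ExteriorAlgebra.ι ℝ x) :=
  eq_neg_of_add_eq_zero_left (ExteriorAlgebra.ι_add_mul_swap x y)

theorem two_tr (M : Matrix (Fin k) (Fin k) ℝ) : two M.transpose = -two M := by
  rw [two, two, Finset.sum_comm, ← Finset.sum_neg_distrib]
  refine Finset.sum_congr rfl fun i _ => ?_
  rw [← Finset.sum_neg_distrib]
  refine Finset.sum_congr rfl fun j _ => ?_
  rw [swap, smul_neg, Matrix.transpose_apply]

theorem two_lin (c : ℝ) (M N : Matrix (Fin k) (Fin k) ℝ) :
    two (c • (M - N)) = c • (two M - two N) := by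
  simp only [two, Matrix.smul_apply, Matrix.sub_apply, smul_eq_mul, ← Finset.sum_sub_distrib,
    Finset.smul_sum, ← sub_smul, smul_smul]

end ExtDX

open ExtDX

theorem contDiff_vol_pow {Y : Type*} [NormedAddCommGroup Y] [NormedSpace ℝ Y] {k : ℕ} (X : Ext k)
    (n : ℕ) {M : Y → Matrix (Fin k) (Fin k) ℝ} (hM : ∀ i j, ContDiff ℝ ∞ fun y => M y i j) :
    ContDiff ℝ ∞ fun y => vol k (X * two (M y) ^ n) :=
  (sm_pow hM n).left X (vol k)

theorem contDiff_vol_tp {Y : Type*} [NormedAddCommGroup Y] [NormedSpace ℝ Y] {k : ℕ} (X : Ext k)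
    (n : ℕ) {u : Y → E k} {M N : Y → Matrix (Fin k) (Fin k) ℝ} (hu : ContDiff ℝ ∞ u)
    (hM : ∀ i j, ContDiff ℝ ∞ fun y => M y i j) (hN : ∀ i j, ContDiff ℝ ∞ fun y => N y i j) :
    ContDiff ℝ ∞ fun y => vol k (X * tp n (u y) (M y) (N y)) :=
  ((sm_sum (range (n + 1)) fun i _ => (sm_pow hN (n - i)).pow_mul hM i).iota_mul hu).left X (vol k)

theorem contDiff_curv {k : ℕ} {a : Form k} (ha : ContDiff ℝ ∞ a) (i j : Fin k) :
    ContDiff ℝ ∞ fun T => curv a T i j := by
  have h1 : ContDiff ℝ ∞ fun S => a S (ev j) := ha.clm_apply contDiff_const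
  exact (contDiff_infty_iff_fderiv.1 h1).2.clm_apply contDiff_const

theorem contDiff_sl {k : ℕ} {a : Form (k + 1)} (ha : ContDiff ℝ ∞ a) : ContDiff ℝ ∞ (sl a) :=
  (ha.comp (consL k).contDiff).clm_comp contDiff_const

theorem contDiff_vol_tf {k : ℕ} (X : Ext k) (n : ℕ) {a b : Form k} (ha : ContDiff ℝ ∞ a)
    (hb : ContDiff ℝ ∞ b) : ContDiff ℝ ∞ fun τ => vol k (X * tf n a b τ) :=
  contDiff_vol_tp X n (contDiff_pi.2 fun _ => (ha.sub hb).clm_apply contDiff_const)
    (contDiff_curv ha) (contDiff_curv hb)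

theorem curv_sl {k : ℕ} {a : Form (k + 1)} (ha : ContDiff ℝ ∞ a) (τ : E k) :
    curv (sl a) τ = (curv a (consL k τ)).submatrix Fin.succ Fin.succ := by
  funext i j
  have h1 : ContDiff ℝ ∞ fun S => a S (ev j.succ) := ha.clm_apply contDiff_const
  have h2 := ((h1.differentiable (by simp)) (consL k τ)).hasFDerivAt.comp τ
    (consL k).hasFDerivAt
  have e : (fun S => sl a S (ev j)) = (fun S => a S (ev j.succ)) ∘ consL k := funext fun S => by
    simp only [sl, ContinuousLinearMap.comp_apply, consL_ev, Function.comp]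
  show fderiv ℝ (fun S => sl a S (ev j)) τ (ev i) =
    fderiv ℝ (fun S => a S (ev j.succ)) (consL k τ) (ev i.succ)
  rw [e, h2.fderiv, ContinuousLinearMap.comp_apply, consL_ev]

theorem co_sl {k : ℕ} (a : Form (k + 1)) (τ : E k) :
    co (sl a τ) = Fin.tail (co (a (consL k τ))) := by
  funext j
  simp only [co, sl, ContinuousLinearMap.comp_apply, consL_ev, Fin.tail]

theorem two_anti {k : ℕ} (M : Matrix (Fin k) (Fin k) ℝ) :
    two M = two ((1 / 2 : ℝ) • (M - M.transpose)) := by
  rw [two_lin, two_tr, sub_neg_eq_add, ← two_smul ℝ, smul_smul]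
  norm_num

theorem two_comm {k : ℕ} (M : Matrix (Fin k) (Fin k) ℝ) (X : Ext k) : Commute (two M) X := by
  induction X using ExteriorAlgebra.induction with
  | algebraMap r => exact (Algebra.commutes r _).symm
  | ι x =>
    refine Commute.sum_left _ _ _ fun i _ => Commute.sum_left _ _ _ fun j _ =>
      Commute.smul_left ?_ _
    show _ = _
    rw [mul_assoc, swap (ev j) x, mul_neg, ← mul_assoc, swap (ev i) x, neg_mul, neg_neg, mul_assoc]
  | mul a b ha hb => exact ha.mul_right hb
  | add a b ha hb => exact ha.add_right hb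

theorem tp_bound (k n : ℕ) (K : ℝ) : ∃ K' : ℝ, ∀ (u : E k) (M N : Matrix (Fin k) (Fin k) ℝ),
    (∀ i, |u i| ≤ K) → (∀ i j, |M i j - M j i| ≤ K) → (∀ i j, |N i j - N j i| ≤ K) →
    |vol k (tp n u M N)| ≤ K' := by
  have hc : Continuous fun y : E k × (Fin k → Fin k → ℝ) × (Fin k → Fin k → ℝ) =>
      vol k (1 * tp n y.1 (Matrix.of y.2.1) (Matrix.of y.2.2)) :=
    (contDiff_vol_tp 1 n contDiff_fst
      (fun i j => contDiff_pi.1 (contDiff_pi.1 contDiff_snd.fst i) j)
      (fun i j => contDiff_pi.1 (contDiff_pi.1 contDiff_snd.snd i) j)).continuous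
  obtain ⟨K', hK⟩ := (isCompact_closedBall 0 |K|).exists_bound_of_continuousOn hc.continuousOn
  refine ⟨K', fun u M N hu hM hN => ?_⟩
  have hb : ∀ A : Matrix (Fin k) (Fin k) ℝ, (∀ i j, |A i j - A j i| ≤ K) →
      ‖fun i j => (1 / 2 : ℝ) * (A i j - A j i)‖ ≤ |K| := fun A hA =>
    (pi_norm_le_iff_of_nonneg (abs_nonneg K)).2 fun i =>
      (pi_norm_le_iff_of_nonneg (abs_nonneg K)).2 fun j => by
        have h1 := hA i j
        have h2 := le_abs_self K
        have h3 := abs_nonneg (A i j - A j i)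
        rw [Real.norm_eq_abs, abs_mul, abs_of_pos (by norm_num : (0 : ℝ) < 1 / 2)]
        linarith
  have h1 := hK (u, fun i j => (1 / 2 : ℝ) * (M i j - M j i),
      fun i j => (1 / 2 : ℝ) * (N i j - N j i)) (by
    rw [mem_closedBall_zero_iff, Prod.norm_def, Prod.norm_def]
    exact max_le ((pi_norm_le_iff_of_nonneg (abs_nonneg K)).2 fun i =>
      (hu i).trans (le_abs_self K)) (max_le (hb M hM) (hb N hN)))
  rw [one_mul, Real.norm_eq_abs] at h1
  rw [tp, two_anti M, two_anti N]
  exact h1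

theorem isCompact_simp (k : ℕ) : IsCompact (simp k) := by
  refine (isCompact_Icc (a := (0 : E k)) (b := 1)).of_isClosed_subset ?_
    fun τ h => ⟨fun i => (h.2 i).1, fun i => (h.2 i).2⟩
  simp only [simp, Monotone, Set.ofPred_and, Set.ofPred_forall]
  refine (isClosed_iInter fun i => isClosed_iInter fun j => isClosed_iInter fun _ =>
    isClosed_le (continuous_apply i) (continuous_apply j)).inter (isClosed_iInter fun i => ?_)
  exact (isClosed_le continuous_const (continuous_apply i)).inter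
    (isClosed_le (continuous_apply i) continuous_const)

theorem ord_consL {k : ℕ} {τ : E k} (h : τ ∈ simp k) : Ord (consL k τ) := by
  have h0 : consL k τ 0 = 0 := by simp [consL]
  have h1 : ∀ i : Fin k, consL k τ i.succ = τ i := fun i => by simp [consL]
  refine ⟨fun i j hij => ?_, fun i => ?_⟩
  · induction j using Fin.cases with
    | zero => rw [Fin.le_zero_iff.1 hij]
    | succ j =>
      induction i using Fin.cases with
      | zero => rw [h0, h1]; exact (h.2 j).1
      | succ i => rw [h1, h1]; exact h.1 (Fin.succ_le_succ_iff.1 hij)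
  · induction i using Fin.cases with
    | zero => linarith
    | succ i => rw [h0, h1, zero_add]; exact (h.2 i).2

end

end Vale.Agent.P184L
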