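import Vale.Agent.P184L.Pull

/-! Boundary terms of the divergence theorem are pull-backs to the faces. Hint: regroup the left side as `∑ j, vol (ι (d j) * X j)` with `d j = ev (j - 1) - ev j` (missing terms dropped for `j = 0` and `j = last`). For fixed `j` both `X ↦ vol (ι (d j) * X)` and `X ↦ vol (pb (fcM j) X)` are linear, vanish on `ιMulti` of degree other than `d` (`ExteriorAlgebra.lhom_ext`), and in degree `d` are alternating `d`-forms on `E (d + 1)` which vanish when one argument is `d j` (the transpose of `fcM j` kills `d j` and is onto). One way: let `N` be the square matrix with first row `d j`-dual data, `B = (fcM j with one column added)`, and use `Matrix.det_mul`; another way: evaluate both on increasing basis tuples `ev ∘ l.succAbove` (`Module.Basis.ext_alternating`). Any sign `s j` is fine (it is `± 1`). -/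

namespace Vale.Agent.P184L

open Finset MeasureTheory ProbabilityTheory Classical Vale.Agent.P184
open scoped ContDiff

noncomputable section

universe u

variable {G : Type u} [Group G]

namespace FaceAlgX

open ExteriorAlgebra

theorem swap {k : ℕ} (a b : E k) (X : Ext k) : ι ℝ a * (ι ℝ b * X) = -(ι ℝ b * (ι ℝ a * X)) := by
  rw [eq_neg_iff_add_eq_zero, ← mul_assoc, ← mul_assoc, ← add_mul, ι_add_mul_swap, zero_mul]

theorem absorb {k : ℕ} (u : E k) (φ : E k →ₗ[ℝ] E k) (h : ∀ i, ∃ c : ℝ, φ (ev i) = ev i + c • u)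
    (X : Ext k) : ι ℝ u * ExteriorAlgebra.map φ X = ι ℝ u * X := by
  have h1 : (LinearMap.mulLeft ℝ (ι ℝ u)) ∘ₗ ι ℝ ∘ₗ φ = (LinearMap.mulLeft ℝ (ι ℝ u)) ∘ₗ ι ℝ := by
    refine (Pi.basisFun ℝ (Fin k)).ext fun i => ?_
    obtain ⟨c, hc⟩ := h i
    rw [Pi.basisFun_apply]
    change ι ℝ u * ι ℝ (φ (ev i)) = ι ℝ u * ι ℝ (ev i)
    rw [hc, map_add, map_smul, mul_add, mul_smul_comm, ι_sq_zero, smul_zero, add_zero]
  induction X using CliffordAlgebra.left_induction with
  | algebraMap r => rw [AlgHom.commutes]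
  | add x y hx hy => rw [map_add, mul_add, mul_add, hx, hy]
  | ι_mul x m hx =>
    have h2 : ι ℝ u * ι ℝ (φ m) = ι ℝ u * ι ℝ m := LinearMap.congr_fun h1 m
    change ι ℝ u * ExteriorAlgebra.map φ (ι ℝ m * x) = ι ℝ u * (ι ℝ m * x)
    rw [map_mul, map_apply_ι, swap, hx, ← swap, ← mul_assoc, h2, mul_assoc]

theorem top {d : ℕ} (u : E (d + 1)) (R : E d →ₗ[ℝ] E (d + 1)) :
    ∃ s : ℝ, ∀ Y : Ext d, vol (d + 1) (ι ℝ u * ExteriorAlgebra.map R Y) = s * vol d Y := by
  let F : Ext d →ₗ[ℝ] ℝ :=
    vol (d + 1) ∘ₗ LinearMap.mulLeft ℝ (ι ℝ u) ∘ₗ (ExteriorAlgebra.map R).toLinearMap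
  have h : F = (F.compAlternatingMap (ιMulti ℝ d)) (Pi.basisFun ℝ (Fin d)) • vol d := by
    refine lhom_ext fun n => ?_
    by_cases hn : n = d
    · subst hn
      rw [LinearMap.smul_compAlternatingMap, vol, liftAlternating_comp_ιMulti,
        Function.update_self]
      exact AlternatingMap.eq_smul_basis_det _ _
    · ext v
      change vol (d + 1) (ι ℝ u * ExteriorAlgebra.map R (ιMulti ℝ n v)) = _ * vol d (ιMulti ℝ n v)
      rw [map_apply_ιMulti, vol, vol, liftAlternating_ι_mul, liftAlternating_apply_ιMulti,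
        liftAlternating_apply_ιMulti, Function.update_of_ne hn,
        Function.update_of_ne (by omega)]
      simp
  exact ⟨_, fun Y => LinearMap.congr_fun h Y⟩

/-- The conormal of the face `j`. -/
def uu {d : ℕ} (j : Fin (d + 2)) : E (d + 1) :=
  fun i => (if i.succ = j then 1 else 0) - if i.castSucc = j then 1 else 0

/-- A section of the transposed face map. -/
def RR {d : ℕ} (j : Fin (d + 2)) : E d →ₗ[ℝ] E (d + 1) :=
  LinearMap.pi fun i => if h : i.val < min j.val d then LinearMap.proj ⟨i.val, by omega⟩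
    else if h : min j.val d < i.val then LinearMap.proj ⟨i.val - 1, by omega⟩ else 0

theorem snoc_ev {d : ℕ} (l : Fin d) (m : Fin (d + 2)) :
    Fin.snoc (α := fun _ => ℝ) (consL d (ev l)) (consL d (ev l) 0) m =
      if m.val = l.val + 1 then 1 else 0 := by
  induction m using Fin.lastCases with
  | last =>
    rw [Fin.snoc_last, if_neg (by simp only [Fin.val_last]; omega)]
    rfl
  | cast m =>
    rw [Fin.snoc_castSucc]
    induction m using Fin.cases with
    | zero => rw [if_neg (by simp)]; rfl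
    | succ m =>
      change ev l m = _
      simp only [ev, Pi.single_apply, Fin.ext_iff, Fin.val_castSucc, Fin.val_succ, add_left_inj]

theorem fcM_eq {d : ℕ} (j : Fin (d + 2)) (i : Fin (d + 1)) (l : Fin d) :
    fcM j i l = if (if j.val ≤ i.val then i.val else i.val + 1) = l.val + 1 then 1 else 0 := by
  rw [fcM, faceL, snoc_ev]
  have h : (j.predAbove i.succ.castSucc).val = if j.val ≤ i.val then i.val else i.val + 1 := by
    unfold Fin.predAbove
    split_ifs with h1 h2 h2 <;> simp only [Fin.lt_def, Fin.val_castSucc, Fin.val_succ] at h1 <;>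
      first | omega | simp
  rw [h]

theorem sec {d : ℕ} (j : Fin (d + 2)) (i : Fin (d + 1)) :
    ∃ c : ℝ, (RR j ∘ₗ Matrix.toLin' (fcM j).transpose) (ev i) = ev i + c • uu j := by
  refine ⟨(if i.val = j.val then 1 else 0) - if i.val = d ∧ j.val = d + 1 then 1 else 0, ?_⟩
  funext a
  have h1 : Matrix.toLin' (fcM j).transpose (ev i) = fun l => fcM j i l := by
    rw [Matrix.toLin'_apply, ev, Matrix.mulVec_single_one]
    rfl
  have hi := i.2
  have hj := j.2
  have ha := a.2
  rw [LinearMap.comp_apply, h1]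
  simp only [RR, LinearMap.pi_apply, uu, ev, Pi.add_apply, Pi.smul_apply, Pi.single_apply,
    Fin.ext_iff, Fin.val_castSucc, Fin.val_succ, smul_eq_mul]
  by_cases h2 : a.val < min j.val d
  · rw [dif_pos h2, LinearMap.proj_apply, fcM_eq]
    split_ifs <;> first | omega | (simp only [] at *; omega) | norm_num
  by_cases h3 : min j.val d < a.val
  · rw [dif_neg h2, dif_pos h3, LinearMap.proj_apply, fcM_eq]
    split_ifs <;> first | omega | (simp only [] at *; omega) | norm_num
  · rw [dif_neg h2, dif_neg h3, LinearMap.zero_apply]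
    split_ifs <;> first | omega | norm_num

theorem one {d : ℕ} (j : Fin (d + 2)) :
    ∃ s : ℝ, ∀ X : Ext (d + 1), vol (d + 1) (ι ℝ (uu j) * X) = s * vol d (pb (fcM j) X) := by
  obtain ⟨s, hs⟩ := top (uu j) (RR j)
  refine ⟨s, fun X => ?_⟩
  rw [← hs, ← absorb (uu j) _ (sec j) X, ← map_comp_map]
  rfl

end FaceAlgX

theorem face_alg (d : ℕ) : ∃ s : Fin (d + 2) → ℝ, ∀ X : Fin (d + 2) → Ext (d + 1),
    ∑ i : Fin (d + 1), (vol (d + 1) (ExteriorAlgebra.ι ℝ (ev i) * X i.succ) -
      vol (d + 1) (ExteriorAlgebra.ι ℝ (ev i) * X i.castSucc)) =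
      ∑ j, s j * vol d (pb (fcM j) (X j)) := by
  choose s hs using FaceAlgX.one (d := d)
  refine ⟨s, fun X => ?_⟩
  have h : ∀ j : Fin (d + 2), s j * vol d (pb (fcM j) (X j)) =
      ∑ i, FaceAlgX.uu j i * vol (d + 1) (ExteriorAlgebra.ι ℝ (ev i) * X j) := fun j => by
    rw [← hs, LinearMap.pi_apply_eq_sum_univ, Finset.sum_mul, map_sum]
    refine Finset.sum_congr rfl fun i _ => ?_
    rw [smul_mul_assoc, map_smul, smul_eq_mul]
    have e : (fun a => if i = a then (1 : ℝ) else 0) = ev i := funext fun a => by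
      simp only [ev, Pi.single_apply, eq_comm]
    rw [e]
  simp only [h]
  rw [Finset.sum_comm]
  refine Finset.sum_congr rfl fun i _ => ?_
  simp only [FaceAlgX.uu, sub_mul, ite_mul, one_mul, zero_mul, Finset.sum_sub_distrib,
    Finset.sum_ite_eq, Finset.mem_univ, if_true]

end

end Vale.Agent.P184L
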