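import Vale.Agent.P184L.Piola
import Vale.Agent.P184L.Div
import Vale.Agent.P184L.FaceAlg
import Vale.Agent.P184L.Th0
import Vale.Agent.P184L.Pull

/-! Stokes formula for the characteristic number. Hint: `piola`, `div_simp` with `F σ = vol (ι (ev i) * tf n (sl a) (sl th0) σ)`, `face_alg` with `X j = tf ... (fc j σ)`, and `tf_pull` with `A = fcM j`, `c = fc j 0`, `φ = 0`: `fc j σ = (fcM j).mulVec σ + fc j 0`, `consL _ (fc j σ) = faceA j (consL _ σ)`, `consL _ ((fcM j).mulVec v) = faceL j (consL _ v)`; use `IsPre.face` for `θ` and for `th0_pre`. Integrability: continuity on the compact `simp`. -/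

namespace Vale.Agent.P184L

open Finset MeasureTheory ProbabilityTheory Classical Vale.Agent.P184
open scoped ContDiff

noncomputable section

universe u

variable {G : Type u} [Group G]

namespace FaceX

theorem consL_zero {k : ℕ} (v : E k) : consL k v 0 = 0 := rfl

theorem consL_succ {k : ℕ} (v : E k) (i : Fin k) : consL k v i.succ = v i := rfl

theorem predAbove_zero' {d : ℕ} (j : Fin (d + 2)) :
    j.predAbove (0 : Fin (d + 2)).castSucc = 0 := by
  simp

theorem consL_fc {d : ℕ} (j : Fin (d + 2)) (σ : E d) :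
    consL (d + 1) (fc j σ) = faceA j (consL d σ) := by
  funext i
  refine Fin.cases ?_ (fun i => rfl) i
  rw [consL_zero, faceA, predAbove_zero']
  rfl

/-- The linear map behind `faceL`. -/
def sn (k : ℕ) (l : Fin (k + 2)) : E (k + 1) →ₗ[ℝ] ℝ where
  toFun v := Fin.snoc (α := fun _ => ℝ) v (v 0) l
  map_add' v v' := by refine Fin.lastCases ?_ (fun i => ?_) l <;> simp
  map_smul' c v := by refine Fin.lastCases ?_ (fun i => ?_) l <;> simp

theorem fcM_mulVec {d : ℕ} (j : Fin (d + 2)) (v : E d) (i : Fin (d + 1)) :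
    (fcM j).mulVec v i = faceL j (consL d v) i.succ := by
  have h : v = ∑ l, v l • ev l := by
    funext l
    simp [ev, Finset.sum_apply, Pi.single_apply]
  change ∑ l, sn d _ (consL d (ev l)) * v l = sn d _ (consL d v)
  conv_rhs => rw [h]
  simp [mul_comm]

theorem consL_fcM {d : ℕ} (j : Fin (d + 2)) (v : E d) :
    consL (d + 1) ((fcM j).mulVec v) = faceL j (consL d v) := by
  funext i
  refine Fin.cases ?_ (fun i => fcM_mulVec j v i) i
  rw [consL_zero, faceL, predAbove_zero']
  rfl

theorem fc_eq {d : ℕ} (j : Fin (d + 2)) (σ : E d) : (fcM j).mulVec σ + fc j 0 = fc j σ := by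
  funext i
  rw [Pi.add_apply, fcM_mulVec]
  simp only [fc, Fin.tail, faceA, faceL, nx, map_zero]
  refine Fin.lastCases ?_ (fun l => ?_) (j.predAbove i.succ.castSucc) <;> simp

theorem sl_face {g : G} {θ : Fam G} (h : IsPre g θ) {d : ℕ} (x : Fin (d + 2) → G)
    (j : Fin (d + 2)) (σ v : E d) : sl (θ d fun i => x (j.succAbove i)) σ v =
      sl (θ (d + 1) x) ((fcM j).mulVec σ + fc j 0) ((fcM j).mulVec v) + 0 := by
  simp only [sl, ContinuousLinearMap.comp_apply, fc_eq, consL_fc, consL_fcM, h.face, add_zero]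

theorem continuous_fc {d : ℕ} (j : Fin (d + 2)) : Continuous (fc j : E d → E (d + 1)) := by
  have : (fc j : E d → E (d + 1)) = fun σ => (fcM j).mulVec σ + fc j 0 :=
    funext fun σ => (fc_eq j σ).symm
  rw [this]
  fun_prop

theorem intOn {d : ℕ} {F : E d → ℝ} (h : Continuous F) : IntegrableOn F (simp d) :=
  h.continuousOn.integrableOn_compact (isCompact_simp d)

end FaceX

open FaceX in
theorem chr_face (n d : ℕ) : ∃ s : Fin (d + 2) → ℝ, ∀ (g : G) (θ : Fam G), IsPre g θ →
    ∀ x : Fin (d + 2) → G, chr (n + 1) (θ (d + 1) x) - chr (n + 1) (th0 (d + 1)) =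
      ∑ j, s j * trg n (θ d fun i => x (j.succAbove i)) := by
  obtain ⟨s, hs⟩ := face_alg d
  refine ⟨s, fun g θ h x => ?_⟩
  have h0 := th0_pre g
  have ha := contDiff_sl (h.smooth (d + 1) x)
  have hb : ContDiff ℝ ∞ (sl (th0 (d + 1))) := contDiff_sl (h0.smooth (d + 1) x)
  have hp : ∀ {a : Form (d + 1)}, ContDiff ℝ ∞ a →
      Continuous fun τ => vol (d + 1) (two (curv a τ) ^ (n + 1)) := fun ha => by
    simpa using (contDiff_vol_pow 1 (n + 1) (contDiff_curv ha)).continuous
  have hF := fun i => contDiff_vol_tf (ExteriorAlgebra.ι ℝ (ev i)) n ha hb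
  have hj : ∀ j σ, tf n (sl (θ d fun i => x (j.succAbove i))) (sl (th0 d)) σ =
      pb (fcM j) (tf n (sl (θ (d + 1) x)) (sl (th0 (d + 1))) (fc j σ)) := fun j σ => by
    rw [tf_pull n (fcM j) (fc j 0) (fun _ => 0) ha hb (sl_face h x j) (sl_face h0 x j), fc_eq]
  have hc : ∀ j : Fin (d + 2), Continuous fun σ =>
      vol d (tf n (sl (θ d fun i => x (j.succAbove i))) (sl (th0 d)) σ) := fun j => by
    simpa using (contDiff_vol_tf 1 n (contDiff_sl (h.smooth d _))
      (contDiff_sl (h0.smooth d fun i => x (j.succAbove i)))).continuous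
  unfold chr trg
  rw [← integral_sub (intOn (hp ha)) (intOn (hp hb))]
  simp only [← piola n ha hb]
  rw [integral_finset_sum _ fun i _ => intOn
    (((hF i).continuous_fderiv (by simp)).clm_apply continuous_const)]
  simp only [fun i => div_simp (hF i) i, ← integral_const_mul]
  rw [← integral_finset_sum, ← integral_finset_sum]
  · refine integral_congr_ae (Filter.Eventually.of_forall fun σ => ?_)
    simp only [hj]
    exact hs fun j => tf n (sl (θ (d + 1) x)) (sl (th0 (d + 1))) (fc j σ)
  · exact fun j _ => intOn (continuous_const.mul (hc j))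
  · exact fun i _ => intOn
      (((hF i).continuous.comp (continuous_fc _)).sub ((hF i).continuous.comp (continuous_fc _)))

end

end Vale.Agent.P184L
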