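import Vale.Agent.P184L.Defs3

/-! Existence of filters. Hint: induction on the number of factors, `κ` = convolution (`Measure.conv`, or the image of a product measure under addition) of uniform measures on `[0, ℓ / p]`; `‖∫ exp (i ξ u)‖ ≤ 2 / (|ξ| ℓ / p)` for one factor; `charFun_conv`. -/

namespace Vale.Agent.P184L

open Finset MeasureTheory ProbabilityTheory Classical Vale.Agent.P184
open scoped ContDiff

noncomputable section

universe u

variable {G : Type u} [Group G]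

namespace FiltX

theorem filt_zero (Ξ : ℝ) : Filt (Measure.dirac 0) 0 Ξ 1 := by
  refine ⟨inferInstance, ?_, fun ξ _ => ?_⟩
  · rw [Measure.dirac_apply' _ measurableSet_Icc.compl]
    simp
  · simp

theorem filt_one {h : ℝ} (hh : 0 < h) :
    Filt ((ENNReal.ofReal h)⁻¹ • volume.restrict (Set.Ioc 0 h)) h (4 / h) (1 / 2) := by
  refine ⟨⟨?_⟩, ?_, fun ξ hξ => ?_⟩
  · rw [Measure.smul_apply, Measure.restrict_apply MeasurableSet.univ, Set.univ_inter,
      Real.volume_Ioc, sub_zero, smul_eq_mul]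
    exact ENNReal.inv_mul_cancel (by simpa using hh) ENNReal.ofReal_ne_top
  · rw [Measure.smul_apply, Measure.restrict_apply measurableSet_Icc.compl]
    have e : (Set.Icc 0 h)ᶜ ∩ Set.Ioc 0 h = ∅ :=
      Set.eq_empty_of_forall_notMem fun x hx => hx.1 (Set.Ioc_subset_Icc_self hx.2)
    rw [e]
    simp
  · have h4 : 0 < 4 / h := by positivity
    have hξ0 : 0 < |ξ| := h4.trans_le hξ
    have hc : Complex.I * ξ ≠ 0 :=
      mul_ne_zero Complex.I_ne_zero (Complex.ofReal_ne_zero.2 (abs_pos.1 hξ0))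
    rw [integral_smul_measure, ← intervalIntegral.integral_of_le hh.le,
      integral_exp_mul_complex hc, norm_smul, norm_div, ENNReal.toReal_inv,
      ENNReal.toReal_ofReal hh.le, Real.norm_eq_abs, abs_of_pos (inv_pos.2 hh), norm_mul,
      Complex.norm_I, one_mul, Complex.norm_real, Real.norm_eq_abs]
    have n1 : ∀ u : ℝ, ‖Complex.exp (Complex.I * ξ * u)‖ = 1 := fun u => by
      rw [mul_assoc, ← Complex.ofReal_mul, mul_comm, Complex.norm_exp_ofReal_mul_I]
    have h2 : ‖Complex.exp (Complex.I * ξ * h) - Complex.exp (Complex.I * ξ * (0 : ℝ))‖ ≤ 2 := by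
      refine (norm_sub_le _ _).trans ?_
      rw [n1, n1]
      norm_num
    rw [div_le_iff₀ hh] at hξ
    rw [inv_mul_le_iff₀ hh, div_le_iff₀ hξ0]
    linarith

theorem filt_conv {κ μ : Measure ℝ} {ℓ h Ξ ε δ : ℝ} (h1 : Filt κ ℓ Ξ ε) (h2 : Filt μ h Ξ δ) :
    Filt ((κ.prod μ).map fun p => p.1 + p.2) (ℓ + h) Ξ (ε * δ) := by
  obtain ⟨i1, s1, f1⟩ := h1
  obtain ⟨i2, s2, f2⟩ := h2
  have hm : Measurable fun p : ℝ × ℝ => p.1 + p.2 := measurable_fst.add measurable_snd
  refine ⟨Measure.isProbabilityMeasure_map hm.aemeasurable, ?_, fun ξ hξ => ?_⟩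
  · rw [Measure.map_apply hm measurableSet_Icc.compl]
    refine measure_mono_null (t := (Set.Icc 0 ℓ)ᶜ ×ˢ Set.univ ∪ Set.univ ×ˢ (Set.Icc 0 h)ᶜ)
      (fun p hp => ?_) (measure_union_null ?_ ?_)
    · by_contra hn
      simp only [Set.mem_union, Set.mem_prod, Set.mem_compl_iff, Set.mem_univ, and_true, true_and,
        not_or, not_not, Set.mem_Icc] at hn
      exact hp ⟨by linarith [hn.1.1, hn.2.1], by linarith [hn.1.2, hn.2.2]⟩
    · rw [Measure.prod_prod, s1, zero_mul]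
    · rw [Measure.prod_prod, s2, mul_zero]
  · rw [integral_map hm.aemeasurable (Continuous.aestronglyMeasurable (by fun_prop))]
    simp only [Complex.ofReal_add, mul_add, Complex.exp_add]
    rw [integral_prod_mul (fun u : ℝ => Complex.exp (Complex.I * ξ * u))
      (fun u : ℝ => Complex.exp (Complex.I * ξ * u)), norm_mul]
    exact mul_le_mul (f1 ξ hξ) (f2 ξ hξ) (norm_nonneg _) ((norm_nonneg _).trans (f1 ξ hξ))

theorem filt_pow {h : ℝ} (hh : 0 < h) (n : ℕ) :
    ∃ κ : Measure ℝ, Filt κ (n * h) (4 / h) ((1 / 2) ^ n) := by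
  induction n with
  | zero => exact ⟨_, by simpa using filt_zero (4 / h)⟩
  | succ n ih =>
    obtain ⟨κ, hκ⟩ := ih
    rw [pow_succ, Nat.cast_succ, add_mul, one_mul]
    exact ⟨_, filt_conv hκ (filt_one hh)⟩

end FiltX

theorem exists_filt {ℓ : ℝ} (hℓ : 0 < ℓ) {p : ℕ} (hp : 1 ≤ p) :
    ∃ κ : Measure ℝ, Filt κ ℓ (4 * p / ℓ) ((1 / 2) ^ p) := by
  have hp' : (0 : ℝ) < p := by exact_mod_cast hp
  obtain ⟨κ, hκ⟩ := FiltX.filt_pow (div_pos hℓ hp') p
  refine ⟨κ, ?_⟩
  have e1 : (p : ℝ) * (ℓ / p) = ℓ := by field_simp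
  have e2 : 4 / (ℓ / p) = 4 * p / ℓ := by field_simp
  rwa [e1, e2] at hκ

end

end Vale.Agent.P184L
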