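import Vale.Agent.P184L.Defs3

/-! Fourier analysis of twisted periodic functions. Hint: for a continuous `f` with `f (t + 1) = exp (i ϑ) f t`, Parseval (`tsum_sq_fourierCoeffOn` or `hasSum_sq_fourierCoeffOn` for `t ↦ f t * exp (-i ϑ t)` on `[0, 1]`) gives `∫ ‖f‖ ^ 2 = ∑ n, ‖f^ (2 π n + ϑ)‖ ^ 2`. Apply it to `φ'` (coefficients `i ξ φ^ ξ`, integration by parts) and to `t ↦ ∫ φ' (t + u) dκ` (coefficients multiplied by `∫ exp (i ξ u) dκ`, Fubini and periodicity), of norm `≤ 1`, and `≤ ε` for `|n| > K`. -/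

namespace Vale.Agent.P184L

open Finset MeasureTheory ProbabilityTheory Classical Vale.Agent.P184
open scoped ContDiff

noncomputable section

universe u

variable {G : Type u} [Group G]

namespace FoX

/-- Fourier coefficient at frequency `ξ`. -/
def cf (f : ℝ → ℂ) (ξ : ℝ) : ℂ := ∫ t in (0 : ℝ)..1, f t * Complex.exp (-(Complex.I * ξ * t))

theorem parseval {f : ℝ → ℂ} (hf : Continuous f) (ϑ : ℝ) :
    HasSum (fun n : ℤ => ‖cf f (2 * Real.pi * n + ϑ)‖ ^ 2) (∫ t in (0 : ℝ)..1, ‖f t‖ ^ 2) := by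
  have hc : Continuous fun t : ℝ => f t * Complex.exp (-(Complex.I * ϑ * t)) := by fun_prop
  obtain ⟨M, hM⟩ := (isCompact_Icc (a := (0 : ℝ)) (b := 1)).exists_bound_of_continuousOn
    hc.continuousOn
  have hL : MemLp (fun t : ℝ => f t * Complex.exp (-(Complex.I * ϑ * t))) 2
      (volume.restrict (Set.Ioc (0 : ℝ) 1)) :=
    MemLp.of_bound hc.aestronglyMeasurable M
      ((ae_restrict_mem measurableSet_Ioc).mono fun t ht => hM t (Set.Ioc_subset_Icc_self ht))
  have h := hasSum_sq_fourierCoeffOn (zero_lt_one' ℝ) hL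
  convert h using 1
  · funext n
    rw [fourierCoeffOn_eq_integral, cf]
    simp only [fourier_coe_apply, sub_zero, div_one, one_smul, smul_eq_mul, Complex.ofReal_one]
    congr 3
    funext t
    rw [mul_left_comm, ← Complex.exp_add]
    congr 2
    push_cast
    ring
  · simp only [sub_zero, inv_one, one_smul]
    congr 1
    funext t
    rw [norm_mul, show -(Complex.I * ϑ * t) = ((-(ϑ * t) : ℝ) : ℂ) * Complex.I by push_cast; ring,
      Complex.norm_exp_ofReal_mul_I, mul_one]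

theorem per {f : ℝ → ℂ} {ϑ : ℝ} (hp : ∀ t, f (t + 1) = Complex.exp (Complex.I * ϑ) * f t) (n : ℤ) :
    Function.Periodic
      (fun t : ℝ => f t * Complex.exp (-(Complex.I * (2 * Real.pi * n + ϑ : ℝ) * t))) 1 := by
  intro t
  simp only [hp]
  rw [mul_comm (Complex.exp _), mul_assoc, ← Complex.exp_add]
  congr 1
  refine Complex.exp_eq_exp_iff_exists_int.2 ⟨-n, ?_⟩
  push_cast
  ring

theorem cf_deriv {φ φ' : ℝ → ℂ} (hφ : ∀ t, HasDerivAt φ (φ' t) t) (hc : Continuous φ') {ξ : ℝ}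
    (hp : Function.Periodic (fun t : ℝ => φ t * Complex.exp (-(Complex.I * ξ * t))) 1) :
    cf φ' ξ = Complex.I * ξ * cf φ ξ := by
  have h0 : Continuous φ := continuous_iff_continuousAt.2 fun t => (hφ t).continuousAt
  have hd : ∀ t : ℝ, HasDerivAt (fun t : ℝ => φ t * Complex.exp (-(Complex.I * ξ * t)))
      (φ' t * Complex.exp (-(Complex.I * ξ * t)) -
        Complex.I * ξ * (φ t * Complex.exp (-(Complex.I * ξ * t)))) t := fun t => by
    have h1 : HasDerivAt (fun t : ℝ => -(Complex.I * ξ * (t : ℂ))) (-(Complex.I * ξ * 1)) t :=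
      ((Complex.ofRealCLM.hasDerivAt (x := t)).const_mul (Complex.I * ξ)).neg
    exact ((hφ t).mul h1.cexp).congr_deriv (by ring)
  have h2 := intervalIntegral.integral_eq_sub_of_hasDerivAt (a := 0) (b := 1) (fun t _ => hd t)
    (Continuous.intervalIntegrable (by fun_prop) _ _)
  have h3 := hp 0
  rw [zero_add] at h3
  simp only at h3
  rw [h3, sub_self, intervalIntegral.integral_sub (Continuous.intervalIntegrable (by fun_prop) _ _)
    (Continuous.intervalIntegrable (by fun_prop) _ _), intervalIntegral.integral_const_mul] at h2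
  exact sub_eq_zero.1 h2

theorem norm_e (a : ℝ) : ‖Complex.exp (Complex.I * a)‖ = 1 := by
  rw [mul_comm, Complex.norm_exp_ofReal_mul_I]

theorem cf_conv {f : ℝ → ℂ} (hc : Continuous f) {M : ℝ} (hM : ∀ t, ‖f t‖ ≤ M) {ξ : ℝ}
    (hp : Function.Periodic (fun t : ℝ => f t * Complex.exp (-(Complex.I * ξ * t))) 1)
    (κ : Measure ℝ) [IsProbabilityMeasure κ] :
    cf (fun t => ∫ u, f (t + u) ∂κ) ξ = (∫ u, Complex.exp (Complex.I * ξ * u) ∂κ) * cf f ξ := by
  unfold cf
  simp only [← integral_mul_const]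
  rw [intervalIntegral_integral_swap]
  · congr 1
    funext u
    have h1 := hp.intervalIntegral_add_eq u 0
    rw [zero_add] at h1
    rw [← h1, add_comm u 1, ← intervalIntegral.integral_const_mul]
    have h2 := intervalIntegral.integral_comp_add_right (a := 0) (b := 1) (fun t : ℝ =>
      Complex.exp (Complex.I * ξ * u) * (f t * Complex.exp (-(Complex.I * ξ * t)))) u
    rw [zero_add] at h2
    rw [← h2]
    congr 1
    funext t
    rw [mul_left_comm, ← Complex.exp_add]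
    congr 2
    push_cast
    ring
  · rw [Set.uIoc_of_le zero_le_one]
    refine Integrable.of_bound (Continuous.aestronglyMeasurable ?_) M (ae_of_all _ fun p => ?_)
    · change Continuous fun p : ℝ × ℝ => f (p.1 + p.2) * Complex.exp (-(Complex.I * ξ * p.1))
      fun_prop
    · change ‖f (p.1 + p.2) * Complex.exp (-(Complex.I * ξ * p.1))‖ ≤ M
      rw [norm_mul, show -(Complex.I * ξ * p.1) = Complex.I * ((-(ξ * p.1) : ℝ) : ℂ) by
        push_cast; ring, norm_e, mul_one]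
      exact hM _

end FoX

open FoX in
theorem fourier_lower {φ φ' : ℝ → ℂ} (hφ : ∀ t, HasDerivAt φ (φ' t) t) (hc : Continuous φ')
    {ϑ : ℝ} (hϑ : |ϑ| ≤ Real.pi) (hp : ∀ t, φ (t + 1) = Complex.exp (Complex.I * ϑ) * φ t)
    {κ : Measure ℝ} {ℓ Ξ ε : ℝ} (hκ : Filt κ ℓ Ξ ε) {K : ℕ} (hK : Ξ ≤ K) :
    ∫ t in (0 : ℝ)..1, ‖∫ u, φ' (t + u) ∂κ‖ ^ 2 ≤
      ∑ n ∈ Icc (-(K : ℤ)) K, (2 * Real.pi * n + ϑ) ^ 2 * ‖∫ t in (0 : ℝ)..1,
        φ t * Complex.exp (-(Complex.I * (2 * Real.pi * n + ϑ : ℝ) * t))‖ ^ 2 +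
      ε ^ 2 * ∫ t in (0 : ℝ)..1, ‖φ' t‖ ^ 2 := by
  have := hκ.1
  have hp' : ∀ t, φ' (t + 1) = Complex.exp (Complex.I * ϑ) * φ' t := fun t => by
    have h1 : HasDerivAt (fun s => φ (s + 1)) (φ' (t + 1)) t := (hφ (t + 1)).comp_add_const t 1
    simp only [hp] at h1
    exact h1.unique ((hφ t).const_mul _)
  have hn : Function.Periodic (fun t => ‖φ' t‖) 1 := fun t => by
    simp only [hp', norm_mul, norm_e, one_mul]
  obtain ⟨M, hM⟩ := (hn.compact_of_continuous one_ne_zero hc.norm).bddAbove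
  have hM' : ∀ t, ‖φ' t‖ ≤ M := fun t => hM ⟨t, rfl⟩
  have hcc : Continuous fun t => ∫ u, φ' (t + u) ∂κ :=
    continuous_of_dominated (bound := fun _ => M)
      (fun t => Continuous.aestronglyMeasurable (by fun_prop))
      (fun t => ae_of_all _ fun u => hM' _) (integrable_const M)
      (ae_of_all _ fun u => by fun_prop)
  have h1 := parseval hcc ϑ
  have h2 := (parseval hc ϑ).mul_left (ε ^ 2)
  have h3 := hasSum_sum_of_ne_finset_zero (L := SummationFilter.unconditional ℤ)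
    (s := Icc (-(K : ℤ)) K) (f := fun n : ℤ => if n ∈ Icc (-(K : ℤ)) K then
      (2 * Real.pi * n + ϑ) ^ 2 * ‖cf φ (2 * Real.pi * n + ϑ)‖ ^ 2 else 0) fun n hn => if_neg hn
  rw [Finset.sum_congr rfl fun n hn => if_pos hn] at h3
  refine hasSum_le (fun n => ?_) h1 (h3.add h2)
  rw [cf_conv hc hM' (FoX.per hp' n), norm_mul, mul_pow]
  have e0 := sq_nonneg ‖cf φ' (2 * Real.pi * n + ϑ)‖
  split_ifs with hn
  · have h4 : ‖∫ u : ℝ, Complex.exp (Complex.I * (2 * Real.pi * n + ϑ : ℝ) * u) ∂κ‖ ≤ 1 := by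
      have h5 := norm_integral_le_of_norm_le_const (μ := κ) (C := 1)
        (f := fun u : ℝ => Complex.exp (Complex.I * (2 * Real.pi * n + ϑ : ℝ) * u))
        (ae_of_all _ fun u => by rw [mul_assoc, ← Complex.ofReal_mul, norm_e])
      simpa using h5
    have h6 := mul_le_mul_of_nonneg_right (pow_le_one₀ (n := 2) (norm_nonneg _) h4) e0
    have h7 : ‖cf φ' (2 * Real.pi * n + ϑ)‖ ^ 2 =
        (2 * Real.pi * n + ϑ) ^ 2 * ‖cf φ (2 * Real.pi * n + ϑ)‖ ^ 2 := by
      rw [cf_deriv hφ hc (FoX.per hp n), norm_mul, norm_mul, Complex.norm_I, one_mul, mul_pow,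
        Complex.norm_real, Real.norm_eq_abs, sq_abs]
    have h8 := mul_nonneg (sq_nonneg ε) e0
    linarith
  · rw [zero_add]
    refine mul_le_mul_of_nonneg_right (pow_le_pow_left₀ (norm_nonneg _) (hκ.2.2 _ ?_) 2) e0
    have h4 : (K : ℝ) + 1 ≤ |(n : ℝ)| := by
      have h5 : (K : ℤ) + 1 ≤ |n| := by
        rw [Finset.mem_Icc] at hn
        rcases abs_cases n with h | h <;> omega
      exact_mod_cast h5
    have h5 : |2 * Real.pi * n| = 2 * Real.pi * |(n : ℝ)| := by
      rw [abs_mul, abs_of_pos Real.two_pi_pos]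
    have h6 := abs_sub (2 * Real.pi * n + ϑ) ϑ
    rw [add_sub_cancel_right, h5] at h6
    have h7 : (0 : ℝ) ≤ K := Nat.cast_nonneg K
    nlinarith [Real.pi_gt_three]

end

end Vale.Agent.P184L
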