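import Vale.Agent.P184L.K1

/-! The profile functions. Hint: `π.Ok` gives `Rs / L = b Rs / (2 k) ≤ 1 / (2 b Rs)`, tiny; use `1 - x ≤ exp (-x)` and `exp (-2 x) ≤ 1 - x` for `x ≤ 1 / 2`; `H0' = -(b / 2) (1 - s / L) ^ (k - 1)`. The first two derivatives of `smoothTransition` are bounded (compact support) and `1 / (Rt / 2) ≤ 1`. For `H0_le_gg` integrate over `[s, s + 1 / b]`, where `H = H0 ≥ H0 s / C`. -/

namespace Vale.Agent.P184L

open Finset MeasureTheory ProbabilityTheory Classical Vale.Agent.P184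
open scoped ContDiff

noncomputable section

universe u

variable {G : Type u} [Group G]

namespace Gb1X

theorem dz {f : ℝ → ℝ} (hf : Differentiable ℝ f) {a : ℝ} (h : ∀ s, a ≤ s → f s = 0) (s : ℝ)
    (hs : a ≤ s) : deriv f s = 0 :=
  (uniqueDiffWithinAt_Ici s).eq_deriv _ (hf s).hasDerivAt.hasDerivWithinAt
    ((hasDerivWithinAt_const s _ 0).congr (fun u hu => h u (hs.trans hu)) (h s hs))

theorem smooth : ContDiff ℝ ∞ Real.smoothTransition := Real.smoothTransition.contDiff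

theorem bd : ∃ M : ℝ, 0 ≤ M ∧ ∀ x, |deriv Real.smoothTransition x| ≤ M ∧
    |deriv (deriv Real.smoothTransition) x| ≤ M := by
  have h1 : HasCompactSupport (deriv Real.smoothTransition) :=
    HasCompactSupport.intro (isCompact_Icc (a := (0 : ℝ)) (b := 1)) fun x hx => by
      rcases lt_or_ge x 0 with h | h
      · refine (Filter.EventuallyEq.deriv_eq ?_).trans (deriv_const x (0 : ℝ))
        filter_upwards [Iio_mem_nhds h] with y hy using Real.smoothTransition.zero_of_nonpos hy.le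
      · refine (Filter.EventuallyEq.deriv_eq ?_).trans (deriv_const x (1 : ℝ))
        filter_upwards [Ioi_mem_nhds (lt_of_not_ge fun h2 => hx ⟨h, h2⟩)] with y hy
          using Real.smoothTransition.one_of_one_le hy.le
  have h2 := (contDiff_infty_iff_deriv.1 smooth).2
  obtain ⟨M, hM⟩ := h2.continuous.bounded_above_of_compact_support h1
  obtain ⟨M', hM'⟩ :=
    (contDiff_infty_iff_deriv.1 h2).2.continuous.bounded_above_of_compact_support h1.deriv
  exact ⟨max M M', (norm_nonneg _).trans ((hM 0).trans (le_max_left _ _)), fun x =>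
    ⟨(hM x).trans (le_max_left _ _), (hM' x).trans (le_max_right _ _)⟩⟩

theorem aff {f : ℝ → ℝ} (hf : Differentiable ℝ f) (a c s : ℝ) :
    HasDerivAt (fun u => f ((a - u) / c)) (deriv f ((a - s) / c) * (-1 / c)) s :=
  (hf _).hasDerivAt.comp s (((hasDerivAt_id s).const_sub a).div_const c)

theorem pw (L : ℝ) (n : ℕ) (s : ℝ) :
    HasDerivAt (fun u => (1 - u / L) ^ n) (n * (1 - s / L) ^ (n - 1) * -(1 / L)) s :=
  (((hasDerivAt_id s).div_const L).const_sub 1).pow n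

end Gb1X

theorem Par.Rt_eq (π : Par) : (π.Rt : ℝ) = 4 * (π.R + 1) := by
  simp [Par.Rt]

theorem Par.Rs_eq (π : Par) : (π.Rs : ℝ) = 3 * (π.Rt + 1) := by
  simp [Par.Rs]

theorem Par.Ok.L_ge {π : Par} (h : π.Ok) : 2 * π.b * π.Rs * π.Rs ≤ π.L ∧ 2 ≤ π.k := by
  obtain ⟨h1, h2, h3⟩ := h
  have h4 : (1 : ℝ) ≤ π.Rs := by
    rw [π.Rs_eq]
    linarith [Nat.cast_nonneg (α := ℝ) π.Rt]
  refine ⟨?_, ?_⟩
  · rw [Par.L, le_div_iff₀ (by linarith)]
    linarith
  · have h5 : (2 : ℝ) ≤ π.k := by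
      refine le_trans ?_ h3
      rw [← mul_pow]
      nlinarith [mul_le_mul h1 h4 zero_le_one (by linarith)]
    exact_mod_cast h5

namespace Gb1X

theorem Rt_pos (π : Par) : (4 : ℝ) ≤ π.Rt := by
  rw [π.Rt_eq]
  linarith [Nat.cast_nonneg (α := ℝ) π.R]

theorem Rt_le (π : Par) : (π.Rt : ℝ) + 1 ≤ π.Rs := by
  rw [π.Rs_eq]
  linarith [Rt_pos π]

theorem base {π : Par} (h : π.Ok) : 0 < π.b ∧ 0 < π.L ∧ π.k / π.L = π.b / 2 ∧
    ∀ s : ℝ, 0 ≤ s → s ≤ π.Rs → 0 ≤ s / π.L ∧ s / π.L ≤ 1 / 2 := by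
  have h1 := h.1
  have h2 := h.L_ge.1
  have h3 : (1 : ℝ) ≤ π.Rs := by linarith [Rt_pos π, Rt_le π]
  have h4 : 2 * π.Rs ≤ π.L := by nlinarith [mul_le_mul h1 h3 zero_le_one (by linarith)]
  have h5 : (0 : ℝ) < π.k := by exact_mod_cast (by have := h.L_ge.2; omega : 0 < π.k)
  have h6 : 0 < π.L := by linarith
  refine ⟨by linarith, h6, ?_, fun s a b => ⟨div_nonneg a h6.le, ?_⟩⟩
  · rw [Par.L]
    field_simp
  · rw [div_le_iff₀ h6]
    linarith

theorem ratio {π : Par} (h : π.Ok) {s s' : ℝ} (h0 : 0 ≤ s) (h1 : s ≤ π.Rs) (h0' : 0 ≤ s')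
    (h1' : s' ≤ π.Rs) (hb : π.b * |s' - s| ≤ 1) : π.H0 s' ≤ 3 * π.H0 s := by
  obtain ⟨-, hL, hk, hx⟩ := base h
  obtain ⟨-, x1⟩ := hx s h0 h1
  obtain ⟨-, x2⟩ := hx s' h0' h1'
  have e1 : s / π.L - s' / π.L ≤ |s' - s| / π.L := by
    rw [← sub_div, abs_sub_comm]
    exact div_le_div_of_nonneg_right (le_abs_self _) hL.le
  have e0 : 0 ≤ |s' - s| / π.L := by positivity
  have e2 : 1 - s' / π.L ≤ Real.exp (2 * (|s' - s| / π.L)) * (1 - s / π.L) := by
    refine le_trans ?_ (mul_le_mul_of_nonneg_right (Real.add_one_le_exp _) (by linarith))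
    nlinarith
  have e3 : π.k * (2 * (|s' - s| / π.L)) = π.b * |s' - s| := by
    rw [mul_left_comm, ← mul_div_assoc, mul_div_right_comm, hk]
    ring
  refine (pow_le_pow_left₀ (by linarith) e2 _).trans ?_
  rw [mul_pow, ← Real.exp_nat_mul, e3]
  exact mul_le_mul_of_nonneg_right ((Real.exp_le_exp.2 hb).trans Real.exp_one_lt_three.le)
    (pow_nonneg (by linarith) _)

end Gb1X

theorem Par.contDiff_H (π : Par) : ContDiff ℝ ∞ π.H :=
  ((contDiff_const.sub (contDiff_id.div_const _)).pow _).mul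
    (Gb1X.smooth.comp ((contDiff_const.sub contDiff_id).div_const _))

theorem Gb1X.der (π : Par) (s : ℝ) : HasDerivAt π.gg (-(π.b * π.H s ^ 2)) s := by
  have h : Continuous fun u => π.H u ^ 2 := π.contDiff_H.continuous.pow 2
  rw [← mul_neg]
  exact (intervalIntegral.integral_hasDerivAt_left (h.intervalIntegrable _ _)
    (h.stronglyMeasurableAtFilter _ _) h.continuousAt).const_mul π.b

theorem Par.contDiff_gg (π : Par) : ContDiff ℝ ∞ π.gg := by
  refine contDiff_infty_iff_deriv.2 ⟨fun s => (Gb1X.der π s).differentiableAt, ?_⟩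
  rw [funext fun s => (Gb1X.der π s).deriv]
  exact (contDiff_const.mul (π.contDiff_H.pow 2)).neg

theorem Par.hasDerivAt_gg (π : Par) (s : ℝ) : HasDerivAt π.gg (-(π.b * π.H s ^ 2)) s :=
  Gb1X.der π s

theorem Par.H_zero (π : Par) {s : ℝ} (h : π.Rt ≤ s) :
    π.H s = 0 ∧ deriv π.H s = 0 ∧ deriv (deriv π.H) s = 0 ∧ π.gg s = 0 := by
  have h0 : ∀ u, (π.Rt : ℝ) ≤ u → π.H u = 0 := fun u hu => by
    rw [Par.H, Real.smoothTransition.zero_of_nonpos
      (div_nonpos_of_nonpos_of_nonneg (by linarith) (by positivity)), mul_zero]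
  have h1 := contDiff_infty_iff_deriv.1 π.contDiff_H
  have h2 := Gb1X.dz h1.1 h0
  refine ⟨h0 s h, h2 s h, Gb1X.dz (contDiff_infty_iff_deriv.1 h1.2).1 h2 s h, ?_⟩
  rw [Par.gg, intervalIntegral.integral_congr (g := fun _ => 0) fun u hu => by
    rw [Set.uIcc_of_ge h] at hu
    simp [h0 u hu.1]]
  simp

theorem Par.H_eq (π : Par) {s : ℝ} (h : s < π.Rt / 2) :
    π.H s = π.H0 s ∧ deriv π.H s = deriv π.H0 s := by
  have h0 : ∀ u, u < (π.Rt : ℝ) / 2 → π.H u = π.H0 u := fun u hu => by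
    rw [Par.H, Real.smoothTransition.one_of_one_le, mul_one]
    rw [le_div_iff₀ (by linarith [Gb1X.Rt_pos π])]
    linarith
  refine ⟨h0 s h, Filter.EventuallyEq.deriv_eq ?_⟩
  filter_upwards [Iio_mem_nhds h] with u hu using h0 u hu

theorem Par.Ok.gg_nonneg {π : Par} (h : π.Ok) (s : ℝ) : 0 ≤ π.gg s := by
  rcases le_total s π.Rt with h1 | h1
  · exact mul_nonneg (Gb1X.base h).1.le
      (intervalIntegral.integral_nonneg h1 fun u _ => sq_nonneg _)
  · exact (π.H_zero h1).2.2.2.ge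

theorem Gb1X.bounds {π : Par} (h : π.Ok) {s : ℝ} (h0 : 0 ≤ s) (h1 : s ≤ π.Rs) :
    0 ≤ π.H s ∧ π.H s ≤ π.H0 s ∧ Real.exp (-(π.b * s)) ≤ π.H0 s ∧
      π.H0 s ≤ Real.exp (-(π.b * s / 2)) ∧ (1 - s / π.L) ^ (π.k - 1) ≤ 2 * π.H0 s := by
  obtain ⟨-, hL, hk, hx⟩ := Gb1X.base h
  obtain ⟨x0, x1⟩ := hx s h0 h1
  have p0 : 0 ≤ 1 - s / π.L := by linarith
  have p1 : 0 ≤ π.H0 s := pow_nonneg p0 _
  have e : π.k * (s / π.L) = π.b * s / 2 := by rw [← mul_div_assoc, mul_div_right_comm, hk]; ring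
  refine ⟨mul_nonneg p1 (Real.smoothTransition.nonneg _),
    mul_le_of_le_one_right p1 (Real.smoothTransition.le_one _), ?_, ?_, ?_⟩
  · have e2 : Real.exp (-(2 * (s / π.L))) ≤ 1 - s / π.L := by
      rw [Real.exp_neg, inv_le_iff_one_le_mul₀ (Real.exp_pos _)]
      refine le_trans ?_ (mul_le_mul_of_nonneg_left (Real.add_one_le_exp _) p0)
      nlinarith
    refine le_trans (le_of_eq ?_) (pow_le_pow_left₀ (Real.exp_pos _).le e2 _)
    rw [← Real.exp_nat_mul]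
    congr 1
    linarith
  · refine (pow_le_pow_left₀ p0 (Real.one_sub_le_exp_neg _) _).trans_eq ?_
    rw [← Real.exp_nat_mul, mul_neg, e]
  · obtain ⟨m, hm⟩ : ∃ m, π.k = m + 1 := ⟨π.k - 1, by have := h.L_ge.2; omega⟩
    rw [Par.H0, hm, Nat.add_sub_cancel, pow_succ]
    nlinarith [pow_nonneg p0 m]

theorem Par.Ok.gg_le {π : Par} (h : π.Ok) {s : ℝ} (hs : 0 ≤ s) :
    π.gg s ≤ Real.exp (-(π.b * s)) := by
  rcases le_total s π.Rt with h1 | h1
  · have hb := (Gb1X.base h).1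
    have h2 : ∫ u in s..(π.Rt : ℝ), π.b * Real.exp (-(π.b * u)) =
        -Real.exp (-(π.b * π.Rt)) - -Real.exp (-(π.b * s)) :=
      intervalIntegral.integral_eq_sub_of_hasDerivAt (f := fun u => -Real.exp (-(π.b * u)))
        (fun u _ => by simpa [mul_comm] using ((hasDerivAt_id u).const_mul π.b).neg.exp.fun_neg)
        (Continuous.intervalIntegrable (by fun_prop) _ _)
    have h3 : ∫ u in s..(π.Rt : ℝ), π.H u ^ 2 ≤ ∫ u in s..(π.Rt : ℝ), Real.exp (-(π.b * u)) :=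
      intervalIntegral.integral_mono_on h1 ((π.contDiff_H.continuous.pow 2).intervalIntegrable _ _)
        (Continuous.intervalIntegrable (by fun_prop) _ _) fun u hu => by
          obtain ⟨a1, a2, -, a3, -⟩ := Gb1X.bounds h (hs.trans hu.1)
            (by linarith [hu.2, Gb1X.Rt_le π])
          refine (pow_le_pow_left₀ a1 (a2.trans a3) 2).trans_eq ?_
          rw [← Real.exp_nat_mul]
          congr 1
          ring
    rw [intervalIntegral.integral_const_mul] at h2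
    have h4 := mul_le_mul_of_nonneg_left h3 hb.le
    have h5 := Real.exp_pos (-(π.b * π.Rt))
    rw [Par.gg]
    linarith
  · rw [(π.H_zero h1).2.2.2]
    exact (Real.exp_pos _).le

theorem Gb1X.d0 {π : Par} (h : π.Ok) (s : ℝ) :
    HasDerivAt π.H0 (-(π.b / 2) * (1 - s / π.L) ^ (π.k - 1)) s := by
  refine (Gb1X.pw π.L π.k s).congr_deriv ?_
  rw [← (Gb1X.base h).2.2.1]
  ring

theorem Par.Ok.deriv_H0 {π : Par} (h : π.Ok) (s : ℝ) :
    deriv π.H0 s = -(π.b / 2) * (1 - s / π.L) ^ (π.k - 1) :=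
  (Gb1X.d0 h s).deriv

theorem Par.Ok.H0_bounds {π : Par} (h : π.Ok) {s : ℝ} (h0 : 0 ≤ s) (h1 : s ≤ π.Rs) :
    0 ≤ π.H s ∧ π.H s ≤ π.H0 s ∧ Real.exp (-(π.b * s)) ≤ π.H0 s ∧
      π.H0 s ≤ Real.exp (-(π.b * s / 2)) ∧ (1 - s / π.L) ^ (π.k - 1) ≤ 2 * π.H0 s :=
  Gb1X.bounds h h0 h1

theorem profile : ∃ C : ℝ, 1 ≤ C ∧ ∀ π : Par, π.Ok → ∀ s : ℝ, 0 ≤ s → s ≤ π.Rs →
    |deriv π.H s| ≤ C * π.b * π.H0 s ∧ |deriv (deriv π.H) s| ≤ C * π.b ^ 2 * π.H0 s ∧
      (s ≤ π.Rt / 2 - 1 → π.H0 s ^ 2 ≤ C * π.gg s) ∧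
      ∀ s' : ℝ, 0 ≤ s' → s' ≤ π.Rs → π.b * |s' - s| ≤ 1 → π.H0 s' ≤ C * π.H0 s := by
  obtain ⟨M, hM, hχ⟩ := Gb1X.bd
  refine ⟨9 + 3 * M, by linarith, fun π h s h0 h1 => ?_⟩
  obtain ⟨hb, hL, hk, hx⟩ := Gb1X.base h
  obtain ⟨x0, x1⟩ := hx s h0 h1
  have p0 : 0 ≤ 1 - s / π.L := by linarith
  have p1 : 0 ≤ π.H0 s := pow_nonneg p0 _
  have b1 : 1 ≤ π.b := by linarith [h.1]
  have s1 := contDiff_infty_iff_deriv.1 Gb1X.smooth
  have s2 := (contDiff_infty_iff_deriv.1 s1.2).1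
  have d1 : deriv π.H = fun u => -(π.b / 2) * (1 - u / π.L) ^ (π.k - 1) *
      Real.smoothTransition ((π.Rt - u) / (π.Rt / 2)) +
      π.H0 u * (deriv Real.smoothTransition ((π.Rt - u) / (π.Rt / 2)) * (-1 / (π.Rt / 2))) :=
    funext fun u => ((Gb1X.d0 h u).mul (Gb1X.aff s1.1 _ _ u)).deriv
  have d2 := ((((Gb1X.pw π.L (π.k - 1) s).const_mul (-(π.b / 2))).fun_mul
    (Gb1X.aff s1.1 π.Rt (π.Rt / 2) s)).fun_add ((Gb1X.d0 h s).fun_mul
      ((Gb1X.aff s2 π.Rt (π.Rt / 2) s).mul_const (-1 / (π.Rt / 2))))).deriv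
  rw [← d1] at d2
  have c1 : |(-1 / (π.Rt / 2) : ℝ)| ≤ 1 := by
    have := Gb1X.Rt_pos π
    rw [abs_div, abs_neg, abs_one, abs_of_pos (by linarith), div_le_one (by linarith)]
    linarith
  have t0 : |Real.smoothTransition ((π.Rt - s) / (π.Rt / 2))| ≤ 1 :=
    (abs_of_nonneg (Real.smoothTransition.nonneg _)).trans_le (Real.smoothTransition.le_one _)
  have t1 : |deriv Real.smoothTransition ((π.Rt - s) / (π.Rt / 2)) * (-1 / (π.Rt / 2))| ≤ M := by
    rw [abs_mul]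
    exact (mul_le_of_le_one_right (abs_nonneg _) c1).trans (hχ _).1
  have t2 : |deriv (deriv Real.smoothTransition) ((π.Rt - s) / (π.Rt / 2)) * (-1 / (π.Rt / 2)) *
      (-1 / (π.Rt / 2))| ≤ M := by
    rw [abs_mul, abs_mul]
    exact (mul_le_of_le_one_right (by positivity) c1).trans
      ((mul_le_of_le_one_right (abs_nonneg _) c1).trans (hχ _).2)
  have a1 : |-(π.b / 2) * (1 - s / π.L) ^ (π.k - 1)| ≤ π.b * π.H0 s := by
    rw [neg_mul, abs_neg, abs_of_nonneg (by positivity)]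
    linarith [mul_le_mul_of_nonneg_left (Gb1X.bounds h h0 h1).2.2.2.2 hb.le]
  have a2 : |-(π.b / 2) * ((π.k - 1 : ℕ) * (1 - s / π.L) ^ (π.k - 1 - 1) * -(1 / π.L))| ≤
      π.b ^ 2 * π.H0 s := by
    obtain ⟨m, hm⟩ : ∃ m, π.k = m + 2 := ⟨π.k - 2, by have := h.L_ge.2; omega⟩
    have e1 : ((π.k - 1 : ℕ) : ℝ) * (1 / π.L) ≤ π.b / 2 := by
      rw [← hk, mul_one_div]
      exact div_le_div_of_nonneg_right (Nat.cast_le.2 (Nat.sub_le _ _)) hL.le
    have e2 : (1 - s / π.L) ^ (π.k - 1 - 1) ≤ 4 * π.H0 s := by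
      rw [Par.H0, hm, show m + 2 - 1 - 1 = m from rfl, pow_add, mul_left_comm]
      exact le_mul_of_one_le_right (pow_nonneg p0 m) (by nlinarith)
    rw [mul_neg, neg_mul_neg, abs_of_nonneg (by positivity), mul_right_comm _ _ (1 / π.L)]
    refine (mul_le_mul_of_nonneg_left (mul_le_mul e1 e2 (by positivity) (by positivity))
      (by positivity)).trans_eq (by ring)
  have a0 : |π.H0 s| ≤ π.H0 s := (abs_of_nonneg p1).le
  have m : ∀ {x y X Y : ℝ}, |x| ≤ X → |y| ≤ Y → |x * y| ≤ X * Y := fun hx hy =>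
    (abs_mul _ _).trans_le (mul_le_mul hx hy (abs_nonneg _) ((abs_nonneg _).trans hx))
  have q1 : π.H0 s ≤ π.b * π.H0 s := le_mul_of_one_le_left p1 b1
  have q2 : π.b * π.H0 s ≤ π.b ^ 2 * π.H0 s :=
    mul_le_mul_of_nonneg_right (by nlinarith) p1
  refine ⟨?_, ?_, fun hs => ?_, fun s' h0' h1' hb' => (Gb1X.ratio h h0 h1 h0' h1' hb').trans
    (mul_le_mul_of_nonneg_right (by linarith) p1)⟩
  · rw [d1]
    refine (abs_add_le _ _).trans ((add_le_add (m a1 t0) (m a0 t1)).trans ?_)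
    nlinarith [mul_le_mul_of_nonneg_right q1 hM, mul_nonneg (p1.trans q1) hM]
  · rw [d2]
    refine (abs_add_le _ _).trans ((add_le_add
      ((abs_add_le _ _).trans (add_le_add (m a2 t0) (m a1 t1)))
      ((abs_add_le _ _).trans (add_le_add (m a1 t1) (m a0 t2)))).trans ?_)
    nlinarith [mul_le_mul_of_nonneg_right q1 hM, mul_le_mul_of_nonneg_right q2 hM]
  · have i1 : π.b⁻¹ ≤ 1 / 8 := by
      rw [one_div]
      exact inv_anti₀ (by norm_num) h.1
    have i0 : 0 < π.b⁻¹ := inv_pos.2 hb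
    have hc : Continuous fun u => π.H u ^ 2 := π.contDiff_H.continuous.pow 2
    have r1 := Gb1X.Rt_pos π
    have r2 := Gb1X.Rt_le π
    have j1 : ∫ _ in s..s + π.b⁻¹, π.H0 s ^ 2 / 9 ≤ ∫ u in s..s + π.b⁻¹, π.H u ^ 2 :=
      intervalIntegral.integral_mono_on (by linarith) intervalIntegrable_const
        (hc.intervalIntegrable _ _) fun u hu => by
          have j0 := Gb1X.ratio h (h0.trans hu.1) (by linarith [hu.2]) h0 h1 (by
            rw [abs_sub_comm, abs_of_nonneg (sub_nonneg.2 hu.1), ← le_div_iff₀' hb, one_div]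
            linarith [hu.2])
          rw [(π.H_eq (by linarith [hu.2])).1]
          linarith [pow_le_pow_left₀ p1 j0 2]
    have j2 := intervalIntegral.integral_add_adjacent_intervals
      (hc.intervalIntegrable (μ := volume) s (s + π.b⁻¹)) (hc.intervalIntegrable _ π.Rt)
    have j3 := h.gg_nonneg (s + π.b⁻¹)
    have j4 := mul_le_mul_of_nonneg_left j1 hb.le
    rw [intervalIntegral.integral_const, add_sub_cancel_left, smul_eq_mul,
      mul_inv_cancel_left₀ hb.ne'] at j4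
    have j5 : π.H0 s ^ 2 ≤ 9 * π.gg s := by
      rw [Par.gg] at j3 ⊢
      rw [← j2]
      linarith
    exact j5.trans (mul_le_mul_of_nonneg_right (by linarith) (h.gg_nonneg s))

end

end Vale.Agent.P184L
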