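import Vale.Agent.P184L.Gb1

/-! Admissible potentials: finiteness, mass bounds and norms of Gibbs vectors. Hint: if `ψ l < Rt + 1 = Rs / 3` then the points with `f l x < Rs` carry more than `2 / 3` of the probability; this gives `Adm.nb` and `Adm.mass` (exchange the sums). `key`: labels with `ψ l ≤ Rt / 2 - 1` are bounded by `C pr gg`, the others by `2 Qm exp (-b (Rt / 2 - 1)) ≤ z0`. All finsums are finite sums over `Adm.fin`. `sk`: Cauchy-Schwarz. -/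

namespace Vale.Agent.P184L

open Finset MeasureTheory ProbabilityTheory Classical Vale.Agent.P184
open scoped ContDiff

noncomputable section

universe u

variable {G : Type u} [Group G]

variable {π : Par} {g : G} {L : Type u} {Λ : Lab π g L}

namespace Gb2X

theorem Rt_nonneg (π : Par) : (0 : ℝ) ≤ π.Rt := Nat.cast_nonneg _

theorem third {s : Finset G} {p : G → ℝ} (h0 : ∀ x, 0 ≤ p x) (h1 : ∑ x ∈ s, p x = 1) {l : L}
    (hl : ∑ x ∈ s, p x * Λ.f l x < π.Rt + 1) :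
    2 / 3 < ∑ x ∈ s, p x * (if Λ.f l x < π.Rs then 1 else 0) := by
  have hR := π.Rs_eq
  have hp : (0 : ℝ) < π.Rt + 1 := by linarith [Rt_nonneg π]
  have h2 : ∑ x ∈ s, (p x - p x * (if Λ.f l x < π.Rs then 1 else 0)) * (π.Rs : ℝ) ≤
      ∑ x ∈ s, p x * Λ.f l x := by
    refine sum_le_sum fun x _ => ?_
    by_cases hx : Λ.f l x < π.Rs
    · rw [if_pos hx, mul_one, sub_self, zero_mul]
      exact mul_nonneg (h0 x) (Λ.f_nonneg l x)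
    · rw [if_neg hx, mul_zero, sub_zero]
      exact mul_le_mul_of_nonneg_left (not_lt.1 hx) (h0 x)
  rw [← sum_mul, sum_sub_distrib, h1] at h2
  by_contra hc
  have h3 : 1 / 3 ≤ 1 - ∑ x ∈ s, p x * (if Λ.f l x < π.Rs then 1 else 0) := by
    linarith [not_lt.1 hc]
  have h4 := mul_le_mul_of_nonneg_right h3 (Nat.cast_nonneg (α := ℝ) π.Rs)
  linarith

theorem fs {M : Type} [AddCommMonoid M] {ψ : L → ℝ} {T : Finset L}
    (hT : ∀ l, ψ l < π.Rt + 1 → l ∈ T) {F : L → M} (hF : ∀ l, (π.Rt : ℝ) ≤ ψ l → F l = 0) :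
    ∑ᶠ l, F l = ∑ l ∈ T, F l := by
  refine finsum_eq_sum_of_support_subset _ fun l hl => hT l ?_
  by_contra hc
  exact hl (hF l (by linarith [not_lt.1 hc]))

theorem cs (T : Finset L) (η : L → ℂ) (v : L → ℝ) :
    ‖∑ l ∈ T, η l * v l‖ ^ 2 ≤ (∑ l ∈ T, ‖η l‖ ^ 2) * ∑ l ∈ T, v l ^ 2 := by
  have h1 : ‖∑ l ∈ T, η l * v l‖ ≤ ∑ l ∈ T, ‖η l‖ * |v l| := by
    refine (norm_sum_le _ _).trans (le_of_eq (sum_congr rfl fun l _ => ?_))
    rw [norm_mul, Complex.norm_real, Real.norm_eq_abs]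
  have h2 := sum_mul_sq_le_sq_mul_sq T (fun l => ‖η l‖) fun l => |v l|
  simp only [sq_abs] at h2
  exact (pow_le_pow_left₀ (norm_nonneg _) h1 2).trans h2

end Gb2X

theorem Lab.Adm.bounds {ψ : L → ℝ} (h : Λ.Adm ψ) (l : L) : 0 ≤ ψ l ∧ ψ l ≤ π.Rs := by
  obtain ⟨s, p, h0, h1, e⟩ := h
  rw [e]
  refine ⟨sum_nonneg fun x _ => mul_nonneg (h0 x) (Λ.f_nonneg l x), ?_⟩
  calc ∑ x ∈ s, p x * Λ.f l x ≤ ∑ x ∈ s, p x * π.Rs :=
        sum_le_sum fun x _ => mul_le_mul_of_nonneg_left (Λ.f_le l x) (h0 x)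
    _ = π.Rs := by rw [← sum_mul, h1, one_mul]

theorem Lab.Adm.fin {ψ : L → ℝ} (h : Λ.Adm ψ) : {l | ψ l < π.Rs}.Finite := by
  obtain ⟨s, p, h0, h1, e⟩ := h
  refine (s.finite_toSet.biUnion fun x _ => Λ.fin x).subset fun l hl => ?_
  by_contra hc
  have h2 : ∀ x ∈ s, (π.Rs : ℝ) ≤ Λ.f l x := fun x hx =>
    not_lt.1 fun hlt => hc (Set.mem_biUnion (mem_coe.2 hx) hlt)
  have h3 : ∑ x ∈ s, p x * π.Rs ≤ ∑ x ∈ s, p x * Λ.f l x :=
    sum_le_sum fun x hx => mul_le_mul_of_nonneg_left (h2 x hx) (h0 x)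
  rw [← sum_mul, h1, one_mul, ← e] at h3
  exact absurd hl (not_lt.2 h3)

theorem Gb2X.exT {ψ : L → ℝ} (h : Λ.Adm ψ) : ∃ T : Finset L, ∀ l, l ∈ T ↔ ψ l < π.Rt + 1 := by
  have h1 : {l | ψ l < π.Rt + 1}.Finite := h.fin.subset fun l hl => by
    have h2 : ψ l < π.Rt + 1 := hl
    have h3 := π.Rs_eq
    have h4 := Gb2X.Rt_nonneg π
    show ψ l < π.Rs
    linarith
  exact ⟨h1.toFinset, fun l => h1.mem_toFinset⟩

theorem Lab.Adm.nb {ψ : L → ℝ} (h : Λ.Adm ψ) {l l' : L} (hl : ψ l < π.Rt + 1)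
    (hl' : ψ l' < π.Rt + 1) : Λ.Nb l l' := by
  obtain ⟨s, p, h0, h1, e⟩ := h
  rw [e] at hl hl'
  have a1 := Gb2X.third h0 h1 hl
  have a2 := Gb2X.third h0 h1 hl'
  by_contra hc
  have h2 : ∑ x ∈ s, (p x * (if Λ.f l x < π.Rs then 1 else 0) +
      p x * (if Λ.f l' x < π.Rs then 1 else 0)) ≤ ∑ x ∈ s, p x := by
    refine sum_le_sum fun x _ => ?_
    have := h0 x
    by_cases hx : Λ.f l x < π.Rs
    · have hx' : ¬ Λ.f l' x < π.Rs := fun hx' => hc ⟨x, hx, hx'⟩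
      rw [if_pos hx, if_neg hx']
      linarith
    · rw [if_neg hx]
      split_ifs <;> linarith
  rw [sum_add_distrib, h1] at h2
  linarith

theorem Lab.Adm.mass {ψ : L → ℝ} (h : Λ.Adm ψ) {a : L → ℝ} (ha : ∀ l, 0 ≤ a l) {Q : ℝ}
    (hQ : ∀ x (s : Finset L), (∀ l ∈ s, Λ.f l x < π.Rs) → ∑ l ∈ s, a l ≤ Q) (s : Finset L)
    (hs : ∀ l ∈ s, ψ l < π.Rt + 1) : ∑ l ∈ s, a l ≤ 2 * Q := by
  obtain ⟨t, p, h0, h1, e⟩ := h
  calc ∑ l ∈ s, a l ≤ ∑ l ∈ s, 2 * ∑ x ∈ t, p x * (if Λ.f l x < π.Rs then a l else 0) := by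
        refine sum_le_sum fun l hl => ?_
        have h2 := Gb2X.third h0 h1 (e l ▸ hs l hl)
        have h3 : ∑ x ∈ t, p x * (if Λ.f l x < π.Rs then a l else 0) =
            (∑ x ∈ t, p x * (if Λ.f l x < π.Rs then 1 else 0)) * a l := by
          rw [sum_mul]
          refine sum_congr rfl fun x _ => ?_
          split_ifs <;> ring
        have h4 := mul_le_mul_of_nonneg_right h2.le (ha l)
        have h5 := ha l
        rw [h3]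
        linarith
    _ = 2 * ∑ x ∈ t, p x * ∑ l ∈ s.filter fun l => Λ.f l x < π.Rs, a l := by
        rw [← mul_sum, sum_comm]
        congr 1
        refine sum_congr rfl fun x _ => ?_
        rw [← mul_sum, sum_filter]
    _ ≤ 2 * ∑ x ∈ t, p x * Q := by
        refine mul_le_mul_of_nonneg_left (sum_le_sum fun x _ => ?_) (by norm_num)
        exact mul_le_mul_of_nonneg_left (hQ x _ fun l hl => (mem_filter.1 hl).2) (h0 x)
    _ = 2 * Q := by rw [← sum_mul, h1, one_mul]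

theorem Lab.Adm.convex {ψ ψ' : L → ℝ} (h : Λ.Adm ψ) (h' : Λ.Adm ψ') {s : ℝ} (h0 : 0 ≤ s)
    (h1 : s ≤ 1) : Λ.Adm fun l => ψ l + s * (ψ' l - ψ l) := by
  obtain ⟨t, p, p0, p1, e⟩ := h
  obtain ⟨t', p', p0', p1', e'⟩ := h'
  have key : ∀ φ : G → ℝ, ∑ x ∈ t ∪ t', ((1 - s) * (if x ∈ t then p x else 0) +
      s * (if x ∈ t' then p' x else 0)) * φ x =
      (1 - s) * ∑ x ∈ t, p x * φ x + s * ∑ x ∈ t', p' x * φ x := by
    intro φ
    have a1 : ∑ x ∈ t ∪ t', (if x ∈ t then p x * φ x else 0) = ∑ x ∈ t, p x * φ x := by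
      rw [sum_ite_mem, union_inter_cancel_left]
    have a2 : ∑ x ∈ t ∪ t', (if x ∈ t' then p' x * φ x else 0) = ∑ x ∈ t', p' x * φ x := by
      rw [sum_ite_mem, union_inter_cancel_right]
    rw [← a1, ← a2, mul_sum, mul_sum, ← sum_add_distrib]
    refine sum_congr rfl fun x _ => ?_
    split_ifs <;> ring
  refine ⟨t ∪ t', fun x => (1 - s) * (if x ∈ t then p x else 0) + s * (if x ∈ t' then p' x else 0),
    fun x => ?_, ?_, fun l => ?_⟩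
  · refine add_nonneg (mul_nonneg (by linarith) ?_) (mul_nonneg h0 ?_)
    · split_ifs
      exacts [p0 x, le_rfl]
    · split_ifs
      exacts [p0' x, le_rfl]
  · have := key fun _ => 1
    simp only [mul_one] at this
    rw [this, p1, p1']
    ring
  · rw [key, ← e, ← e']
    ring

theorem Lab.Sgn.abs_le {a : ℝ} {u : L → ℝ} (h : Λ.Sgn a u) (l : L) : |u l| ≤ a * π.Rs := by
  obtain ⟨s, c, h1, e⟩ := h
  rw [e]
  calc |∑ x ∈ s, c x * Λ.f l x| ≤ ∑ x ∈ s, |c x| * π.Rs := by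
        refine (abs_sum_le_sum_abs _ _).trans (sum_le_sum fun x _ => ?_)
        rw [abs_mul, abs_of_nonneg (Λ.f_nonneg l x)]
        exact mul_le_mul_of_nonneg_left (Λ.f_le l x) (abs_nonneg _)
    _ ≤ a * π.Rs := by
        rw [← sum_mul]
        exact mul_le_mul_of_nonneg_right h1 (Nat.cast_nonneg _)

theorem Lab.z0_le (hπ : π.Ok) (ψ : L → ℝ) : π.z0 ≤ Λ.Z ψ ∧ 0 < Λ.Z ψ := by
  have h1 : 0 ≤ ∑ᶠ l, Λ.pr l * π.gg (ψ l) :=
    finsum_nonneg fun l => mul_nonneg (Λ.pr_nonneg l) (hπ.gg_nonneg _)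
  have h2 : 0 < π.z0 := Real.exp_pos _
  unfold Lab.Z
  exact ⟨by linarith, by linarith⟩

theorem Lab.F_le (hπ : π.Ok) (ψ : L → ℝ) : Λ.F ψ ≤ π.R := by
  have hb : 0 < π.b := by linarith [hπ.1]
  have h1 := Real.log_le_log (Real.exp_pos _) (Lab.z0_le (Λ := Λ) hπ ψ).1
  rw [Real.log_exp] at h1
  unfold Lab.F
  rw [div_le_iff₀ hb]
  linarith

theorem Lab.F_eq (hπ : π.Ok) {ψ : L → ℝ} (h : ∀ l, π.Rt ≤ ψ l) : Λ.F ψ = π.R := by
  have hb : π.b ≠ 0 := by linarith [hπ.1]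
  have h1 : ∀ l, Λ.pr l * π.gg (ψ l) = 0 := fun l => by rw [(π.H_zero (h l)).2.2.2, mul_zero]
  unfold Lab.F Lab.Z Par.z0
  simp only [h1, finsum_zero, add_zero, Real.log_exp]
  field_simp

theorem Lab.B_zero {ψ : L → ℝ} {l : L} (h : π.Rt ≤ ψ l) (u : L → ℝ) :
    Λ.B ψ l = 0 ∧ Λ.dB ψ u l = 0 := by
  obtain ⟨h1, h2, -⟩ := π.H_zero h
  have h3 : Λ.B ψ l = 0 := by simp [Lab.B, h1]
  exact ⟨h3, by simp [Lab.dB, h2, h3]⟩

theorem gibbs_key (G : Type u) [Group G] : ∃ C : ℝ, 1 ≤ C ∧ ∀ (π : Par) (g : G) (L : Type u)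
    (Λ : Lab π g L), π.Ok → ∀ ψ, Λ.Adm ψ → ∀ s : Finset L, (∀ l ∈ s, ψ l < π.Rt + 1) →
    ∑ l ∈ s, Λ.pr l * π.H0 (ψ l) ^ 2 ≤ C * Λ.Z ψ := by
  obtain ⟨C, hC, H⟩ := profile
  refine ⟨C + 2, by linarith, fun π g L Λ hπ ψ h s hs => ?_⟩
  obtain ⟨T, hT⟩ := Gb2X.exT h
  have hb : 0 < π.b := by linarith [hπ.1]
  have h1 : ∑ l ∈ s, Λ.pr l * π.H0 (ψ l) ^ 2 ≤ ∑ l ∈ s, (C * (Λ.pr l * π.gg (ψ l)) +
      Real.exp (-(π.b * (π.Rt / 2 - 1))) * Λ.pr l) := by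
    refine sum_le_sum fun l _ => ?_
    obtain ⟨b0, b1⟩ := h.bounds l
    have hp := Λ.pr_nonneg l
    by_cases hl : ψ l ≤ π.Rt / 2 - 1
    · have a1 := mul_le_mul_of_nonneg_left ((H π hπ _ b0 b1).2.2.1 hl) hp
      have a2 := mul_nonneg (Real.exp_pos (-(π.b * (π.Rt / 2 - 1)))).le hp
      linarith
    · obtain ⟨c0, c1, -, c2, -⟩ := hπ.H0_bounds b0 b1
      have a1 : π.H0 (ψ l) ^ 2 ≤ Real.exp (-(π.b * (π.Rt / 2 - 1))) := by
        refine (pow_le_pow_left₀ (c0.trans c1) c2 2).trans ?_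
        rw [← Real.exp_nat_mul]
        refine Real.exp_le_exp.2 ?_
        have := mul_le_mul_of_nonneg_left (not_le.1 hl).le hb.le
        push_cast
        linarith
      have a2 := mul_le_mul_of_nonneg_left a1 hp
      have a3 := mul_nonneg (by linarith : 0 ≤ C) (mul_nonneg hp (hπ.gg_nonneg (ψ l)))
      linarith
  have h2 : ∑ l ∈ s, Λ.pr l * π.gg (ψ l) ≤ ∑ᶠ l, Λ.pr l * π.gg (ψ l) := by
    rw [Gb2X.fs (fun l hl => (hT l).2 hl) fun l hl => by rw [(π.H_zero hl).2.2.2, mul_zero]]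
    exact sum_le_sum_of_subset_of_nonneg (fun l hl => (hT l).2 (hs l hl)) fun l _ _ =>
      mul_nonneg (Λ.pr_nonneg l) (hπ.gg_nonneg _)
  have h3 := h.mass Λ.pr_nonneg Λ.mass_le s hs
  have h4 : Real.exp (-(π.b * (π.Rt / 2 - 1))) * π.Qm ≤ π.z0 := by
    unfold Par.Qm Par.z0
    rw [← Real.exp_add, π.Rt_eq]
    refine Real.exp_le_exp.2 ?_
    have := mul_nonneg hb.le (Nat.cast_nonneg (α := ℝ) π.R)
    linarith
  have h5 := mul_le_mul_of_nonneg_left h3 (Real.exp_pos (-(π.b * (π.Rt / 2 - 1)))).le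
  have h6 := mul_le_mul_of_nonneg_left h2 (by linarith : 0 ≤ C)
  have h7 : 0 ≤ ∑ᶠ l, Λ.pr l * π.gg (ψ l) :=
    finsum_nonneg fun l => mul_nonneg (Λ.pr_nonneg l) (hπ.gg_nonneg _)
  have h8 : 0 ≤ C * π.z0 := mul_nonneg (by linarith) (Real.exp_pos _).le
  rw [sum_add_distrib, ← mul_sum, ← mul_sum] at h1
  unfold Lab.Z
  linarith

theorem gibbs_norm (G : Type u) [Group G] : ∃ C : ℝ, 1 ≤ C ∧ ∀ (π : Par) (g : G) (L : Type u)
    (Λ : Lab π g L), π.Ok → ∀ ψ, Λ.Adm ψ → ∑ᶠ l, Λ.B ψ l ^ 2 ≤ C ∧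
      (∀ (u : L → ℝ) (a : ℝ), 0 ≤ a → (∀ l, |u l| ≤ a) →
        |∑ᶠ l, Λ.B ψ l ^ 2 * u l| ≤ C * a ∧ ∑ᶠ l, Λ.dB ψ u l ^ 2 ≤ C * (π.b * a) ^ 2) ∧
      ∀ η ϑ, Λ.Eig η ϑ → ‖Lab.sk η (Λ.B ψ)‖ ^ 2 ≤ C * π.Qm ∧
        ∀ (u : L → ℝ) (a : ℝ), 0 ≤ a → (∀ l, |u l| ≤ a) →
          ‖Lab.sk η (Λ.dB ψ u)‖ ^ 2 ≤ C * π.Qm * (π.b * a) ^ 2 := by
  obtain ⟨C0, hC0, H⟩ := profile
  obtain ⟨C, hC, K⟩ := gibbs_key G
  have q1 : 0 ≤ C0 ^ 2 * C := by positivity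
  have q2 : C ≤ C ^ 3 := le_self_pow₀ hC (by norm_num)
  refine ⟨2 * (2 * (C0 ^ 2 * C) + C ^ 3), by linarith, fun π g L Λ hπ ψ h => ?_⟩
  obtain ⟨T, hT⟩ := Gb2X.exT h
  have hT' : ∀ l, ψ l < π.Rt + 1 → l ∈ T := fun l hl => (hT l).2 hl
  have hZ := (Lab.z0_le (Λ := Λ) hπ ψ).2
  have hk : ∑ l ∈ T, Λ.pr l * π.H0 (ψ l) ^ 2 / Λ.Z ψ ≤ C := by
    rw [← sum_div, div_le_iff₀ hZ]
    exact K π g L Λ hπ ψ h T fun l hl => (hT l).1 hl
  have hB : ∑ l ∈ T, Λ.B ψ l ^ 2 ≤ C := by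
    refine le_trans (sum_le_sum fun l _ => ?_) hk
    obtain ⟨c0, c1, -⟩ := hπ.H0_bounds (h.bounds l).1 (h.bounds l).2
    unfold Lab.B
    rw [div_pow, mul_pow, Real.sq_sqrt (Λ.pr_nonneg l), Real.sq_sqrt hZ.le]
    exact div_le_div_of_nonneg_right
      (mul_le_mul_of_nonneg_left (pow_le_pow_left₀ c0 c1 2) (Λ.pr_nonneg l)) hZ.le
  have hm : ∀ (u : L → ℝ) (a : ℝ), 0 ≤ a → (∀ l, |u l| ≤ a) →
      |∑ᶠ l, Λ.B ψ l ^ 2 * u l| ≤ C * a := by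
    intro u a ha hu
    rw [Gb2X.fs hT' fun l hl => by rw [(Lab.B_zero hl u).1]; ring]
    calc |∑ l ∈ T, Λ.B ψ l ^ 2 * u l| ≤ ∑ l ∈ T, Λ.B ψ l ^ 2 * a := by
          refine (abs_sum_le_sum_abs _ _).trans (sum_le_sum fun l _ => ?_)
          rw [abs_mul, abs_of_nonneg (sq_nonneg _)]
          exact mul_le_mul_of_nonneg_left (hu l) (sq_nonneg _)
      _ ≤ C * a := by
          rw [← sum_mul]
          exact mul_le_mul_of_nonneg_right hB ha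
  have hd : ∀ (u : L → ℝ) (a : ℝ), 0 ≤ a → (∀ l, |u l| ≤ a) →
      ∑ l ∈ T, Λ.dB ψ u l ^ 2 ≤ (2 * (C0 ^ 2 * C) + C ^ 3) * (π.b * a) ^ 2 := by
    intro u a ha hu
    have m1 : (∑ᶠ l, Λ.B ψ l ^ 2 * u l) ^ 2 ≤ (C * a) ^ 2 := sq_le_sq' (abs_le.1 (hm u a ha hu)).1
      (abs_le.1 (hm u a ha hu)).2
    have h1 : ∑ l ∈ T, Λ.dB ψ u l ^ 2 ≤ ∑ l ∈ T,
        (2 * C0 ^ 2 * (π.b * a) ^ 2 * (Λ.pr l * π.H0 (ψ l) ^ 2 / Λ.Z ψ) +
          C ^ 2 * (π.b * a) ^ 2 * Λ.B ψ l ^ 2) := by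
      refine sum_le_sum fun l _ => ?_
      have d1 := abs_le.1 (H π hπ _ (h.bounds l).1 (h.bounds l).2).1
      have d2 : deriv π.H (ψ l) ^ 2 ≤ (C0 * π.b * π.H0 (ψ l)) ^ 2 := sq_le_sq' d1.1 d1.2
      have d3 : u l ^ 2 ≤ a ^ 2 := sq_le_sq' (abs_le.1 (hu l)).1 (abs_le.1 (hu l)).2
      have d4 : (√(Λ.pr l) * deriv π.H (ψ l) * u l / √(Λ.Z ψ)) ^ 2 ≤
          C0 ^ 2 * (π.b * a) ^ 2 * (Λ.pr l * π.H0 (ψ l) ^ 2 / Λ.Z ψ) := by
        rw [div_pow, mul_pow, mul_pow, Real.sq_sqrt (Λ.pr_nonneg l), Real.sq_sqrt hZ.le,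
          ← mul_div_assoc]
        refine div_le_div_of_nonneg_right ?_ hZ.le
        calc Λ.pr l * deriv π.H (ψ l) ^ 2 * u l ^ 2
            ≤ Λ.pr l * (C0 * π.b * π.H0 (ψ l)) ^ 2 * a ^ 2 :=
              mul_le_mul (mul_le_mul_of_nonneg_left d2 (Λ.pr_nonneg l)) d3 (sq_nonneg _)
                (mul_nonneg (Λ.pr_nonneg l) (sq_nonneg _))
          _ = _ := by ring
      have d5 := mul_le_mul_of_nonneg_left m1 (sq_nonneg (π.b * Λ.B ψ l))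
      have d6 := mul_nonneg (sq_nonneg (π.b * Λ.B ψ l)) (sq_nonneg (C * a))
      unfold Lab.dB
      generalize √(Λ.pr l) * deriv π.H (ψ l) * u l / √(Λ.Z ψ) = x at d4
      generalize ∑ᶠ l, Λ.B ψ l ^ 2 * u l = m at d5
      have d7 := sq_nonneg (x - π.b / 2 * Λ.B ψ l * m)
      linarith
    rw [sum_add_distrib, ← mul_sum, ← mul_sum] at h1
    have h2 := mul_le_mul_of_nonneg_left hk (by positivity : 0 ≤ 2 * C0 ^ 2 * (π.b * a) ^ 2)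
    have h3 := mul_le_mul_of_nonneg_left hB (by positivity : 0 ≤ C ^ 2 * (π.b * a) ^ 2)
    linarith
  refine ⟨?_, fun u a ha hu => ⟨?_, ?_⟩, fun η ϑ hη => ?_⟩
  · rw [Gb2X.fs hT' fun l hl => by rw [(Lab.B_zero hl ψ).1]; ring]
    linarith
  · exact (hm u a ha hu).trans (mul_le_mul_of_nonneg_right (by linarith) ha)
  · rw [Gb2X.fs hT' fun l hl => by rw [(Lab.B_zero hl u).2]; ring]
    exact (hd u a ha hu).trans (mul_le_mul_of_nonneg_right (by linarith) (sq_nonneg _))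
  · have hQ := h.mass (a := fun l => ‖η l‖ ^ 2) (fun l => sq_nonneg _) hη.2.2 T
      fun l hl => (hT l).1 hl
    have hQ0 : 0 < π.Qm := Real.exp_pos _
    refine ⟨?_, fun u a ha hu => ?_⟩
    · unfold Lab.sk
      rw [Gb2X.fs hT' fun l hl => by rw [(Lab.B_zero hl ψ).1]; simp]
      refine (Gb2X.cs T η _).trans ((mul_le_mul hQ hB (sum_nonneg fun l _ => sq_nonneg _)
        (by positivity)).trans ?_)
      have := mul_le_mul_of_nonneg_right (by linarith : C ≤ 2 * (C0 ^ 2 * C) + C ^ 3) hQ0.le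
      linarith
    · unfold Lab.sk
      rw [Gb2X.fs hT' fun l hl => by rw [(Lab.B_zero hl u).2]; simp]
      refine (Gb2X.cs T η _).trans ((mul_le_mul hQ (hd u a ha hu)
        (sum_nonneg fun l _ => sq_nonneg _) (by positivity)).trans (le_of_eq ?_))
      ring

end

end Vale.Agent.P184L
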