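import Vale.Agent.P184L.Gb2

/-! Bounds for the free energy. `F_upper`: if `a ≤ Rt / 4` then `Z ≥ ∑ pr gg ≥ exp (-2 b a) / C`, otherwise `F ≤ R ≤ 2 a`. `F_lower`: `gg ψ ≤ exp (-b a / 2) exp (-b ψ / 2)`, Jensen (`convexOn_exp`) `exp (-b ψ l / 2) ≤ ∑ p x exp (-b f l x / 2)`, split `f l x < Rs` (`SumLe`) and `f l x = Rs` (`Adm.mass`, `2 Qm exp (-b Rs / 2) ≤ 1`), so `Z ≤ z0 + (exp b + 1) exp (-b a / 2)`. `F_taylor`: along `ψ + s (ψ' - ψ)` (admissible, all sums over one finite set) `φ s = F (...)` has derivative `∑ B ^ 2 u`, whose derivative is `2 ∑ B dB u`, bounded by `C b a ^ 2` (`gibbs_norm`, Cauchy-Schwarz); mean value inequality twice. -/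

namespace Vale.Agent.P184L

open Finset MeasureTheory ProbabilityTheory Classical Vale.Agent.P184
open scoped ContDiff

noncomputable section

universe u

variable {G : Type u} [Group G]

namespace Gb3X

variable {π : Par} {g : G} {L : Type u} {Λ : Lab π g L}

theorem fs {f : L → ℝ} {S : Finset L} (h : ∀ l, l ∉ S → f l = 0) : ∑ᶠ l, f l = ∑ l ∈ S, f l :=
  finsum_eq_sum_of_support_subset _ fun l hl => by_contra fun hn => hl (h l hn)

theorem Z_eq {ψ : L → ℝ} {S : Finset L} (h : ∀ l, l ∉ S → (π.Rt : ℝ) ≤ ψ l) :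
    Λ.Z ψ = π.z0 + ∑ l ∈ S, Λ.pr l * π.gg (ψ l) := by
  rw [Lab.Z, fs fun l hl => by rw [(π.H_zero (h l hl)).2.2.2, mul_zero]]

theorem B_sq (hπ : π.Ok) (ψ : L → ℝ) (l : L) :
    Λ.B ψ l ^ 2 = Λ.pr l * π.H (ψ l) ^ 2 / Λ.Z ψ := by
  rw [Lab.B, div_pow, mul_pow, Real.sq_sqrt (Λ.pr_nonneg l), Real.sq_sqrt (Lab.z0_le hπ ψ).2.le]

theorem Rt_le (π : Par) : (π.Rt : ℝ) ≤ π.Rs := by
  rw [π.Rs_eq]
  have : (0 : ℝ) ≤ π.Rt := Nat.cast_nonneg _
  linarith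

theorem Z_deriv (hπ : π.Ok) {ψ u : L → ℝ} {S : Finset L}
    (h : ∀ (s : ℝ) l, l ∉ S → (π.Rt : ℝ) ≤ ψ l + s * u l) (s : ℝ) :
    HasDerivAt (fun s : ℝ => Λ.Z fun l => ψ l + s * u l)
      (-(π.b * Λ.Z (fun l => ψ l + s * u l) *
        ∑ l ∈ S, Λ.B (fun l => ψ l + s * u l) l ^ 2 * u l)) s := by
  have h0 := (Lab.z0_le (Λ := Λ) hπ fun l => ψ l + s * u l).2
  have h1 : HasDerivAt (fun s : ℝ => π.z0 + ∑ l ∈ S, Λ.pr l * π.gg (ψ l + s * u l))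
      (∑ l ∈ S, Λ.pr l * (-(π.b * π.H (ψ l + s * u l) ^ 2) * u l)) s := by
    refine (HasDerivAt.fun_sum fun l _ => HasDerivAt.const_mul _ ?_).const_add _
    exact (π.hasDerivAt_gg _).comp s ((hasDerivAt_mul_const (u l)).const_add (ψ l))
  rw [show (fun s : ℝ => Λ.Z fun l => ψ l + s * u l) = _ from funext fun s => Z_eq (h s)]
  refine h1.congr_deriv ?_
  rw [mul_sum, ← sum_neg_distrib]
  refine sum_congr rfl fun l _ => ?_
  rw [B_sq hπ]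
  field_simp

theorem B_deriv (hπ : π.Ok) {ψ u : L → ℝ} {S : Finset L}
    (h : ∀ (s : ℝ) l, l ∉ S → (π.Rt : ℝ) ≤ ψ l + s * u l) (s : ℝ) (l : L) :
    HasDerivAt (fun s : ℝ => Λ.B (fun l => ψ l + s * u l) l)
      (Λ.dB (fun l => ψ l + s * u l) u l) s := by
  have h0 := (Lab.z0_le (Λ := Λ) hπ fun l => ψ l + s * u l).2
  have h1 : HasDerivAt (fun s : ℝ => π.H (ψ l + s * u l)) (deriv π.H (ψ l + s * u l) * u l) s :=
    (π.contDiff_H.differentiable (by simp) _).hasDerivAt.comp s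
      ((hasDerivAt_mul_const (u l)).const_add (ψ l))
  have h2 := Real.sqrt_pos.2 h0
  have h3 := (h1.const_mul √(Λ.pr l)).fun_div ((Z_deriv (Λ := Λ) hπ h s).sqrt h0.ne') h2.ne'
  refine h3.congr_deriv ?_
  rw [Lab.dB, fs (S := S) fun l hl => by
    rw [(Lab.B_zero (Λ := Λ) (ψ := fun l => ψ l + s * u l) (h s l hl) u).1]; ring]
  generalize ∑ l ∈ S, Λ.B (fun l => ψ l + s * u l) l ^ 2 * u l = D
  rw [Lab.B]
  have h4 := Real.sq_sqrt h0.le
  generalize √(Λ.Z fun l => ψ l + s * u l) = r at h2 h4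
  rw [← h4]
  field_simp
  ring

end Gb3X

theorem F_upper (G : Type u) [Group G] : ∃ C : ℝ, 1 ≤ C ∧ ∀ (π : Par) (g : G) (L : Type u)
    (Λ : Lab π g L), π.Ok → ∀ ψ, Λ.Adm ψ → ∀ (s : Finset L) (a : ℝ), 1 ≤ ∑ l ∈ s, Λ.pr l →
    (∀ l ∈ s, ψ l ≤ a) → Λ.F ψ ≤ 2 * a + C := by
  obtain ⟨C, hC, hp⟩ := profile
  refine ⟨C, hC, fun π g L Λ hπ ψ h s a h1 h2 => ?_⟩
  have hb := hπ.1
  obtain ⟨l0, hl0⟩ : s.Nonempty := by
    rw [nonempty_iff_ne_empty]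
    rintro rfl
    norm_num at h1
  have ha : 0 ≤ a := (h.bounds l0).1.trans (h2 l0 hl0)
  rcases le_total (π.R : ℝ) a with h3 | h3
  · linarith [Λ.F_le hπ ψ]
  have h4 : ∀ l ∈ s, Real.exp (-(2 * π.b * a)) / C ≤ π.gg (ψ l) := fun l hl => by
    obtain ⟨b0, b1⟩ := h.bounds l
    have a1 := (hp π hπ _ b0 b1).2.2.1 (by
      rw [π.Rt_eq]
      linarith [h2 l hl, (Nat.cast_nonneg π.R : (0 : ℝ) ≤ π.R)])
    have a2 := (hπ.H0_bounds b0 b1).2.2.1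
    have a3 : Real.exp (-(π.b * a)) ≤ Real.exp (-(π.b * ψ l)) :=
      Real.exp_le_exp.2 (neg_le_neg (mul_le_mul_of_nonneg_left (h2 l hl) (by linarith)))
    rw [div_le_iff₀ (by linarith), show -(2 * π.b * a) = -(π.b * a) + -(π.b * a) by ring,
      Real.exp_add, ← sq, mul_comm (π.gg _)]
    exact (pow_le_pow_left₀ (Real.exp_pos _).le (a3.trans a2) 2).trans a1
  have h5 : Real.exp (-(2 * π.b * a)) / C ≤ Λ.Z ψ := by
    rw [Gb3X.Z_eq (S := h.fin.toFinset ∪ s) fun l hl => (Gb3X.Rt_le π).trans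
      (not_lt.1 fun e => hl (mem_union_left _ (h.fin.mem_toFinset.2 e)))]
    have a1 : ∑ l ∈ s, Λ.pr l * π.gg (ψ l) ≤ ∑ l ∈ h.fin.toFinset ∪ s, Λ.pr l * π.gg (ψ l) :=
      sum_le_sum_of_subset_of_nonneg subset_union_right fun l _ _ =>
        mul_nonneg (Λ.pr_nonneg l) (hπ.gg_nonneg _)
    have a2 : ∑ l ∈ s, Λ.pr l * (Real.exp (-(2 * π.b * a)) / C) ≤ ∑ l ∈ s, Λ.pr l * π.gg (ψ l) :=
      sum_le_sum fun l hl => mul_le_mul_of_nonneg_left (h4 l hl) (Λ.pr_nonneg l)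
    rw [← sum_mul] at a2
    have a3 := mul_le_mul_of_nonneg_right h1
      (show 0 ≤ Real.exp (-(2 * π.b * a)) / C by positivity)
    have a4 : 0 < π.z0 := Real.exp_pos _
    linarith
  have h6 := Real.log_le_log (by positivity) h5
  rw [Real.log_div (Real.exp_pos _).ne' (by linarith), Real.log_exp] at h6
  have h7 := Real.log_le_sub_one_of_pos (show 0 < C by linarith)
  rw [Lab.F, div_le_iff₀ (by linarith)]
  nlinarith

theorem F_lower (G : Type u) [Group G] : ∃ C : ℝ, 1 ≤ C ∧ ∀ (π : Par) (g : G) (L : Type u)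
    (Λ : Lab π g L), π.Ok → Λ.SumLe → ∀ ψ, Λ.Adm ψ → ∀ a : ℝ, (∀ l, a ≤ ψ l) →
    min (π.R : ℝ) (a / 2) - C ≤ Λ.F ψ := by
  refine ⟨2, one_le_two, fun π g L Λ hπ hs ψ h a ha => ?_⟩
  have hb := hπ.1
  obtain ⟨S, hS⟩ : ∃ S : Finset L, ∀ l, l ∈ S ↔ ψ l < π.Rt :=
    ⟨h.fin.toFinset.filter fun l => ψ l < π.Rt, fun l => by
      rw [mem_filter, h.fin.mem_toFinset]
      exact ⟨fun e => e.2, fun e => ⟨e.trans_le (Gb3X.Rt_le π), e⟩⟩⟩
  have h1 : ∑ l ∈ S, Λ.pr l ≤ 2 * π.Qm :=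
    h.mass Λ.pr_nonneg Λ.mass_le S fun l hl => ((hS l).1 hl).trans (lt_add_one _)
  have h2 : 2 * π.Qm * Real.exp (-(π.b / 2 * π.Rs)) ≤ 1 := by
    have a1 : (0 : ℝ) ≤ π.Rt := Nat.cast_nonneg _
    have a2 := Real.add_one_le_exp (π.b / 2 * π.Rs - π.b * π.Rt / 8)
    have a3 : 1 ≤ π.b / 2 * π.Rs - π.b * π.Rt / 8 := by
      rw [π.Rs_eq]
      nlinarith
    rw [Par.Qm, mul_assoc, ← Real.exp_add, show π.b * π.Rt / 8 + -(π.b / 2 * π.Rs) =
      -(π.b / 2 * π.Rs - π.b * π.Rt / 8) by ring, Real.exp_neg, ← div_eq_mul_inv,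
      div_le_one (Real.exp_pos _)]
    linarith
  have h3 : ∀ x, ∑ l ∈ S, Λ.pr l * Real.exp (-(π.b / 2 * Λ.f l x)) ≤ Real.exp π.b + 1 := by
    intro x
    rw [← sum_filter_add_sum_filter_not S fun l => Λ.f l x < π.Rs]
    refine add_le_add (hs x _ fun l hl => (mem_filter.1 hl).2) (le_trans ?_ h2)
    rw [sum_congr rfl fun l hl => by
      rw [le_antisymm (Λ.f_le l x) (not_lt.1 (mem_filter.1 hl).2)], ← sum_mul]
    exact mul_le_mul_of_nonneg_right ((sum_le_sum_of_subset_of_nonneg (filter_subset _ _)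
      fun l _ _ => Λ.pr_nonneg l).trans h1) (Real.exp_pos _).le
  have h4 : ∑ l ∈ S, Λ.pr l * Real.exp (-(π.b / 2 * ψ l)) ≤ Real.exp π.b + 1 := by
    obtain ⟨s, p, p0, p1, hψ⟩ := h
    have a1 : ∀ l, Real.exp (-(π.b / 2 * ψ l)) ≤
        ∑ x ∈ s, p x * Real.exp (-(π.b / 2 * Λ.f l x)) := fun l => by
      have := convexOn_exp.map_sum_le (t := s) (w := p) (p := fun x => -(π.b / 2 * Λ.f l x))
        (fun x _ => p0 x) p1 fun _ _ => Set.mem_univ _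
      simp only [smul_eq_mul] at this
      refine le_trans (le_of_eq ?_) this
      rw [hψ, mul_sum, ← sum_neg_distrib]
      exact congrArg _ (sum_congr rfl fun x _ => by ring)
    refine (sum_le_sum fun l _ => mul_le_mul_of_nonneg_left (a1 l) (Λ.pr_nonneg l)).trans ?_
    simp only [mul_sum]
    rw [sum_comm]
    refine (sum_le_sum fun x _ => le_trans (le_of_eq ?_)
      (mul_le_mul_of_nonneg_left (h3 x) (p0 x))).trans (by rw [← sum_mul, p1, one_mul])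
    rw [mul_sum]
    exact sum_congr rfl fun l _ => by ring
  obtain ⟨m, hm⟩ : ∃ m, m = min (π.R : ℝ) (a / 2) := ⟨_, rfl⟩
  have m1 : m ≤ π.R := hm ▸ min_le_left _ _
  have m2 : m ≤ a / 2 := hm ▸ min_le_right _ _
  have h5 : ∑ l ∈ S, Λ.pr l * π.gg (ψ l) ≤ (Real.exp π.b + 1) * Real.exp (-(π.b * m)) := by
    refine le_trans ?_ (mul_le_mul_of_nonneg_right h4 (Real.exp_pos _).le)
    rw [sum_mul]
    refine sum_le_sum fun l _ => ?_
    rw [mul_assoc, ← Real.exp_add]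
    refine mul_le_mul_of_nonneg_left ((hπ.gg_le (h.bounds l).1).trans (Real.exp_le_exp.2 ?_))
      (Λ.pr_nonneg l)
    nlinarith [ha l]
  have h6 : π.z0 ≤ Real.exp (-(π.b * m)) := Real.exp_le_exp.2 (by nlinarith)
  have h7 : Λ.Z ψ ≤ Real.exp (π.b + π.b + -(π.b * m)) := by
    rw [Gb3X.Z_eq (S := S) fun l hl => not_lt.1 fun e => hl ((hS l).2 e), Real.exp_add,
      Real.exp_add]
    have a1 := Real.add_one_le_exp π.b
    have a2 : Real.exp π.b + 2 ≤ Real.exp π.b * Real.exp π.b := by nlinarith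
    have a3 := mul_le_mul_of_nonneg_right a2 (Real.exp_pos (-(π.b * m))).le
    linarith
  have h8 := Real.log_le_log (Lab.z0_le hπ ψ).2 h7
  rw [Real.log_exp] at h8
  rw [← hm, Lab.F, le_div_iff₀ (by linarith)]
  linarith

theorem F_taylor (G : Type u) [Group G] : ∃ C : ℝ, 1 ≤ C ∧ ∀ (π : Par) (g : G) (L : Type u)
    (Λ : Lab π g L), π.Ok → ∀ ψ ψ', Λ.Adm ψ → Λ.Adm ψ' → ∀ a : ℝ, 0 ≤ a →
    (∀ l, |ψ' l - ψ l| ≤ a) →
    Λ.F ψ' - Λ.F ψ ≤ ∑ᶠ l, Λ.B ψ l ^ 2 * (ψ' l - ψ l) + C * π.b * a ^ 2 := by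
  obtain ⟨C, hC, hg⟩ := gibbs_norm G
  refine ⟨2 * C, by linarith, fun π g L Λ hπ ψ ψ' h h' a ha hu => ?_⟩
  have hb : 0 < π.b := by linarith [hπ.1]
  obtain ⟨u, hu'⟩ : ∃ u : L → ℝ, u = fun l => ψ' l - ψ l := ⟨_, rfl⟩
  have u1 : ∀ l, ψ' l - ψ l = u l := fun l => by rw [hu']
  obtain ⟨S, hS⟩ : ∃ S : Finset L, ∀ (s : ℝ) l, l ∉ S → (π.Rt : ℝ) ≤ ψ l + s * u l :=
    ⟨h.fin.toFinset ∪ h'.fin.toFinset, fun s l hl => by
      have a1 : (π.Rs : ℝ) ≤ ψ l := not_lt.1 fun e => hl (mem_union_left _ (h.fin.mem_toFinset.2 e))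
      have a2 : (π.Rs : ℝ) ≤ ψ' l :=
        not_lt.1 fun e => hl (mem_union_right _ (h'.fin.mem_toFinset.2 e))
      rw [← u1, le_antisymm (h'.bounds l).2 a2, le_antisymm (h.bounds l).2 a1, sub_self, mul_zero,
        add_zero]
      exact Gb3X.Rt_le π⟩
  simp only [u1] at hu ⊢
  have d1 : ∀ s : ℝ, HasDerivAt (fun s : ℝ => Λ.F fun l => ψ l + s * u l)
      (∑ l ∈ S, Λ.B (fun l => ψ l + s * u l) l ^ 2 * u l) s := fun s => by
    have h0 := (Lab.z0_le (Λ := Λ) hπ fun l => ψ l + s * u l).2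
    refine (((Gb3X.Z_deriv (Λ := Λ) hπ hS s).log h0.ne').neg.div_const π.b).congr_deriv ?_
    field_simp
  have d2 : ∀ s : ℝ, HasDerivAt (fun s : ℝ => ∑ l ∈ S, Λ.B (fun l => ψ l + s * u l) l ^ 2 * u l)
      (∑ l ∈ S, 2 * Λ.B (fun l => ψ l + s * u l) l * Λ.dB (fun l => ψ l + s * u l) u l * u l) s :=
    fun s => HasDerivAt.fun_sum fun l _ => by
      have := ((Gb3X.B_deriv (Λ := Λ) hπ hS s l).fun_pow 2).mul_const (u l)
      simpa using this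
  obtain ⟨c, hc, e1⟩ := exists_hasDerivAt_eq_slope _ _ zero_lt_one
    (fun s _ => (d1 s).continuousAt.continuousWithinAt) fun s _ => d1 s
  obtain ⟨c', hc', e2⟩ := exists_hasDerivAt_eq_slope _ _ hc.1
    (fun s _ => (d2 s).continuousAt.continuousWithinAt) fun s _ => d2 s
  have hA := h.convex h' hc'.1.le (hc'.2.trans hc.2).le
  simp only [u1] at hA
  obtain ⟨g1, g2, -⟩ := hg π g L Λ hπ _ hA
  have g3 := (g2 u a ha hu).2
  rw [Gb3X.fs (S := S) fun l hl => by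
    rw [(Lab.B_zero (Λ := Λ) (ψ := fun l => ψ l + c' * u l) (hS c' l hl) u).1]; ring] at g1
  rw [Gb3X.fs (S := S) fun l hl => by
    rw [(Lab.B_zero (Λ := Λ) (ψ := fun l => ψ l + c' * u l) (hS c' l hl) u).2]; ring] at g3
  have g4 : ∑ l ∈ S, 2 * Λ.B (fun l => ψ l + c' * u l) l * Λ.dB (fun l => ψ l + c' * u l) u l *
      u l ≤ 2 * C * π.b * a ^ 2 := by
    have a1 : ∀ x y z : ℝ, |z| ≤ a → 2 * x * y * z ≤ π.b * a ^ 2 * x ^ 2 + π.b⁻¹ * y ^ 2 := by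
      intro x y z hz
      have b1 : z ^ 2 ≤ a ^ 2 := sq_le_sq' (abs_le.1 hz).1 (abs_le.1 hz).2
      have b2 : 0 ≤ π.b⁻¹ * (π.b * x * z - y) ^ 2 := by positivity
      have b3 : π.b⁻¹ * (π.b * x * z - y) ^ 2 =
          π.b * z ^ 2 * x ^ 2 - 2 * x * y * z + π.b⁻¹ * y ^ 2 := by
        field_simp
        ring
      have b4 := mul_le_mul_of_nonneg_right (mul_le_mul_of_nonneg_left b1 hb.le) (sq_nonneg x)
      linarith
    refine (sum_le_sum fun l _ => a1 _ _ _ (hu l)).trans ?_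
    rw [sum_add_distrib, ← mul_sum, ← mul_sum]
    have a2 := mul_le_mul_of_nonneg_left g1 (show 0 ≤ π.b * a ^ 2 by positivity)
    have a3 := mul_le_mul_of_nonneg_left g3 (inv_pos.2 hb).le
    have a4 : π.b⁻¹ * (C * (π.b * a) ^ 2) = C * π.b * a ^ 2 := by field_simp
    linarith
  have e3 : (fun l => ψ l + 1 * u l) = ψ' := funext fun l => by rw [← u1]; ring
  have e4 : (fun l => ψ l + 0 * u l) = ψ := funext fun l => by ring
  rw [e3, e4, sub_zero, div_one] at e1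
  rw [e4, sub_zero, eq_div_iff hc.1.ne'] at e2
  have e5 := hS 0
  simp only [zero_mul, add_zero] at e5
  rw [Gb3X.fs (S := S) fun l hl => by rw [(Lab.B_zero (e5 l hl) u).1]; ring, ← e1]
  have g5 := mul_le_mul_of_nonneg_right g4 hc.1.le
  have g6 := mul_le_mul_of_nonneg_left hc.2.le (show 0 ≤ 2 * C * π.b * a ^ 2 by positivity)
  linarith

end

end Vale.Agent.P184L
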