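import Vale.Agent.P184L.Gb2

/-! Smooth families of potentials. Hint: near a point all finsums are sums over the finite set given by `LF` (`finsum_eq_sum_of_support_subset`, `Lab.B_zero`, `Par.H_zero`); `Z > 0`. -/

namespace Vale.Agent.P184L

open Finset MeasureTheory ProbabilityTheory Classical Vale.Agent.P184
open scoped ContDiff

noncomputable section

universe u

variable {G : Type u} [Group G]

variable {π : Par} {g : G} {L : Type u} (Λ : Lab π g L)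

/-- Smooth families of potentials with locally finitely many active labels. -/
def LF (π : Par) {Y : Type*} [NormedAddCommGroup Y] [NormedSpace ℝ Y] (ψ : Y → L → ℝ) : Prop :=
  (∀ l, ContDiff ℝ ∞ fun y => ψ y l) ∧
    ∀ y₀, ∃ s : Finset L, ∀ᶠ y in nhds y₀, ∀ l, l ∉ s → (π.Rt : ℝ) ≤ ψ y l

section

variable {Y Y' : Type*} [NormedAddCommGroup Y] [NormedSpace ℝ Y] [NormedAddCommGroup Y']
  [NormedSpace ℝ Y'] {ψ : Y → L → ℝ}

namespace Gb4X

variable {π : Par}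

theorem ev {W : Type*} [AddCommMonoid W] {s : Finset L} {y₀ : Y}
    (hs : ∀ᶠ y in nhds y₀, ∀ l, l ∉ s → (π.Rt : ℝ) ≤ ψ y l) {a : Y → L → W}
    (h0 : ∀ y l, (π.Rt : ℝ) ≤ ψ y l → a y l = 0) :
    (fun y => ∑ᶠ l, a y l) =ᶠ[nhds y₀] fun y => ∑ l ∈ s, a y l := by
  filter_upwards [hs] with y hy
  exact finsum_eq_sum_of_support_subset _ fun l hl => by
    by_contra hn
    exact hl (h0 y l (hy l hn))

theorem csum (h : LF π ψ) {a : Y → L → Y'} (ha : ∀ l, ContDiff ℝ ∞ fun y => a y l)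
    (h0 : ∀ y l, (π.Rt : ℝ) ≤ ψ y l → a y l = 0) : ContDiff ℝ ∞ fun y => ∑ᶠ l, a y l := by
  refine contDiff_iff_contDiffAt.2 fun y => ?_
  obtain ⟨s, hs⟩ := h.2 y
  exact (ContDiff.sum fun l _ => ha l).contDiffAt.congr_of_eventuallyEq (ev hs h0)

theorem fsum (h : LF π ψ) {a : Y → L → Y'} (ha : ∀ l, ContDiff ℝ ∞ fun y => a y l)
    (h0 : ∀ y l, (π.Rt : ℝ) ≤ ψ y l → a y l = 0) (y v : Y) :
    fderiv ℝ (fun y => ∑ᶠ l, a y l) y v = ∑ᶠ l, fderiv ℝ (fun y => a y l) y v := by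
  obtain ⟨s, hs⟩ := h.2 y
  rw [(ev hs h0).fderiv_eq, fderiv_fun_sum fun l _ => (ha l).differentiable (by simp) y,
    ContinuousLinearMap.sum_apply]
  refine (finsum_eq_sum_of_support_subset _ fun l hl => ?_).symm
  by_contra hn
  have e : (fun y => a y l) =ᶠ[nhds y] fun _ => 0 := by
    filter_upwards [hs] with z hz
    exact h0 z l (hz l hn)
  exact hl (by simp [e.fderiv_eq])

variable {g : G} (Λ : Lab π g L)

theorem cZ (h : LF π ψ) : ContDiff ℝ ∞ fun y => Λ.Z (ψ y) :=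
  contDiff_const.add (csum h (fun l => contDiff_const.mul (π.contDiff_gg.comp (h.1 l)))
    fun y l hl => by rw [(π.H_zero hl).2.2.2, mul_zero])

theorem dZ (hπ : π.Ok) (h : LF π ψ) (y v : Y) : fderiv ℝ (fun y => Λ.Z (ψ y)) y v =
    -(π.b * Λ.Z (ψ y)) * ∑ᶠ l, Λ.B (ψ y) l ^ 2 * fderiv ℝ (fun y => ψ y l) y v := by
  have hZ := (Λ.z0_le hπ (ψ y)).2
  rw [mul_finsum]
  conv_lhs => unfold Lab.Z
  rw [fderiv_const_add, fsum h (a := fun y l => Λ.pr l * π.gg (ψ y l))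
    (fun l => contDiff_const.mul (π.contDiff_gg.comp (h.1 l)))
    fun y l hl => by rw [(π.H_zero hl).2.2.2, mul_zero]]
  refine finsum_congr fun l => ?_
  have h1 := ((π.hasDerivAt_gg (ψ y l)).comp_hasFDerivAt y
    ((h.1 l).differentiable (by simp) y).hasFDerivAt).const_mul (Λ.pr l)
  erw [h1.fderiv]
  simp only [ContinuousLinearMap.smul_apply, smul_eq_mul, Lab.B, div_pow, mul_pow,
    Real.sq_sqrt (Λ.pr_nonneg l), Real.sq_sqrt hZ.le]
  field_simp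

theorem cS (hπ : π.Ok) (h : LF π ψ) : ContDiff ℝ ∞ fun y => √(Λ.Z (ψ y)) :=
  (cZ Λ h).sqrt fun y => (Λ.z0_le hπ (ψ y)).2.ne'

theorem nS (hπ : π.Ok) (ψ : L → ℝ) : √(Λ.Z ψ) ≠ 0 := (Real.sqrt_pos.2 (Λ.z0_le hπ ψ).2).ne'

end Gb4X

theorem LF.comp (h : LF π ψ) {φ : Y' → Y} (hφ : ContDiff ℝ ∞ φ) : LF π fun y => ψ (φ y) :=
  ⟨fun l => (h.1 l).comp hφ, fun y => (h.2 (φ y)).imp fun _ hs =>
    hφ.continuous.continuousAt.eventually hs⟩

theorem LF.contDiff_F (hπ : π.Ok) (h : LF π ψ) : ContDiff ℝ ∞ fun y => Λ.F (ψ y) :=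
  ((Gb4X.cZ Λ h).log fun y => (Λ.z0_le hπ (ψ y)).2.ne').neg.div_const _

theorem LF.contDiff_B (hπ : π.Ok) (h : LF π ψ) (l : L) : ContDiff ℝ ∞ fun y => Λ.B (ψ y) l :=
  (contDiff_const.mul (π.contDiff_H.comp (h.1 l))).div (Gb4X.cS Λ hπ h) fun y => Gb4X.nS Λ hπ _

theorem LF.fderiv_B (hπ : π.Ok) (h : LF π ψ) (l : L) (y v : Y) :
    fderiv ℝ (fun y => Λ.B (ψ y) l) y v =
      Λ.dB (ψ y) (fun l' => fderiv ℝ (fun y => ψ y l') y v) l := by
  have hZ := (Λ.z0_le hπ (ψ y)).2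
  have hS := Gb4X.nS Λ hπ (ψ y)
  have h1 := (((π.contDiff_H.differentiable (by simp) (ψ y l)).hasDerivAt).comp_hasFDerivAt y
    ((h.1 l).differentiable (by simp) y).hasFDerivAt).const_mul √(Λ.pr l)
  have h2 := ((Real.hasDerivAt_sqrt hZ.ne').inv hS).comp_hasFDerivAt y
    ((Gb4X.cZ Λ h).differentiable (by simp) y).hasFDerivAt
  have h3 := (h1.mul h2).fderiv
  simp only [Lab.B, div_eq_mul_inv]
  erw [h3]
  simp only [ContinuousLinearMap.add_apply, ContinuousLinearMap.smul_apply, smul_eq_mul,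
    Gb4X.dZ Λ hπ h, Lab.dB, Function.comp_apply, Pi.inv_apply]
  generalize (∑ᶠ l, Λ.B (ψ y) l ^ 2 * fderiv ℝ (fun y => ψ y l) y v) = A
  rw [Real.sq_sqrt hZ.le, Lab.B]
  field_simp
  ring

theorem LF.contDiff_dB (hπ : π.Ok) (h : LF π ψ) {u : Y → L → ℝ}
    (hu : ∀ l, ContDiff ℝ ∞ fun y => u y l) (l : L) :
    ContDiff ℝ ∞ fun y => Λ.dB (ψ y) (u y) l := by
  refine ContDiff.add (((contDiff_const.mul (π.contDiff_H.deriv'.comp (h.1 l))).mul (hu l)).div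
    (Gb4X.cS Λ hπ h) fun y => Gb4X.nS Λ hπ _)
    ((contDiff_const.mul (h.contDiff_B Λ hπ l)).mul ?_)
  exact Gb4X.csum h (fun l => ((h.contDiff_B Λ hπ l).pow 2).mul (hu l)) fun y l hl => by
    rw [(Lab.B_zero hl (u y)).1, zero_pow two_ne_zero, zero_mul]

/-- Locally finite sums of smooth functions. -/
theorem LF.contDiff_sum (h : LF π ψ) {a : Y → L → Y'} (ha : ∀ l, ContDiff ℝ ∞ fun y => a y l)
    (h0 : ∀ y l, (π.Rt : ℝ) ≤ ψ y l → a y l = 0) : ContDiff ℝ ∞ fun y => ∑ᶠ l, a y l :=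
  Gb4X.csum h ha h0

theorem LF.fderiv_sum (h : LF π ψ) {a : Y → L → Y'} (ha : ∀ l, ContDiff ℝ ∞ fun y => a y l)
    (h0 : ∀ y l, (π.Rt : ℝ) ≤ ψ y l → a y l = 0) (y v : Y) :
    fderiv ℝ (fun y => ∑ᶠ l, a y l) y v = ∑ᶠ l, fderiv ℝ (fun y => a y l) y v :=
  Gb4X.fsum h ha h0 y v

/-- One finite set works on a compact set. -/
theorem LF.compact (h : LF π ψ) {K : Set Y} (hK : IsCompact K) :
    ∃ s : Finset L, ∀ y ∈ K, ∀ l, l ∉ s → (π.Rt : ℝ) ≤ ψ y l := by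
  refine hK.induction_on (p := fun K => ∃ s : Finset L, ∀ y ∈ K, ∀ l, l ∉ s → (π.Rt : ℝ) ≤ ψ y l)
    ⟨∅, fun _ hy => hy.elim⟩ (fun _ _ hst ⟨s, hs⟩ => ⟨s, fun y hy => hs y (hst hy)⟩)
    (fun _ _ ⟨s, hs⟩ ⟨t, ht⟩ => ⟨s ∪ t, fun y hy l hl => ?_⟩) fun y _ => ?_
  · rw [Finset.notMem_union] at hl
    exact hy.elim (fun hy => hs y hy l hl.1) fun hy => ht y hy l hl.2
  · obtain ⟨s, hs⟩ := h.2 y
    exact ⟨_, mem_nhdsWithin_of_mem_nhds hs, s, fun _ hy => hy⟩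

theorem LF.contDiff_sk (hπ : π.Ok) (h : LF π ψ) (η : L → ℂ) :
    ContDiff ℝ ∞ fun y => Lab.sk η (Λ.B (ψ y)) :=
  Gb4X.csum h (fun l => contDiff_const.mul
    (Complex.ofRealCLM.contDiff.comp (h.contDiff_B Λ hπ l))) fun y l hl => by
      rw [(Lab.B_zero hl (ψ y)).1, Complex.ofReal_zero, mul_zero]

theorem LF.fderiv_sk (hπ : π.Ok) (h : LF π ψ) (η : L → ℂ) (y v : Y) :
    fderiv ℝ (fun y => Lab.sk η (Λ.B (ψ y))) y v =
      Lab.sk η (Λ.dB (ψ y) fun l' => fderiv ℝ (fun y => ψ y l') y v) := by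
  unfold Lab.sk
  rw [Gb4X.fsum h (a := fun y l => η l * (Λ.B (ψ y) l : ℝ)) (fun l => contDiff_const.mul
    (Complex.ofRealCLM.contDiff.comp (h.contDiff_B Λ hπ l))) fun y l hl => by
      rw [(Lab.B_zero hl (ψ y)).1, Complex.ofReal_zero, mul_zero]]
  refine finsum_congr fun l => ?_
  have h1 := ((Complex.ofRealCLM.hasFDerivAt.comp y
    ((h.contDiff_B Λ hπ l).differentiable (by simp) y).hasFDerivAt).const_mul (η l)).fderiv
  erw [h1]
  simp only [ContinuousLinearMap.smul_apply, smul_eq_mul, ContinuousLinearMap.comp_apply,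
    Complex.ofRealCLM_apply, h.fderiv_B Λ hπ l]

end

end

end Vale.Agent.P184L
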