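import Vale.Agent.P184L.K2

/-! Bounds for averages at ordered times. Hint: for `Ord T` the points `T i + p` are ordered lexicographically and `nx T i.castSucc ≤ nx T i.succ`. `wt_abs_le`: `|wt P T t p i| ≤ C * (length of [T i + p - t, nx T i.succ + p - t] ∩ [-w, w])`; a slick way: the function `V u = C * max (-w) (min u w)` satisfies `|P b - P a| ≤ V b - V a` for `a ≤ b` and the sum of the increments of `V` telescopes. To pass from pairs `(p, i)` to group elements use `Finset.sum_fiberwise`/`sum_image'` (push the weights forward along `(p, i) ↦ g ^ p * x i`). -/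

namespace Vale.Agent.P184L

open Finset MeasureTheory ProbabilityTheory Classical Vale.Agent.P184
open scoped ContDiff

noncomputable section

universe u

variable {G : Type u} [Group G]

namespace K3X

theorem ex_N {k : ℕ} (T : E k) (t w : ℝ) :
    ∃ (B : ℝ) (N : ℕ), (∀ i, |T i| ≤ B) ∧ |t| ≤ B ∧ 2 * B + w + 1 ≤ N :=
  ⟨‖T‖ + |t|, ⌈2 * (‖T‖ + |t|) + w + 1⌉₊,
    fun i => (norm_le_pi_norm T i).trans (le_add_of_nonneg_right (abs_nonneg t)),
    le_add_of_nonneg_left (norm_nonneg T), Nat.le_ceil _⟩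

theorem le_nx {k : ℕ} {T : E (k + 1)} (hT : Ord T) (i : Fin (k + 1)) : T i ≤ nx T i.succ := by
  induction i using Fin.lastCases with
  | last =>
    rw [Fin.succ_last, nx, Fin.snoc_last]
    exact hT.2 _
  | cast j =>
    rw [Fin.succ_castSucc, nx, Fin.snoc_castSucc]
    exact hT.1 Fin.castSucc_lt_succ.le

theorem sum_wt (V : ℝ → ℝ) {k : ℕ} (T : E (k + 1)) (t : ℝ) (p : ℤ) :
    ∑ i, wt V T t p i = V (T 0 + (p + 1 : ℤ) - t) - V (T 0 + p - t) := by
  have h1 := Fin.sum_univ_succ fun j => V (nx T j + p - t)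
  have h2 := Fin.sum_univ_castSucc fun j => V (nx T j + p - t)
  have e0 : nx T 0 = T 0 := by rw [← Fin.castSucc_zero, nx, Fin.snoc_castSucc]
  have e1 : nx T (Fin.last (k + 1)) + p - t = T 0 + (p + 1 : ℤ) - t := by
    rw [nx, Fin.snoc_last]
    push_cast
    ring
  have e2 : ∀ i : Fin (k + 1), nx T i.castSucc = T i := fun i => by rw [nx, Fin.snoc_castSucc]
  simp only [e0, e1, e2] at h1 h2
  simp only [wt, sum_sub_distrib]
  linarith

theorem tele (F : ℤ → ℝ) (a : ℤ) (n : ℕ) :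
    ∑ p ∈ Icc a (a + n), (F (p + 1) - F p) = F (a + n + 1) - F a := by
  induction n with
  | zero => simp
  | succ n ih =>
    have e : Icc a (a + (n + 1 : ℕ)) = insert (a + n + 1) (Icc a (a + n)) := by
      ext p
      simp only [mem_Icc, mem_insert]
      omega
    rw [e, sum_insert (by simp only [mem_Icc]; omega), ih]
    push_cast
    rw [← add_assoc]
    ring

theorem incr {P : ℝ → ℝ} {w C : ℝ} (hP : Ker P w) (hC : ∀ u, |deriv P u| ≤ C) {a b : ℝ}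
    (hab : a ≤ b) : |P b - P a| ≤ C * max (-w) (min b w) - C * max (-w) (min a w) := by
  have hw := hP.2.1
  have e : ∀ u, P u = P (max (-w) (min u w)) := fun u => by
    rcases le_total u w with h | h
    · rw [min_eq_left h]
      rcases le_total u (-w) with h' | h'
      · rw [max_eq_left h', hP.2.2.1 u h']
      · rw [max_eq_right h']
    · rw [min_eq_right h, max_eq_right (by linarith), hP.2.2.2 u h]
  have h1 := Convex.norm_image_sub_le_of_norm_deriv_le (f := P) (s := Set.univ)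
    (fun x _ => (hP.1.differentiable (by simp)) x) (fun x _ => hC x) convex_univ
    (Set.mem_univ (max (-w) (min a w))) (Set.mem_univ (max (-w) (min b w)))
  rw [← e, ← e, Real.norm_eq_abs, Real.norm_of_nonneg
    (sub_nonneg.2 (max_le_max le_rfl (min_le_min hab le_rfl))), mul_sub] at h1
  exact h1

theorem sum_abs {P : ℝ → ℝ} {w C : ℝ} (hP : Ker P w) (hC : ∀ u, |deriv P u| ≤ C) {k : ℕ}
    {T : E (k + 1)} (hT : Ord T) (t : ℝ) (N : ℕ) :
    ∑ p ∈ Icc (-(N : ℤ)) N, ∑ i, |wt P T t p i| ≤ 2 * w * C := by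
  have hw := hP.2.1
  have hC0 : 0 ≤ C := (abs_nonneg _).trans (hC 0)
  have h1 : ∀ p : ℤ, ∑ i, |wt P T t p i| ≤ C * max (-w) (min (T 0 + (p + 1 : ℤ) - t) w) -
      C * max (-w) (min (T 0 + p - t) w) := fun p => by
    rw [← sum_wt (fun u => C * max (-w) (min u w)) T t p]
    exact sum_le_sum fun i _ => incr hP hC (by linarith [le_nx hT i])
  refine (sum_le_sum fun p _ => h1 p).trans ?_
  have h2 := tele (fun p => C * max (-w) (min (T 0 + p - t) w)) (-(N : ℤ)) (2 * N)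
  have e : -(N : ℤ) + (2 * N : ℕ) = N := by omega
  rw [e] at h2
  rw [h2]
  have h3 : ∀ u, max (-w) (min u w) ≤ w := fun u => max_le (by linarith) (min_le_right _ _)
  have h4 := mul_le_mul_of_nonneg_left (h3 (T 0 + (N + 1 : ℤ) - t)) hC0
  have h5 := mul_le_mul_of_nonneg_left (le_max_left (-w) (min (T 0 + (-(N : ℤ) : ℤ) - t) w)) hC0
  linarith

omit [Group G] in
theorem push {ι : Type} (S : Finset ι) (φ : ι → G) (a : ι → ℝ) :
    ∃ (s : Finset G) (c : G → ℝ), (∀ u ∈ s, ∃ q, u = φ q) ∧ ∑ u ∈ s, |c u| ≤ ∑ q ∈ S, |a q| ∧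
      ((∀ q, 0 ≤ a q) → ∀ u, 0 ≤ c u) ∧
      ∀ y : G → ℝ, ∑ q ∈ S, y (φ q) * a q = ∑ u ∈ s, c u * y u := by
  have hm : ∀ q ∈ S, φ q ∈ S.image φ := fun q hq => mem_image_of_mem φ hq
  refine ⟨S.image φ, fun u => ∑ q ∈ S with φ q = u, a q, fun u hu => ?_, ?_,
    fun h u => sum_nonneg fun q _ => h q, fun y => ?_⟩
  · obtain ⟨q, -, e⟩ := mem_image.1 hu
    exact ⟨q, e.symm⟩
  · rw [← sum_fiberwise_of_maps_to hm]
    exact sum_le_sum fun u _ => abs_sum_le_sum_abs _ _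
  · rw [← sum_fiberwise_of_maps_to hm]
    refine sum_congr rfl fun u _ => ?_
    rw [sum_mul]
    refine sum_congr rfl fun q hq => ?_
    rw [(mem_filter.1 hq).2, mul_comm]

theorem rep (g : G) {P : ℝ → ℝ} {w : ℝ} (hP : Ker P w) {k : ℕ} (x : Fin (k + 1) → G)
    (T : E (k + 1)) (t : ℝ) : ∃ (s : Finset G) (c : G → ℝ) (N : ℕ),
      (∀ u ∈ s, ∃ (p : ℤ) (i : Fin (k + 1)), u = g ^ p * x i) ∧
      ∑ u ∈ s, |c u| ≤ ∑ p ∈ Icc (-(N : ℤ)) N, ∑ i, |wt P T t p i| ∧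
      ((∀ p i, 0 ≤ wt P T t p i) → ∀ u, 0 ≤ c u) ∧
      ∀ y : G → ℝ, av g P y x T t = ∑ u ∈ s, c u * y u := by
  obtain ⟨B, N, h1, h2, h3⟩ := ex_N T t w
  obtain ⟨s, c, a1, a2, a3, a4⟩ := push (Icc (-(N : ℤ)) N ×ˢ (univ : Finset (Fin (k + 1))))
    (fun q => g ^ q.1 * x q.2) fun q => wt P T t q.1 q.2
  refine ⟨s, c, N, fun u hu => ?_, ?_, fun h => a3 fun q => h _ _, fun y => ?_⟩
  · obtain ⟨q, e⟩ := a1 u hu
    exact ⟨q.1, q.2, e⟩
  · rwa [sum_product] at a2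
  · rw [av_eq_sum g hP y x h1 h2 h3, ← a4, sum_product]

end K3X

theorem av_rep (g : G) {P : ℝ → ℝ} {w C : ℝ} (hP : Ker P w) (hC : ∀ u, |deriv P u| ≤ C) {k : ℕ}
    (x : Fin (k + 1) → G) {T : E (k + 1)} (hT : Ord T) (t : ℝ) :
    ∃ (s : Finset G) (c : G → ℝ), ∑ u ∈ s, |c u| ≤ 2 * w * C ∧
      ∀ y : G → ℝ, av g P y x T t = ∑ u ∈ s, c u * y u := by
  obtain ⟨s, c, N, -, h1, -, h2⟩ := K3X.rep g hP x T t
  exact ⟨s, c, h1.trans (K3X.sum_abs hP hC hT t N), h2⟩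

theorem av_abs_le (g : G) {P : ℝ → ℝ} {w C : ℝ} (hP : Ker P w) (hC : ∀ u, |deriv P u| ≤ C) {k : ℕ}
    (x : Fin (k + 1) → G) {T : E (k + 1)} (hT : Ord T) (t : ℝ) {y : G → ℝ} {B : ℝ}
    (hy : ∀ u, |y u| ≤ B) : |av g P y x T t| ≤ 2 * w * C * B := by
  obtain ⟨s, c, h1, h2⟩ := av_rep g hP hC x hT t
  have hB : 0 ≤ B := (abs_nonneg _).trans (hy 1)
  rw [h2]
  refine (abs_sum_le_sum_abs _ _).trans (le_trans ?_ (mul_le_mul_of_nonneg_right h1 hB))
  rw [sum_mul]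
  refine sum_le_sum fun u _ => ?_
  rw [abs_mul]
  exact mul_le_mul_of_nonneg_left (hy u) (abs_nonneg _)

theorem wt_nonneg {r : ℝ} (hr : 0 < r) {k : ℕ} {T : E (k + 1)} (hT : Ord T) (t : ℝ) (p : ℤ)
    (i : Fin (k + 1)) : 0 ≤ wt (Pr r) T t p i :=
  sub_nonneg.2 (Pr_mono hr (by linarith [K3X.le_nx hT i]))

theorem av_prob (g : G) {r : ℝ} (hr : 0 < r) {k : ℕ} (x : Fin (k + 1) → G) {T : E (k + 1)}
    (hT : Ord T) (t : ℝ) : ∃ (s : Finset G) (c : G → ℝ), (∀ u, 0 ≤ c u) ∧ ∑ u ∈ s, c u = 1 ∧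
      (∀ u ∈ s, ∃ (p : ℤ) (i : Fin (k + 1)), u = g ^ p * x i) ∧
      ∀ y : G → ℝ, av g (Pr r) y x T t = ∑ u ∈ s, c u * y u := by
  obtain ⟨s, c, N, h0, -, h1, h2⟩ := K3X.rep g (ker_Pr hr) x T t
  refine ⟨s, c, h1 (wt_nonneg hr hT t), ?_, h0, h2⟩
  have h3 := h2 fun _ => 1
  rw [av_const g (ker_Pr hr), (Pr_ends hr).1, (Pr_ends hr).2] at h3
  simpa using h3.symm

theorem av_fderiv_le (g : G) {P : ℝ → ℝ} {w : ℝ} (hP : Ker P w) (y : G → ℝ) {k : ℕ}
    (x : Fin (k + 1) → G) (T : E (k + 1)) (t : ℝ) (j : Fin (k + 1)) {B : ℝ}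
    (hy : ∀ p : ℤ, |y (g ^ p * x j) - y (g ^ p * prv g x j)| ≤ B) :
    |fderiv ℝ (fun S => av g P y x S t) T (ev j)| ≤ B * per (deriv P) (T j - t) := by
  obtain ⟨N, hN⟩ := exists_nat_ge (|T j - t| + w)
  have h0 : ∀ p : ℤ, p ∉ Icc (-(N : ℤ)) N → deriv P (T j - t + p) = 0 := fun p hp => by
    refine hP.deriv.2 _ ?_
    have h1 : (N : ℤ) ≤ |p| := by
      rw [mem_Icc] at hp
      rw [le_abs]
      omega
    have h2 : (N : ℝ) ≤ |(p : ℝ)| := by exact_mod_cast h1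
    have h3 := abs_sub (T j - t + p) (T j - t)
    rw [add_sub_cancel_left] at h3
    linarith
  have e : ∀ p : ℤ, T j + p - t = T j - t + p := fun p => by ring
  rw [av_fderiv g hP, per, finsum_eq_sum_of_support_subset (s := Icc (-(N : ℤ)) N) _ fun p hp => ?_,
    finsum_eq_sum_of_support_subset (s := Icc (-(N : ℤ)) N) _ fun p hp => ?_, mul_sum]
  · refine (abs_sum_le_sum_abs _ _).trans (sum_le_sum fun p _ => ?_)
    rw [abs_mul, abs_sub_comm, e]
    exact mul_le_mul_of_nonneg_right (hy p) (abs_nonneg _)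
  · by_contra h
    exact hp (by simp only [h0 p h, abs_zero])
  · by_contra h
    exact hp (by simp only [e, h0 p h, mul_zero])

end

end Vale.Agent.P184L
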