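import Vale.Agent.P184L.Gb4
import Vale.Agent.P184L.K3

/-! The smoothed potentials. Hint: `lf_Psi`: for `(T, t)` bounded only finitely many `g ^ p * x i` occur (`av_eq_sum`), labels with `f l = Rs` at all of them have `Psi = Rs` (`av_const`); use `Λ.fin`. Shift: `Λ.f (sh l) (g * u) = Λ.f l u`, `av_shift`, `finsum_comp_equiv`. -/

namespace Vale.Agent.P184L

open Finset MeasureTheory ProbabilityTheory Classical Vale.Agent.P184
open scoped ContDiff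

noncomputable section

universe u

variable {G : Type u} [Group G]

variable {π : Par} {g : G} {L : Type u} (Λ : Lab π g L)

namespace Gb4bX

theorem av_congr (g : G) (P : ℝ → ℝ) {y y' : G → ℝ} {k : ℕ} (x : Fin (k + 1) → G)
    (T : E (k + 1)) (t : ℝ) (h : ∀ (p : ℤ) (i : Fin (k + 1)), y (g ^ p * x i) = y' (g ^ p * x i)) :
    av g P y x T t = av g P y' x T t := by
  unfold av
  refine finsum_congr fun p => Finset.sum_congr rfl fun i _ => ?_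
  rw [h p i]

theorem av_Rs (g : G) {r : ℝ} (hr : 0 < r) (c : ℝ) {k : ℕ} (x : Fin (k + 1) → G)
    (T : E (k + 1)) (t : ℝ) : av g (Pr r) (fun _ => c) x T t = c := by
  rw [av_const g (ker_Pr hr), (Pr_ends hr).1, (Pr_ends hr).2]
  ring

theorem Rt_le (π : Par) : (π.Rt : ℝ) ≤ π.Rs := by
  rw [π.Rs_eq]
  have : (0 : ℝ) ≤ π.Rt := Nat.cast_nonneg _
  linarith

theorem exists_lab (p : ℤ) : ∀ l : L, ∃ l' : L, ∀ u : G, Λ.f l (g ^ p * u) = Λ.f l' u := by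
  induction p using Int.induction_on with
  | zero => exact fun l => ⟨l, fun u => by simp⟩
  | succ n ih =>
    intro l
    obtain ⟨l', hl'⟩ := ih l
    refine ⟨Λ.sh.symm l', fun u => ?_⟩
    rw [zpow_add_one, mul_assoc, hl', ← Λ.f_sh (Λ.sh.symm l') u, Equiv.apply_symm_apply]
  | pred n ih =>
    intro l
    obtain ⟨l', hl'⟩ := ih l
    refine ⟨Λ.sh l', fun u => ?_⟩
    rw [zpow_sub_one, mul_assoc, hl', ← Λ.f_sh l' (g⁻¹ * u), mul_inv_cancel_left]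

end Gb4bX

theorem lf_Psi {r : ℝ} (hr : 0 < r) {k : ℕ} (x : Fin (k + 1) → G) :
    LF π fun p : E (k + 1) × ℝ => Λ.Psi r x p.1 p.2 := by
  refine ⟨fun l => contDiff_av g (ker_Pr hr) (Λ.f l) x, fun y₀ => ?_⟩
  obtain ⟨N, hN⟩ := exists_nat_ge (2 * (‖y₀‖ + 1) + r + 1)
  refine ⟨(Icc (-(N : ℤ)) N ×ˢ (univ : Finset (Fin (k + 1)))).biUnion
    fun q => (Λ.fin (g ^ q.1 * x q.2)).toFinset, ?_⟩
  have hb : ∀ᶠ y in nhds y₀, ‖y‖ < ‖y₀‖ + 1 :=
    (continuous_norm.tendsto y₀).eventually (gt_mem_nhds (lt_add_one _))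
  filter_upwards [hb] with y hy l hl
  have hT : ∀ i, |y.1 i| ≤ ‖y₀‖ + 1 := fun i =>
    ((Real.norm_eq_abs _).symm.le.trans ((norm_le_pi_norm y.1 i).trans (norm_fst_le y))).trans hy.le
  have ht : |y.2| ≤ ‖y₀‖ + 1 :=
    ((Real.norm_eq_abs _).symm.le.trans (norm_snd_le y)).trans hy.le
  have key : Λ.Psi r x y.1 y.2 l = av g (Pr r) (fun _ => (π.Rs : ℝ)) x y.1 y.2 := by
    unfold Lab.Psi
    rw [av_eq_sum g (ker_Pr hr) _ x hT ht hN, av_eq_sum g (ker_Pr hr) _ x hT ht hN]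
    refine Finset.sum_congr rfl fun p hp => Finset.sum_congr rfl fun i _ => ?_
    have h1 : ¬ Λ.f l (g ^ p * x i) < π.Rs := by
      intro h
      apply hl
      refine Finset.mem_biUnion.2 ⟨(p, i), Finset.mem_product.2 ⟨hp, Finset.mem_univ _⟩, ?_⟩
      exact (Set.Finite.mem_toFinset _).2 h
    rw [le_antisymm (Λ.f_le l _) (not_lt.1 h1)]
  change (π.Rt : ℝ) ≤ Λ.Psi r x y.1 y.2 l
  rw [key, Gb4bX.av_Rs g hr]
  exact Gb4bX.Rt_le π

theorem Psi_near {r : ℝ} (hr : 0 < r) {k : ℕ} (x : Fin (k + 1) → G) (T : E (k + 1)) (t : ℝ) {l : L}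
    (h : Λ.Psi r x T t l ≠ π.Rs) : ∃ (p : ℤ) (i : Fin (k + 1)), Λ.f l (g ^ p * x i) < π.Rs := by
  by_contra hc
  push Not at hc
  apply h
  unfold Lab.Psi
  rw [Gb4bX.av_congr g (Pr r) (y' := fun _ => (π.Rs : ℝ)) x T t
    fun p i => le_antisymm (Λ.f_le l _) (hc p i), Gb4bX.av_Rs g hr]

theorem adm_Psi {r : ℝ} (hr : 0 < r) {k : ℕ} (x : Fin (k + 1) → G) {T : E (k + 1)} (hT : Ord T)
    (t : ℝ) : Λ.Adm (Λ.Psi r x T t) := by
  obtain ⟨s, c, h0, h1, -, h2⟩ := av_prob g hr x hT t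
  exact ⟨s, c, h0, h1, fun l => h2 _⟩

theorem sgn_dPsi {r : ℝ} (hr : 0 < r) {k : ℕ} (x : Fin (k + 1) → G) {T : E (k + 1)} (hT : Ord T)
    (t : ℝ) : Λ.Sgn (2 * CK) fun l => r * Λ.dPsi r x T t l := by
  obtain ⟨s, c, h1, h2⟩ := av_rep g (ker_Pr hr).deriv.1 (fun u => (Pr_bounds hr u).2) x hT t
  refine ⟨s, fun u => -r * c u, ?_, fun l => ?_⟩
  · have e : ∑ u ∈ s, |-r * c u| = r * ∑ u ∈ s, |c u| := by
      rw [Finset.mul_sum]
      refine Finset.sum_congr rfl fun u _ => ?_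
      rw [abs_mul, abs_neg, abs_of_pos hr]
    rw [e]
    calc r * ∑ u ∈ s, |c u| ≤ r * (2 * r * (CK / r ^ 2)) := by gcongr
      _ = 2 * CK := by field_simp
  · unfold Lab.dPsi
    beta_reduce
    rw [h2, mul_neg, Finset.mul_sum, ← Finset.sum_neg_distrib]
    refine Finset.sum_congr rfl fun u _ => ?_
    ring

theorem av_sh (P : ℝ → ℝ) {k : ℕ} (x : Fin (k + 1) → G) (T : E (k + 1)) (t : ℝ) (l : L) :
    av g P (Λ.f (Λ.sh l)) x T (t + 1) = av g P (Λ.f l) x T t := by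
  rw [av_shift]
  simp only [Λ.f_sh]

theorem Lab.Z_sh (ψ : L → ℝ) : Λ.Z (fun l => ψ (Λ.sh l)) = Λ.Z ψ := by
  unfold Lab.Z
  congr 1
  rw [← finsum_comp_equiv Λ.sh (f := fun l => Λ.pr l * π.gg (ψ l))]
  simp only [Λ.pr_sh]

theorem Lab.B_sh (ψ u : L → ℝ) (l : L) : Λ.B (fun l => ψ (Λ.sh l)) l = Λ.B ψ (Λ.sh l) ∧
    Λ.dB (fun l => ψ (Λ.sh l)) (fun l => u (Λ.sh l)) l = Λ.dB ψ u (Λ.sh l) := by
  have hB : ∀ l, Λ.B (fun l => ψ (Λ.sh l)) l = Λ.B ψ (Λ.sh l) := fun l => by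
    unfold Lab.B
    rw [Λ.Z_sh, Λ.pr_sh]
  refine ⟨hB l, ?_⟩
  unfold Lab.dB
  rw [Λ.Z_sh, Λ.pr_sh, hB, ← finsum_comp_equiv Λ.sh (f := fun l => Λ.B ψ l ^ 2 * u l)]
  simp only [hB]

theorem B_Psi_sh (r : ℝ) {k : ℕ} (x : Fin (k + 1) → G) (T : E (k + 1)) (t : ℝ) (l : L) :
    Λ.B (Λ.Psi r x T (t + 1)) (Λ.sh l) = Λ.B (Λ.Psi r x T t) l ∧
      Λ.dBt r x T (t + 1) (Λ.sh l) = Λ.dBt r x T t l := by
  have h1 : Λ.Psi r x T t = fun l => Λ.Psi r x T (t + 1) (Λ.sh l) :=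
    funext fun l => (av_sh Λ _ x T t l).symm
  have h2 : Λ.dPsi r x T t = fun l => Λ.dPsi r x T (t + 1) (Λ.sh l) :=
    funext fun l => by
      unfold Lab.dPsi
      rw [av_sh Λ _ x T t l]
  unfold Lab.dBt
  rw [h1, h2]
  exact ⟨(Λ.B_sh _ (Λ.dPsi r x T (t + 1)) l).1.symm, (Λ.B_sh _ _ l).2.symm⟩

theorem hasDerivAt_B (hπ : π.Ok) {r : ℝ} (hr : 0 < r) {k : ℕ} (x : Fin (k + 1) → G)
    (T : E (k + 1)) (l : L) (t : ℝ) :
    HasDerivAt (fun t => Λ.B (Λ.Psi r x T t) l) (Λ.dBt r x T t l) t := by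
  have hφ : ContDiff ℝ ∞ fun t : ℝ => ((T, t) : E (k + 1) × ℝ) := contDiff_const.prodMk contDiff_id
  have hLF : LF π fun t : ℝ => Λ.Psi r x T t := by
    have h := (lf_Psi Λ hr x).comp hφ
    exact h
  have hd : DifferentiableAt ℝ (fun t => Λ.B (Λ.Psi r x T t) l) t := by
    have h := hLF.contDiff_B Λ hπ l
    exact h.differentiable (by simp) t
  have h1 := hLF.fderiv_B Λ hπ l t 1
  have h2 : (fun l' => fderiv ℝ (fun t => Λ.Psi r x T t l') t 1) = Λ.dPsi r x T t := by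
    funext l'
    exact (av_hasDerivAt g (ker_Pr hr) (Λ.f l') x T t).deriv
  rw [h2] at h1
  have h3 := hd.hasDerivAt
  rw [← fderiv_apply_one_eq_deriv, h1] at h3
  exact h3

theorem Lab.dB_smul (ψ u : L → ℝ) (c : ℝ) (l : L) :
    Λ.dB ψ (fun l => c * u l) l = c * Λ.dB ψ u l := by
  unfold Lab.dB
  have e : ∑ᶠ l', Λ.B ψ l' ^ 2 * (c * u l') = c * ∑ᶠ l', Λ.B ψ l' ^ 2 * u l' := by
    rw [← smul_eq_mul c, smul_finsum]
    refine finsum_congr fun l' => ?_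
    rw [smul_eq_mul]
    ring
  rw [e]
  ring

theorem Lab.Step.shift {k : ℕ} {x : Fin (k + 1) → G} {w : E (k + 1)} (h : Λ.Step x w)
    (j : Fin (k + 1)) (l : L) (p : ℤ) :
    |Λ.f l (g ^ p * x j) - Λ.f l (g ^ p * prv g x j)| ≤ w j := by
  obtain ⟨l', hl'⟩ := Gb4bX.exists_lab Λ p l
  rw [hl', hl']
  exact (h j).2 l' 

theorem continuous_F_Psi (hπ : π.Ok) {r : ℝ} (hr : 0 < r) {k : ℕ} (x : Fin (k + 1) → G)
    (T : E (k + 1)) : Continuous fun t => Λ.F (Λ.Psi r x T t) := by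
  have hφ : ContDiff ℝ ∞ fun t : ℝ => ((T, t) : E (k + 1) × ℝ) := contDiff_const.prodMk contDiff_id
  have hLF : LF π fun t : ℝ => Λ.Psi r x T t := by
    have h := (lf_Psi Λ hr x).comp hφ
    exact h
  have h := hLF.contDiff_F Λ hπ
  exact h.continuous

end

end Vale.Agent.P184L
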