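import Vale.Agent.P184L.Gb4b
import Vale.Agent.P184L.Gb3
import Vale.Agent.Iso4.TameInt

/-! The form `aI` is invariant and its value on the rotation field controls the gap of the mean free energy. Hint: smoothness by `Vale.Agent.Iso4.contDiffAt_integral` (see the namespace in `TameInt.lean`), `LF.contDiff_sum`, `ContDiff.fderiv`. Evaluate on a vector first (`aI_apply`). `face`, `rot`: `av_face`, `av_rot`, chain rule with `faceA_aff`, `rotA_aff`. `transl`: `av_transl`, the integrand is `1`-periodic in `t` (`av_sh`, `B_Psi_sh`, `finsum_comp_equiv Λ.sh`), `Function.Periodic.intervalIntegral_add_eq`. `nn_aI`: `av_fderiv_one`, `deriv_Qr`, `av_sub`. `gap_I`: `F_taylor` with `|Psi r' - Psi r| ≤ 2 r' (2 CK γ / r) Rs` (`av_abs_le` for the kernel `deriv (Qr r r')`, `Qr_bounds`). -/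

namespace Vale.Agent.P184L

open Finset MeasureTheory ProbabilityTheory Classical Vale.Agent.P184
open scoped ContDiff

noncomputable section

universe u

variable {G : Type u} [Group G]

variable {π : Par} {g : G} {L : Type u} (Λ : Lab π g L)

namespace Gb5X

theorem chain {m n : ℕ} {f : E m → ℝ} {φ : E n → E m} (A : E n →L[ℝ] E m) (c : E m)
    (hφ : ∀ T, φ T = A T + c) (hf : Differentiable ℝ f) (T v : E n) :
    fderiv ℝ (fun S => f (φ S)) T v = fderiv ℝ f (φ T) (A v) := by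
  have h1 : HasFDerivAt φ A T := by
    have : φ = fun T => A T + c := funext hφ
    rw [this]
    exact A.hasFDerivAt.add_const c
  have h2 := ((hf (φ T)).hasFDerivAt.comp T h1).fderiv
  have h3 : (fun S => f (φ S)) = f ∘ φ := rfl
  rw [h3, h2]
  rfl

theorem cd_Xi {r r' : ℝ} (hr : 0 < r) (h : r ≤ r') {k : ℕ} (x : Fin (k + 1) → G) (l : L) :
    ContDiff ℝ ∞ fun p : E (k + 1) × ℝ => Λ.Xi r r' x p.1 p.2 l :=
  contDiff_av g (ker_Qr hr h) (Λ.f l) x

theorem diff_Xi {r r' : ℝ} (hr : 0 < r) (h : r ≤ r') {k : ℕ} (x : Fin (k + 1) → G) (t : ℝ)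
    (l : L) : Differentiable ℝ fun S : E (k + 1) => Λ.Xi r r' x S t l := by
  have h1 : ContDiff ℝ ∞ fun S : E (k + 1) => (S, t) := contDiff_id.prodMk contDiff_const
  exact ((cd_Xi Λ hr h x l).comp h1).differentiable (by simp)

theorem cd_D0 {k : ℕ} {f : E k × ℝ → ℝ} (hf : ContDiff ℝ ∞ f) :
    ContDiff ℝ ∞ fun p : E k × ℝ => fderiv ℝ (fun S => f (S, p.2)) p.1 := by
  have h1 : ContDiff ℝ ∞ fun q : (E k × ℝ) × E k => (q.2, q.1.2) :=
    contDiff_snd.prodMk (contDiff_snd.comp contDiff_fst)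
  have h2 : ContDiff ℝ ∞ (Function.uncurry fun (p : E k × ℝ) (S : E k) => f (S, p.2)) :=
    hf.comp h1
  exact ContDiff.fderiv (n := ∞) (m := ∞) h2 contDiff_fst (by simp)

theorem cont_sl {k : ℕ} {X : Type*} [NormedAddCommGroup X] [NormedSpace ℝ X] {f : E k × ℝ → X}
    (hf : ContDiff ℝ ∞ f) (T : E k) : Continuous fun t : ℝ => f (T, t) :=
  hf.continuous.comp (Continuous.prodMk_right T)

theorem cd_D {r r' : ℝ} (hr : 0 < r) (h : r ≤ r') {k : ℕ} (x : Fin (k + 1) → G) (l : L) :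
    ContDiff ℝ ∞ fun p : E (k + 1) × ℝ => fderiv ℝ (fun S => Λ.Xi r r' x S p.2 l) p.1 :=
  cd_D0 (cd_Xi Λ hr h x l)

/-- The integrand of `aI`. -/
def J (r r' : ℝ) {k : ℕ} (x : Fin (k + 1) → G) (p : E (k + 1) × ℝ) : E (k + 1) →L[ℝ] ℝ :=
  ∑ᶠ l, Λ.B (Λ.Psi r x p.1 p.2) l ^ 2 • fderiv ℝ (fun S => Λ.Xi r r' x S p.2 l) p.1

theorem aI_eq (r r' : ℝ) {k : ℕ} (x : Fin (k + 1) → G) (T : E (k + 1)) :
    Λ.aI r r' k x T = -∫ t in (0 : ℝ)..1, J Λ r r' x (T, t) := rfl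

theorem cd_J (hπ : π.Ok) {r r' : ℝ} (hr : 0 < r) (h : r ≤ r') {k : ℕ} (x : Fin (k + 1) → G) :
    ContDiff ℝ ∞ (J Λ r r' x) := by
  refine (lf_Psi Λ hr x).contDiff_sum (a := fun p l => Λ.B (Λ.Psi r x p.1 p.2) l ^ 2 •
    fderiv ℝ (fun S => Λ.Xi r r' x S p.2 l) p.1) (fun l => ?_) (fun p l hl => ?_)
  · exact (((lf_Psi Λ hr x).contDiff_B Λ hπ l).pow 2).smul (cd_D Λ hr h x l)
  · rw [(Lab.B_zero (Λ := Λ) hl (fun _ => 0)).1]
    simp

theorem J_apply {r : ℝ} (r' : ℝ) (hr : 0 < r) {k : ℕ} (x : Fin (k + 1) → G)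
    (T v : E (k + 1)) (t : ℝ) : J Λ r r' x (T, t) v =
      ∑ᶠ l, Λ.B (Λ.Psi r x T t) l ^ 2 * fderiv ℝ (fun S => Λ.Xi r r' x S t l) T v := by
  obtain ⟨s, hs⟩ := (lf_Psi Λ hr x).2 (T, t)
  have hs' := hs.self_of_nhds
  have hB : ∀ l, l ∉ s → Λ.B (Λ.Psi r x T t) l = 0 := fun l hl =>
    (Lab.B_zero (Λ := Λ) (hs' l hl) (fun _ => 0)).1
  unfold J
  rw [finsum_eq_sum_of_support_subset (s := s), finsum_eq_sum_of_support_subset (s := s)]
  · simp
  · intro l hl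
    by_contra hn
    exact hl (by simp [hB l hn])
  · intro l hl
    by_contra hn
    exact hl (by simp [hB l hn])

theorem J_per (r r' : ℝ) {k : ℕ} (x : Fin (k + 1) → G) (T : E (k + 1)) :
    Function.Periodic (fun t => J Λ r r' x (T, t)) 1 := by
  intro t
  unfold J
  beta_reduce
  rw [← finsum_comp_equiv Λ.sh]
  refine finsum_congr fun l => ?_
  have h1 : (fun S => Λ.Xi r r' x S (t + 1) (Λ.sh l)) = fun S => Λ.Xi r r' x S t l :=
    funext fun S => av_sh Λ _ x S t l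
  simp only [(B_Psi_sh Λ r x T t l).1, h1]

theorem J_transl (r r' : ℝ) {k : ℕ} (x : Fin (k + 1) → G) (T : E (k + 1)) (s t : ℝ) :
    J Λ r r' x (T + fun _ => s, t) = J Λ r r' x (T, t - s) := by
  unfold J
  refine finsum_congr fun l => ?_
  have h1 : Λ.Psi r x (T + fun _ => s) t = Λ.Psi r x T (t - s) :=
    funext fun l => av_transl g _ _ x T s t
  have h2 : (fun S => Λ.Xi r r' x S (t - s) l) =
      fun S => (fun S => Λ.Xi r r' x S t l) (S + fun _ => s) :=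
    funext fun S => (av_transl g _ _ x S s t).symm
  simp only [h1]
  rw [h2, fderiv_comp_add_right (f := fun S => Λ.Xi r r' x S t l)]

theorem av_dQ {r r' : ℝ} (hr : 0 < r) (h : r ≤ r') {k : ℕ} (x : Fin (k + 1) → G)
    (T : E (k + 1)) (t : ℝ) (l : L) :
    av g (deriv (Qr r r')) (Λ.f l) x T t = Λ.Psi r x T t l - Λ.Psi r' x T t l := by
  have hr' : 0 < r' := hr.trans_le h
  rw [deriv_Qr hr hr', av_sub g (ker_Pr hr) (ker_Pr hr')]
  rfl

theorem cont_gap (hπ : π.Ok) {r r' : ℝ} (hr : 0 < r) (h : r ≤ r') {k : ℕ}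
    (x : Fin (k + 1) → G) (T : E (k + 1)) : Continuous fun t : ℝ =>
      ∑ᶠ l, Λ.B (Λ.Psi r x T t) l ^ 2 * (Λ.Psi r' x T t l - Λ.Psi r x T t l) := by
  have hr' : 0 < r' := hr.trans_le h
  have h1 : ContDiff ℝ ∞ fun p : E (k + 1) × ℝ => ∑ᶠ l, Λ.B (Λ.Psi r x p.1 p.2) l ^ 2 *
      (Λ.Psi r' x p.1 p.2 l - Λ.Psi r x p.1 p.2 l) := by
    refine (lf_Psi Λ hr x).contDiff_sum (a := fun p l => Λ.B (Λ.Psi r x p.1 p.2) l ^ 2 *
      (Λ.Psi r' x p.1 p.2 l - Λ.Psi r x p.1 p.2 l)) (fun l => ?_) (fun p l hl => ?_)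
    · exact (((lf_Psi Λ hr x).contDiff_B Λ hπ l).pow 2).mul
        (((lf_Psi Λ hr' x).1 l).sub ((lf_Psi Λ hr x).1 l))
    · rw [(Lab.B_zero (Λ := Λ) hl (fun _ => 0)).1]
      simp
  exact cont_sl h1 T

end Gb5X

open Gb5X

theorem aI_apply (hπ : π.Ok) {r r' : ℝ} (hr : 0 < r) (h : r ≤ r') {k : ℕ} (x : Fin (k + 1) → G)
    (T v : E (k + 1)) : Λ.aI r r' k x T v = -∫ t in (0 : ℝ)..1,
      ∑ᶠ l, Λ.B (Λ.Psi r x T t) l ^ 2 * fderiv ℝ (fun S => Λ.Xi r r' x S t l) T v := by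
  have hc : Continuous fun t : ℝ => J Λ r r' x (T, t) :=
    cont_sl (cd_J Λ hπ hr h x) T
  rw [aI_eq, neg_apply,
    ContinuousLinearMap.intervalIntegral_apply (hc.intervalIntegrable 0 1)]
  simp only [J_apply Λ r' hr]

theorem aI_pre (hπ : π.Ok) {r r' : ℝ} (hr : 0 < r) (h : r ≤ r') : IsPre g (Λ.aI r r') := by
  have hr' : 0 < r' := hr.trans_le h
  refine ⟨fun k x => ?_, fun k x T s => ?_, fun k x T v => ?_, fun k x j T v => ?_⟩
  · refine contDiff_iff_contDiffAt.2 fun T => ?_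
    exact (Vale.Agent.Iso4.contDiffAt_integral (f := J Λ r r' x) zero_le_one
      fun t _ => (cd_J Λ hπ hr h x).contDiffAt).neg
  · rw [aI_eq, aI_eq]
    simp only [J_transl]
    rw [intervalIntegral.integral_comp_sub_right (fun t => J Λ r r' x (T, t)) s]
    have h1 := (J_per Λ r r' x T).intervalIntegral_add_eq (0 - s) 0
    rw [show (0 : ℝ) - s + 1 = 1 - s by ring, zero_add] at h1
    rw [h1]
  · obtain ⟨A, hA, hA'⟩ := rotA_aff k
    rw [aI_apply Λ hπ hr h, aI_apply Λ hπ hr h]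
    refine congrArg _ (intervalIntegral.integral_congr fun t _ => finsum_congr fun l => ?_)
    have h1 : Λ.Psi r (rotX g x) (rotA T) t = Λ.Psi r x T t :=
      funext fun l => av_rot g (ker_Pr hr) _ x T t
    have h2 : (fun S => Λ.Xi r r' x S t l) =
        fun S => (fun S => Λ.Xi r r' (rotX g x) S t l) (rotA S) :=
      funext fun S => (av_rot g (ker_Qr hr h) _ x S t).symm
    rw [h1, h2, chain A _ hA' (diff_Xi Λ hr h _ t l), hA]
  · obtain ⟨A, hA, hA'⟩ := faceA_aff j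
    rw [aI_apply Λ hπ hr h, aI_apply Λ hπ hr h]
    refine congrArg _ (intervalIntegral.integral_congr fun t _ => finsum_congr fun l => ?_)
    have h1 : Λ.Psi r x (faceA j T) t = Λ.Psi r (fun i => x (j.succAbove i)) T t :=
      funext fun l => av_face g _ _ x j T t
    have h2 : (fun S => Λ.Xi r r' (fun i => x (j.succAbove i)) S t l) =
        fun S => (fun S => Λ.Xi r r' x S t l) (faceA j S) :=
      funext fun S => (av_face g _ _ x j S t).symm
    rw [h1, h2, chain A _ hA' (diff_Xi Λ hr h _ t l), hA]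

theorem nn_aI (hπ : π.Ok) {r r' : ℝ} (hr : 0 < r) (h : r ≤ r') {k : ℕ} (x : Fin (k + 1) → G)
    (T : E (k + 1)) : nn (Λ.aI r r' k x) T = ∫ t in (0 : ℝ)..1,
      ∑ᶠ l, Λ.B (Λ.Psi r x T t) l ^ 2 * (Λ.Psi r' x T t l - Λ.Psi r x T t l) := by
  unfold nn
  rw [aI_apply Λ hπ hr h, ← intervalIntegral.integral_neg]
  refine intervalIntegral.integral_congr fun t _ => ?_
  rw [← finsum_neg_distrib]
  refine finsum_congr fun l => ?_
  have h1 : fderiv ℝ (fun S => Λ.Xi r r' x S t l) T (fun _ => 1) =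
      Λ.Psi r x T t l - Λ.Psi r' x T t l := by
    rw [← av_dQ Λ hr h]
    exact av_fderiv_one g (ker_Qr hr h) (Λ.f l) x T t
  rw [h1]
  ring

theorem gap_I (G : Type u) [Group G] : ∃ C : ℝ, 1 ≤ C ∧ ∀ (π : Par) (g : G) (L : Type u)
    (Λ : Lab π g L), π.Ok → ∀ r γ : ℝ, 0 < r → 0 ≤ γ → γ ≤ 1 → ∀ (k : ℕ) (x : Fin (k + 1) → G)
    (T : E (k + 1)), Ord T → Λ.A (r * (1 + γ)) x T - Λ.A r x T ≤
      nn (Λ.aI r (r * (1 + γ)) k x) T + C * π.b * (γ * π.Rs) ^ 2 := by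
  obtain ⟨C, hC1, hC⟩ := F_taylor G
  have hK := one_le_CK
  refine ⟨C * (8 * CK) ^ 2, one_le_mul_of_one_le_of_one_le hC1 (one_le_pow₀ (by linarith)), ?_⟩
  intro π g L Λ hπ r γ hr h0 h1 k x T hT
  have h : r ≤ r * (1 + γ) := by nlinarith
  have hr' : 0 < r * (1 + γ) := hr.trans_le h
  have hRs : (0 : ℝ) ≤ π.Rs := Nat.cast_nonneg _
  have ha : 0 ≤ 8 * CK * (γ * π.Rs) := by positivity
  have hb : ∀ t l, |Λ.Psi (r * (1 + γ)) x T t l - Λ.Psi r x T t l| ≤ 8 * CK * (γ * π.Rs) := by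
    intro t l
    rw [abs_sub_comm, ← av_dQ Λ hr h]
    have h2 := av_abs_le g (ker_Qr hr h).deriv.1 (fun u => (Qr_bounds hr h0 h1 u).2) x hT t
      (y := Λ.f l) (B := π.Rs) fun u => by
        rw [abs_of_nonneg (Λ.f_nonneg l u)]
        exact Λ.f_le l u
    refine h2.trans ?_
    have h3 : 2 * (r * (1 + γ)) * (2 * CK * γ / r) * π.Rs = 4 * (1 + γ) * (CK * (γ * π.Rs)) := by
      field_simp
      ring
    have h4 : 0 ≤ CK * (γ * π.Rs) := by positivity
    rw [h3]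
    nlinarith
  have i1 := (continuous_F_Psi Λ hπ hr' x T).intervalIntegrable (μ := volume) 0 1
  have i2 := (continuous_F_Psi Λ hπ hr x T).intervalIntegrable (μ := volume) 0 1
  have i3 := (cont_gap Λ hπ hr h x T).intervalIntegrable (μ := volume) 0 1
  have i4 : IntervalIntegrable (fun _ : ℝ => C * π.b * (8 * CK * (γ * π.Rs)) ^ 2) volume 0 1 :=
    intervalIntegrable_const
  have h5 := intervalIntegral.integral_mono_on zero_le_one (i1.sub i2) (i3.add i4) fun t _ =>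
    hC π g L Λ hπ _ _ (adm_Psi Λ hr x hT t) (adm_Psi Λ hr' x hT t) _ ha (hb t)
  rw [intervalIntegral.integral_sub i1 i2, intervalIntegral.integral_add i3 i4,
    intervalIntegral.integral_const] at h5
  rw [nn_aI Λ hπ hr h]
  unfold Lab.A
  refine h5.trans (le_of_eq ?_)
  simp only [sub_zero, smul_eq_mul]
  ring

end

end Vale.Agent.P184L
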