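import Vale.Agent.P184L.Gb5
import Vale.Agent.P184L.EstAlg

/-! Size of the form `aI`. Hint: with `aI_apply` and `fderiv_integral`, `curv i j = -∫ ∑ l, (2 B l * dB (∂_i Psi) l * ∂_j Xi l + B l ^ 2 * ∂_i ∂_j Xi l)`; the second part is symmetric, so it pairs to zero with an antisymmetric `A`. For the first part, for fixed `t`, `l`: `|∑ i j, a i * b j * A i j| ≤ c * wn w a * wn w b` with `a i = dB (∂_i Psi) l`, `b j = B l * ∂_j Xi l`; Cauchy-Schwarz in `l`; `∑ l, (a i / w i) ^ 2 ≤ C (b per (Pr r)' (T i - t)) ^ 2`, `∑ l, (b j / w j) ^ 2 ≤ C per (Qr r r')' (T j - t) ^ 2` (`av_fderiv_le`, `Step.shift`, `gibbs_norm`); then `2 X Y ≤ s X ^ 2 + Y ^ 2 / s` with `s = r γ` (the case `γ = 0` is excluded) and `int_per_le`: `∫ X ^ 2 ≤ C (k + 1) / r`, `∫ Y ^ 2 ≤ C (k + 1) γ ^ 2 r`. The list of rank one terms is empty. -/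

namespace Vale.Agent.P184L

open Finset MeasureTheory ProbabilityTheory Classical Vale.Agent.P184
open scoped ContDiff

noncomputable section

universe u

variable {G : Type u} [Group G]

namespace Gb6X

section Calc

variable {Y : Type} [NormedAddCommGroup Y] [NormedSpace ℝ Y]

theorem slice {F : Y × ℝ → ℝ} (hF : ContDiff ℝ ∞ F) (T : Y) (t : ℝ) (v : Y) :
    fderiv ℝ F (T, t) (v, 0) = fderiv ℝ (fun S => F (S, t)) T v := by
  have h : HasFDerivAt (fun S => F (S, t))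
      ((fderiv ℝ F (T, t)).comp (ContinuousLinearMap.inl ℝ Y ℝ)) T :=
    HasFDerivAt.comp (f := fun S => (S, t)) T (hF.differentiable (by simp) (T, t)).hasFDerivAt
      (hasFDerivAt_prodMk_left T t)
  rw [h.fderiv]
  rfl

theorem cd {F : Y → ℝ} (hF : ContDiff ℝ ∞ F) (v : Y) : ContDiff ℝ ∞ fun p => fderiv ℝ F p v :=
  contDiff_iff_contDiffAt.2 fun _ => Iso4.ContDiffAt_dd hF.contDiffAt v

theorem symm {F : Y → ℝ} (hF : ContDiff ℝ ∞ F) (q u v : Y) :
    fderiv ℝ (fun p => fderiv ℝ F p u) q v = fderiv ℝ (fun p => fderiv ℝ F p v) q u := by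
  have h1 : DifferentiableAt ℝ (fderiv ℝ F) q :=
    (hF.fderiv_right (m := ∞) le_rfl).differentiable (by simp) q
  have h2 : ∀ u v, fderiv ℝ (fun p => fderiv ℝ F p u) q v = fderiv ℝ (fderiv ℝ F) q v u :=
    fun u v => by
      rw [fderiv_clm_apply h1 (differentiableAt_const u)]
      simp
  rw [h2, h2]
  exact hF.contDiffAt.isSymmSndFDerivAt (by simpa using Iso4.tame_le 2) v u

theorem prod {B D : Y → ℝ} (hB : ContDiff ℝ ∞ B) (hD : ContDiff ℝ ∞ D) (q v : Y) :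
    fderiv ℝ (fun p => B p ^ 2 * D p) q v =
      2 * (fderiv ℝ B q v * (B q * D q)) + B q ^ 2 * fderiv ℝ D q v := by
  have h := ((hB.differentiable (by simp) q).hasFDerivAt.pow 2).mul
    (hD.differentiable (by simp) q).hasFDerivAt
  have e : fderiv ℝ (fun p => B p ^ 2 * D p) q = _ := h.fderiv
  rw [e]
  simp
  ring

end Calc

theorem wn_sq {n : ℕ} (w u : E n) : wn w u ^ 2 = ∑ j, (u j / w j) ^ 2 :=
  Real.sq_sqrt (sum_nonneg fun _ _ => sq_nonneg _)

theorem pair {n : ℕ} {L : Type*} (s : Finset L) (w : E n) (a b : L → E n) (β : L → ℝ)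
    (H : L → Matrix (Fin n) (Fin n) ℝ) (hH : ∀ l i j, H l j i = H l i j)
    {A : Matrix (Fin n) (Fin n) ℝ} {c σ : ℝ} (hA : ∀ i j, A j i = -A i j) (hc : 0 ≤ c)
    (hσ : 0 < σ)
    (h : ∀ u v : E n, |∑ i, ∑ j, u i * v j * A i j| ≤ c * wn w u * wn w v) :
    |∑ i, ∑ j, (∑ l ∈ s, (2 * (a l i * b l j) + β l * H l i j)) * A i j| ≤
      c * (σ * ∑ i, ∑ l ∈ s, (a l i / w i) ^ 2 + (∑ j, ∑ l ∈ s, (b l j / w j) ^ 2) / σ) := by
  have h0 : ∀ l, ∑ i, ∑ j, H l i j * A i j = 0 := fun l => by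
    have k := Nuc.of_symm w (hH l) A c hA hc h
    rwa [mul_zero, abs_nonpos_iff] at k
  have e : ∑ i, ∑ j, (∑ l ∈ s, (2 * (a l i * b l j) + β l * H l i j)) * A i j =
      ∑ l ∈ s, 2 * ∑ i, ∑ j, a l i * b l j * A i j := by
    simp only [sum_mul]
    rw [sum_congr rfl fun i _ => sum_comm, sum_comm]
    refine sum_congr rfl fun l _ => ?_
    rw [← add_zero (2 * _), ← mul_zero (β l), ← h0 l]
    simp only [mul_sum, ← sum_add_distrib]
    exact sum_congr rfl fun i _ => sum_congr rfl fun j _ => by ring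
  rw [e, sum_comm, sum_comm (f := fun j l => (b l j / w j) ^ 2), mul_sum, sum_div,
    ← sum_add_distrib, mul_sum]
  refine (abs_sum_le_sum_abs _ _).trans (sum_le_sum fun l _ => ?_)
  rw [abs_mul, abs_two, ← wn_sq, ← wn_sq]
  have k1 : 2 * (wn w (a l) * wn w (b l)) ≤ σ * wn w (a l) ^ 2 + wn w (b l) ^ 2 / σ := by
    rw [← sub_nonneg]
    have : σ * wn w (a l) ^ 2 + wn w (b l) ^ 2 / σ - 2 * (wn w (a l) * wn w (b l)) =
        (σ * wn w (a l) - wn w (b l)) ^ 2 / σ := by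
      field_simp
      ring
    rw [this]
    positivity
  nlinarith [h (a l) (b l), mul_le_mul_of_nonneg_left k1 hc]

variable {π : Par} {g : G} {L : Type u} (Λ : Lab π g L)

/-- The integrand of the form. -/
def ff (r r' : ℝ) {k : ℕ} (x : Fin (k + 1) → G) (j : Fin (k + 1)) (p : E (k + 1) × ℝ) : ℝ :=
  ∑ᶠ l, Λ.B (Λ.Psi r x p.1 p.2) l ^ 2 *
    fderiv ℝ (fun q : E (k + 1) × ℝ => Λ.Xi r r' x q.1 q.2 l) p (ev j, 0)

variable {r r' : ℝ} {k : ℕ}

theorem cd_Xi (hr : 0 < r) (h : r ≤ r') (x : Fin (k + 1) → G) (l : L) :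
    ContDiff ℝ ∞ fun q : E (k + 1) × ℝ => Λ.Xi r r' x q.1 q.2 l :=
  contDiff_av g (ker_Qr hr h) _ x

theorem cd_term (hπ : π.Ok) (hr : 0 < r) (h : r ≤ r') (x : Fin (k + 1) → G) (j : Fin (k + 1))
    (l : L) : ContDiff ℝ ∞ fun p : E (k + 1) × ℝ => Λ.B (Λ.Psi r x p.1 p.2) l ^ 2 *
      fderiv ℝ (fun q : E (k + 1) × ℝ => Λ.Xi r r' x q.1 q.2 l) p (ev j, 0) :=
  (((lf_Psi Λ hr x).contDiff_B Λ hπ l).pow 2).mul (cd (cd_Xi Λ hr h x l) _)

theorem cd_ff (hπ : π.Ok) (hr : 0 < r) (h : r ≤ r') (x : Fin (k + 1) → G) (j : Fin (k + 1)) :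
    ContDiff ℝ ∞ (ff Λ r r' x j) :=
  (lf_Psi Λ hr x).contDiff_sum (cd_term Λ hπ hr h x j) fun y l hl => by
    rw [(Lab.B_zero hl 0).1]
    simp

theorem aI_ev (hπ : π.Ok) (hr : 0 < r) (h : r ≤ r') (x : Fin (k + 1) → G) (S : E (k + 1))
    (j : Fin (k + 1)) : Λ.aI r r' k x S (ev j) = -∫ t in (0 : ℝ)..1, ff Λ r r' x j (S, t) := by
  rw [aI_apply Λ hπ hr h]
  simp only [ff, slice (cd_Xi Λ hr h x _)]

theorem curv_eq (hπ : π.Ok) (hr : 0 < r) (h : r ≤ r') (x : Fin (k + 1) → G) (T : E (k + 1))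
    (a : ℝ) (i j : Fin (k + 1)) : curv (fun S => a • Λ.aI r r' k x S) T i j =
      -a * ∫ t in (0 : ℝ)..1, fderiv ℝ (ff Λ r r' x j) (T, t) (ev i, 0) := by
  have h1 : ∀ t ∈ Set.Icc (0 : ℝ) 1, ContDiffAt ℝ ∞ (ff Λ r r' x j) (T, t) := fun t _ =>
    (cd_ff Λ hπ hr h x j).contDiffAt
  have e : (fun S => (a • Λ.aI r r' k x S) (ev j)) =
      fun S => -a * ∫ t in (0 : ℝ)..1, ff Λ r r' x j (S, t) := by
    funext S
    rw [_root_.smul_apply, aI_ev Λ hπ hr h, smul_eq_mul, mul_neg, neg_mul]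
  rw [curv, e, fderiv_const_mul ((Iso4.contDiffAt_integral zero_le_one h1).differentiableAt
    (by simp)), _root_.smul_apply, Iso4.fderiv_integral zero_le_one h1, smul_eq_mul]

theorem Xi_le (hr : 0 < r) (h : r ≤ r') {x : Fin (k + 1) → G} {w : E (k + 1)} (hw : Λ.Step x w)
    (T : E (k + 1)) (t : ℝ) (j : Fin (k + 1)) (l : L) :
    |fderiv ℝ (fun q : E (k + 1) × ℝ => Λ.Xi r r' x q.1 q.2 l) (T, t) (ev j, 0)| ≤
      w j * per (deriv (Qr r r')) (T j - t) := by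
  rw [slice (cd_Xi Λ hr h x l)]
  exact av_fderiv_le g (ker_Qr hr h) _ x T t j (hw.shift Λ j l)

theorem Psi_le (hr : 0 < r) {x : Fin (k + 1) → G} {w : E (k + 1)} (hw : Λ.Step x w)
    (T : E (k + 1)) (t : ℝ) (j : Fin (k + 1)) (l : L) :
    |fderiv ℝ (fun q : E (k + 1) × ℝ => Λ.Psi r x q.1 q.2 l) (T, t) (ev j, 0)| ≤
      w j * per (deriv (Pr r)) (T j - t) := by
  rw [slice ((lf_Psi Λ hr x).1 l)]
  exact av_fderiv_le g (ker_Pr hr) _ x T t j (hw.shift Λ j l)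

theorem point (hπ : π.Ok) (hr : 0 < r) (h : r ≤ r') {x : Fin (k + 1) → G} {w T : E (k + 1)}
    (hw : Λ.Step x w) (hT : Ord T) (t : ℝ) {C : ℝ}
    (hC : ∑ᶠ l, Λ.B (Λ.Psi r x T t) l ^ 2 ≤ C)
    (hC' : ∀ (u : L → ℝ) (a : ℝ), 0 ≤ a → (∀ l, |u l| ≤ a) →
      ∑ᶠ l, Λ.dB (Λ.Psi r x T t) u l ^ 2 ≤ C * (π.b * a) ^ 2)
    {A : Matrix (Fin (k + 1)) (Fin (k + 1)) ℝ} {c σ : ℝ} (hA : ∀ i j, A j i = -A i j)
    (hc : 0 ≤ c) (hσ : 0 < σ)
    (hb : ∀ u v : E (k + 1), |∑ i, ∑ j, u i * v j * A i j| ≤ c * wn w u * wn w v) :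
    |∑ i, ∑ j, fderiv ℝ (ff Λ r r' x j) (T, t) (ev i, 0) * A i j| ≤
      c * (σ * (C * π.b ^ 2 * ∑ i, per (deriv (Pr r)) (T i - t) ^ 2) +
        C * (∑ j, per (deriv (Qr r r')) (T j - t) ^ 2) / σ) := by
  have hf := (adm_Psi Λ hr x hT t).fin
  have hs : ∀ F : L → ℝ, (∀ l, (π.Rt : ℝ) ≤ Λ.Psi r x T t l → F l = 0) →
      ∑ᶠ l, F l = ∑ l ∈ hf.toFinset, F l := fun F hF => by
    refine finsum_eq_sum_of_support_subset _ fun l hl => ?_
    rw [Set.Finite.coe_toFinset]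
    by_contra hn
    refine hl (hF l (le_trans ?_ (not_lt.1 hn)))
    rw [π.Rs_eq]
    have : (0 : ℝ) ≤ π.Rt := Nat.cast_nonneg _
    linarith
  have hw0 : ∀ j, 0 < w j := fun j => lt_of_lt_of_le one_pos (hw j).1
  obtain ⟨u, hu⟩ : ∃ u : Fin (k + 1) → L → ℝ, u = fun i l =>
    fderiv ℝ (fun q : E (k + 1) × ℝ => Λ.Psi r x q.1 q.2 l) (T, t) (ev i, 0) := ⟨_, rfl⟩
  obtain ⟨D, hD⟩ : ∃ D : L → Fin (k + 1) → E (k + 1) × ℝ → ℝ, D = fun l j p =>
    fderiv ℝ (fun q : E (k + 1) × ℝ => Λ.Xi r r' x q.1 q.2 l) p (ev j, 0) := ⟨_, rfl⟩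
  have e : ∀ i j, fderiv ℝ (ff Λ r r' x j) (T, t) (ev i, 0) = ∑ l ∈ hf.toFinset,
      (2 * (Λ.dB (Λ.Psi r x T t) (u i) l * (Λ.B (Λ.Psi r x T t) l * D l j (T, t))) +
        Λ.B (Λ.Psi r x T t) l ^ 2 * fderiv ℝ (D l j) (T, t) (ev i, 0)) := fun i j => by
    rw [← hs _ fun l hl => by rw [(Lab.B_zero hl (u i)).1]; simp]
    refine ((lf_Psi Λ hr x).fderiv_sum (cd_term Λ hπ hr h x j) (fun y l hl => by
      rw [(Lab.B_zero hl 0).1]
      simp) _ _).trans (finsum_congr fun l => ?_)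
    rw [prod ((lf_Psi Λ hr x).contDiff_B Λ hπ l) (cd (cd_Xi Λ hr h x l) _),
      (lf_Psi Λ hr x).fderiv_B Λ hπ, hu, hD]
  simp only [e]
  refine (pair hf.toFinset w (fun l i => Λ.dB (Λ.Psi r x T t) (u i) l)
    (fun l j => Λ.B (Λ.Psi r x T t) l * D l j (T, t)) (fun l => Λ.B (Λ.Psi r x T t) l ^ 2)
    (fun l i j => fderiv ℝ (D l j) (T, t) (ev i, 0)) (fun l i j => by
      rw [hD]
      exact symm (cd_Xi Λ hr h x l) _ _ _) hA hc hσ hb).trans ?_
  refine mul_le_mul_of_nonneg_left (add_le_add (mul_le_mul_of_nonneg_left ?_ hσ.le)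
    (div_le_div_of_nonneg_right ?_ hσ.le)) hc
  · rw [mul_sum]
    refine sum_le_sum fun i _ => ?_
    have k1 := hC' (u i) _ (mul_nonneg (hw0 i).le (per_nonneg _ _)) fun l => by
      rw [hu]
      exact Psi_le Λ hr hw T t i l
    rw [hs _ fun l hl => by rw [(Lab.B_zero hl (u i)).2]; simp] at k1
    simp only [div_pow, ← sum_div]
    rw [div_le_iff₀ (pow_pos (hw0 i) 2)]
    exact k1.trans_eq (by ring)
  · rw [mul_sum]
    refine sum_le_sum fun j _ => ?_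
    rw [hs _ fun l hl => by rw [(Lab.B_zero hl 0).1]; simp] at hC
    refine le_trans ?_ (mul_le_mul_of_nonneg_right hC (sq_nonneg _))
    rw [sum_mul]
    refine sum_le_sum fun l _ => ?_
    rw [mul_div_assoc, mul_pow]
    refine mul_le_mul_of_nonneg_left ?_ (sq_nonneg _)
    rw [← sq_abs, abs_div, abs_of_pos (hw0 j)]
    refine pow_le_pow_left₀ (by positivity [hw0 j]) ?_ 2
    rw [div_le_iff₀' (hw0 j), hD]
    exact Xi_le Λ hr h hw T t j l

theorem ker_facts {P : ℝ → ℝ} {w B : ℝ} (hP : Ker P w) (hB : ∀ u, |deriv P u| ≤ B) :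
    Continuous (per (deriv P)) ∧ ∀ a, ∫ t in (0 : ℝ)..1, per (deriv P) (a - t) ≤ 2 * w * B ∧
      ∫ t in (0 : ℝ)..1, per (deriv P) (a - t) ^ 2 ≤ (2 * w + 1) * B * (2 * w * B) :=
  ⟨continuous_per hP.deriv.1.1.continuous fun u hu => hP.deriv.2 u hu.le,
    int_per_le hP.deriv.1.1.continuous hP.2.1.le (fun u hu => hP.deriv.2 u hu.le) hB⟩

theorem int_sum {n : ℕ} {q : ℝ → ℝ} (hq : Continuous q) (T : E n) {B : ℝ}
    (h : ∀ a, ∫ t in (0 : ℝ)..1, q (a - t) ^ 2 ≤ B) :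
    ∫ t in (0 : ℝ)..1, ∑ i, q (T i - t) ^ 2 ≤ n * B := by
  rw [intervalIntegral.integral_finsetSum fun i _ => Continuous.intervalIntegrable (by fun_prop) _ _]
  refine (sum_le_sum fun i _ => h (T i)).trans_eq ?_
  simp

end Gb6X

open Gb6X in
theorem est_aI (G : Type u) [Group G] : ∃ C : ℝ, 1 ≤ C ∧ ∀ (π : Par) (g : G) (L : Type u)
    (Λ : Lab π g L), π.Ok → ∀ r γ : ℝ, 0 < r → r ≤ 1 → 0 < γ → γ ≤ 1 → ∀ (k : ℕ)
    (x : Fin (k + 1) → G) (w T : E (k + 1)), Λ.Step x w → Ord T → ∀ z a : ℝ, 0 ≤ a →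
    Est w z (fun S => a • Λ.aI r (r * (1 + γ)) k x S) T (a * (C * π.b * γ * (k + 1))) 0 := by
  obtain ⟨C, hC, hG⟩ := gibbs_norm G
  have hK := one_le_CK
  have hK2 : 1 ≤ CK ^ 2 := one_le_pow₀ hK
  refine ⟨26 * C * CK ^ 2, by nlinarith, fun π g L Λ hπ r γ hr hr1 hγ hγ1 k x w T hw hT z a ha => ?_⟩
  have hb : 8 ≤ π.b := hπ.1
  have hb0 : 0 < π.b := by linarith
  have hC0 : 0 ≤ C := by linarith
  have hK0 : 0 < CK := by linarith
  have h : r ≤ r * (1 + γ) := by nlinarith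
  have h2 : r * (1 + γ) ≤ 2 * r := by nlinarith
  have hw0 : ∀ j, 0 < w j := fun j => lt_of_lt_of_le one_pos (hw j).1
  obtain ⟨cP, iP⟩ := ker_facts (ker_Pr hr) fun u => (Pr_bounds hr u).1
  obtain ⟨cQ, iQ⟩ := ker_facts (ker_Qr hr h) fun u => (Qr_bounds hr hγ.le hγ1 u).1
  refine ⟨by positivity, [], ⟨curv (fun S => a • Λ.aI r (r * (1 + γ)) k x S) T, [],
    fun A c hA hc hAb => ?_, by simp, List.Forall₂.nil⟩, ?_, by simp⟩
  · have hσ : 0 < r * γ / π.b := by positivity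
    have c1 : ∀ i j, Continuous fun t : ℝ =>
        fderiv ℝ (ff Λ r (r * (1 + γ)) x j) (T, t) (ev i, 0) * A i j := fun i j =>
      ((cd (cd_ff Λ hπ hr h x j) _).continuous.comp (Continuous.prodMk_right T)).mul
        continuous_const
    have e : ∑ i, ∑ j, curv (fun S => a • Λ.aI r (r * (1 + γ)) k x S) T i j * A i j =
        -a * ∫ t in (0 : ℝ)..1, ∑ i, ∑ j,
          fderiv ℝ (ff Λ r (r * (1 + γ)) x j) (T, t) (ev i, 0) * A i j := by
      rw [intervalIntegral.integral_finsetSum fun i _ =>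
        (continuous_finsetSum _ fun j _ => c1 i j).intervalIntegrable _ _, mul_sum]
      refine sum_congr rfl fun i _ => ?_
      rw [intervalIntegral.integral_finsetSum fun j _ => (c1 i j).intervalIntegrable _ _, mul_sum]
      refine sum_congr rfl fun j _ => ?_
      rw [curv_eq Λ hπ hr h, intervalIntegral.integral_mul_const, mul_assoc]
    have c2 : Continuous fun t : ℝ => ∑ i, per (deriv (Pr r)) (T i - t) ^ 2 := by fun_prop
    have c3 : Continuous fun t : ℝ => ∑ i, per (deriv (Qr r (r * (1 + γ)))) (T i - t) ^ 2 := by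
      fun_prop
    have k1 := intervalIntegral.norm_integral_le_of_norm_le (μ := volume) zero_le_one
      (f := fun t => ∑ i, ∑ j, fderiv ℝ (ff Λ r (r * (1 + γ)) x j) (T, t) (ev i, 0) * A i j)
      (g := fun t => c * (r * γ / π.b * (C * π.b ^ 2 * ∑ i, per (deriv (Pr r)) (T i - t) ^ 2) +
        C * (∑ j, per (deriv (Qr r (r * (1 + γ)))) (T j - t) ^ 2) / (r * γ / π.b)))
      (Filter.Eventually.of_forall fun t _ => point Λ hπ hr h hw hT t
        (hG π g L Λ hπ _ (adm_Psi Λ hr x hT t)).1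
        (fun u a ha hu => ((hG π g L Λ hπ _ (adm_Psi Λ hr x hT t)).2.1 u a ha hu).2) hA hc hσ hAb)
      (Continuous.intervalIntegrable (by fun_prop) _ _)
    rw [intervalIntegral.integral_const_mul, intervalIntegral.integral_add
      (Continuous.intervalIntegrable (by fun_prop) _ _)
      (Continuous.intervalIntegrable (by fun_prop) _ _), intervalIntegral.integral_const_mul,
      intervalIntegral.integral_const_mul, intervalIntegral.integral_div,
      intervalIntegral.integral_const_mul, Real.norm_eq_abs] at k1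
    have k2 := int_sum cP T (B := 6 * CK ^ 2 / r) fun a => (iP a).2.trans (by
      have e1 : (2 * r + 1) * (CK / r) * (2 * r * (CK / r)) = (2 * r + 1) * (2 * CK ^ 2 / r) := by
        field_simp
      have e2 : 6 * CK ^ 2 / r = 3 * (2 * CK ^ 2 / r) := by ring
      rw [e1, e2]
      exact mul_le_mul_of_nonneg_right (by linarith) (by positivity))
    have k3 := int_sum cQ T (B := 20 * r * CK ^ 2 * γ ^ 2) fun a => (iQ a).2.trans (by
      calc _ ≤ 5 * (CK * γ) * (2 * (2 * r) * (CK * γ)) := by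
            gcongr
            linarith
        _ = _ := by ring)
    rw [e, abs_mul, abs_neg, abs_of_nonneg ha, mul_left_comm]
    refine mul_le_mul_of_nonneg_left (k1.trans (mul_le_mul_of_nonneg_left ?_ hc)) ha
    calc _ ≤ r * γ / π.b * (C * π.b ^ 2 * ((k + 1 : ℕ) * (6 * CK ^ 2 / r))) +
          C * ((k + 1 : ℕ) * (20 * r * CK ^ 2 * γ ^ 2)) / (r * γ / π.b) := by gcongr
      _ = _ := by
          push_cast
          field_simp
          ring
  · have k1 : ∀ j, |co (a • Λ.aI r (r * (1 + γ)) k x T) j| ≤ a * (4 * C * CK * γ) * w j := by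
      intro j
      rw [co, _root_.smul_apply, aI_ev Λ hπ hr h, smul_eq_mul, abs_mul, abs_neg,
        abs_of_nonneg ha, mul_assoc]
      refine mul_le_mul_of_nonneg_left ?_ ha
      have k2 := intervalIntegral.norm_integral_le_of_norm_le (μ := volume) zero_le_one
        (f := fun t => ff Λ r (r * (1 + γ)) x j (T, t))
        (g := fun t => C * (w j * per (deriv (Qr r (r * (1 + γ)))) (T j - t)))
        (Filter.Eventually.of_forall fun t _ => ((hG π g L Λ hπ _ (adm_Psi Λ hr x hT t)).2.1 _ _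
          (mul_nonneg (hw0 j).le (per_nonneg _ _)) (Xi_le Λ hr h hw T t j)).1)
        (Continuous.intervalIntegrable (by fun_prop) _ _)
      rw [intervalIntegral.integral_const_mul, intervalIntegral.integral_const_mul,
        Real.norm_eq_abs] at k2
      have k3 := hw0 j
      calc _ ≤ _ := k2
        _ ≤ C * (w j * (2 * (r * (1 + γ)) * (CK * γ))) := by
            gcongr
            exact (iQ _).1
        _ ≤ C * (w j * (2 * 2 * (CK * γ))) := by
            gcongr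
            linarith
        _ = _ := by ring
    refine (wn_le_of_abs hw0 (by positivity) k1).trans ?_
    rw [List.sum_nil, add_zero, mul_assoc]
    refine mul_le_mul_of_nonneg_left ?_ ha
    have k4 : √((k + 1 : ℕ) : ℝ) ≤ k + 1 := by
      have : (0 : ℝ) ≤ k := Nat.cast_nonneg k
      rw [Real.sqrt_le_left (by positivity)]
      push_cast
      nlinarith
    have k5 : 4 * CK ≤ 26 * CK ^ 2 * π.b := by nlinarith
    calc _ ≤ 4 * C * CK * γ * (k + 1) := by gcongr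
      _ = C * γ * (k + 1) * (4 * CK) := by ring
      _ ≤ C * γ * (k + 1) * (26 * CK ^ 2 * π.b) := by gcongr
      _ = _ := by ring

end

end Vale.Agent.P184L
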