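import Vale.Agent.P184L.Gb4b
import Vale.Agent.P184L.EstAlg
import Vale.Agent.Iso4.TameInt

/-! The Fourier forms are invariant. Hint: `φ T t = sk η (B (Psi r x T t))` is smooth in `(T, t)`, `φ T (t + 1) = exp (i ϑ) φ T t` (`B_Psi_sh`, `finsum_comp_equiv Λ.sh`), so for `ξ = 2 π n + ϑ` the integrand of `hat` is `1`-periodic and `hat (T + s) = exp (-i ξ s) hat T`. Hence `fderiv hat (T + s) = exp (-i ξ s) • fderiv hat T`, the form `re d im - im d re = im (conj h * dh)` is unchanged, and differentiating in `s` gives `fderiv hat T 1 = -i ξ hat T`. -/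

namespace Vale.Agent.P184L

open Finset MeasureTheory ProbabilityTheory Classical Vale.Agent.P184
open scoped ContDiff

noncomputable section

universe u

variable {G : Type u} [Group G]

variable {π : Par} {g : G} {L : Type u} (Λ : Lab π g L)

namespace Gb7X

/-- The form attached to a complex function. -/
def fm {n : ℕ} (ξ : ℝ) (h : E n → ℂ) : Form n := fun T =>
  (-ξ) • ((h T).re • fderiv ℝ (fun S => (h S).im) T - (h T).im • fderiv ℝ (fun S => (h S).re) T)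

theorem aF_eq (r : ℝ) (η : L → ℂ) (ξ : ℝ) {k : ℕ} (x : Fin (k + 1) → G) :
    Λ.aF r η ξ k x = fm ξ (Λ.hat r η ξ x) := rfl

theorem fm_apply {n : ℕ} (ξ : ℝ) {h : E n → ℂ} {T : E n} (hd : DifferentiableAt ℝ h T) (v : E n) :
    fm ξ h T v = -ξ * ((h T).re * (fderiv ℝ h T v).im - (h T).im * (fderiv ℝ h T v).re) := by
  have h1 : fderiv ℝ (fun S => (h S).im) T = Complex.imCLM.comp (fderiv ℝ h T) :=
    (Complex.imCLM.hasFDerivAt.comp T hd.hasFDerivAt).fderiv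
  have h2 : fderiv ℝ (fun S => (h S).re) T = Complex.reCLM.comp (fderiv ℝ h T) :=
    (Complex.reCLM.hasFDerivAt.comp T hd.hasFDerivAt).fderiv
  unfold fm
  rw [h1, h2]
  simp

theorem contDiff_fm {n : ℕ} (ξ : ℝ) {h : E n → ℂ} (hh : ContDiff ℝ ∞ h) :
    ContDiff ℝ ∞ (fm ξ h) := by
  have h1 : ContDiff ℝ ∞ fun S => (h S).im := Complex.imCLM.contDiff.comp hh
  have h2 : ContDiff ℝ ∞ fun S => (h S).re := Complex.reCLM.contDiff.comp hh
  have h3 : ContDiff ℝ ∞ (fderiv ℝ fun S => (h S).im) := h1.fderiv_right (m := ∞) (by simp)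
  have h4 : ContDiff ℝ ∞ (fderiv ℝ fun S => (h S).re) := h2.fderiv_right (m := ∞) (by simp)
  exact ((h2.smul h3).sub (h1.smul h4)).const_smul (-ξ)

theorem fm_pull {n m : ℕ} (ξ : ℝ) {h : E n → ℂ} {h' : E m → ℂ} (hh : ContDiff ℝ ∞ h)
    (hh' : ContDiff ℝ ∞ h') (A : E n →L[ℝ] E m) (c : E m) {e : ℂ} (he : ‖e‖ = 1)
    (hA : ∀ T, h' (A T + c) = e * h T) (T v : E n) : fm ξ h' (A T + c) (A v) = fm ξ h T v := by
  have d1 : DifferentiableAt ℝ h T := hh.differentiable (by simp) _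
  have d2 : DifferentiableAt ℝ h' (A T + c) := hh'.differentiable (by simp) _
  have h1 : HasFDerivAt (fun T => h' (A T + c)) ((fderiv ℝ h' (A T + c)).comp A) T :=
    d2.hasFDerivAt.comp T (A.hasFDerivAt.add_const c)
  have h2 : HasFDerivAt (fun T => h' (A T + c)) (e • fderiv ℝ h T) T := by
    rw [funext hA]
    exact d1.hasFDerivAt.const_mul e
  have h3 : fderiv ℝ h' (A T + c) (A v) = e * fderiv ℝ h T v :=
    DFunLike.congr_fun (h1.unique h2) v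
  have h4 : e.re ^ 2 + e.im ^ 2 = 1 := by
    have := Complex.sq_norm e
    rw [he, Complex.normSq_apply] at this
    nlinarith
  rw [fm_apply ξ d1, fm_apply ξ d2, h3, hA]
  simp only [Complex.mul_re, Complex.mul_im]
  linear_combination
    (-ξ * ((h T).re * (fderiv ℝ h T v).im - (h T).im * (fderiv ℝ h T v).re)) * h4

theorem nn_fm {n : ℕ} (ξ : ℝ) {h : E n → ℂ} (hh : ContDiff ℝ ∞ h) (T : E n)
    (hA : ∀ s : ℝ, h (T + fun _ => s) = Complex.exp (-(Complex.I * ξ * s)) * h T) :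
    nn (fm ξ h) T = ξ ^ 2 * ‖h T‖ ^ 2 := by
  have d1 : DifferentiableAt ℝ h T := hh.differentiable (by simp) _
  have h0 : HasDerivAt (fun s : ℝ => T + fun _ => s) (fun _ => (1 : ℝ)) 0 :=
    (hasDerivAt_pi.2 fun _ => hasDerivAt_id (0 : ℝ)).const_add T
  have e0 : (T + fun _ => (0 : ℝ)) = T := by
    funext i
    simp
  have h1 : HasDerivAt (fun s : ℝ => h (T + fun _ => s)) (fderiv ℝ h T fun _ => 1) 0 :=
    HasFDerivAt.comp_hasDerivAt_of_eq (0 : ℝ) d1.hasFDerivAt h0 e0.symm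
  have h2 : HasDerivAt (fun s : ℝ => h (T + fun _ => s)) (-(Complex.I * ξ) * h T) 0 := by
    rw [funext hA]
    have h3 : HasDerivAt (fun s : ℝ => -(Complex.I * ξ * s)) (-(Complex.I * ξ * 1)) 0 :=
      ((Complex.ofRealCLM.hasDerivAt (x := (0 : ℝ))).const_mul (Complex.I * ξ)).neg
    have h4 := (h3.cexp).mul_const (h T)
    simpa using h4
  unfold nn
  rw [fm_apply ξ d1, h1.unique h2, Complex.sq_norm, Complex.normSq_apply]
  simp
  ring

end Gb7X

theorem contDiff_hat (hπ : π.Ok) {r : ℝ} (hr : 0 < r) (η : L → ℂ) (ξ : ℝ) {k : ℕ}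
    (x : Fin (k + 1) → G) : ContDiff ℝ ∞ (Λ.hat r η ξ x) := by
  have h1 := (lf_Psi Λ hr x).contDiff_sk Λ hπ η
  have h2 : ContDiff ℝ ∞ fun p : E (k + 1) × ℝ => Complex.exp (-(Complex.I * ξ * p.2)) :=
    (contDiff_const.mul (Complex.ofRealCLM.contDiff.comp contDiff_snd)).neg.cexp
  have h3 := h1.mul h2
  refine contDiff_iff_contDiffAt.2 fun T => ?_
  have h4 := Vale.Agent.Iso4.contDiffAt_integral (z := T) zero_le_one fun t _ => h3.contDiffAt
  exact h4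

theorem sk_shift {η : L → ℂ} {ϑ : ℝ} (hη : Λ.Eig η ϑ) (r : ℝ) {k : ℕ} (x : Fin (k + 1) → G)
    (T : E (k + 1)) (t : ℝ) : Lab.sk η (Λ.B (Λ.Psi r x T (t + 1))) =
      Complex.exp (Complex.I * ϑ) * Lab.sk η (Λ.B (Λ.Psi r x T t)) := by
  unfold Lab.sk
  rw [← finsum_comp_equiv Λ.sh (f := fun l => η l * (Λ.B (Λ.Psi r x T (t + 1)) l : ℂ)),
    ← smul_eq_mul (Complex.exp _), smul_finsum]
  refine finsum_congr fun l => ?_
  rw [(B_Psi_sh Λ r x T t l).1, hη.2.1, smul_eq_mul, mul_assoc]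

namespace Gb7X

theorem hat_transl {η : L → ℂ} {ϑ : ℝ} (hη : Λ.Eig η ϑ) (r : ℝ) (n : ℤ) {k : ℕ}
    (x : Fin (k + 1) → G) (T : E (k + 1)) (s : ℝ) :
    Λ.hat r η (2 * Real.pi * n + ϑ) x (T + fun _ => s) =
      Complex.exp (-(Complex.I * (2 * Real.pi * n + ϑ : ℝ) * s)) *
        Λ.hat r η (2 * Real.pi * n + ϑ) x T := by
  set ξ : ℝ := 2 * Real.pi * n + ϑ with hξ
  set Φ : ℝ → ℂ := fun t => Lab.sk η (Λ.B (Λ.Psi r x T t)) * Complex.exp (-(Complex.I * ξ * t))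
    with hΦ
  have hp : Function.Periodic Φ 1 := fun t => by
    simp only [hΦ]
    rw [sk_shift Λ hη]
    have e : Complex.exp (Complex.I * ϑ) * Complex.exp (-(Complex.I * ξ * ((t + 1 : ℝ) : ℂ))) =
        Complex.exp (-(Complex.I * ξ * t)) := by
      rw [← Complex.exp_add, Complex.exp_eq_exp_iff_exists_int]
      refine ⟨-n, ?_⟩
      rw [hξ]
      push_cast
      ring
    rw [← e]
    ring
  have h1 : Λ.hat r η ξ x (T + fun _ => s) =
      ∫ t in (0 : ℝ)..1, Complex.exp (-(Complex.I * ξ * s)) * Φ (t - s) := by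
    unfold Lab.hat
    refine intervalIntegral.integral_congr fun t _ => ?_
    have e1 : Λ.Psi r x (T + fun _ => s) t = Λ.Psi r x T (t - s) :=
      funext fun l => av_transl g _ _ x T s t
    have e2 : Complex.exp (-(Complex.I * ξ * t)) =
        Complex.exp (-(Complex.I * ξ * s)) * Complex.exp (-(Complex.I * ξ * ((t - s : ℝ) : ℂ))) := by
      rw [← Complex.exp_add]
      congr 1
      push_cast
      ring
    simp only [hΦ]
    rw [e1, e2]
    ring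
  have h2 := hp.intervalIntegral_add_eq (0 - s) 0
  rw [h1, intervalIntegral.integral_const_mul, intervalIntegral.integral_comp_sub_right,
    show 1 - s = 0 - s + 1 by ring, h2, zero_add]
  rfl

theorem hat_rot {r : ℝ} (hr : 0 < r) (η : L → ℂ) (ξ : ℝ) {k : ℕ} (x : Fin (k + 1) → G)
    (T : E (k + 1)) : Λ.hat r η ξ (rotX g x) (rotA T) = Λ.hat r η ξ x T := by
  unfold Lab.hat
  refine intervalIntegral.integral_congr fun t _ => ?_
  have e1 : Λ.Psi r (rotX g x) (rotA T) t = Λ.Psi r x T t :=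
    funext fun l => av_rot g (ker_Pr hr) _ x T t
  simp only [e1]

theorem hat_face (r : ℝ) (η : L → ℂ) (ξ : ℝ) {k : ℕ} (x : Fin (k + 2) → G) (j : Fin (k + 2))
    (T : E (k + 1)) :
    Λ.hat r η ξ x (faceA j T) = Λ.hat r η ξ (fun i => x (j.succAbove i)) T := by
  unfold Lab.hat
  refine intervalIntegral.integral_congr fun t _ => ?_
  have e1 : Λ.Psi r x (faceA j T) t = Λ.Psi r (fun i => x (j.succAbove i)) T t :=
    funext fun l => av_face g _ _ x j T t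
  simp only [e1]

end Gb7X

theorem contDiff_aF (hπ : π.Ok) {r : ℝ} (hr : 0 < r) (η : L → ℂ) (ξ : ℝ) {k : ℕ}
    (x : Fin (k + 1) → G) : ContDiff ℝ ∞ (Λ.aF r η ξ k x) := by
  rw [Gb7X.aF_eq]
  exact Gb7X.contDiff_fm ξ (contDiff_hat Λ hπ hr η ξ x)

theorem aF_pre (hπ : π.Ok) {r : ℝ} (hr : 0 < r) {η : L → ℂ} {ϑ : ℝ} (hη : Λ.Eig η ϑ) (n : ℤ) :
    IsPre g (Λ.aF r η (2 * Real.pi * n + ϑ)) := by
  refine ⟨fun k x => contDiff_aF Λ hπ hr η _ x, fun k x T s => ?_, fun k x T v => ?_,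
    fun k x j T v => ?_⟩
  · ext1 v
    have hc := contDiff_hat Λ hπ hr η (2 * Real.pi * n + ϑ) x
    have he : ‖Complex.exp (-(Complex.I * (2 * Real.pi * n + ϑ : ℝ) * s))‖ = 1 := by
      rw [Complex.norm_exp]
      simp
    have h := Gb7X.fm_pull (2 * Real.pi * n + ϑ) hc hc (ContinuousLinearMap.id ℝ _) (fun _ => s) he
      (fun T => Gb7X.hat_transl Λ hη r n x T s) T v
    exact h
  · obtain ⟨A, hA, hA'⟩ := rotA_aff k
    have h := Gb7X.fm_pull (2 * Real.pi * n + ϑ) (contDiff_hat Λ hπ hr η (2 * Real.pi * n + ϑ) x)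
      (contDiff_hat Λ hπ hr η (2 * Real.pi * n + ϑ) (rotX g x)) A (rotA 0) norm_one
      (fun T => by rw [← hA', Gb7X.hat_rot Λ hr, one_mul]) T v
    rw [← hA', ← hA] at h
    exact h
  · obtain ⟨A, hA, hA'⟩ := faceA_aff j
    have h := Gb7X.fm_pull (2 * Real.pi * n + ϑ)
      (contDiff_hat Λ hπ hr η (2 * Real.pi * n + ϑ) fun i => x (j.succAbove i))
      (contDiff_hat Λ hπ hr η (2 * Real.pi * n + ϑ) x) A (faceA j 0) norm_one
      (fun T => by rw [← hA', Gb7X.hat_face Λ, one_mul]) T v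
    rw [← hA', ← hA] at h
    exact h

theorem nn_aF (hπ : π.Ok) {r : ℝ} (hr : 0 < r) {η : L → ℂ} {ϑ : ℝ} (hη : Λ.Eig η ϑ) (n : ℤ)
    {k : ℕ} (x : Fin (k + 1) → G) (T : E (k + 1)) :
    nn (Λ.aF r η (2 * Real.pi * n + ϑ) k x) T =
      (2 * Real.pi * n + ϑ) ^ 2 * ‖Λ.hat r η (2 * Real.pi * n + ϑ) x T‖ ^ 2 := by
  rw [Gb7X.aF_eq]
  exact Gb7X.nn_fm _ (contDiff_hat Λ hπ hr η _ x) T fun s => Gb7X.hat_transl Λ hη r n x T s

theorem skF_pre (hπ : π.Ok) {r : ℝ} (hr : 0 < r) {ι : Type*} (F : Finset ι) {η : ι → L → ℂ}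
    {ϑ : ι → ℝ} (hη : ∀ q ∈ F, Λ.Eig (η q) (ϑ q)) (a : ℝ) (K : ℕ) :
    IsPre g (Λ.skF F η ϑ a r K) := by
  have h := IsPre.sum (g := g) F (a := fun q k x T => (a * r ^ 2) • Λ.aK r (η q) (ϑ q) K k x T)
    fun q hq => IsPre.smul (a := Λ.aK r (η q) (ϑ q) K)
      (IsPre.sum (Icc (-(K : ℤ)) K) (a := fun n : ℤ => Λ.aF r (η q) (2 * Real.pi * n + ϑ q))
        fun n _ => aF_pre Λ hπ hr (hη q hq) n) (a * r ^ 2)
  exact h

theorem nn_skF (hπ : π.Ok) {r : ℝ} (hr : 0 < r) {ι : Type*} (F : Finset ι) {η : ι → L → ℂ}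
    {ϑ : ι → ℝ} (hη : ∀ q ∈ F, Λ.Eig (η q) (ϑ q)) (a : ℝ) (K : ℕ) {k : ℕ}
    (x : Fin (k + 1) → G) (T : E (k + 1)) :
    nn (Λ.skF F η ϑ a r K k x) T = a * r ^ 2 * ∑ q ∈ F, ∑ n ∈ Icc (-(K : ℤ)) K,
      (2 * Real.pi * n + ϑ q) ^ 2 * ‖Λ.hat r (η q) (2 * Real.pi * n + ϑ q) x T‖ ^ 2 := by
  unfold nn Lab.skF Lab.aK
  rw [_root_.sum_apply, Finset.mul_sum]
  refine Finset.sum_congr rfl fun q hq => ?_
  rw [_root_.smul_apply, _root_.sum_apply, smul_eq_mul]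
  congr 1
  exact Finset.sum_congr rfl fun n _ => nn_aF Λ hπ hr (hη q hq) n x T

end

end Vale.Agent.P184L
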