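import Vale.Agent.P184L.Gb7

/-! Size of the Fourier forms. Hint: for smooth real `u`, `v` the form `c • (u dv - v du)` has `curv = c (vecMulVec du dv - vecMulVec dv du) + symmetric`, two rank one terms. With `h = hat`: `‖h‖ ^ 2 ≤ C Qm`, `fderiv h T (ev j) = ∫ sk η (dB Psi (∂_j Psi)) e` (`fderiv_integral`, `LF.fderiv_sk`), `|∂_j Psi l| ≤ w j * per (Pr r)' (T j - t)`, so `‖∂_j h‖ ≤ C √Qm b w j` (`gibbs_norm`, `int_per_le` with `2 r * CK / r`); `wn_le_of_abs`; `|ξ| ≤ 7 (K + 1)`. Take both sizes equal to `l = a r ^ 2 C b ^ 2 Qm (k + 1) (K + 1)`; it also bounds `wn w (co _)`. Then `Est.sum` twice. -/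

namespace Vale.Agent.P184L

open Finset MeasureTheory ProbabilityTheory Classical Vale.Agent.P184
open scoped ContDiff

noncomputable section

universe u

variable {G : Type u} [Group G]

namespace Gb8X

theorem dd {k : ℕ} {u : E k → ℝ} (hu : ContDiff ℝ ∞ u) (T a : E k) :
    HasFDerivAt (fun S => fderiv ℝ u S a) ((fderiv ℝ (fderiv ℝ u) T).flip a) T := by
  have h : DifferentiableAt ℝ (fderiv ℝ u) T :=
    ((contDiff_infty_iff_fderiv.1 hu).2.differentiable (by simp)) T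
  simpa using h.hasFDerivAt.clm_apply (hasFDerivAt_const a T)

theorem est2 {k : ℕ} {w T : E k} {u v : E k → ℝ} (hu : ContDiff ℝ ∞ u) (hv : ContDiff ℝ ∞ v)
    {c D l : ℝ} (z : ℝ) (h1 : |u T| ≤ D) (h2 : |v T| ≤ D) (h3 : wn w (co (fderiv ℝ u T)) ≤ D)
    (h4 : wn w (co (fderiv ℝ v T)) ≤ D) (hl : |c| * (D * D) ≤ l) :
    Est w z (fun S => c • (u S • fderiv ℝ v S - v S • fderiv ℝ u S)) T 0
      (2 * Real.log (1 + z * l)) := by
  have hD : 0 ≤ D := (abs_nonneg _).trans h1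
  have hc := abs_nonneg c
  have n1 := wn_nonneg w (co (fderiv ℝ u T))
  have n2 := wn_nonneg w (co (fderiv ℝ v T))
  have h2i : minSmoothness ℝ 2 ≤ ∞ := by
    rw [minSmoothness_of_isRCLikeNormedField]
    exact Iso4.tame_le 2
  refine ⟨le_rfl, [l, l], ⟨Matrix.of fun i j => c * (u T * fderiv ℝ (fderiv ℝ v) T (ev i) (ev j) -
    v T * fderiv ℝ (fderiv ℝ u) T (ev i) (ev j)),
    [(c • co (fderiv ℝ u T), co (fderiv ℝ v T)), ((-c) • co (fderiv ℝ v T), co (fderiv ℝ u T))],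
    Nuc.of_symm w fun i j => ?_, ?_, ?_⟩, ?_, ?_⟩
  · rw [Matrix.of_apply, Matrix.of_apply, (hu.contDiffAt.isSymmSndFDerivAt h2i).eq (ev j),
      (hv.contDiffAt.isSymmSndFDerivAt h2i).eq (ev j)]
  · ext i j
    have du := (hu.differentiable (by simp) T).hasFDerivAt
    have dv := (hv.differentiable (by simp) T).hasFDerivAt
    have e := (((du.fun_mul (dd hv T (ev j))).fun_sub (dv.fun_mul (dd hu T (ev j)))).const_mul
      c).fderiv
    have e2 : (fun S => (c • (u S • fderiv ℝ v S - v S • fderiv ℝ u S)) (ev j)) =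
        fun S => c * (u S * fderiv ℝ v S (ev j) - v S * fderiv ℝ u S (ev j)) := rfl
    rw [curv, e2, e]
    simp [co, Matrix.vecMulVec_apply]
    ring
  · refine .cons ?_ (.cons ?_ .nil)
    · rw [wn_smul, mul_assoc]
      refine le_trans ?_ hl
      gcongr
    · rw [wn_smul, mul_assoc, abs_neg]
      refine le_trans ?_ hl
      gcongr
  · have e : co (c • (u T • fderiv ℝ v T - v T • fderiv ℝ u T)) =
        c • (u T • co (fderiv ℝ v T)) + (-c) • (v T • co (fderiv ℝ u T)) := by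
      funext j
      simp [co]
      ring
    rw [e]
    refine (wn_add_le _ _ _).trans ?_
    simp only [wn_smul, abs_neg, List.sum_cons, List.sum_nil, zero_add, add_zero]
    refine add_le_add (le_trans ?_ hl) (le_trans ?_ hl) <;> gcongr
  · simp only [List.map_cons, List.map_nil, List.sum_cons, List.sum_nil, add_zero, two_mul, le_refl]

variable {π : Par} {g : G} {L : Type u} (Λ : Lab π g L)

theorem nexp (ξ t : ℝ) : ‖Complex.exp (-(Complex.I * ξ * t))‖ = 1 := by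
  rw [Complex.norm_exp]
  simp

theorem hat_le {r : ℝ} (η : L → ℂ) (ξ : ℝ) {k : ℕ} (x : Fin (k + 1) → G) (T : E (k + 1)) {h : ℝ}
    (hh : ∀ t, ‖Lab.sk η (Λ.B (Λ.Psi r x T t))‖ ≤ h) : ‖Λ.hat r η ξ x T‖ ≤ h := by
  have := intervalIntegral.norm_integral_le_of_norm_le_const (a := 0) (b := 1) (C := h)
    (f := fun t : ℝ => Lab.sk η (Λ.B (Λ.Psi r x T t)) * Complex.exp (-(Complex.I * ξ * t)))
    fun t _ => by
      rw [norm_mul, nexp, mul_one]
      exact hh t
  simpa [Lab.hat] using this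

theorem dhat_le (hπ : π.Ok) {r : ℝ} (hr : 0 < r) (η : L → ℂ) (ξ : ℝ) {k : ℕ}
    {x : Fin (k + 1) → G} {w : E (k + 1)} (hw : Λ.Step x w) (T : E (k + 1)) {h : ℝ} (h0 : 0 ≤ h)
    (hh : ∀ t (u : L → ℝ) (a : ℝ), 0 ≤ a → (∀ l, |u l| ≤ a) →
      ‖Lab.sk η (Λ.dB (Λ.Psi r x T t) u)‖ ≤ h * a) (j : Fin (k + 1)) :
    ‖fderiv ℝ (Λ.hat r η ξ x) T (ev j)‖ ≤ h * (2 * CK) * w j := by
  have hw0 : 0 ≤ w j := zero_le_one.trans (hw j).1
  have hf : ContDiff ℝ ∞ fun p : E (k + 1) × ℝ =>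
      Lab.sk η (Λ.B (Λ.Psi r x p.1 p.2)) * Complex.exp (-(Complex.I * ξ * p.2)) :=
    ((lf_Psi Λ hr x).contDiff_sk Λ hπ η).mul
      (contDiff_const.mul (Complex.ofRealCLM.contDiff.comp contDiff_snd)).neg.cexp
  have e := Iso4.fderiv_integral (z := T) zero_le_one (fun t _ => hf.contDiffAt) (ev j)
  have hq := (ker_Pr hr).deriv
  have hc : Continuous (deriv (Pr r)) := hq.1.1.continuous
  have hz : ∀ u, r < |u| → deriv (Pr r) u = 0 := fun u hu => hq.2 u hu.le
  have hp : Continuous fun t : ℝ => per (deriv (Pr r)) (T j - t) :=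
    (continuous_per hc hz).comp (by fun_prop)
  refine (congrArg norm e).trans_le ((intervalIntegral.norm_integral_le_of_norm_le
    (g := fun t => h * w j * per (deriv (Pr r)) (T j - t)) zero_le_one
    (Filter.Eventually.of_forall fun t _ => ?_)
    ((continuous_const.mul hp).intervalIntegrable _ _)).trans ?_)
  · have hl : LF π fun S : E (k + 1) => Λ.Psi r x S t :=
      (lf_Psi Λ hr x).comp (φ := fun S : E (k + 1) => (S, t)) (by fun_prop)
    have a1 := ((hf.differentiable (by simp) (T, t)).hasFDerivAt.comp (f := fun S => (S, t)) T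
      (hasFDerivAt_prodMk_left (𝕜 := ℝ) T t)).fderiv
    have a2 := ((hl.contDiff_sk Λ hπ η).differentiable (by simp) T).hasFDerivAt.mul_const
      (Complex.exp (-(Complex.I * ξ * t)))
    have a3 := congrArg (fun A : E (k + 1) →L[ℝ] ℂ => A (ev j)) (a1.symm.trans a2.fderiv)
    simp only [ContinuousLinearMap.comp_apply, ContinuousLinearMap.inl_apply,
      ContinuousLinearMap.smul_apply, smul_eq_mul] at a3
    rw [a3, norm_mul, nexp, one_mul, hl.fderiv_sk Λ hπ, mul_assoc]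
    exact hh t _ _ (mul_nonneg hw0 (per_nonneg _ _)) fun l =>
      av_fderiv_le g (ker_Pr hr) _ x T t j fun p => Lab.Step.shift Λ hw j l p
  · rw [intervalIntegral.integral_const_mul]
    have := (int_per_le hc hr.le hz (fun u => (Pr_bounds hr u).1) (T j)).1
    refine (mul_le_mul_of_nonneg_left this (mul_nonneg h0 hw0)).trans (le_of_eq ?_)
    field_simp

end Gb8X

theorem est_skF (G : Type u) [Group G] : ∃ C : ℝ, 1 ≤ C ∧ ∀ (π : Par) (g : G) (L : Type u)
    (Λ : Lab π g L), π.Ok → ∀ r : ℝ, 0 < r → ∀ (ι : Type) (F : Finset ι) (η : ι → L → ℂ)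
    (ϑ : ι → ℝ), (∀ q ∈ F, Λ.Eig (η q) (ϑ q)) → ∀ (a : ℝ) (K k : ℕ) (x : Fin (k + 1) → G)
    (w T : E (k + 1)), 0 ≤ a → Λ.Step x w → Ord T → ∀ z : ℝ, 0 ≤ z →
    Est w z (Λ.skF F η ϑ a r K k x) T 0 (F.card * (2 * (2 * K + 1) *
      Real.log (1 + z * (a * r ^ 2 * C * π.b ^ 2 * π.Qm * (k + 1) * (K + 1))))) := by
  obtain ⟨C, hC, H⟩ := gibbs_norm G
  have hK := one_le_CK
  refine ⟨28 * C * CK ^ 2, by nlinarith, ?_⟩
  intro π g L Λ hπ r hr ι F η ϑ hη a K k x w T ha hw hT z _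
  have hb : 1 ≤ π.b := le_trans (by norm_num) hπ.1
  have hQ : 0 < π.Qm := Real.exp_pos _
  have hk : 1 ≤ √((k + 1 : ℕ) : ℝ) := Real.one_le_sqrt.2 (by exact_mod_cast Nat.succ_pos k)
  have key : ∀ q ∈ F, ∀ n ∈ Icc (-(K : ℤ)) K,
      Est w z (fun S => (a * r ^ 2) • Λ.aF r (η q) (2 * Real.pi * n + ϑ q) k x S) T 0
        (2 * Real.log (1 + z * (a * r ^ 2 * (28 * C * CK ^ 2) * π.b ^ 2 * π.Qm * (k + 1) *
          (K + 1)))) := by
    intro q hq n hn
    have hs := fun t => (H π g L Λ hπ _ (adm_Psi Λ hr x hT t)).2.2 _ _ (hη q hq)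
    have hξ : |2 * Real.pi * n + ϑ q| ≤ 7 * (K + 1) := by
      have h1 : |(n : ℝ)| ≤ K := by exact_mod_cast abs_le.2 (mem_Icc.1 hn)
      have h2 := (hη q hq).1
      have h3 := Real.pi_lt_d2
      have h4 := Real.pi_pos
      refine (abs_add_le _ _).trans ?_
      rw [abs_mul, abs_of_pos (by positivity : 0 < 2 * Real.pi)]
      nlinarith [abs_nonneg (n : ℝ)]
    generalize 2 * Real.pi * n + ϑ q = ξ at hξ
    have hd := contDiff_hat Λ hπ hr (η q) ξ x
    have hs0 := Real.sqrt_nonneg (C * π.Qm)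
    have h1 : ‖Λ.hat r (η q) ξ x T‖ ≤
        √(C * π.Qm) * π.b * (2 * CK) * √((k + 1 : ℕ) : ℝ) := by
      refine (Gb8X.hat_le Λ _ ξ x T fun t => Real.le_sqrt_of_sq_le (hs t).1).trans ?_
      rw [mul_assoc, mul_assoc]
      exact le_mul_of_one_le_right hs0 (one_le_mul_of_one_le_of_one_le hb
        (one_le_mul_of_one_le_of_one_le (by linarith) hk))
    have h2 := Gb8X.dhat_le Λ hπ hr (η q) ξ hw T (h := √(C * π.Qm) * π.b) (by positivity)
      fun t u a ha hu => abs_le_of_sq_le_sq' (((hs t).2 u a ha hu).trans (le_of_eq (by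
        rw [mul_assoc _ π.b, mul_pow _ (π.b * a), Real.sq_sqrt (by positivity)])))
        (by positivity) |>.2
    have h3 : ∀ A : ℂ →L[ℝ] ℝ, (∀ y, |A y| ≤ ‖y‖) →
        wn w (co (fderiv ℝ (fun S => A (Λ.hat r (η q) ξ x S)) T)) ≤
          √(C * π.Qm) * π.b * (2 * CK) * √((k + 1 : ℕ) : ℝ) := fun A hA =>
      wn_le_of_abs (fun j => zero_lt_one.trans_le (hw j).1) (by positivity) fun j => by
        have := (A.hasFDerivAt.comp T (hd.differentiable (by simp) T).hasFDerivAt).fderiv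
        rw [co, show (fun S => A (Λ.hat r (η q) ξ x S)) = A ∘ Λ.hat r (η q) ξ x from rfl, this]
        exact (hA _).trans (h2 j)
    have := Gb8X.est2 (c := a * r ^ 2 * -ξ)
      (l := a * r ^ 2 * (28 * C * CK ^ 2) * π.b ^ 2 * π.Qm * (k + 1) * (K + 1))
      (Complex.reCLM.contDiff.comp hd) (Complex.imCLM.contDiff.comp hd) z
      ((Complex.abs_re_le_norm _).trans h1) ((Complex.abs_im_le_norm _).trans h1)
      (h3 _ Complex.abs_re_le_norm) (h3 _ Complex.abs_im_le_norm) (by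
        rw [abs_mul, abs_neg, abs_of_nonneg (by positivity : 0 ≤ a * r ^ 2), ← sq, mul_pow,
          mul_pow, mul_pow, Real.sq_sqrt (by positivity), Real.sq_sqrt (by positivity)]
        refine (mul_le_mul_of_nonneg_right (mul_le_mul_of_nonneg_left hξ (by positivity))
          (by positivity)).trans (le_of_eq ?_)
        push_cast
        ring)
    simp only [mul_smul (a * r ^ 2)] at this
    exact this
  have hsm : ∀ q (n : ℤ), ContDiff ℝ ∞ fun S =>
      (a * r ^ 2) • Λ.aF r (η q) (2 * Real.pi * n + ϑ q) k x S := fun q n =>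
    (contDiff_aF Λ hπ hr _ _ x).const_smul _
  have := Est.sum F (fun q _ => ContDiff.sum fun n _ => hsm q n) fun q hq =>
    Est.sum (Icc (-(K : ℤ)) K) (fun n _ => hsm q n) (key q hq)
  have e : Λ.skF F η ϑ a r K k x = fun S => ∑ q ∈ F, ∑ n ∈ Icc (-(K : ℤ)) K,
      (a * r ^ 2) • Λ.aF r (η q) (2 * Real.pi * n + ϑ q) k x S := by
    funext S
    simp only [Lab.skF, Lab.aK, smul_sum]
  rw [e]
  refine this.mono (by simp) (le_of_eq ?_)
  have e2 : (Icc (-(K : ℤ)) K).card = 2 * K + 1 := by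
    rw [Int.card_Icc]
    omega
  rw [sum_const, sum_const, e2, nsmul_eq_mul, nsmul_eq_mul]
  push_cast
  ring

end

end Vale.Agent.P184L
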