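import Vale.Agent.P184L.Gb4b

/-! The pair property gives a pointwise lower bound for the sketch of the smoothed derivative. Hint: let `U = {l | Psi r x T t l < Rt + 1}` (pairwise `Nb` by `Adm.nb`); since `|dPsi| ≤ 2 CK Rs / r` and `2 CK Rs γ ≤ 1`, every label active at a time in `[t, t + ℓ]` is in `U`. If `U` is empty `sm = 0`. Otherwise pick `l₀ ∈ U` (`Psi_near`), apply `Pair` to `(Psi (t + u), r dPsi (t + u))`, `(Psi (t + u'), r dPsi (t + u'))` (`sgn_dPsi`, `dB_smul`) and integrate over `κ ⊗ κ` (finite sums over one finite set of labels, bilinearity): `r ^ 2 ∑ sm ^ 2 - e ≤ r ^ 2 ∑ q, ‖sk (η q) sm‖ ^ 2` for `η` or `η'`. All labels active at times in `[t, t + ℓ]` lie in one finite set (`LF.compact`), `dBt` is continuous in time, `κ` is a probability measure carried by `[0, ℓ]`. -/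

namespace Vale.Agent.P184L

open Finset MeasureTheory ProbabilityTheory Classical Vale.Agent.P184
open scoped ContDiff

noncomputable section

universe u

variable {G : Type u} [Group G]

variable {π : Par} {g : G} {L : Type u} (Λ : Lab π g L)

namespace SkPtX

theorem lf {r : ℝ} (hr : 0 < r) {k : ℕ} (x : Fin (k + 1) → G) (T : E (k + 1)) :
    LF π fun t : ℝ => Λ.Psi r x T t :=
  (lf_Psi Λ hr x).comp (φ := fun t : ℝ => (T, t)) (contDiff_const.prodMk contDiff_id)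

theorem hasD {r : ℝ} (hr : 0 < r) {k : ℕ} (x : Fin (k + 1) → G) (T : E (k + 1)) (l : L) (t : ℝ) :
    HasDerivAt (fun t => Λ.Psi r x T t l) (Λ.dPsi r x T t l) t :=
  av_hasDerivAt g (ker_Pr hr) (Λ.f l) x T t

theorem smooth_dBt (hπ : π.Ok) {r : ℝ} (hr : 0 < r) {k : ℕ} (x : Fin (k + 1) → G)
    (T : E (k + 1)) (l : L) : ContDiff ℝ ∞ fun t => Λ.dBt r x T t l :=
  (lf Λ hr x T).contDiff_dB Λ hπ (u := fun t => Λ.dPsi r x T t) (fun l =>
    ((contDiff_av g (ker_Pr hr).deriv.1 (Λ.f l) x).comp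
      (contDiff_const.prodMk contDiff_id : ContDiff ℝ ∞ fun t : ℝ => (T, t))).neg) l

theorem ae_mem {κ : Measure ℝ} {ℓ Ξ ε : ℝ} (hκ : Filt κ ℓ Ξ ε) : ∀ᵐ u ∂κ, u ∈ Set.Icc 0 ℓ :=
  hκ.2.1

theorem integ {κ : Measure ℝ} {ℓ Ξ ε : ℝ} (hκ : Filt κ ℓ Ξ ε) {Y : Type} [NormedAddCommGroup Y]
    {f : ℝ → Y} (hf : Continuous f) : Integrable f κ := by
  have := hκ.1
  rw [← Measure.restrict_eq_self_of_ae_mem (ae_mem hκ)]
  exact hf.continuousOn.integrableOn_compact isCompact_Icc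

theorem sk_eq (η : L → ℂ) {v : L → ℝ} {s : Finset L} (h : ∀ l, l ∉ s → v l = 0) :
    Lab.sk η v = ∑ l ∈ s, η l * v l :=
  finsum_eq_sum_of_support_subset _ fun l hl => by
    by_contra hn
    exact hl (by simp [h l hn])

theorem active {r : ℝ} (hr : 0 < r) {k : ℕ} (x : Fin (k + 1) → G) (T : E (k + 1)) (t ℓ : ℝ) :
    ∃ s : Finset L, ∀ u ∈ Set.Icc 0 ℓ, ∀ l, l ∉ s → Λ.dBt r x T (t + u) l = 0 := by
  obtain ⟨s, hs⟩ := (lf Λ hr x T).compact (isCompact_Icc (a := t) (b := t + ℓ))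
  exact ⟨s, fun u hu l hl =>
    (Lab.B_zero (hs (t + u) ⟨by linarith [hu.1], by linarith [hu.2]⟩ l hl) _).2⟩

theorem sm_zero {κ : Measure ℝ} {ℓ Ξ ε : ℝ} (hκ : Filt κ ℓ Ξ ε) {r : ℝ} {k : ℕ}
    {x : Fin (k + 1) → G} {T : E (k + 1)} {t : ℝ} {l : L}
    (h : ∀ u ∈ Set.Icc 0 ℓ, Λ.dBt r x T (t + u) l = 0) : Λ.sm κ r x T t l = 0 :=
  integral_eq_zero_of_ae ((ae_mem hκ).mono h)

theorem one_step {κ : Measure ℝ} [IsProbabilityMeasure κ] {I : Set ℝ} (hI : ∀ᵐ u ∂κ, u ∈ I)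
    {ι : Type} (s : Finset L) (F : Finset ι) {D : ℝ → L → ℝ} {a : ι → ℝ → ℂ}
    (hD : ∀ l, Integrable (fun u => D u l) κ) (ha : ∀ q, Integrable (a q) κ) (c e : ℝ)
    (v : L → ℝ) (b : ι → ℂ) (h : ∀ u ∈ I, c * ∑ l ∈ s, D u l * v l - e ≤
      c * ∑ q ∈ F, (a q u * (starRingEnd ℂ) (b q)).re) :
    c * ∑ l ∈ s, (∫ u, D u l ∂κ) * v l - e ≤
      c * ∑ q ∈ F, ((∫ u, a q u ∂κ) * (starRingEnd ℂ) (b q)).re := by
  have i1 : Integrable (fun u => c * ∑ l ∈ s, D u l * v l) κ :=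
    (integrable_finsetSum s fun l _ => (hD l).mul_const _).const_mul c
  have i0 : ∀ q, Integrable (fun u => (a q u * (starRingEnd ℂ) (b q)).re) κ := fun q =>
    ((ha q).mul_const _).re
  have i2 : Integrable (fun u => c * ∑ q ∈ F, (a q u * (starRingEnd ℂ) (b q)).re) κ :=
    (integrable_finsetSum F fun q _ => i0 q).const_mul c
  have i3 : Integrable (fun u => c * ∑ l ∈ s, D u l * v l - e) κ := i1.sub (integrable_const e)
  have h1 := integral_mono_ae i3 i2 (hI.mono h)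
  rw [integral_sub i1 (integrable_const e), integral_const_mul, integral_const_mul,
    integral_finsetSum s fun l _ => (hD l).mul_const _, integral_finsetSum F fun q _ => i0 q,
    integral_const, probReal_univ, one_smul] at h1
  have h2 : ∀ q, ∫ u, (a q u * (starRingEnd ℂ) (b q)).re ∂κ =
      ((∫ u, a q u ∂κ) * (starRingEnd ℂ) (b q)).re := fun q => by
    rw [← integral_mul_const]
    exact integral_re ((ha q).mul_const _)
  simpa only [integral_mul_const, h2] using h1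

theorem two_step {κ : Measure ℝ} [IsProbabilityMeasure κ] {I : Set ℝ} (hI : ∀ᵐ u ∂κ, u ∈ I)
    {ι : Type} (s : Finset L) (F : Finset ι) {D : ℝ → L → ℝ} {a : ι → ℝ → ℂ}
    (hD : ∀ l, Integrable (fun u => D u l) κ) (ha : ∀ q, Integrable (a q) κ) (c e : ℝ)
    (h : ∀ u ∈ I, ∀ u' ∈ I, c * ∑ l ∈ s, D u l * D u' l - e ≤
      c * ∑ q ∈ F, (a q u * (starRingEnd ℂ) (a q u')).re) :
    c * ∑ l ∈ s, (∫ u, D u l ∂κ) ^ 2 - e ≤ c * ∑ q ∈ F, ‖∫ u, a q u ∂κ‖ ^ 2 := by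
  have h0 : ∀ z w : ℂ, (z * (starRingEnd ℂ) w).re = (w * (starRingEnd ℂ) z).re := fun z w => by
    simp [mul_comm]
  have h1 := one_step hI s F hD ha c e (fun l => ∫ u, D u l ∂κ) (fun q => ∫ u, a q u ∂κ)
    fun u' hu' => by
      have h2 := one_step hI s F hD ha c e (D u') (fun q => a q u') fun u hu => h u hu u' hu'
      simpa only [mul_comm (D u' _), h0 (a _ u')] using h2
  simpa only [Complex.mul_conj, Complex.ofReal_re, Complex.normSq_eq_norm_sq, ← sq] using h1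

theorem near {r γ : ℝ} (hr : 0 < r) (h : 2 * CK * π.Rs * γ ≤ 1) {k : ℕ} (x : Fin (k + 1) → G)
    {T : E (k + 1)} (hT : Ord T) (t : ℝ) {u : ℝ} (hu : u ∈ Set.Icc 0 (r * γ)) {l : L}
    (hl : Λ.Psi r x T (t + u) l < π.Rt) : Λ.Psi r x T t l < π.Rt + 1 := by
  have hb : ∀ y, ‖Λ.dPsi r x T y l‖ ≤ 2 * CK * π.Rs / r := fun y => by
    have h1 := (sgn_dPsi Λ hr x hT y).abs_le l
    rw [abs_mul, abs_of_pos hr] at h1
    rw [Real.norm_eq_abs, le_div_iff₀ hr, mul_comm]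
    exact h1
  have h1 := convex_univ.norm_image_sub_le_of_norm_hasDerivWithin_le
    (fun y _ => (hasD Λ hr x T l y).hasDerivWithinAt) (fun y _ => hb y) (Set.mem_univ t)
    (Set.mem_univ (t + u))
  have h0 : 0 ≤ 2 * CK * π.Rs / r := (norm_nonneg _).trans (hb 0)
  rw [add_sub_cancel_left, Real.norm_eq_abs, Real.norm_of_nonneg hu.1] at h1
  have h2 := mul_le_mul_of_nonneg_left hu.2 h0
  have h3 : 2 * CK * π.Rs / r * (r * γ) = 2 * CK * π.Rs * γ := by field_simp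
  have h4 := (abs_le.1 h1).1
  linarith

end SkPtX

open SkPtX

theorem continuous_dBt (hπ : π.Ok) {r : ℝ} (hr : 0 < r) {k : ℕ} (x : Fin (k + 1) → G)
    (T : E (k + 1)) (η : L → ℂ) : (∀ l, Continuous fun t => Λ.dBt r x T t l) ∧
      (Continuous fun t => Lab.sk η (Λ.dBt r x T t)) ∧
      ∀ t, HasDerivAt (fun t => Lab.sk η (Λ.B (Λ.Psi r x T t))) (Lab.sk η (Λ.dBt r x T t)) t := by
  have hL := lf Λ hr x T
  refine ⟨fun l => (smooth_dBt Λ hπ hr x T l).continuous, ?_, fun t => ?_⟩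
  · exact (hL.contDiff_sum (a := fun t l => η l * (Λ.dBt r x T t l : ℂ))
      (fun l => contDiff_const.mul (Complex.ofRealCLM.contDiff.comp (smooth_dBt Λ hπ hr x T l)))
      fun t l hl => by rw [Lab.dBt, (Lab.B_zero hl _).2, Complex.ofReal_zero, mul_zero]).continuous
  · have h1 := (((hL.contDiff_sk Λ hπ η).differentiable (by simp)) t).hasFDerivAt.hasDerivAt
    rw [hL.fderiv_sk Λ hπ η t 1] at h1
    have h2 : (fun l' => fderiv ℝ (fun y => Λ.Psi r x T y l') t 1) = Λ.dPsi r x T t :=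
      funext fun l => (hasD Λ hr x T l t).deriv
    rw [h2] at h1
    exact h1

theorem sk_sm (hπ : π.Ok) {r : ℝ} (hr : 0 < r) {κ : Measure ℝ} {ℓ Ξ ε : ℝ} (hκ : Filt κ ℓ Ξ ε)
    {k : ℕ} (x : Fin (k + 1) → G) (T : E (k + 1)) (η : L → ℂ) (t : ℝ) :
    Lab.sk η (Λ.sm κ r x T t) = ∫ u, Lab.sk η (Λ.dBt r x T (t + u)) ∂κ := by
  obtain ⟨s, hs⟩ := active Λ hr x T t ℓ
  have hi : ∀ l, Integrable (fun u => η l * (Λ.dBt r x T (t + u) l : ℂ)) κ := fun l =>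
    integ hκ (continuous_const.mul (Complex.continuous_ofReal.comp
      ((smooth_dBt Λ hπ hr x T l).continuous.comp (continuous_const.add continuous_id))))
  rw [sk_eq η fun l hl => sm_zero Λ hκ fun u hu => hs u hu l hl,
    integral_congr_ae ((ae_mem hκ).mono fun u hu => sk_eq η (hs u hu)),
    integral_finsetSum s fun l _ => hi l]
  refine Finset.sum_congr rfl fun l _ => ?_
  rw [integral_const_mul, integral_complex_ofReal]
  rfl

theorem SkPtX.pair (hπ : π.Ok) {r γ : ℝ} (hr : 0 < r) (h : 2 * CK * π.Rs * γ ≤ 1)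
    {κ : Measure ℝ} {Ξ ε : ℝ} (hκ : Filt κ (r * γ) Ξ ε) {ι : Type} (F : Finset ι)
    (η : ι → L → ℂ) {e : ℝ} {k : ℕ} (x : Fin (k + 1) → G) {T : E (k + 1)} (hT : Ord T) (t : ℝ)
    {l₀ : L} (h0 : Λ.Psi r x T t l₀ < π.Rt + 1) (hp : Λ.Pair F η e l₀) :
    r ^ 2 * ∑ᶠ l, Λ.sm κ r x T t l ^ 2 - e ≤
      r ^ 2 * ∑ q ∈ F, ‖Lab.sk (η q) (Λ.sm κ r x T t)‖ ^ 2 := by
  have := hκ.1
  obtain ⟨s, hs⟩ := active Λ hr x T t (r * γ)
  have hc : Continuous fun u : ℝ => t + u := continuous_const.add continuous_id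
  have h1 : ∑ᶠ l, Λ.sm κ r x T t l ^ 2 = ∑ l ∈ s, Λ.sm κ r x T t l ^ 2 :=
    finsum_eq_sum_of_support_subset _ fun l hl => by
      by_contra hn
      exact hl (by simp [sm_zero Λ hκ fun u hu => hs u hu l hn])
  have h2 : ∀ y, Λ.dB (Λ.Psi r x T y) (fun l => r * Λ.dPsi r x T y l) =
      fun l => r * Λ.dBt r x T y l := fun y => funext fun l => Λ.dB_smul _ _ r l
  have h3 : ∀ q, ∀ u ∈ Set.Icc 0 (r * γ), Lab.sk (η q) (fun l => r * Λ.dBt r x T (t + u) l) =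
      r * Lab.sk (η q) (Λ.dBt r x T (t + u)) := fun q u hu => by
    rw [sk_eq _ (hs u hu), sk_eq (s := s) _ fun l hl => by rw [hs u hu l hl, mul_zero],
      Finset.mul_sum]
    exact Finset.sum_congr rfl fun l _ => by push_cast; ring
  simp only [h1, sk_sm Λ hπ hr hκ]
  refine two_step (ae_mem hκ) s F (D := fun u => Λ.dBt r x T (t + u))
    (a := fun q u => Lab.sk (η q) (Λ.dBt r x T (t + u)))
    (fun l => integ hκ ((smooth_dBt Λ hπ hr x T l).continuous.comp hc))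
    (fun q => integ hκ ((continuous_dBt Λ hπ hr x T (η q)).2.1.comp hc)) _ _ fun u hu u' hu' => ?_
  have h4 := hp {l | Λ.Psi r x T t l < π.Rt + 1}
    (fun l hl l' hl' => (adm_Psi Λ hr x hT t).nb hl hl') h0 _ _ _ _ (adm_Psi Λ hr x hT (t + u))
    (adm_Psi Λ hr x hT (t + u')) (sgn_dPsi Λ hr x hT (t + u)) (sgn_dPsi Λ hr x hT (t + u'))
    (fun l hl => near Λ hr h x hT t hu hl) fun l hl => near Λ hr h x hT t hu' hl
  rw [h2, h2, finsum_eq_sum_of_support_subset (s := s) _ fun l hl => by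
    by_contra hn
    exact hl (by simp [hs u hu l hn])] at h4
  simp only [h3 _ u hu, h3 _ u' hu'] at h4
  rw [Finset.mul_sum, Finset.mul_sum]
  refine le_of_eq_of_le ?_ (h4.trans (le_of_eq ?_))
  · congr 1
    exact Finset.sum_congr rfl fun l _ => by ring
  · refine Finset.sum_congr rfl fun q _ => ?_
    simp only [map_mul, Complex.conj_ofReal, Complex.mul_re, Complex.mul_im, Complex.ofReal_re,
      Complex.ofReal_im]
    ring

theorem sm_pair (hπ : π.Ok) {r γ : ℝ} (hr : 0 < r) (hγ : 0 < γ) (h : 2 * CK * π.Rs * γ ≤ 1)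
    {κ : Measure ℝ} {Ξ ε : ℝ} (hκ : Filt κ (r * γ) Ξ ε) {ι : Type} (F : Finset ι)
    (η η' : ι → L → ℂ) {e : ℝ} (he : 0 ≤ e) {k : ℕ} (x : Fin (k + 1) → G) {T : E (k + 1)}
    (hT : Ord T)
    (hp : ∀ l₀ (j : ℤ) i, Λ.f l₀ (g ^ j * x i) < π.Rs → Λ.Pair F η e l₀ ∨ Λ.Pair F η' e l₀)
    (t : ℝ) : r ^ 2 * ∑ᶠ l, Λ.sm κ r x T t l ^ 2 ≤
      e + r ^ 2 * (∑ q ∈ F, ‖Lab.sk (η q) (Λ.sm κ r x T t)‖ ^ 2 +
        ∑ q ∈ F, ‖Lab.sk (η' q) (Λ.sm κ r x T t)‖ ^ 2) := by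
  have _ := hγ
  have n1 : 0 ≤ r ^ 2 * ∑ q ∈ F, ‖Lab.sk (η q) (Λ.sm κ r x T t)‖ ^ 2 := by positivity
  have n2 : 0 ≤ r ^ 2 * ∑ q ∈ F, ‖Lab.sk (η' q) (Λ.sm κ r x T t)‖ ^ 2 := by positivity
  rw [mul_add]
  by_cases hU : ∃ l₀, Λ.Psi r x T t l₀ < π.Rt + 1
  · obtain ⟨l₀, h0⟩ := hU
    have h1 : Λ.Psi r x T t l₀ ≠ π.Rs := by
      have h2 : (0 : ℝ) ≤ π.Rt := Nat.cast_nonneg _
      rw [π.Rs_eq]
      linarith [h0.ne.lt_or_gt]
    obtain ⟨j, i, hj⟩ := Psi_near Λ hr x T t h1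
    rcases hp l₀ j i hj with h2 | h2
    · linarith [SkPtX.pair Λ hπ hr h hκ F η x hT t h0 h2]
    · linarith [SkPtX.pair Λ hπ hr h hκ F η' x hT t h0 h2]
  · have h1 : ∀ l, Λ.sm κ r x T t l = 0 := fun l => sm_zero Λ hκ fun u hu =>
      (Lab.B_zero (not_lt.1 fun hl => hU ⟨l, near Λ hr h x hT t hu hl⟩) _).2
    have h2 : ∑ᶠ l, Λ.sm κ r x T t l ^ 2 = 0 := by simp [h1]
    rw [h2, mul_zero]
    linarith

end

end Vale.Agent.P184L
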