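import Vale.Agent.P184L.Gb5
import Vale.Agent.P184L.SkPt

/-! The gap of the mean free energy is controlled by the smoothed energy. Hint: by `gap_I`, `nn_aI` it suffices to bound `∫ ∑ B ^ 2 ∂_t Xi` (`Psi r' - Psi r = ∂_t Xi`: `av_hasDerivAt`, `deriv_Qr`, `av_sub`). `t ↦ ∑ B ^ 2 Xi` is `1`-periodic, so this is `-2 ∫ ⟨B', Y⟩`, `Y l = B l * Xi l`, `B' = dBt`. All labels active for `t ∈ [-2, 3]` lie in one finite set (`LF.compact`; note `r γ` may be large: use the compact interval `[-ℓ - 1, ℓ + 1]`). For `u ∈ [0, ℓ]`, `ℓ = r γ`: `∫ ⟨B' (t + u), Y t⟩ dt = ∫ ⟨B' t, Y (t - u)⟩ dt` by periodicity, and `|⟨B' t, Y (t - u) - Y t⟩| ≤ ‖B' t‖ * ℓ * sup ‖Y'‖` (mean value inequality for the scalar function `s ↦ ⟨B' t, Y s⟩`) with `‖B'‖ ≤ C b Rs / r`, `|Xi| ≤ C γ r Rs`, `|∂_t Xi| ≤ C γ Rs`, `‖Y'‖ ≤ C b γ Rs ^ 2`. Average over `κ` (Fubini) and use `2 |⟨sm, Y⟩| ≤ r ^ 2 ‖sm‖ ^ 2 + ‖Y‖ ^ 2 / r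 ^ 2`. -/

namespace Vale.Agent.P184L

open Finset MeasureTheory ProbabilityTheory Classical Vale.Agent.P184
open scoped ContDiff

noncomputable section

universe u

variable {G : Type u} [Group G]

variable {π : Par} {g : G} {L : Type u} (Λ : Lab π g L)

namespace Gb9X

section real
variable {κ : Measure ℝ} {ℓ : ℝ} [IsProbabilityMeasure κ]

omit [IsProbabilityMeasure κ] in
theorem aem (h : κ (Set.Icc 0 ℓ)ᶜ = 0) : ∀ᵐ u ∂κ, u ∈ Set.Icc 0 ℓ := mem_ae_iff.2 h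

omit [IsProbabilityMeasure κ] in
theorem res (h : κ (Set.Icc 0 ℓ)ᶜ = 0) : κ.restrict (Set.Icc 0 ℓ) = κ :=
  Measure.restrict_eq_self_of_ae_mem (aem h)

theorem intg (h : κ (Set.Icc 0 ℓ)ᶜ = 0) {φ : ℝ → ℝ} (hφ : Continuous φ) : Integrable φ κ := by
  rw [← res h]
  exact hφ.continuousOn.integrableOn_compact isCompact_Icc

theorem cont (h : κ (Set.Icc 0 ℓ)ᶜ = 0) {φ : ℝ → ℝ} (hφ : Continuous φ) :
    Continuous fun t => ∫ u, φ (t + u) ∂κ := by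
  have := continuous_parametric_integral_of_continuous (μ := κ) (f := fun t u : ℝ => φ (t + u))
    (hφ.comp continuous_add) (isCompact_Icc (a := 0) (b := ℓ))
  rwa [res h] at this

theorem swap (h : κ (Set.Icc 0 ℓ)ᶜ = 0) {φ : ℝ → ℝ} (hφ : Continuous φ) :
    ∫ t in (0 : ℝ)..1, ∫ u, φ (t + u) ∂κ = ∫ u, (∫ t in (0 : ℝ)..1, φ (t + u)) ∂κ := by
  refine intervalIntegral_integral_swap ?_
  rw [← res h, Measure.prod_restrict]
  exact ((hφ.comp continuous_add).continuousOn.integrableOn_compact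
    (isCompact_uIcc.prod isCompact_Icc)).mono_set (Set.prod_mono Set.uIoc_subset_uIcc le_rfl)

variable {ι : Type*} (s : Finset ι) {B B' X X' : ℝ → ι → ℝ} {C a x0 x1 r : ℝ}

theorem dbound {v w b x x' : ι → ℝ} (hC : 1 ≤ C) (ha : 0 < a) (h0 : 0 ≤ x0) (h1 : 0 ≤ x1)
    (hv : ∑ l ∈ s, v l ^ 2 ≤ a ^ 2) (hw : ∑ l ∈ s, w l ^ 2 ≤ a ^ 2) (hb : ∑ l ∈ s, b l ^ 2 ≤ C)
    (hx : ∀ l, |x l| ≤ x0) (hx' : ∀ l, |x' l| ≤ x1) :
    |∑ l ∈ s, v l * (w l * x l + b l * x' l)| ≤ x0 * a ^ 2 + x1 * a * C := by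
  have h2 (l : ι) : |v l * (w l * x l + b l * x' l)| ≤
      x0 / 2 * (v l ^ 2 + w l ^ 2) + x1 / 2 * (v l ^ 2 / a + a * b l ^ 2) := by
    have e1 : |v l| * |w l| ≤ (v l ^ 2 + w l ^ 2) / 2 := by
      nlinarith [sq_nonneg (|v l| - |w l|), sq_abs (v l), sq_abs (w l)]
    have e2 : |v l| * |b l| ≤ (v l ^ 2 / a + a * b l ^ 2) / 2 := by
      rw [div_add' _ _ _ ha.ne', div_div, le_div_iff₀ (by positivity)]
      nlinarith [sq_nonneg (|v l| - a * |b l|), sq_abs (v l), sq_abs (b l)]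
    calc _ ≤ |v l| * (|w l| * x0 + |b l| * x1) := by
          rw [abs_mul]
          refine mul_le_mul_of_nonneg_left ((abs_add_le _ _).trans ?_) (abs_nonneg _)
          rw [abs_mul, abs_mul]
          gcongr
          exacts [hx l, hx' l]
      _ ≤ _ := by nlinarith [mul_le_mul_of_nonneg_left e1 h0, mul_le_mul_of_nonneg_left e2 h1]
  refine (abs_sum_le_sum_abs _ _).trans ((sum_le_sum fun l _ => h2 l).trans ?_)
  simp only [sum_add_distrib, ← mul_sum, ← sum_div]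
  have e3 : (∑ l ∈ s, v l ^ 2) / a ≤ a * C := by
    rw [div_le_iff₀ ha]
    nlinarith [mul_le_mul_of_nonneg_left hC (sq_nonneg a)]
  have e4 := mul_le_mul_of_nonneg_left hb ha.le
  nlinarith [mul_le_mul_of_nonneg_left (add_le_add hv hw) h0,
    mul_le_mul_of_nonneg_left (add_le_add e3 e4) h1]

theorem core (hκ : κ (Set.Icc 0 ℓ)ᶜ = 0) (hℓ : 0 ≤ ℓ) (hr : 0 < r) (hC : 1 ≤ C) (ha : 0 < a)
    (h0 : 0 ≤ x0) (h1 : 0 ≤ x1) (hB : ∀ l t, HasDerivAt (fun t => B t l) (B' t l) t)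
    (hX : ∀ l t, HasDerivAt (fun t => X t l) (X' t l) t) (cB : ∀ l, Continuous fun t => B' t l)
    (cX : ∀ l, Continuous fun t => X' t l)
    (hΦ : ∑ l ∈ s, B 1 l ^ 2 * X 1 l = ∑ l ∈ s, B 0 l ^ 2 * X 0 l)
    (hD : ∀ u ∈ Set.Icc 0 ℓ, ∫ t in (0 : ℝ)..1, ∑ l ∈ s, B' (t + u) l * (B (t + u) l * X (t + u) l) =
      ∫ t in (0 : ℝ)..1, ∑ l ∈ s, B' t l * (B t l * X t l))
    (b1 : ∀ t, ∑ l ∈ s, B t l ^ 2 ≤ C) (b2 : ∀ t, ∑ l ∈ s, B' t l ^ 2 ≤ a ^ 2)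
    (b3 : ∀ t l, |X t l| ≤ x0) (b4 : ∀ t l, |X' t l| ≤ x1) :
    ∫ t in (0 : ℝ)..1, ∑ l ∈ s, B t l ^ 2 * X' t l ≤
      C * x0 ^ 2 / r ^ 2 + 2 * ℓ * (x0 * a ^ 2 + x1 * a * C) +
        r ^ 2 * ∫ t in (0 : ℝ)..1, ∑ l ∈ s, (∫ u, B' (t + u) l ∂κ) ^ 2 := by
  have c1 (l : ι) : Continuous fun t => B t l :=
    continuous_iff_continuousAt.2 fun t => (hB l t).continuousAt
  have c2 (l : ι) : Continuous fun t => X t l :=
    continuous_iff_continuousAt.2 fun t => (hX l t).continuousAt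
  have cD : Continuous fun t => ∑ l ∈ s, B' t l * (B t l * X t l) := by fun_prop
  have cN : Continuous fun t => ∑ l ∈ s, B t l ^ 2 * X' t l := by fun_prop
  have cS : Continuous fun t => ∑ l ∈ s, (∫ u, B' (t + u) l ∂κ) ^ 2 :=
    continuous_finsetSum _ fun l _ => (cont hκ (cB l)).pow 2
  have e1 := intervalIntegral.integral_eq_sub_of_hasDerivAt (a := 0) (b := 1)
    (f := fun t => ∑ l ∈ s, B t l ^ 2 * X t l)
    (f' := fun t => 2 * ∑ l ∈ s, B' t l * (B t l * X t l) + ∑ l ∈ s, B t l ^ 2 * X' t l)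
    (fun t _ => (HasDerivAt.fun_sum fun l _ => ((hB l t).fun_pow 2).fun_mul (hX l t)).congr_deriv (by
      rw [mul_sum, ← sum_add_distrib]
      exact sum_congr rfl fun l _ => by ring))
    (((cD.const_mul 2).add cN).intervalIntegrable _ _)
  rw [hΦ, sub_self, intervalIntegral.integral_add ((cD.const_mul 2).intervalIntegrable _ _)
    (cN.intervalIntegrable _ _), intervalIntegral.integral_const_mul] at e1
  have e2 := swap hκ cD
  rw [integral_congr_ae ((aem hκ).mono hD), integral_const, probReal_univ, one_smul] at e2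
  have e3 (t : ℝ) : -2 * ∫ u, ∑ l ∈ s, B' (t + u) l * (B (t + u) l * X (t + u) l) ∂κ ≤
      C * x0 ^ 2 / r ^ 2 + 2 * ℓ * (x0 * a ^ 2 + x1 * a * C) +
        r ^ 2 * ∑ l ∈ s, (∫ u, B' (t + u) l ∂κ) ^ 2 := by
    have i1 (l : ι) : Integrable (fun u => B' (t + u) l * (B t l * X t l)) κ :=
      intg hκ (((cB l).comp (continuous_const_add t)).mul continuous_const)
    have f1 : ∫ u, (∑ l ∈ s, B' (t + u) l * (B t l * X t l) - ℓ * (x0 * a ^ 2 + x1 * a * C)) ∂κ ≤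
        ∫ u, ∑ l ∈ s, B' (t + u) l * (B (t + u) l * X (t + u) l) ∂κ := by
      refine integral_mono_ae ((integrable_finsetSum _ fun l _ => i1 l).sub (integrable_const _))
        (intg hκ (cD.comp (continuous_const_add t))) ((aem hκ).mono fun u hu => ?_)
      have := convex_univ.norm_image_sub_le_of_norm_hasDerivWithin_le
        (f := fun σ => ∑ l ∈ s, B' (t + u) l * (B σ l * X σ l))
        (f' := fun σ => ∑ l ∈ s, B' (t + u) l * (B' σ l * X σ l + B σ l * X' σ l))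
        (fun σ _ => (HasDerivAt.fun_sum fun l _ =>
          ((hB l σ).fun_mul (hX l σ)).const_mul _).hasDerivWithinAt)
        (fun σ _ => dbound s hC ha h0 h1 (b2 _) (b2 σ) (b1 σ) (b3 σ) (b4 σ))
        (Set.mem_univ t) (Set.mem_univ (t + u))
      rw [add_sub_cancel_left, Real.norm_of_nonneg hu.1, Real.norm_eq_abs] at this
      have h3 := mul_le_mul_of_nonneg_left hu.2
        (show 0 ≤ x0 * a ^ 2 + x1 * a * C by positivity)
      have h4 := (abs_le.1 this).1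
      beta_reduce
      linarith
    rw [integral_sub (integrable_finsetSum _ fun l _ => i1 l) (integrable_const _),
      integral_finsetSum _ fun l _ => i1 l, integral_const, probReal_univ, one_smul] at f1
    simp only [integral_mul_const] at f1
    have f2 : -2 * ∑ l ∈ s, (∫ u, B' (t + u) l ∂κ) * (B t l * X t l) ≤
        r ^ 2 * ∑ l ∈ s, (∫ u, B' (t + u) l ∂κ) ^ 2 + x0 ^ 2 / r ^ 2 * ∑ l ∈ s, B t l ^ 2 := by
      rw [mul_sum, mul_sum, mul_sum, ← sum_add_distrib]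
      refine sum_le_sum fun l _ => ?_
      generalize ∫ u, B' (t + u) l ∂κ = m
      have g1 : X t l ^ 2 / r ^ 2 * B t l ^ 2 ≤ x0 ^ 2 / r ^ 2 * B t l ^ 2 := by
        gcongr ?_ / _ * _
        exact sq_le_sq' (abs_le.1 (b3 t l)).1 (abs_le.1 (b3 t l)).2
      have g2 : (r * m + B t l * X t l / r) ^ 2 =
          r ^ 2 * m ^ 2 + X t l ^ 2 / r ^ 2 * B t l ^ 2 + 2 * (m * (B t l * X t l)) := by
        field_simp
        ring
      nlinarith [sq_nonneg (r * m + B t l * X t l / r)]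
    have f3 := mul_le_mul_of_nonneg_left (b1 t) (show 0 ≤ x0 ^ 2 / r ^ 2 by positivity)
    have f4 : x0 ^ 2 / r ^ 2 * C = C * x0 ^ 2 / r ^ 2 := by ring
    linarith
  have e4 := intervalIntegral.integral_mono_on zero_le_one
    (((cont hκ cD).const_mul (-2)).intervalIntegrable (μ := volume) _ _)
    (((cS.const_mul _).const_add _).intervalIntegrable _ _) fun t _ => e3 t
  rw [intervalIntegral.integral_const_mul, e2, intervalIntegral.integral_add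
    (continuous_const.intervalIntegrable _ _) ((cS.const_mul _).intervalIntegrable _ _),
    intervalIntegral.integral_const_mul, intervalIntegral.integral_const] at e4
  simp only [sub_zero, one_smul] at e4
  linarith

end real

theorem fin {r : ℝ} (hr : 0 < r) {k : ℕ} (x : Fin (k + 1) → G) (T : E (k + 1)) (a b : ℝ) :
    ∃ s : Finset L, ∀ t ∈ Set.Icc a b, ∀ l, l ∉ s →
      Λ.B (Λ.Psi r x T t) l = 0 ∧ Λ.dBt r x T t l = 0 := by
  obtain ⟨s, hs⟩ := ((lf_Psi Λ hr x).comp (φ := fun t : ℝ => (T, t))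
    (contDiff_const.prodMk contDiff_id)).compact (isCompact_Icc (a := a) (b := b))
  exact ⟨s, fun t ht l hl => Lab.B_zero (hs t ht l hl) _⟩

theorem fs {s : Finset L} {F : L → ℝ} (h : ∀ l, l ∉ s → F l = 0) : ∑ᶠ l, F l = ∑ l ∈ s, F l :=
  finsum_eq_sum_of_support_subset _ fun l hl => by_contra fun e => hl (h l e)

theorem le_fs {s' : Finset L} {F : L → ℝ} (h : ∀ l, l ∉ s' → F l = 0) (s : Finset L) :
    ∑ l ∈ s, F l ^ 2 ≤ ∑ᶠ l, F l ^ 2 := by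
  rw [fs (s := s ∪ s') fun l hl => by rw [h l fun e => hl (mem_union_right _ e), sq, mul_zero]]
  exact sum_le_sum_of_subset_of_nonneg subset_union_left fun _ _ _ => sq_nonneg _

theorem sm_zero {r : ℝ} {κ : Measure ℝ} {ℓ : ℝ} (hκ : κ (Set.Icc 0 ℓ)ᶜ = 0) {k : ℕ}
    {x : Fin (k + 1) → G} {T : E (k + 1)} {a b t : ℝ} (ht : t ∈ Set.Icc a b) {l : L}
    (h : ∀ t ∈ Set.Icc a (b + ℓ), Λ.dBt r x T t l = 0) : Λ.sm κ r x T t l ^ 2 = 0 := by
  rw [Lab.sm, integral_congr_ae ((aem hκ).mono fun u hu =>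
    h (t + u) ⟨by linarith [ht.1, hu.1], add_le_add ht.2 hu.2⟩), integral_zero, sq, mul_zero]

theorem arith {C0 C K b R γ r : ℝ} (h0 : 1 ≤ C0) (hC : 1 ≤ C) (hK : 1 ≤ K) (hb : 1 ≤ b)
    (hR : 1 ≤ R) (hγ : 0 < γ) (hr : 0 < r) :
    C * (4 * r * (K * γ) * R) ^ 2 / r ^ 2 + 2 * (r * γ) * (4 * r * (K * γ) * R *
      (C * (b * (2 * K * R / r))) ^ 2 + 8 * K * γ * R * (C * (b * (2 * K * R / r))) * C) +
      C0 * b * (γ * R) ^ 2 ≤ (C0 + 80 * C ^ 2 * K ^ 3) * b ^ 2 * R ^ 3 * γ ^ 2 := by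
  have e : C * (4 * r * (K * γ) * R) ^ 2 / r ^ 2 + 2 * (r * γ) * (4 * r * (K * γ) * R *
      (C * (b * (2 * K * R / r))) ^ 2 + 8 * K * γ * R * (C * (b * (2 * K * R / r))) * C) =
      (16 * (C ^ 1 * K ^ 2 * b ^ 0 * R ^ 2) + 32 * (C ^ 2 * K ^ 3 * b ^ 2 * R ^ 3) +
        32 * (C ^ 2 * K ^ 2 * b ^ 1 * R ^ 2)) * γ ^ 2 := by
    field_simp
    ring
  have e1 : C ^ 1 * K ^ 2 * b ^ 0 * R ^ 2 ≤ C ^ 2 * K ^ 3 * b ^ 2 * R ^ 3 := by gcongr <;> norm_num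
  have e2 : C ^ 2 * K ^ 2 * b ^ 1 * R ^ 2 ≤ C ^ 2 * K ^ 3 * b ^ 2 * R ^ 3 := by gcongr <;> norm_num
  have e3 : C0 * b ^ 1 * R ^ 2 ≤ C0 * b ^ 2 * R ^ 3 := by gcongr <;> norm_num
  rw [e]
  nlinarith [mul_le_mul_of_nonneg_right (add_le_add (add_le_add e1 e2) e3) (sq_nonneg γ),
    mul_le_mul_of_nonneg_right e1 (sq_nonneg γ), mul_le_mul_of_nonneg_right e2 (sq_nonneg γ),
    mul_le_mul_of_nonneg_right e3 (sq_nonneg γ)]

end Gb9X

theorem continuous_sm (hπ : π.Ok) {r : ℝ} (hr : 0 < r) {κ : Measure ℝ} {ℓ Ξ ε : ℝ}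
    (hκ : Filt κ ℓ Ξ ε) {k : ℕ} (x : Fin (k + 1) → G) (T : E (k + 1)) :
    (∀ l, Continuous fun t => Λ.sm κ r x T t l) ∧
      Continuous fun t => ∑ᶠ l, Λ.sm κ r x T t l ^ 2 := by
  obtain ⟨_, hκ, -⟩ := hκ
  have h1 (l : L) : Continuous fun t => Λ.sm κ r x T t l :=
    Gb9X.cont hκ ((continuous_dBt Λ hπ hr x T 0).1 l)
  refine ⟨h1, continuous_iff_continuousAt.2 fun t0 => ?_⟩
  obtain ⟨s, hs⟩ := Gb9X.fin Λ hr x T (t0 - 1) (t0 + 1 + ℓ)
  refine (continuous_finsetSum s fun l _ => (h1 l).pow 2).continuousAt.congr ?_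
  filter_upwards [Icc_mem_nhds (sub_one_lt t0) (lt_add_one t0)] with t ht
  exact (Gb9X.fs fun l hl => Gb9X.sm_zero Λ hκ ht fun t ht => (hs t ht l hl).2).symm

theorem gap_sm (G : Type u) [Group G] : ∃ C : ℝ, 1 ≤ C ∧ ∀ (π : Par) (g : G) (L : Type u)
    (Λ : Lab π g L), π.Ok → ∀ r γ : ℝ, 0 < r → 0 < γ → γ ≤ 1 → ∀ (κ : Measure ℝ) (Ξ ε : ℝ),
    Filt κ (r * γ) Ξ ε → ∀ (k : ℕ) (x : Fin (k + 1) → G) (T : E (k + 1)), Ord T →
    Λ.A (r * (1 + γ)) x T - Λ.A r x T ≤ C * π.b ^ 2 * π.Rs ^ 3 * γ ^ 2 +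
      r ^ 2 * ∫ t in (0 : ℝ)..1, ∑ᶠ l, Λ.sm κ r x T t l ^ 2 := by
  obtain ⟨C0, hC0, k0⟩ := gap_I G
  obtain ⟨C, hC, k1⟩ := gibbs_norm G
  have hK := one_le_CK
  refine ⟨C0 + 80 * C ^ 2 * CK ^ 3, le_add_of_le_of_nonneg hC0 (by positivity),
    fun π g L Λ hπ r γ hr hγ hγ1 κ Ξ ε hκ k x T hT => ?_⟩
  obtain ⟨_, hκ, -⟩ := hκ
  have hb := hπ.1
  have hR : (1 : ℝ) ≤ π.Rs := by
    rw [π.Rs_eq]
    linarith [(Nat.cast_nonneg π.Rt : (0 : ℝ) ≤ π.Rt)]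
  have hℓ : 0 < r * γ := mul_pos hr hγ
  have hrr : r ≤ r * (1 + γ) := by linarith
  have hr2 : r * (1 + γ) ≤ 2 * r := by nlinarith
  have hQ := ker_Qr hr hrr
  have hf (l : L) (u : G) : |Λ.f l u| ≤ π.Rs := by
    rw [abs_of_nonneg (Λ.f_nonneg l u)]
    exact Λ.f_le l u
  have hX' (t : ℝ) (l : L) : Λ.Psi (r * (1 + γ)) x T t l - Λ.Psi r x T t l =
      -av g (deriv (Qr r (r * (1 + γ)))) (Λ.f l) x T t := by
    rw [deriv_Qr hr (hr.trans_le hrr), av_sub g (ker_Pr hr) (ker_Pr (hr.trans_le hrr)), neg_sub]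
    rfl
  obtain ⟨s, hs⟩ := Gb9X.fin Λ hr x T 0 (1 + r * γ)
  have hI {t : ℝ} (ht : t ∈ Set.uIcc (0 : ℝ) 1) {u : ℝ} (hu : u ∈ Set.Icc 0 (r * γ)) :
      t + u ∈ Set.Icc 0 (1 + r * γ) := by
    rw [Set.uIcc_of_le zero_le_one] at ht
    exact ⟨add_nonneg ht.1 hu.1, add_le_add ht.2 hu.2⟩
  have hI0 {t : ℝ} (ht : t ∈ Set.uIcc (0 : ℝ) 1) : t ∈ Set.Icc 0 (1 + r * γ) := by
    simpa using hI ht ⟨le_rfl, hℓ.le⟩
  have hsh (F : ℝ → ℝ → ℝ → ℝ) : Function.Periodic (fun t => ∑ᶠ l, F (Λ.B (Λ.Psi r x T t) l)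
      (Λ.dBt r x T t l) (Λ.Xi r (r * (1 + γ)) x T t l)) 1 := fun t => by
    beta_reduce
    rw [← finsum_comp_equiv Λ.sh]
    refine finsum_congr fun l => ?_
    rw [(B_Psi_sh Λ r x T t l).1, (B_Psi_sh Λ r x T t l).2, Lab.Xi, av_sh]
    rfl
  have key := Gb9X.core s (B := fun t => Λ.B (Λ.Psi r x T t)) (B' := Λ.dBt r x T)
    (X := Λ.Xi r (r * (1 + γ)) x T)
    (X' := fun t l => Λ.Psi (r * (1 + γ)) x T t l - Λ.Psi r x T t l) (C := C)
    (a := C * (π.b * (2 * CK * π.Rs / r))) (x0 := 4 * r * (CK * γ) * π.Rs)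
    (x1 := 8 * CK * γ * π.Rs) hκ hℓ.le hr hC (by positivity) (by positivity) (by positivity)
    (hasDerivAt_B Λ hπ hr x T) (fun l t => hX' t l ▸ av_hasDerivAt g hQ _ x T t)
    (continuous_dBt Λ hπ hr x T 0).1 (fun l => by
      simp only [hX']
      exact ((contDiff_av g hQ.deriv.1 _ x).continuous.comp (Continuous.prodMk_right T)).neg)
    ?_ (fun u hu => ?_) (fun t => ?_) (fun t => ?_) (fun t l => ?_) fun t l => ?_
  · have e1 := k0 π g L Λ hπ r γ hr hγ.le hγ1 k x T hT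
    rw [nn_aI Λ hπ hr hrr, intervalIntegral.integral_congr fun t ht => Gb9X.fs (s := s)
      fun l hl => by rw [(hs t (hI0 ht) l hl).1, sq, zero_mul, zero_mul]] at e1
    rw [intervalIntegral.integral_congr fun t ht => Gb9X.fs (s := s) fun l hl =>
      Gb9X.sm_zero Λ hκ (Set.uIcc_of_le (zero_le_one' ℝ) ▸ ht) fun t ht => (hs t ht l hl).2]
    have e2 := Gb9X.arith hC0 hC hK (show 1 ≤ π.b by linarith) hR hγ hr
    simp only [Lab.sm]
    linarith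
  · have := hsh (fun b _ y => b ^ 2 * y) 0
    beta_reduce at this
    rwa [zero_add, Gb9X.fs (s := s) fun l hl => by
      rw [(hs 1 (hI0 Set.right_mem_uIcc) l hl).1, sq, zero_mul, zero_mul], Gb9X.fs (s := s)
      fun l hl => by rw [(hs 0 (hI0 Set.left_mem_uIcc) l hl).1, sq, zero_mul, zero_mul]] at this
  · have e1 := (hsh fun b b' y => b' * (b * y)).intervalIntegral_add_eq u 0
    have e2 := intervalIntegral.integral_comp_add_right (a := 0) (b := 1) (fun t => ∑ᶠ l,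
      Λ.dBt r x T t l * (Λ.B (Λ.Psi r x T t) l * Λ.Xi r (r * (1 + γ)) x T t l)) u
    rw [zero_add, add_comm 1 u, e1, zero_add] at e2
    rw [← intervalIntegral.integral_congr fun t ht => Gb9X.fs (s := s) fun l hl => by
      rw [(hs _ (hI ht hu) l hl).2, zero_mul], e2]
    exact intervalIntegral.integral_congr fun t ht => Gb9X.fs fun l hl => by
      rw [(hs _ (hI0 ht) l hl).2, zero_mul]
  · obtain ⟨s', hs'⟩ := Gb9X.fin Λ hr x T t t
    exact (Gb9X.le_fs (fun l hl => (hs' t ⟨le_rfl, le_rfl⟩ l hl).1) s).trans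
      (k1 π g L Λ hπ _ (adm_Psi Λ hr x hT t)).1
  · obtain ⟨s', hs'⟩ := Gb9X.fin Λ hr x T t t
    refine (Gb9X.le_fs (fun l hl => (hs' t ⟨le_rfl, le_rfl⟩ l hl).2) s).trans
      (((k1 π g L Λ hπ _ (adm_Psi Λ hr x hT t)).2.1 _ (2 * CK * π.Rs / r) (by positivity)
        fun l => ?_).2.trans ?_)
    · rw [Lab.dPsi, abs_neg]
      refine (av_abs_le g (ker_Pr hr).deriv.1 (fun u => (Pr_bounds hr u).2) x hT t (hf l)).trans_eq ?_
      field_simp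
    · rw [mul_pow C]
      exact mul_le_mul_of_nonneg_right (by nlinarith) (sq_nonneg _)
  · refine (av_abs_le g hQ (fun u => (Qr_bounds hr hγ.le hγ1 u).1) x hT t (hf l)).trans ?_
    gcongr ?_ * _ * _
    linarith
  · rw [hX', abs_neg]
    refine (av_abs_le g hQ.deriv.1 (fun u => (Qr_bounds hr hγ.le hγ1 u).2) x hT t (hf l)).trans ?_
    calc _ ≤ 2 * (2 * r) * (2 * CK * γ / r) * π.Rs := by gcongr
      _ = _ := by field_simp; norm_num

end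

end Vale.Agent.P184L
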