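import Vale.Agent.P184L.Twist

/-! Peierls bound for clusters and existence of good copies. -/

namespace Vale.Agent.P184L

open Finset MeasureTheory ProbabilityTheory Classical Vale.Agent.P184
open scoped ContDiff

noncomputable section

universe u

variable {G : Type u} [Group G]

variable {V : Type u} [DecidableEq V] {X : Type} [Fintype X] [Nonempty X] [MeasurableSpace X]
  [MeasurableSingletonClass X]

namespace Heal1X

theorem sep (Γ : Gr V) (ρ : ℕ) (B : (V → X) → V → Prop)
    (hB : ∀ v, DependsOn (fun σ => B σ v) (Γ.ball ρ v : Set V)) {c : ℝ} (hc0 : 0 ≤ c)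
    (hc : ∀ v, (iid (unif X) V).real {σ | B σ v} ≤ c) {zs : List V}
    (h : zs.Pairwise fun a b => b ∉ Γ.ball (10 * ρ) a) :
    (iid (unif X) V).real {σ | ∀ z ∈ zs, B σ z} ≤ c ^ zs.length := by
  induction zs with
  | nil => simp
  | cons z zs ih =>
    rw [List.pairwise_cons] at h
    simp only [List.forall_mem_cons]
    rw [iid_and (unif X) (A := Γ.ball ρ z) (A' := zs.toFinset.biUnion (Γ.ball ρ)),
      List.length_cons, pow_succ, mul_comm]
    · exact mul_le_mul (ih h.2) (hc z) measureReal_nonneg (pow_nonneg hc0 _)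
    · rw [disjoint_left]
      intro a ha ha'
      obtain ⟨w, hw, ha'⟩ := mem_biUnion.1 ha'
      exact h.1 w (List.mem_toFinset.1 hw) (Gr.ball_trans' ha (Gr.ball_symm ha') (by omega))
    · exact hB z
    · refine fun o o' ho => propext (forall₂_congr fun w hw => iff_of_eq (hB w fun a ha => ?_))
      exact ho a (mem_coe.2 (mem_biUnion.2 ⟨w, List.mem_toFinset.2 hw, ha⟩))

omit [DecidableEq V] in
theorem fail {J : Type} [DecidableEq J] (A : Finset V) (s : V → X) (T : Finset J) :
    (iid (unif X) (V × J)).real {o | ∀ j ∈ T, ¬ ∀ a ∈ A, o (a, j) = s a} =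
      (1 - (1 / Fintype.card X : ℝ) ^ A.card) ^ T.card := by
  induction T using Finset.induction_on with
  | empty => simp
  | insert j T hj ih =>
    have hd : DependsOn (fun o : V × J → X => ∀ a ∈ A, o (a, j) = s a)
        ((A ×ˢ ({j} : Finset J) : Finset (V × J)) : Set (V × J)) := fun o o' h =>
      propext (forall₂_congr fun a ha => by
        rw [h (a, j) (mem_coe.2 (mem_product.2 ⟨ha, mem_singleton_self j⟩))])
    have h1 : (iid (unif X) (V × J)).real {o | ¬ ∀ a ∈ A, o (a, j) = s a} =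
        1 - (1 / Fintype.card X : ℝ) ^ A.card := by
      have h2 := iid_agree (X := X) (A ×ˢ ({j} : Finset J)) fun x => s x.1
      rw [card_product, card_singleton, mul_one] at h2
      rw [← h2]
      refine (probReal_compl_eq_one_sub (measurableSet_of_dep hd)).trans ?_
      congr 2
      ext o
      simp
    simp only [forall_mem_insert]
    rw [iid_and (unif X) (A := A ×ˢ {j}) (A' := A ×ˢ T), ih, h1, card_insert_of_notMem hj,
      pow_succ']
    · rw [disjoint_left]
      intro x hx hx'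
      exact hj (mem_singleton.1 (mem_product.1 hx).2 ▸ (mem_product.1 hx').2)
    · exact fun o o' h => congrArg Not (hd h)
    · exact fun o o' h => propext (forall₂_congr fun i hi => not_congr (forall₂_congr fun a ha => by
        rw [h (a, i) (mem_coe.2 (mem_product.2 ⟨ha, hi⟩))]))

end Heal1X

theorem peierls (Γ : Gr V) (ρ : ℕ) (B : (V → X) → V → Prop)
    (hB : ∀ v, DependsOn (fun σ => B σ v) (Γ.ball ρ v : Set V)) {c : ℝ}
    (hc : ∀ v, (iid (unif X) V).real {σ | B σ v} ≤ c) (j : ℕ) (v : V) :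
    (iid (unif X) V).real {σ | ∃ y, clus Γ ρ (B σ) v y ∧ y ∉ Γ.ball (j * (12 * ρ)) v} ≤
      ((Γ.D : ℝ) ^ (12 * ρ) * c) ^ j := by
  obtain rfl : ‹DecidableEq V› = fun a b => propDecidable (a = b) := Subsingleton.elim _ _
  have hc0 : 0 ≤ c := measureReal_nonneg.trans (hc v)
  calc _ ≤ (iid (unif X) V).real (⋃ zs ∈ (paths (Γ.ball (12 * ρ)) j v).filter
        (fun zs => zs.Pairwise fun a b => b ∉ Γ.ball (10 * ρ) a), {σ | ∀ z ∈ zs, B σ z}) := by
        refine measureReal_mono (fun o ho => ?_) (measure_ne_top _ _)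
        obtain ⟨y, hy, hy'⟩ := ho
        obtain ⟨zs, h1, h2, h3⟩ := Gr.exists_sep (Γ := Γ) (m := ρ) (P := B o) j hy hy'
        simp only [Set.mem_iUnion]
        exact ⟨zs, mem_filter.2 ⟨h1, h3.of_cons⟩, h2⟩
    _ ≤ _ := by
        refine (measureReal_biUnion_finset_le _ _).trans ?_
        refine (sum_le_card_nsmul _ _ (c ^ j) fun zs hzs => ?_).trans ?_
        · obtain ⟨h1, h2⟩ := mem_filter.1 hzs
          rw [← length_of_mem_paths h1]
          exact Heal1X.sep Γ ρ B hB hc0 hc h2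
        · rw [nsmul_eq_mul, mul_pow]
          have : (((paths (Γ.ball (12 * ρ)) j v).filter
              (fun zs => zs.Pairwise fun a b => b ∉ Γ.ball (10 * ρ) a)).card : ℝ)
              ≤ (Γ.D ^ (12 * ρ)) ^ j := by
            exact_mod_cast (card_filter_le _ _).trans (card_paths (Gr.card_ball (12 * ρ)) j v)
          gcongr

theorem copies (Γ : Gr V) (ρ R : ℕ) (B : (V → X) → V → Prop)
    (hB : ∀ v, DependsOn (fun σ => B σ v) (Γ.ball ρ v : Set V))
    (hex : ∀ K : Finset V, ∃ σ, ∀ v ∈ K, ¬ B σ v) {δ : ℝ} (hδ : 0 < δ) :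
    ∃ N : ℕ, ∀ v, (iid (unif X) (V × Fin (N + 1))).real {o | ∃ K ⊆ Γ.ball R v,
      ∀ j, ∃ y ∈ K, B (fun a => o (a, j)) y} ≤ δ := by
  have hX : (1 : ℝ) ≤ Fintype.card X := by exact_mod_cast Fintype.card_pos
  have h0 : (0 : ℝ) < 1 / Fintype.card X := by positivity
  have h1 : (1 / Fintype.card X : ℝ) ≤ 1 := (div_le_one (by positivity)).2 hX
  obtain ⟨q, hq⟩ : ∃ q : ℝ, q = 1 - (1 / Fintype.card X : ℝ) ^ Γ.D ^ (R + ρ) := ⟨_, rfl⟩
  have hq0 : 0 ≤ q := hq ▸ sub_nonneg.2 (pow_le_one₀ h0.le h1)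
  have hq1 : q < 1 := hq ▸ sub_lt_self _ (pow_pos h0 _)
  obtain ⟨N, hN⟩ := exists_pow_lt_of_lt_one (show 0 < δ / 2 ^ Γ.D ^ R by positivity) hq1
  choose s hs using hex
  refine ⟨N, fun v => ?_⟩
  calc _ ≤ (iid (unif X) (V × Fin (N + 1))).real (⋃ K ∈ (Γ.ball R v).powerset,
        {o | ∀ j ∈ univ, ¬ ∀ a ∈ K.biUnion (Γ.ball ρ), o (a, j) = s K a}) := by
        refine measureReal_mono (fun o ho => ?_) (measure_ne_top _ _)
        obtain ⟨K, hK, ho⟩ := ho
        simp only [Set.mem_iUnion]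
        refine ⟨K, mem_powerset.2 hK, fun j _ h => ?_⟩
        obtain ⟨y, hy, hb⟩ := ho j
        exact hs K y hy ((hB y fun a ha => h a (mem_biUnion.2 ⟨y, hy, ha⟩)).mp hb)
    _ ≤ _ := by
        refine (measureReal_biUnion_finset_le _ _).trans ?_
        refine (sum_le_card_nsmul _ _ (q ^ N) fun K hK => ?_).trans ?_
        · have hA : (K.biUnion (Γ.ball ρ)).card ≤ Γ.D ^ (R + ρ) :=
            (card_le_card fun a ha => by
              obtain ⟨y, hy, ha⟩ := mem_biUnion.1 ha
              exact Gr.ball_trans (mem_powerset.1 hK hy) ha).trans (Gr.card_ball _ v)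
          rw [Heal1X.fail, card_univ, Fintype.card_fin]
          refine (pow_le_pow_left₀ (sub_nonneg.2 (pow_le_one₀ h0.le h1)) ?_ _).trans
            (pow_le_pow_of_le_one hq0 hq1.le (Nat.le_succ N))
          rw [hq]
          exact sub_le_sub_left (pow_le_pow_of_le_one h0.le h1 hA) _
        · rw [nsmul_eq_mul, card_powerset, Nat.cast_pow, Nat.cast_ofNat]
          rw [lt_div_iff₀' (by positivity)] at hN
          exact (mul_le_mul_of_nonneg_right (pow_le_pow_right₀ one_le_two (Gr.card_ball R v))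
            (pow_nonneg hq0 _)).trans hN.le

end

end Vale.Agent.P184L
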