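import Vale.Agent.P184L.Heal1

/-! Healing: two fields which are rarely both bad. Hint: choose `j` with `(1 / 2) ^ j ≤ δ / 2`, `R = 2 j (12 ρ)`, `N` from `copies`. With `σ₀ = o (·, 0)`, `small v := ∀ y y', clus v y → clus v y' → y' ∈ ball R y`, `ok a j := ∀ v ∈ ball ρ a, B σ₀ v → ∀ y, clus v y → ¬ B (o (·, j)) y`, put `idx o a =` the least `j` with `ok a j` if all bad `v ∈ ball ρ a` are small and such a `j` exists, else `0` (`Finset.min'` of a filter, or `Fin.find`). Locality: `small v` and, if it holds, the cluster are determined by `σ₀` on `ball (R + 3 ρ) v` (induction on `ReflTransGen`). If `v` is bad and small, then for `a ∈ ball ρ v` all bad vertices of `ball ρ a` have the same cluster as `v`, so `ok a j ↔ ∀ y, clus v y → ¬ B (o (·, j)) y` does not depend on `a`; if some `j` is ok the second field agrees with that copy on `ball ρ v` and is good at `v`. The probability of not small is computed by `iid_inj` (the event depends on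 a ball) and `peierls`. -/

namespace Vale.Agent.P184L

open Finset MeasureTheory ProbabilityTheory Classical Vale.Agent.P184
open scoped ContDiff

noncomputable section

universe u

variable {G : Type u} [Group G]

namespace Heal2X

variable {V : Type u} [DecidableEq V] {Γ : Gr V} {ρ R : ℕ}

/-- small clusters -/
def small (Γ : Gr V) (ρ R : ℕ) (P : V → Prop) (x : V) : Prop :=
  ∀ y z, clus Γ ρ P x y → clus Γ ρ P x z → z ∈ Γ.ball R y

/-- the copy with bad set `Q` heals all clusters near `a` -/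
def cnd (Γ : Gr V) (ρ R : ℕ) (P Q : V → Prop) (a : V) : Prop :=
  ∀ v ∈ Γ.ball ρ a, P v → small Γ ρ R P v ∧ ∀ y, clus Γ ρ P v y → ¬ Q y

theorem clus_congr {P P' : V → Prop} {x : V} (h : ∀ a ∈ Γ.ball (R + 2 * ρ) x, P a ↔ P' a)
    (hs : small Γ ρ R P x) (y : V) : clus Γ ρ P x y ↔ clus Γ ρ P' x y := by
  have hb : ∀ y z, clus Γ ρ P x y → z ∈ Γ.ball (2 * ρ) y → (P z ↔ P' z) := fun y z hy hz =>
    h z (Gr.ball_trans (hs x y .refl hy) hz)
  constructor
  · intro hy
    induction hy with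
    | refl => exact .refl
    | tail h1 h2 ih => exact ih.tail ⟨h2.1, (hb _ _ h1 h2.1).1 h2.2⟩
  · intro hy
    induction hy with
    | refl => exact .refl
    | tail h1 h2 ih => exact ih.tail ⟨h2.1, (hb _ _ ih h2.1).2 h2.2⟩

theorem small_congr {P P' : V → Prop} {x : V} (h : ∀ a ∈ Γ.ball (R + 2 * ρ) x, P a ↔ P' a)
    (hs : small Γ ρ R P x) : small Γ ρ R P' x :=
  fun y z hy hz => hs y z ((clus_congr h hs y).2 hy) ((clus_congr h hs z).2 hz)

theorem cnd_congr {P P' Q Q' : V → Prop} {a : V} (h : ∀ b ∈ Γ.ball (R + 3 * ρ) a, P b ↔ P' b)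
    (h' : ∀ b ∈ Γ.ball (R + 3 * ρ) a, Q b ↔ Q' b) (hc : cnd Γ ρ R P Q a) :
    cnd Γ ρ R P' Q' a := by
  intro v hv hP
  obtain ⟨h1, h2⟩ := hc v hv ((h v (Gr.ball_mono (by omega) hv)).2 hP)
  have h3 : ∀ b ∈ Γ.ball (R + 2 * ρ) v, P b ↔ P' b := fun b hb =>
    h b (Gr.ball_trans' hv hb (by omega))
  refine ⟨small_congr h3 h1, fun y hy hQ => ?_⟩
  have h4 := (clus_congr h3 h1 y).2 hy
  exact h2 y h4 ((h' y (Gr.ball_trans' hv (h1 v y .refl h4) (by omega))).2 hQ)

theorem clus_aut_of {γ : V ≃ V} (h : Γ.Aut γ) {P P' : V → Prop} (hP : ∀ v, P' v ↔ P (γ v))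
    {x y : V} (hb : clus Γ ρ P' x y) : clus Γ ρ P (γ x) (γ y) := by
  induction hb with
  | refl => exact .refl
  | tail _ h2 ih => exact ih.tail ⟨h.ball_of h2.1, (hP _).1 h2.2⟩

theorem clus_aut {γ : V ≃ V} (h : Γ.Aut γ) {P P' : V → Prop} (hP : ∀ v, P' v ↔ P (γ v))
    (x y : V) : clus Γ ρ P (γ x) (γ y) ↔ clus Γ ρ P' x y := by
  refine ⟨fun hb => ?_, clus_aut_of h hP⟩
  have := clus_aut_of (ρ := ρ) h.symm (P := P') (P' := P) (fun v => by rw [hP]; simp) hb
  simpa using this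

theorem small_aut {γ : V ≃ V} (h : Γ.Aut γ) {P P' : V → Prop} (hP : ∀ v, P' v ↔ P (γ v))
    (x : V) : small Γ ρ R P (γ x) ↔ small Γ ρ R P' x := by
  unfold small
  rw [γ.surjective.forall₂]
  simp only [clus_aut h hP, h.ball_iff]

theorem cnd_aut {γ : V ≃ V} (h : Γ.Aut γ) {P P' Q Q' : V → Prop} (hP : ∀ v, P' v ↔ P (γ v))
    (hQ : ∀ v, Q' v ↔ Q (γ v)) (a : V) : cnd Γ ρ R P' Q' a ↔ cnd Γ ρ R P Q (γ a) := by
  unfold cnd
  symm
  rw [γ.surjective.forall]
  refine forall_congr' fun v => ?_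
  rw [h.ball_iff, small_aut h hP, ← hP, γ.surjective.forall (p := fun y => clus Γ ρ P (γ v) y → _)]
  simp only [clus_aut h hP, hQ]

theorem cnd_iff {P Q : V → Prop} {a v : V} (ha : a ∈ Γ.ball ρ v) (hP : P v)
    (hs : small Γ ρ R P v) : cnd Γ ρ R P Q a ↔ ∀ y, clus Γ ρ P v y → ¬ Q y := by
  refine ⟨fun h => (h v (Gr.ball_symm ha) hP).2, fun h v' hv' hP' => ?_⟩
  have h1 : clus Γ ρ P v v' :=
    Relation.ReflTransGen.single ⟨Gr.ball_trans' ha hv' (by omega), hP'⟩
  exact ⟨fun y z hy hz => hs y z (h1.trans hy) (h1.trans hz), fun y hy => h y (h1.trans hy)⟩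

end Heal2X

open Heal2X in
theorem heal {V : Type u} [DecidableEq V] {X : Type} [Fintype X] [Nonempty X] [MeasurableSpace X]
    [MeasurableSingletonClass X] (Γ : Gr V) (ρ : ℕ) (B : (V → X) → V → Prop)
    (hB : ∀ v, DependsOn (fun σ => B σ v) (Γ.ball ρ v : Set V)) {c : ℝ}
    (hc : ∀ v, (iid (unif X) V).real {σ | B σ v} ≤ c) (hD : (Γ.D : ℝ) ^ (12 * ρ) * c ≤ 1 / 2)
    (hex : ∀ K : Finset V, ∃ σ, ∀ v ∈ K, ¬ B σ v) {δ : ℝ} (hδ : 0 < δ) :
    ∃ (N R : ℕ) (idx : (V × Fin (N + 1) → X) → V → Fin (N + 1)),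
      (∀ a, DependsOn (fun o => idx o a) ((Γ.ball R a ×ˢ univ : Finset (V × Fin (N + 1))) : Set _)) ∧
      (∀ (γ : V ≃ V) (τ : V → X ≃ X), Γ.Aut γ →
        (∀ σ v, B (fun a => τ a (σ (γ a))) v ↔ B σ (γ v)) →
        ∀ o a, idx (fun p => τ p.1 (o (γ p.1, p.2))) a = idx o (γ a)) ∧
      ∀ v, (iid (unif X) (V × Fin (N + 1))).real
        {o | B (fun a => o (a, 0)) v ∧ B (fun a => o (a, idx o a)) v} ≤ δ := by
  obtain ⟨j, hj⟩ := exists_pow_lt_of_lt_one (half_pos hδ) (by norm_num : (1 / 2 : ℝ) < 1)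
  set R := 2 * (j * (12 * ρ)) with hR
  obtain ⟨N, hN⟩ := copies Γ ρ R B hB hex (half_pos hδ)
  have hBc : ∀ {σ σ' : V → X} {r : ℕ} {a : V}, (∀ b ∈ Γ.ball (r + ρ) a, σ b = σ' b) →
      ∀ b ∈ Γ.ball r a, B σ b ↔ B σ' b := fun h b hb =>
    Iff.of_eq (hB b fun d hd => h d (Gr.ball_trans hb (mem_coe.1 hd)))
  refine ⟨N, R + 3 * ρ + ρ, fun o a => Classical.epsilon fun i =>
    cnd Γ ρ R (B fun a => o (a, 0)) (B fun a => o (a, i)) a, fun a o o' h => ?_,
    fun γ τ hγ hτ o a => ?_, fun v => ?_⟩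
  · have h1 : ∀ i, ∀ b ∈ Γ.ball (R + 3 * ρ) a,
        B (fun a => o (a, i)) b ↔ B (fun a => o' (a, i)) b := fun i =>
      hBc fun b hb => h (b, i) (mem_coe.2 (mem_product.2 ⟨hb, mem_univ _⟩))
    refine congrArg Classical.epsilon (funext fun i => propext ⟨cnd_congr (h1 0) (h1 i), ?_⟩)
    exact cnd_congr (fun b hb => (h1 0 b hb).symm) fun b hb => (h1 i b hb).symm
  · refine congrArg Classical.epsilon (funext fun i => propext ?_)
    exact cnd_aut hγ (hτ fun a => o (a, 0)) (hτ fun a => o (a, i)) a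
  · have hdep : DependsOn (fun σ : V → X => ¬ small Γ ρ R (B σ) v)
        (Γ.ball (R + 2 * ρ + ρ) v : Set V) := fun σ σ' h => by
      have h1 := hBc (σ := σ) (σ' := σ') (r := R + 2 * ρ) (a := v) fun b hb => h b (mem_coe.2 hb)
      exact propext (not_congr ⟨small_congr h1, small_congr fun b hb => (h1 b hb).symm⟩)
    have e1 := iid_inj (X := X) (γ := fun a : V => (a, (0 : Fin (N + 1))))
      (fun a b h => (Prod.ext_iff.1 h).1) hdep
    have e2 : (iid (unif X) V).real {σ | ¬ small Γ ρ R (B σ) v} ≤ δ / 2 := by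
      refine le_trans (measureReal_mono ?_) ((peierls Γ ρ B hB hc j v).trans ?_)
      · intro σ hσ
        by_contra hn
        simp only [Set.mem_ofPred_eq, not_exists, not_and, not_not] at hn
        exact hσ fun y z hy hz => Gr.ball_trans' (Gr.ball_symm (hn y hy)) (hn z hz) (by omega)
      · have h0 : 0 ≤ c := le_trans measureReal_nonneg (hc v)
        exact (pow_le_pow_left₀ (by positivity) hD j).trans hj.le
    rw [← e1] at e2
    refine le_trans (measureReal_mono ?_) ((measureReal_union_le _ _).trans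
      ((add_le_add e2 (hN v)).trans (by linarith)))
    rintro o ⟨h1, h2⟩
    by_cases hs : small Γ ρ R (B fun a => o (a, 0)) v
    · refine Or.inr ⟨(Γ.ball R v).filter fun y => clus Γ ρ (B fun a => o (a, 0)) v y,
        filter_subset _ _, fun i => ?_⟩
      by_contra hn
      have h3 : ∀ y, clus Γ ρ (B fun a => o (a, 0)) v y → ¬ B (fun a => o (a, i)) y :=
        fun y hy hb => hn ⟨y, mem_filter.2 ⟨hs v y .refl hy, hy⟩, hb⟩
      have h4 := Classical.epsilon_spec (p := fun i : Fin (N + 1) =>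
        ∀ y, clus Γ ρ (B fun a => o (a, 0)) v y → ¬ B (fun a => o (a, i)) y) ⟨i, h3⟩
      refine h4 v .refl ((Iff.of_eq (hB v fun a ha => ?_)).1 h2)
      exact congrArg (fun i => o (a, i)) (congrArg Classical.epsilon
        (funext fun i => propext (cnd_iff (mem_coe.1 ha) h1 hs)))
    · exact Or.inl hs

end

end Vale.Agent.P184L
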