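import Vale.Agent.P184L.Defs3

/-! Exponential moments of the square of a Rademacher sum. Hint: for a unit vector `u` and `X = σ · u`: `E exp (s X) = ∏ cosh (s u a) ≤ exp (s ^ 2 / 2)` (`Real.cosh_le_exp_half_sq`), hence `E X ^ (2 j) ≤ (2 j)! E cosh (s X) / s ^ (2 j)`; with `s ^ 2 = 2 j` and `j! ≥ (j / e) ^ j`, `(2 j)! ≤ 4 ^ j (j!) ^ 2` one gets `E X ^ (2 j) ≤ c ^ j j!` (`c = 20` is enough). So for `|λ| ≤ 1 / (2 c)`: `E exp (λ X ^ 2) ≤ 1 + λ + 2 c ^ 2 λ ^ 2` (series for `λ > 0`; `exp (-y) ≤ 1 - y + y ^ 2 / 2` for `λ < 0`). -/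

namespace Vale.Agent.P184L

open Finset MeasureTheory ProbabilityTheory Classical Vale.Agent.P184
open scoped ContDiff

noncomputable section

universe u

variable {G : Type u} [Group G]

namespace JL0X

theorem exp_le (y : ℝ) : Real.exp y ≤ 1 + y + y ^ 2 * Real.exp |y| := by
  have h1 : Real.exp y ≤ 1 + y * Real.exp y := by
    have h := mul_le_mul_of_nonneg_right (Real.add_one_le_exp (-y)) (Real.exp_pos y).le
    rw [← Real.exp_add, neg_add_cancel, Real.exp_zero] at h
    linarith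
  rcases le_total 0 y with h | h
  · rw [abs_of_nonneg h]
    nlinarith [mul_le_mul_of_nonneg_left h1 h]
  · have h2 := mul_le_mul_of_nonpos_left (Real.add_one_le_exp y) h
    have h3 := mul_le_mul_of_nonneg_left (Real.one_le_exp (abs_nonneg y)) (sq_nonneg y)
    nlinarith

theorem point {s x : ℝ} (hs : |s| ≤ 1 / 16) :
    Real.exp (s * x ^ 2) ≤ 1 + s * x ^ 2 + 512 * s ^ 2 * Real.exp (x ^ 2 / 8) := by
  refine (exp_le _).trans (add_le_add le_rfl ?_)
  have h1 : Real.exp |s * x ^ 2| ≤ Real.exp (x ^ 2 / 16) := by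
    rw [abs_mul, abs_of_nonneg (sq_nonneg x)]
    exact Real.exp_le_exp.2 (by nlinarith [sq_nonneg x])
  have h2 : (x ^ 2) ^ 2 ≤ 512 * Real.exp (x ^ 2 / 16) := by
    have h := Real.quadratic_le_exp_of_nonneg (x := x ^ 2 / 16) (by positivity)
    nlinarith [sq_nonneg x]
  have h3 : Real.exp (x ^ 2 / 8) = Real.exp (x ^ 2 / 16) * Real.exp (x ^ 2 / 16) := by
    rw [← Real.exp_add]
    congr 1
    ring
  calc (s * x ^ 2) ^ 2 * Real.exp |s * x ^ 2| = s ^ 2 * ((x ^ 2) ^ 2 * Real.exp |s * x ^ 2|) := by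
        ring
    _ ≤ s ^ 2 * (512 * Real.exp (x ^ 2 / 16) * Real.exp (x ^ 2 / 16)) := by gcongr
    _ = _ := by rw [h3]; ring

theorem gauss {x : ℝ} {N : ℕ} (hN : |x| < N) : Real.exp (x ^ 2 / 8) ≤
    ∑ n ∈ range N, Real.exp (1 / 4 - 3 / 4 * (n : ℝ) ^ 2) *
      (Real.exp (n * x) + Real.exp (-n * x)) := by
  have h0 := abs_nonneg x
  have h1 := Nat.floor_le h0
  have h2 := Nat.lt_floor_add_one |x|
  have h3 : ⌊|x|⌋₊ ∈ range N := mem_range.2 ((Nat.floor_lt h0).2 hN)
  refine le_trans ?_ (single_le_sum (f := fun n : ℕ => Real.exp (1 / 4 - 3 / 4 * (n : ℝ) ^ 2) *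
    (Real.exp (n * x) + Real.exp (-n * x))) (fun n _ => by positivity) h3)
  generalize ⌊|x|⌋₊ = n at h1 h2
  have h4 : (0 : ℝ) ≤ n := n.cast_nonneg
  have h5 : Real.exp (n * |x|) ≤ Real.exp (n * x) + Real.exp (-n * x) := by
    rcases le_total 0 x with h | h
    · rw [abs_of_nonneg h]
      linarith [Real.exp_pos (-n * x)]
    · rw [abs_of_nonpos h, mul_neg, neg_mul]
      linarith [Real.exp_pos (n * x)]
  refine le_trans ?_ (mul_le_mul_of_nonneg_left h5 (Real.exp_pos _).le)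
  rw [← Real.exp_add, ← sq_abs]
  refine Real.exp_le_exp.2 ?_
  have h6 : |x| ^ 2 ≤ (n + 1) ^ 2 := by gcongr
  nlinarith [mul_le_mul_of_nonneg_left h1 h4, sq_nonneg ((n : ℝ) - 1)]

variable {U : Type u} [Fintype U] [DecidableEq U] {w : U → ℝ}

theorem mgf (hw : ∑ a, w a ^ 2 = 1) (t : ℝ) :
    ∑ σ : U → Bool, Real.exp (t * ∑ a, sg (σ a) * w a) ≤
      Real.exp (t ^ 2 / 2) * Fintype.card (U → Bool) := by
  have e : ∀ σ : U → Bool, Real.exp (t * ∑ a, sg (σ a) * w a) =
      ∏ a, Real.exp (t * (sg (σ a) * w a)) := fun σ => by rw [mul_sum, Real.exp_sum]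
  simp only [e]
  rw [← Fintype.prod_sum fun a (b : Bool) => Real.exp (t * (sg b * w a))]
  calc ∏ a, ∑ b : Bool, Real.exp (t * (sg b * w a))
      ≤ ∏ a, Real.exp ((t * w a) ^ 2 / 2) * 2 := by
        refine prod_le_prod (fun a _ => by positivity) fun a _ => ?_
        have h := Real.cosh_le_exp_half_sq (t * w a)
        rw [Real.cosh_eq] at h
        simp only [Fintype.sum_bool, sg, if_true, Bool.false_eq_true, if_false, one_mul, neg_mul,
          mul_neg]
        linarith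
    _ = _ := by
        rw [prod_mul_distrib, ← Real.exp_sum, ← sum_div]
        simp only [mul_pow]
        rw [← mul_sum, hw, mul_one]
        simp

theorem second (hw : ∑ a, w a ^ 2 = 1) :
    ∑ σ : U → Bool, (∑ a, sg (σ a) * w a) ^ 2 = Fintype.card (U → Bool) := by
  have h1 : ∀ a b : U, ∑ σ : U → Bool, sg (σ a) * w a * (sg (σ b) * w b) =
      if b = a then w a ^ 2 * Fintype.card (U → Bool) else 0 := fun a b => by
    split_ifs with h
    · subst h
      have e : ∀ σ : U → Bool, sg (σ b) * w b * (sg (σ b) * w b) = w b ^ 2 := fun σ => by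
        cases σ b <;> simp [sg, sq]
      simp only [e]
      rw [sum_const, card_univ, nsmul_eq_mul, mul_comm]
    · refine sum_involution (fun σ _ => Function.update σ a (!σ a)) (fun σ _ => ?_)
        (fun σ _ _ e => ?_) (fun _ _ => mem_univ _) fun σ _ => ?_
      · rw [Function.update_self, Function.update_of_ne h]
        cases σ a <;> cases σ b <;> simp [sg]
      · simpa using congrFun e a
      · simp
  simp only [sq, sum_mul_sum]
  rw [sum_comm]
  calc ∑ a, ∑ σ : U → Bool, ∑ b, sg (σ a) * w a * (sg (σ b) * w b)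
      = ∑ a, w a ^ 2 * Fintype.card (U → Bool) := by
        refine sum_congr rfl fun a _ => ?_
        rw [sum_comm]
        simp only [h1, sum_ite_eq', mem_univ, if_true]
    _ = _ := by rw [← sum_mul, hw, one_mul]

/-- the constant -/
def KK : ℝ := 2 * Real.exp (1 / 4) * (1 - Real.exp (-1 / 4))⁻¹

theorem lt_one : Real.exp (-1 / 4) < 1 := Real.exp_lt_one_iff.2 (by norm_num)

theorem KK_pos : 0 < KK := by
  have := sub_pos.2 lt_one
  unfold KK
  positivity

theorem eighth (hw : ∑ a, w a ^ 2 = 1) :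
    ∑ σ : U → Bool, Real.exp ((∑ a, sg (σ a) * w a) ^ 2 / 8) ≤ KK * Fintype.card (U → Bool) := by
  obtain ⟨N, hN⟩ := exists_nat_gt (∑ σ : U → Bool, |∑ a, sg (σ a) * w a|)
  refine (sum_le_sum fun σ _ => gauss ((single_le_sum
    (f := fun σ : U → Bool => |∑ a, sg (σ a) * w a|) (fun _ _ => abs_nonneg _)
      (mem_univ σ)).trans_lt hN)).trans ?_
  rw [sum_comm]
  calc _ ≤ ∑ n ∈ range N,
        2 * Real.exp (1 / 4) * Real.exp (-1 / 4) ^ n * Fintype.card (U → Bool) := by
        refine sum_le_sum fun n _ => ?_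
        rw [← mul_sum, sum_add_distrib]
        have h1 := add_le_add (mgf hw n) (mgf hw (-n))
        refine (mul_le_mul_of_nonneg_left h1 (Real.exp_pos _).le).trans ?_
        rw [neg_sq, ← two_mul, ← mul_assoc, ← mul_assoc, mul_comm _ (2 : ℝ),
          mul_assoc 2 (Real.exp _), mul_assoc 2 (Real.exp _), ← Real.exp_add, ← Real.exp_nat_mul, ← Real.exp_add]
        have h2 : (n : ℝ) ≤ n ^ 2 := by exact_mod_cast Nat.le_self_pow two_ne_zero n
        gcongr 2 * Real.exp ?_ * _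
        linarith
    _ ≤ _ := by
        rw [← sum_mul, ← mul_sum, KK]
        gcongr
        rw [← tsum_geometric_of_lt_one (Real.exp_pos _).le lt_one]
        exact (summable_geometric_of_lt_one (Real.exp_pos _).le lt_one).sum_le_tsum _
          fun _ _ => by positivity

end JL0X

theorem sq_mgf : ∃ c : ℝ, 1 ≤ c ∧ ∀ (U : Type u) [Fintype U] [DecidableEq U] (w : U → ℝ),
    ∑ a, w a ^ 2 = 1 → ∀ s : ℝ, |s| ≤ 1 / c →
    ∑ σ : U → Bool, Real.exp (s * (∑ a, sg (σ a) * w a) ^ 2) ≤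
      Real.exp (s + c * s ^ 2) * Fintype.card (U → Bool) := by
  have hK := JL0X.KK_pos
  refine ⟨512 * JL0X.KK + 16, by linarith, fun U _ _ w hw s hs => ?_⟩
  have h1 : |s| ≤ 1 / 16 := hs.trans (one_div_le_one_div_of_le (by norm_num) (by linarith))
  refine (sum_le_sum fun σ _ => JL0X.point h1).trans ?_
  rw [sum_add_distrib, sum_add_distrib, ← mul_sum, ← mul_sum, JL0X.second hw, sum_const, card_univ,
    nsmul_eq_mul, mul_one]
  have h2 := mul_le_mul_of_nonneg_left (JL0X.eighth hw) (by positivity : 0 ≤ 512 * s ^ 2)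
  have h3 := mul_le_mul_of_nonneg_right (Real.add_one_le_exp (s + (512 * JL0X.KK + 16) * s ^ 2))
    (Nat.cast_nonneg (α := ℝ) (Fintype.card (U → Bool)))
  have h4 := mul_nonneg (sq_nonneg s) (Nat.cast_nonneg (α := ℝ) (Fintype.card (U → Bool)))
  nlinarith

end

end Vale.Agent.P184L
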