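import Vale.Agent.P184L.JL0

/-! Tail bound for the sign sketch, in counting form. Hint: normalise `‖w‖ = ‖w'‖ = 1` (if one vanishes the event is empty) and polarise: it suffices to bound the probability of `|(∑ q, (σ_q · u) ^ 2) / Q - ‖u‖ ^ 2| > θ ‖u‖ ^ 2 / 2` for `u = w + w'`, `w - w'`. For a unit vector use `sq_mgf`; independence in `q` is `Finset.prod_univ_sum` / `Fintype.piFinset` after `Function.swap` (`Equiv.piComm`); Chernoff (Markov) with `s = ± θ / (4 c)`. -/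

namespace Vale.Agent.P184L

open Finset MeasureTheory ProbabilityTheory Classical Vale.Agent.P184
open scoped ContDiff

noncomputable section

universe u

variable {G : Type u} [Group G]

namespace JL1X

variable {U : Type u} [Fintype U] [DecidableEq U] {Q : ℕ}

theorem prod_eq (f : (U → Bool) → ℝ) :
    ∑ s : U → Fin Q → Bool, ∏ q, f (fun a => s a q) = (∑ σ, f σ) ^ Q := by
  have h := Fintype.prod_sum fun (_ : Fin Q) (σ : U → Bool) => f σ
  rw [prod_const, card_univ, Fintype.card_fin] at h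
  rw [h, ← (Equiv.piComm fun (_ : U) (_ : Fin Q) => Bool).sum_comp]
  rfl

theorem unit {c δ ε : ℝ} (hc : 1 ≤ c) (h0 : 0 < δ) (h1 : δ ≤ 1) (hε : |ε| = 1) {w : U → ℝ}
    (h : ∀ s : ℝ, |s| ≤ 1 / c → ∑ σ : U → Bool, Real.exp (s * (∑ a, sg (σ a) * w a) ^ 2) ≤
      Real.exp (s + c * s ^ 2) * Fintype.card (U → Bool)) :
    ((univ.filter fun s : U → Fin Q → Bool =>
      Q * δ < ε * (∑ q, (∑ a, sg (s a q) * w a) ^ 2 - Q)).card : ℝ) ≤
      Real.exp (-(Q * δ ^ 2 / (4 * c))) * Fintype.card (U → Fin Q → Bool) := by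
  obtain ⟨τ, hτ⟩ : ∃ τ, τ = δ / (2 * c) := ⟨_, rfl⟩
  have hτ0 : 0 < τ := hτ ▸ by positivity
  have h2 := h (ε * τ) (by
    rw [abs_mul, hε, one_mul, abs_of_pos hτ0, hτ, div_le_div_iff₀ (by positivity) (by positivity)]
    nlinarith)
  have h3 := card_nsmul_le_sum (univ.filter fun s : U → Fin Q → Bool =>
      Q * δ < ε * (∑ q, (∑ a, sg (s a q) * w a) ^ 2 - Q))
    (fun s => ∏ q, Real.exp (ε * τ * (∑ a, sg (s a q) * w a) ^ 2))
    (Real.exp (Q * (ε * τ + τ * δ))) fun s hs => by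
      rw [← Real.exp_sum, ← mul_sum, Real.exp_le_exp]
      have h4 := mul_lt_mul_of_pos_left (mem_filter.1 hs).2 hτ0
      linarith
  have h4 := (h3.trans (sum_le_univ_sum_of_nonneg fun s => by positivity)).trans
    ((prod_eq fun σ => Real.exp (ε * τ * (∑ a, sg (σ a) * w a) ^ 2)).trans_le
      (pow_le_pow_left₀ (by positivity) h2 Q))
  have h5 : (Fintype.card (U → Bool) : ℝ) ^ Q = Fintype.card (U → Fin Q → Bool) := by
    simp only [Fintype.card_fun, Fintype.card_fin, Nat.cast_pow, pow_right_comm _ Q]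
  rw [nsmul_eq_mul, mul_pow, h5, ← Real.exp_nat_mul, ← le_div_iff₀ (Real.exp_pos _),
    mul_div_right_comm, ← Real.exp_sub] at h4
  refine h4.trans_eq (congrArg (fun x => Real.exp x * _) ?_)
  rw [mul_pow, ← sq_abs ε, hε, hτ]
  field_simp
  ring

theorem gen {c δ ε : ℝ} (hc : 1 ≤ c) (h0 : 0 < δ) (h1 : δ ≤ 1) (hε : |ε| = 1)
    (h : ∀ w : U → ℝ, ∑ a, w a ^ 2 = 1 → ∀ s : ℝ, |s| ≤ 1 / c →
      ∑ σ : U → Bool, Real.exp (s * (∑ a, sg (σ a) * w a) ^ 2) ≤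
        Real.exp (s + c * s ^ 2) * Fintype.card (U → Bool)) (w : U → ℝ) :
    ((univ.filter fun s : U → Fin Q → Bool => Q * δ * ∑ a, w a ^ 2 <
      ε * (∑ q, (∑ a, sg (s a q) * w a) ^ 2 - Q * ∑ a, w a ^ 2)).card : ℝ) ≤
      Real.exp (-(Q * δ ^ 2 / (4 * c))) * Fintype.card (U → Fin Q → Bool) := by
  obtain h2 | h2 := (sum_nonneg fun a _ => sq_nonneg (w a) : 0 ≤ ∑ a, w a ^ 2).eq_or_lt
  · have h3 : ∀ a, w a = 0 := fun a => pow_eq_zero_iff two_ne_zero |>.1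
      ((sum_eq_zero_iff_of_nonneg fun a _ => sq_nonneg (w a)).1 h2.symm a (mem_univ a))
    simp only [h3, mul_zero, sum_const_zero, zero_pow two_ne_zero, sub_self, lt_self_iff_false,
      filter_false, card_empty, Nat.cast_zero]
    positivity
  refine le_trans (Nat.cast_le.2 (card_le_card fun s hs => mem_filter.2 ⟨mem_univ _, ?_⟩))
    (unit hc h0 h1 hε (h (fun a => w a / √(∑ a, w a ^ 2)) ?_))
  · simp only [← mul_div_assoc, ← sum_div, div_pow, Real.sq_sqrt h2.le]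
    rw [div_sub' h2.ne', ← mul_div_assoc, lt_div_iff₀ h2, mul_comm _ (Q : ℝ)]
    exact (mem_filter.1 hs).2
  · simp only [div_pow, ← sum_div, Real.sq_sqrt h2.le, div_self h2.ne']

omit [DecidableEq U] in
theorem zero {w : U → ℝ} (h : √(∑ a, w a ^ 2) = 0) (a : U) : w a = 0 :=
  pow_eq_zero_iff two_ne_zero |>.1 (le_antisymm
    ((single_le_sum (fun a _ => sq_nonneg (w a)) (mem_univ a)).trans (Real.sqrt_eq_zero'.1 h))
    (sq_nonneg _))

theorem sq_lin {ι : Type*} [Fintype ι] (x y : ℝ) (f g : ι → ℝ) : ∑ i, (x * f i + y * g i) ^ 2 =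
    x ^ 2 * ∑ i, f i ^ 2 + y ^ 2 * ∑ i, g i ^ 2 + 2 * x * y * ∑ i, f i * g i := by
  simp only [mul_sum, ← sum_add_distrib]
  exact sum_congr rfl fun i _ => by ring

theorem polar {θ : ℝ} (hQ : 1 ≤ Q) {s : U → Fin Q → Bool} {w w' : U → ℝ}
    (h : ∀ ε η : ℝ, ε = 1 ∨ ε = -1 → η = 1 ∨ η = -1 →
      ε * (∑ q, (∑ a, sg (s a q) * (√(∑ a, w' a ^ 2) * w a + η * √(∑ a, w a ^ 2) * w' a)) ^ 2 -
        Q * ∑ a, (√(∑ a, w' a ^ 2) * w a + η * √(∑ a, w a ^ 2) * w' a) ^ 2) ≤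
      Q * θ * ∑ a, (√(∑ a, w' a ^ 2) * w a + η * √(∑ a, w a ^ 2) * w' a) ^ 2) :
    JL θ univ s w w' := by
  rw [JL]
  obtain h1 | h1 := (Real.sqrt_nonneg (∑ a, w a ^ 2)).eq_or_lt
  · simp [zero h1.symm]
  obtain h2 | h2 := (Real.sqrt_nonneg (∑ a, w' a ^ 2)).eq_or_lt
  · simp [zero h2.symm]
  have h3 := Real.sq_sqrt (sum_nonneg fun a _ => sq_nonneg (w a) : 0 ≤ ∑ a, w a ^ 2)
  have h4 := Real.sq_sqrt (sum_nonneg fun a _ => sq_nonneg (w' a) : 0 ≤ ∑ a, w' a ^ 2)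
  generalize √(∑ a, w a ^ 2) = x at *
  generalize √(∑ a, w' a ^ 2) = y at *
  simp only [mul_add (sg _), mul_left_comm (sg _) y, mul_left_comm (sg _) (_ * x), sum_add_distrib,
    ← mul_sum, sq_lin, ← h3, ← h4] at h
  have e1 := h 1 1 (Or.inl rfl) (Or.inl rfl)
  have e2 := h (-1) 1 (Or.inr rfl) (Or.inl rfl)
  have e3 := h 1 (-1) (Or.inl rfl) (Or.inr rfl)
  have e4 := h (-1) (-1) (Or.inr rfl) (Or.inr rfl)
  have hQ' : (0 : ℝ) < Q := Nat.cast_pos.2 hQ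
  have h5 := mul_pos h1 h2
  rw [div_sub' hQ'.ne', abs_div, abs_of_pos hQ', div_le_iff₀ hQ', abs_le]
  constructor <;> refine le_of_mul_le_mul_left ?_ h5 <;> linarith

end JL1X

theorem jl_tail : ∃ C : ℝ, 1 ≤ C ∧ ∀ (U : Type u) [Fintype U] [DecidableEq U] (Q : ℕ) (θ : ℝ),
    1 ≤ Q → 0 < θ → θ ≤ 1 → ∀ w w' : U → ℝ,
    ((univ.filter fun s : U → Fin Q → Bool => ¬ JL θ univ s w w').card : ℝ) ≤
      4 * Real.exp (-(Q * θ ^ 2 / C)) * Fintype.card (U → Fin Q → Bool) := by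
  obtain ⟨c, hc, h⟩ := sq_mgf.{u}
  refine ⟨4 * c, by linarith, fun U _ _ Q θ hQ h0 h1 w w' => ?_⟩
  obtain ⟨T, hT⟩ : ∃ T : ℝ → ℝ → Finset (U → Fin Q → Bool), T = fun ε η =>
    univ.filter fun s : U → Fin Q → Bool =>
      Q * θ * ∑ a, (√(∑ a, w' a ^ 2) * w a + η * √(∑ a, w a ^ 2) * w' a) ^ 2 <
      ε * (∑ q, (∑ a, sg (s a q) * (√(∑ a, w' a ^ 2) * w a + η * √(∑ a, w a ^ 2) * w' a)) ^ 2 -
        Q * ∑ a, (√(∑ a, w' a ^ 2) * w a + η * √(∑ a, w a ^ 2) * w' a) ^ 2) := ⟨_, rfl⟩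
  have h2 : ∀ ε η : ℝ, |ε| = 1 → ((T ε η).card : ℝ) ≤
      Real.exp (-(Q * θ ^ 2 / (4 * c))) * Fintype.card (U → Fin Q → Bool) := fun ε η hε => by
    rw [hT]
    exact JL1X.gen hc h0 h1 hε (h U) _
  have h3 : (univ.filter fun s : U → Fin Q → Bool => ¬ JL θ univ s w w') ⊆
      (T 1 1 ∪ T 1 (-1)) ∪ (T (-1) 1 ∪ T (-1) (-1)) := fun s hs => by
    by_contra h4
    refine (mem_filter.1 hs).2 (JL1X.polar hQ fun ε η hε hη => not_lt.1 fun h5 => h4 ?_)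
    have h6 : s ∈ T ε η := by
      rw [hT]
      exact mem_filter.2 ⟨mem_univ _, h5⟩
    rcases hε with rfl | rfl <;> rcases hη with rfl | rfl <;> simp only [mem_union, h6, true_or,
      or_true]
  have h4 := (card_le_card h3).trans ((card_union_le _ _).trans
    (add_le_add (card_union_le _ _) (card_union_le _ _)))
  have h5 := (Nat.cast_le (α := ℝ)).2 h4
  push_cast at h5
  linarith [h2 1 1 abs_one, h2 1 (-1) abs_one, h2 (-1) 1 (by simp), h2 (-1) (-1) (by simp)]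

end

end Vale.Agent.P184L
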