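import Vale.Agent.P184L.JL1
import Vale.Agent.P184L.Twist

/-! Probability of bad signs and bad colours. Hint: on `U = ball (2 Rs) v` an atom depends on a point `y` only through `fun a : U => dd Rs a y`, which is constant `= Rs` if `y ∉ ball (3 Rs) v`; so every atom equals on `U` one built from `Option (ball (3 Rs) v)` data, at most `2 (D ^ (3 Rs) + 1) ^ k` of them (`k ≥ 1`). Union bound (`measureReal_biUnion_finset_le`), `iid_count`, `jl_tail` for the subtype `U` (`Finset.sum_coe_sort`). Colours: union over pairs `a ≠ a'` of the event `c a = c a'`, of probability `1 / (Dc + 1)` (`iid_and`, `iid_eval`). -/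

namespace Vale.Agent.P184L

open Finset MeasureTheory ProbabilityTheory Classical Vale.Agent.P184
open scoped ContDiff

noncomputable section

universe u

variable {G : Type u} [Group G]

variable {V : Type u} [DecidableEq V]

namespace JL2X

omit [DecidableEq V] in
theorem congr {Q : ℕ} {θ : ℝ} {U : Finset V} {s s' : V → Fin Q → Bool} {w w' u u' : V → ℝ}
    (hs : ∀ a ∈ U, s a = s' a) (h : ∀ a ∈ U, w a = u a) (h' : ∀ a ∈ U, w' a = u' a) :
    JL θ U s w w' ↔ JL θ U s' u u' := by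
  have e1 : ∀ q, ∑ a ∈ U, sg (s a q) * w a = ∑ a ∈ U, sg (s' a q) * u a := fun q =>
    sum_congr rfl fun a ha => by rw [hs a ha, h a ha]
  have e2 : ∀ q, ∑ a ∈ U, sg (s a q) * w' a = ∑ a ∈ U, sg (s' a q) * u' a := fun q =>
    sum_congr rfl fun a ha => by rw [hs a ha, h' a ha]
  have e3 : ∑ a ∈ U, w a * w' a = ∑ a ∈ U, u a * u' a :=
    sum_congr rfl fun a ha => by rw [h a ha, h' a ha]
  have e4 : ∑ a ∈ U, w a ^ 2 = ∑ a ∈ U, u a ^ 2 := sum_congr rfl fun a ha => by rw [h a ha]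
  have e5 : ∑ a ∈ U, w' a ^ 2 = ∑ a ∈ U, u' a ^ 2 := sum_congr rfl fun a ha => by rw [h' a ha]
  simp only [JL, e1, e2, e3, e4, e5]

omit [DecidableEq V] in
theorem sub {Q : ℕ} {θ : ℝ} (U : Finset V) (s : V → Fin Q → Bool) (w w' : V → ℝ) :
    JL θ U s w w' ↔ JL θ univ (fun a : U => s a) (fun a => w a) fun a => w' a := by
  have h : ∀ f : V → ℝ, ∑ a ∈ U, f a = ∑ a : U, f a := fun f => (sum_coe_sort U f).symm
  simp only [JL, h]

theorem ball_map {Γ : Gr V} {γ : V ≃ V} (hγ : Γ.Aut γ) (n : ℕ) (v : V) :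
    Γ.ball n (γ v) = (Γ.ball n v).map γ.toEmbedding := by
  ext a
  obtain ⟨a, rfl⟩ := γ.surjective a
  rw [hγ.ball_iff]
  exact (mem_map' γ.toEmbedding).symm

theorem good_aut {Γ : Gr V} (π : Par) (θ : ℝ) {Q : ℕ} {γ : V ≃ V} (hγ : Γ.Aut γ)
    (s : V → Fin Q → Bool) (v : V) :
    GoodJ Γ π θ (fun a => s (γ a)) v ↔ GoodJ Γ π θ s (γ v) := by
  have h : ∀ xs y b xs' y' b', JL θ (Γ.ball (2 * π.Rs) (γ v)) s (atom Γ π (γ ∘ xs) (γ y) b)
      (atom Γ π (γ ∘ xs') (γ y') b') ↔ JL θ (Γ.ball (2 * π.Rs) v) (fun a => s (γ a))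
        (atom Γ π xs y b) (atom Γ π xs' y' b') := fun xs y b xs' y' b' => by
    simp only [JL, ball_map hγ, sum_map, Equiv.coe_toEmbedding, atom, Function.comp_apply, hγ.dd]
  refine ⟨fun H xs y b xs' y' b' => ?_, fun H xs y b xs' y' b' => (h ..).1 (H ..)⟩
  obtain ⟨xs, rfl⟩ := γ.surjective.comp_left xs
  obtain ⟨xs', rfl⟩ := γ.surjective.comp_left xs'
  obtain ⟨y, rfl⟩ := γ.surjective y
  obtain ⟨y', rfl⟩ := γ.surjective y'
  exact (h ..).2 (H ..)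

theorem reps (Γ : Gr V) (R : ℕ) (v : V) : ∃ T : Finset V, T.card ≤ Γ.D ^ (3 * R) + 1 ∧
    ∀ y, ∃ y' ∈ T, ∀ a ∈ Γ.ball (2 * R) v, Γ.dd R a y = Γ.dd R a y' := by
  have far : ∀ y, y ∉ Γ.ball (3 * R) v → ∀ a ∈ Γ.ball (2 * R) v, Γ.dd R a y = R :=
    fun y hy a ha => Gr.dd_eq_of_not_mem fun h => hy (Gr.ball_trans' ha h (by omega))
  by_cases h : ∃ y₀, y₀ ∉ Γ.ball (3 * R) v
  · obtain ⟨y₀, h₀⟩ := h
    refine ⟨insert y₀ (Γ.ball (3 * R) v),
      (card_insert_le _ _).trans (Nat.add_le_add_right (Gr.card_ball _ _) 1), fun y => ?_⟩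
    by_cases hy : y ∈ Γ.ball (3 * R) v
    · exact ⟨y, mem_insert_of_mem hy, fun _ _ => rfl⟩
    · exact ⟨y₀, mem_insert_self _ _, fun a ha => by rw [far y hy a ha, far y₀ h₀ a ha]⟩
  · push Not at h
    exact ⟨Γ.ball (3 * R) v, (Gr.card_ball _ _).trans (Nat.le_succ _),
      fun y => ⟨y, h y, fun _ _ => rfl⟩⟩

theorem union_le {Ω ι : Type*} [MeasurableSpace Ω] (μ : Measure Ω) [IsFiniteMeasure μ]
    {A : Set Ω} (I : Finset ι) (B : ι → Set Ω) {c : ℝ} (h : ∀ o ∈ A, ∃ i ∈ I, o ∈ B i)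
    (hB : ∀ i ∈ I, μ.real (B i) ≤ c) : μ.real A ≤ I.card * c := by
  have h1 : A ⊆ ⋃ i ∈ I, B i := fun o ho => by simpa using h o ho
  refine (measureReal_mono h1 (measure_ne_top _ _)).trans ((measureReal_biUnion_finset_le I B).trans ?_)
  simpa using sum_le_card_nsmul I _ c hB

theorem one {Q : ℕ} {θ c : ℝ} (U : Finset V) (w w' : V → ℝ)
    (H : ((univ.filter fun s : U → Fin Q → Bool =>
      ¬ JL θ univ s (fun a => w a) fun a => w' a).card : ℝ) ≤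
        c * Fintype.card (U → Fin Q → Bool)) :
    (iid (unif (Fin Q → Bool)) V).real {s | ¬ JL θ U s w w'} ≤ c := by
  obtain rfl : ‹DecidableEq V› = fun a b => propDecidable (a = b) := Subsingleton.elim _ _
  have hd : DependsOn (fun s : V → Fin Q → Bool => ¬ JL θ U s w w') (U : Set V) :=
    fun s s' h => by simp only [congr h (fun _ _ => rfl) fun _ _ => rfl]
  rw [iid_count hd fun _ => true, div_le_iff₀ (by exact_mod_cast Fintype.card_pos)]
  refine le_trans (le_of_eq ?_) H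
  congr 2
  ext s
  simp only [mem_filter, sub U, coe_mem, dite_true]

end JL2X

theorem dep_goodJ (Γ : Gr V) (π : Par) {Q : ℕ} (θ : ℝ) (v : V) :
    DependsOn (fun s : V → Fin Q → Bool => GoodJ Γ π θ s v) (Γ.ball (2 * π.Rs) v : Set V) := by
  intro s s' h
  have := fun w w' => JL2X.congr (θ := θ) (U := Γ.ball (2 * π.Rs) v) (w := w) (w' := w') h
    (fun _ _ => rfl) fun _ _ => rfl
  simp only [GoodJ, this]

theorem dep_bad (Γ : Gr V) (π : Par) (θ : ℝ) {Q Dc P : ℕ} (v : V) :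
    DependsOn (fun σ : V → Alf Q Dc P => Bad Γ π θ σ v) (Γ.ball (2 * π.Rs) v : Set V) := by
  intro σ σ' h
  have h1 := dep_goodJ Γ π θ v (x := fun a => (σ a).1) (y := fun a => (σ' a).1)
    fun a ha => by rw [h a ha]
  have h2 : Set.EqOn (fun a => (σ a).2.1) (fun a => (σ' a).2.1) (Γ.ball (2 * π.Rs) v) :=
    fun a ha => by simp only [h a ha]
  simp only at h1
  simp only [Bad, h1, h2.injOn_iff]

theorem bad_aut {Γ : Gr V} (π : Par) (θ : ℝ) {Q Dc P : ℕ} {γ : V ≃ V} (hγ : Γ.Aut γ)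
    (τ : V → Alf Q Dc P ≃ Alf Q Dc P) (hτ : ∀ a X, (τ a X).1 = X.1 ∧ (τ a X).2.1 = X.2.1)
    (σ : V → Alf Q Dc P) (v : V) :
    Bad Γ π θ (fun a => τ a (σ (γ a))) v ↔ Bad Γ π θ σ (γ v) := by
  have h1 : ∀ a X, (τ a X).1 = X.1 := fun a X => (hτ a X).1
  have h2 : ∀ a X, (τ a X).2.1 = X.2.1 := fun a X => (hτ a X).2
  have h3 : Set.InjOn (fun a => (σ (γ a)).2.1) (Γ.ball (2 * π.Rs) v) ↔
      Set.InjOn (fun a => (σ a).2.1) (Γ.ball (2 * π.Rs) (γ v)) := by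
    refine ⟨fun H a ha b hb e => ?_, fun H a ha b hb e => γ.injective (H (hγ.ball_of ha)
      (hγ.ball_of hb) e)⟩
    obtain ⟨a, rfl⟩ := γ.surjective a
    obtain ⟨b, rfl⟩ := γ.surjective b
    exact congrArg γ (H (hγ.ball_iff.1 ha) (hγ.ball_iff.1 hb) e)
  simp only [Bad, h1, h2, h3, JL2X.good_aut π θ hγ (fun a => (σ a).1) v]

theorem prob_goodJ : ∃ C : ℝ, 1 ≤ C ∧ ∀ (V : Type u) [DecidableEq V] (Γ : Gr V) (π : Par) (Q : ℕ)
    (θ : ℝ), 1 ≤ π.k → 1 ≤ Q → 0 < θ → θ ≤ 1 → ∀ v : V,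
    (iid (unif (Fin Q → Bool)) V).real {s | ¬ GoodJ Γ π θ s v} ≤
      (2 * ((Γ.D : ℝ) ^ (3 * π.Rs) + 1) ^ π.k) ^ 2 * (4 * Real.exp (-(Q * θ ^ 2 / C))) := by
  obtain ⟨C, hC, H⟩ := jl_tail.{u}
  refine ⟨C, hC, fun V _ Γ π Q θ hk hQ h0 h1 v => ?_⟩
  have one := fun (U : Finset V) (w w' : V → ℝ) => JL2X.one U w w' (H U Q θ hQ h0 h1 _ _)
  obtain ⟨T, hT, hr⟩ := JL2X.reps Γ π.Rs v
  choose r hr1 hr2 using hr
  let I : Finset ((Fin (π.k - 1) → V) × V × Bool) :=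
    Fintype.piFinset (fun _ => T) ×ˢ T ×ˢ univ
  have hI : (I.card : ℝ) ≤ 2 * ((Γ.D : ℝ) ^ (3 * π.Rs) + 1) ^ π.k := by
    have e : I.card = 2 * T.card ^ π.k := by
      simp only [I, card_product, Fintype.card_piFinset, prod_const, card_univ, Fintype.card_fin,
        Fintype.card_bool]
      obtain ⟨j, hj⟩ : ∃ j, π.k = j + 1 := ⟨π.k - 1, by omega⟩
      rw [hj, Nat.add_sub_cancel]
      ring
    rw [e]
    exact_mod_cast Nat.mul_le_mul_left 2 (Nat.pow_le_pow_left hT _)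
  have hA : ∀ xs y b, ∀ a ∈ Γ.ball (2 * π.Rs) v,
      atom Γ π xs y b a = atom Γ π (r ∘ xs) (r y) b a := fun xs y b a ha => by
    simp only [atom, Function.comp_apply, ← hr2 _ a ha]
  refine (JL2X.union_le _ (I ×ˢ I) (fun i => {s | ¬ JL θ (Γ.ball (2 * π.Rs) v) s
    (atom Γ π i.1.1 i.1.2.1 i.1.2.2) (atom Γ π i.2.1 i.2.2.1 i.2.2.2)}) (fun s hs => ?_)
    fun i _ => one _ _ _).trans ?_
  · simp only [Set.mem_ofPred_eq, GoodJ, not_forall] at hs
    obtain ⟨xs, y, b, xs', y', b', hs⟩ := hs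
    refine ⟨((r ∘ xs, r y, b), r ∘ xs', r y', b'), by simp [I, hr1], ?_⟩
    rwa [JL2X.congr (fun _ _ => rfl) (hA xs y b) (hA xs' y' b')] at hs
  · refine mul_le_mul_of_nonneg_right ?_ (by positivity)
    rw [card_product, Nat.cast_mul, sq]
    exact mul_le_mul hI hI (by positivity) (by positivity)

theorem prob_col (Γ : Gr V) (n Dc : ℕ) (v : V) :
    (iid (unif (Fin (Dc + 1))) V).real {c | ¬ Set.InjOn c (Γ.ball n v)} ≤
      (Γ.D : ℝ) ^ (2 * n) / (Dc + 1) := by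
  refine (JL2X.union_le _ ((Γ.ball n v).offDiag ×ˢ (univ : Finset (Fin (Dc + 1))))
    (fun i => {c | ∀ j ∈ ({i.1.1, i.1.2} : Finset V), c j = i.2}) (c := (1 / (Dc + 1)) ^ 2)
    (fun c hc => ?_) fun i hi => ?_).trans ?_
  · simp only [Set.mem_ofPred_eq, Set.InjOn, not_forall] at hc
    obtain ⟨a, ha, b, hb, e, hne⟩ := hc
    exact ⟨((a, b), c a), by simpa using ⟨ha, hb, hne⟩, by simp [e]⟩
  · rw [iid_agree _ fun _ => i.2, card_pair (mem_offDiag.1 (mem_product.1 hi).1).2.2]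
    simp
  · have h1 : ((Γ.ball n v).offDiag.card : ℝ) ≤ (Γ.D : ℝ) ^ (2 * n) := by
      have h2 := Gr.card_ball (Γ := Γ) n v
      have h3 : (Γ.ball n v).offDiag.card ≤ Γ.D ^ (2 * n) := by
        rw [offDiag_card, two_mul, pow_add]
        exact (Nat.sub_le _ _).trans (Nat.mul_le_mul h2 h2)
      exact_mod_cast h3
    rw [card_product, card_univ, Fintype.card_fin]
    push_cast
    calc _ = ((Γ.ball n v).offDiag.card : ℝ) / (Dc + 1) := by field_simp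
      _ ≤ _ := by gcongr

end

end Vale.Agent.P184L
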