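import Vale.Agent.P184L.LabV

/-! The derivative of the Gibbs vector is a combination of atoms up to a tiny error. Hint: `ψ a = ∑ p x f a x`, `u a = ∑ c x f a x`, `dB ψ u a = (H' (ψ a) u a + β H (ψ a)) / √Z`, `|β| ≤ C b Rs`. Replace `H` by `H0`: `H0 (ψ a) = (∑ p x (1 - f a x / L)) ^ (k - 1 + 1)`, `H0' (ψ a) u a = -(b Rs / 2) (∑ p x (1 - f a x / L)) ^ (k - 1) ∑ c y f a y / Rs`; expand with `Finset.sum_pow'`/`Finset.prod_univ_sum` over `Fintype.piFinset fun _ => s`. Index type: `(Fin (k - 1) → G) × G × Bool`, coefficients `(∏ p (xs i)) * coef y b / √Z`. Every atom is bounded by `W xs a = ∏ (1 - f a (xs i) / L)`; by Jensen `(∑ xs, P xs ‖W xs‖) ^ 2 ≤ ∑ xs, P xs ‖W xs‖ ^ 2 = ∑ a, (∑ p x (1 - f a x / L) ^ 2) ^ (k - 1)`, and `∑ p x (1 - f / L) ^ 2 ≤ (1 - ψ / L) ^ 2 + (Rs / L) ^ 2 ≤ (1 - ψ / L) ^ 2 (1 + 4 / k)`; so the sum is `≤ C ∑ a ∈ U, H0 (ψ a) ^ 2 ≤ C Z` (`gibbs_key` for `ψ a < Rt + 1`, and `D ^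 (2 Rs) exp (-b Rt) ≤ z0` for the rest). The error vanishes for `ψ a < Rt / 2` (`Par.H_eq`) and is otherwise at most `C b Rs exp (-b Rt / 4) exp (b R / 2)`; `D ^ (2 Rs) ≤ exp (b R / 4)`. -/

namespace Vale.Agent.P184L

open Finset MeasureTheory ProbabilityTheory Classical Vale.Agent.P184
open scoped ContDiff

noncomputable section

universe u

variable {G : Type u} [Group G]

namespace JL3X

theorem expand {X : Type*} (s : Finset X) (p q : X → ℝ) (n : ℕ) :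
    (∑ x ∈ s, p x * q x) ^ n = ∑ xs ∈ Fintype.piFinset fun _ : Fin n => s,
      (∏ i, p (xs i)) * ∏ i, q (xs i) := by
  rw [← Fin.prod_const, prod_univ_sum]
  simp only [prod_mul_distrib]

theorem jensen {X V : Type*} (s : Finset X) (U : Finset V) {p : X → ℝ} (hp : ∀ x, 0 ≤ p x)
    (h1 : ∑ x ∈ s, p x = 1) (q : X → V → ℝ) (n : ℕ) :
    ∑ xs ∈ Fintype.piFinset fun _ : Fin n => s,
      (∏ i, p (xs i)) * √(∑ a ∈ U, (∏ i, q (xs i) a) ^ 2) ≤
      √(∑ a ∈ U, (∑ x ∈ s, p x * q x a ^ 2) ^ n) := by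
  have h0 (xs : Fin n → X) : 0 ≤ ∏ i, p (xs i) := prod_nonneg fun _ _ => hp _
  have h2 := expand s p (fun _ => 1) n
  simp only [mul_one, h1, one_pow, prod_const_one] at h2
  refine Real.le_sqrt_of_sq_le ((sum_sq_le_sum_mul_sum_of_sq_le_mul _
    (f := fun xs => ∏ i, p (xs i))
    (g := fun xs => (∏ i, p (xs i)) * ∑ a ∈ U, (∏ i, q (xs i) a) ^ 2) (fun xs _ => h0 xs)
    (fun xs _ => mul_nonneg (h0 xs) (sum_nonneg fun _ _ => sq_nonneg _)) fun xs _ => ?_).trans_eq ?_)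
  · rw [mul_pow, Real.sq_sqrt (sum_nonneg fun _ _ => sq_nonneg _), sq, mul_assoc]
  · rw [← h2, one_mul]
    simp only [expand, mul_sum, prod_pow]
    exact sum_comm

theorem ratio {π : Par} (h : π.Ok) : 0 < π.L ∧ (π.Rs : ℝ) / π.L ≤ 1 / 2 ∧
    (π.Rs / π.L) ^ 2 ≤ 1 / 4 * (π.k : ℝ)⁻¹ ∧ (1 : ℝ) ≤ π.Rs := by
  have hb := h.1
  have hk : (0 : ℝ) < π.k := by exact_mod_cast lt_of_lt_of_le two_pos h.L_ge.2
  have hL : 0 < π.L := by unfold Par.L; positivity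
  have h1 : (1 : ℝ) ≤ π.Rs := by
    rw [π.Rs_eq]
    linarith [(Nat.cast_nonneg π.Rt : (0 : ℝ) ≤ π.Rt)]
  refine ⟨hL, ?_, ?_, h1⟩
  · rw [div_le_iff₀ hL]
    nlinarith [h.L_ge.1, mul_le_mul hb h1 zero_le_one (by linarith)]
  · have h2 := h.2.2
    rw [Par.L, div_div_eq_mul_div, div_pow, div_le_iff₀ (by positivity)]
    have : 1 / 4 * (π.k : ℝ)⁻¹ * (2 * π.k) ^ 2 = π.k := by field_simp; norm_num
    rw [this]
    linarith

theorem second {X : Type*} {π : Par} (h : π.Ok) {s : Finset X} {p f : X → ℝ} (hp : ∀ x, 0 ≤ p x)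
    (h1 : ∑ x ∈ s, p x = 1) (hf0 : ∀ x, 0 ≤ f x) (hf : ∀ x, f x ≤ π.Rs) {y : ℝ}
    (hy : y = ∑ x ∈ s, p x * f x) (hy0 : 0 ≤ y) (hy1 : y ≤ π.Rs) :
    (∑ x ∈ s, p x * (1 - f x / π.L) ^ 2) ^ (π.k - 1) ≤ 12 * π.H0 y ^ 2 := by
  obtain ⟨hL, h2, h3, -⟩ := ratio h
  have h4 : y / π.L ≤ 1 / 2 := le_trans (by gcongr) h2
  have hk : (0 : ℝ) ≤ (π.k : ℝ)⁻¹ := by positivity
  have h5 : ∑ x ∈ s, p x * (1 - f x / π.L) ^ 2 ≤ (1 - y / π.L) ^ 2 * (1 + (π.k : ℝ)⁻¹) :=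
    calc _ ≤ ∑ x ∈ s, (p x * (1 + (π.Rs / π.L) ^ 2) - 2 / π.L * (p x * f x)) :=
          sum_le_sum fun x _ => by
            have : (f x / π.L) ^ 2 ≤ (π.Rs / π.L) ^ 2 := by
              gcongr
              exacts [div_nonneg (hf0 x) hL.le, hf x]
            have h6 := mul_le_mul_of_nonneg_left this (hp x)
            have h7 : 2 / π.L * (p x * f x) = 2 * (p x * (f x / π.L)) := by ring
            rw [h7]
            linarith
      _ = 1 + (π.Rs / π.L) ^ 2 - 2 * (y / π.L) := by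
          rw [sum_sub_distrib, ← sum_mul, ← mul_sum, h1, ← hy]
          ring
      _ ≤ _ := by
          have : 1 / 4 ≤ (1 - y / π.L) ^ 2 := by nlinarith
          nlinarith [mul_le_mul_of_nonneg_right this hk, sq_nonneg (y / π.L)]
  have h6 := pow_le_pow_left₀ (sum_nonneg fun x _ => mul_nonneg (hp x) (sq_nonneg _)) h5 (π.k - 1)
  have h7 : (1 + (π.k : ℝ)⁻¹) ^ (π.k - 1) ≤ 3 :=
    (pow_le_pow_right₀ (by linarith) (Nat.sub_le _ _)).trans
      (Real.one_add_inv_pow_le_exp.trans (by linarith [Real.exp_one_lt_d9]))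
  have h8 := pow_le_pow_left₀ (pow_nonneg (by linarith) _) (h.H0_bounds hy0 hy1).2.2.2.2 2
  rw [mul_pow, ← pow_mul, mul_comm 2, pow_mul] at h6
  have h9 := mul_le_mul h8 h7 (by positivity) (by positivity)
  linarith

theorem err {π : Par} (h : π.Ok) {y u β C a : ℝ} (h0 : 0 ≤ y) (h1 : y ≤ π.Rs) (hC : 0 ≤ C)
    (hd : |deriv π.H y| ≤ C * π.b * π.H0 y) (hu : |u| ≤ a) :
    |(deriv π.H y - deriv π.H0 y) * u + β * (π.H y - π.H0 y)| ≤
      ((C + 1) * π.b * a + |β|) * Real.exp (-(π.b * π.R)) := by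
  have hb := h.1
  have ha := (abs_nonneg _).trans hu
  rcases lt_or_ge y (π.Rt / 2) with hy | hy
  · rw [(π.H_eq hy).1, (π.H_eq hy).2, sub_self, sub_self, zero_mul, mul_zero, add_zero, abs_zero]
    positivity
  obtain ⟨b1, b2, b3, b4, b5⟩ := h.H0_bounds h0 h1
  obtain ⟨hL, h2, -, -⟩ := ratio h
  have h4 : y / π.L ≤ 1 / 2 := le_trans (by gcongr) h2
  have h5 : π.H0 y ≤ Real.exp (-(π.b * π.R)) := by
    refine b4.trans (Real.exp_le_exp.2 ?_)
    rw [π.Rt_eq] at hy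
    nlinarith
  have h6 : |deriv π.H0 y| ≤ π.b * π.H0 y := by
    rw [h.deriv_H0, abs_mul, abs_neg, abs_of_nonneg (by linarith),
      abs_of_nonneg (pow_nonneg (by linarith) _)]
    nlinarith
  have h7 : |deriv π.H y - deriv π.H0 y| ≤ (C + 1) * π.b * π.H0 y :=
    (abs_sub _ _).trans (by linarith)
  have h8 : |π.H y - π.H0 y| ≤ π.H0 y := abs_le.2 ⟨by linarith, by linarith⟩
  have h9 := b1.trans b2
  calc _ ≤ (C + 1) * π.b * π.H0 y * a + |β| * π.H0 y := by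
        refine (abs_add_le _ _).trans ?_
        rw [abs_mul, abs_mul]
        gcongr
    _ = ((C + 1) * π.b * a + |β|) * π.H0 y := by ring
    _ ≤ _ := by gcongr

/-- the coefficients of the last factor -/
theorem last {X : Type*} (s s' : Finset X) (F : X × Bool → ℝ) :
    ∑ j ∈ s' ×ˢ {true} ∪ s ×ˢ {false}, F j = ∑ y ∈ s', F (y, true) + ∑ y ∈ s, F (y, false) := by
  rw [sum_union (by simp +contextual [disjoint_left]), sum_product, sum_product]
  simp only [sum_singleton]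

theorem card_le {A : Gen G} {π : Par} (h : A.Ok π) (g : G) (v : VV g) :
    (((A.sch g).ball (2 * π.Rs) v).card : ℝ) ≤ Real.exp (π.b * π.R / 4) := by
  have h1 : (((A.sch g).ball (2 * π.Rs) v).card : ℝ) ≤ (A.S.card : ℝ) ^ (2 * π.Rs) := by
    exact_mod_cast (A.sch g).card_ball (2 * π.Rs) v
  refine h1.trans ((h.pow_le _).trans (Real.exp_le_exp.2 ?_))
  have h2 : (8 : ℝ) ≤ π.R := by exact_mod_cast h.1.2.1
  have h3 := h.1.1
  push_cast
  rw [π.Rs_eq, π.Rt_eq]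
  nlinarith

theorem sumH {π : Par} (h : π.Ok) {V : Type*} (U : Finset V) {ψ : V → ℝ} (h0 : ∀ a, 0 ≤ ψ a)
    (h1 : ∀ a, ψ a ≤ π.Rs) (hU : (U.card : ℝ) ≤ Real.exp (π.b * π.R / 4)) {C Z : ℝ}
    (hZ : π.z0 ≤ Z) (hk : ∑ a ∈ U.filter fun a => ψ a < π.Rt + 1, π.H0 (ψ a) ^ 2 ≤ C * Z) :
    ∑ a ∈ U, π.H0 (ψ a) ^ 2 ≤ (C + 1) * Z := by
  have hb := h.1
  have hR : (0 : ℝ) ≤ π.R := Nat.cast_nonneg _
  rw [← sum_filter_add_sum_filter_not U fun a => ψ a < π.Rt + 1]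
  have h2 := card_nsmul_le_sum (U.filter fun a => ¬ ψ a < π.Rt + 1) (fun a => -π.H0 (ψ a) ^ 2)
    (-Real.exp (-(2 * (π.b * π.R)))) fun a ha => by
      obtain ⟨b1, b2, -, b4, -⟩ := h.H0_bounds (h0 a) (h1 a)
      have h3 := not_lt.1 (mem_filter.1 ha).2
      refine neg_le_neg ((pow_le_pow_left₀ (b1.trans b2) b4 2).trans ?_)
      rw [← Real.exp_nat_mul, Real.exp_le_exp]
      rw [π.Rt_eq] at h3
      push_cast
      nlinarith
  have h3 : ((U.filter fun a => ¬ ψ a < π.Rt + 1).card : ℝ) ≤ Real.exp (π.b * π.R / 4) :=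
    le_trans (by exact_mod_cast card_filter_le _ _) hU
  have h4 := mul_le_mul_of_nonneg_right h3 (Real.exp_pos (-(2 * (π.b * π.R)))).le
  have h5 : Real.exp (π.b * π.R / 4) * Real.exp (-(2 * (π.b * π.R))) ≤ π.z0 := by
    rw [← Real.exp_add, Par.z0, Real.exp_le_exp]
    nlinarith
  rw [sum_neg_distrib, nsmul_eq_mul] at h2
  linarith

end JL3X

theorem dB_atoms (G : Type u) [Group G] : ∃ C : ℝ, 1 ≤ C ∧ ∀ (A : Gen G) (π : Par) (h : A.Ok π)
    (g : G) (v : VV g) (ψ u : VV g → ℝ), (labV h g).Adm ψ → (labV h g).Sgn (2 * CK) u →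
    ∃ (I : Finset ((Fin (π.k - 1) → G) × G × Bool)) (c : (Fin (π.k - 1) → G) × G × Bool → ℝ)
      (e : VV g → ℝ),
      (∀ a, (labV h g).dB ψ u a = ∑ i ∈ I, c i *
        atom (A.sch g) π (fun j => pj g (i.1 j)) (pj g i.2.1) i.2.2 a + e a) ∧
      ∑ i ∈ I, |c i| * √(∑ a ∈ (A.sch g).ball (2 * π.Rs) v,
        atom (A.sch g) π (fun j => pj g (i.1 j)) (pj g i.2.1) i.2.2 a ^ 2) ≤ C * π.b * π.Rs ∧
      ∑ a ∈ (A.sch g).ball (2 * π.Rs) v, |e a| ≤
        C * π.b * π.Rs * Real.exp (-(π.b * π.R / 8)) := by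
  obtain ⟨C1, hC1, k1⟩ := gibbs_norm G
  obtain ⟨C2, hC2, k2⟩ := profile
  obtain ⟨C3, hC3, k3⟩ := gibbs_key G
  have hK := one_le_CK
  have hs : 1 ≤ √(12 * (C3 + 1)) := Real.one_le_sqrt.2 (by linarith)
  have hD : 1 ≤ CK * (2 * C2 + 2 + C1) := one_le_mul_of_one_le_of_one_le hK (by linarith)
  refine ⟨√(12 * (C3 + 1)) * (CK * (2 * C2 + 2 + C1)), one_le_mul_of_one_le_of_one_le hs hD,
    fun A π h g v ψ u hψ hu => ?_⟩
  have hπ := h.1
  have hb := hπ.1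
  obtain ⟨hL, hRL, -, hRs⟩ := JL3X.ratio hπ
  obtain ⟨hz, hZ⟩ := (labV h g).z0_le hπ ψ
  have hua := hu.abs_le
  have hβ := ((k1 π g _ (labV h g) hπ ψ hψ).2.1 u _ (by positivity) hua).1
  have hU := JL3X.card_le h g v
  have hH := JL3X.sumH hπ _ (fun a => (hψ.bounds a).1) (fun a => (hψ.bounds a).2) hU hz
    (le_trans (le_of_eq (sum_congr rfl fun a _ => (one_mul _).symm))
      (k3 π g _ (labV h g) hπ ψ hψ _ fun a ha => (mem_filter.1 ha).2))
  have hbd := hψ.bounds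
  obtain ⟨s, p, hp, hp1, eψ⟩ := hψ
  obtain ⟨s', c, hc, eu⟩ := hu
  have hdB (a : VV g) : (labV h g).dB ψ u a = (deriv π.H (ψ a) * u a +
      π.b / 2 * (∑ᶠ l, (labV h g).B ψ l ^ 2 * u l) * π.H (ψ a)) / √((labV h g).Z ψ) := by
    have : (labV h g).pr a = 1 := rfl
    rw [Lab.dB, Lab.B, this, Real.sqrt_one]
    ring
  generalize ∑ᶠ l, (labV h g).B ψ l ^ 2 * u l = β at hβ hdB
  generalize (labV h g).Z ψ = Z at hz hZ hH hdB
  have hβ' : |π.b / 2 * β| ≤ C1 * CK * π.b * π.Rs := by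
    rw [abs_mul, abs_of_nonneg (by linarith)]
    nlinarith
  generalize π.b / 2 * β = β' at hβ' hdB
  have hsZ : 0 < √Z := Real.sqrt_pos.2 hZ
  have f0 := (labV h g).f_nonneg
  have f1 := (labV h g).f_le
  have hq (a : VV g) (x : G) : (labV h g).f a x / π.L ≤ 1 / 2 ∧ 0 ≤ (labV h g).f a x / π.L :=
    ⟨le_trans (by gcongr; exact f1 a x) hRL, div_nonneg (f0 a x) hL.le⟩
  let d : G × Bool → ℝ := fun j => if j.2 then -(π.b * π.Rs / 2) * c j.1 else β' * p j.1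
  let t : G × Bool → VV g → ℝ := fun j a =>
    if j.2 then (labV h g).f a j.1 / π.Rs else 1 - (labV h g).f a j.1 / π.L
  have hat (xs : Fin (π.k - 1) → G) (j : G × Bool) (a : VV g) :
      atom (A.sch g) π (fun i => pj g (xs i)) (pj g j.1) j.2 a =
        (∏ i, (1 - (labV h g).f a (xs i) / π.L)) * t j a := rfl
  have ht (j : G × Bool) (a : VV g) : t j a ^ 2 ≤ 1 := by
    refine pow_le_one₀ ?_ ?_ <;> simp only [t] <;> split_ifs
    · exact div_nonneg (f0 _ _) (by linarith)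
    · linarith [(hq a j.1).1]
    · exact div_le_one_of_le₀ (f1 _ _) (by linarith)
    · linarith [(hq a j.1).2]
  have hm (a : VV g) : ∑ x ∈ s, p x * (1 - (labV h g).f a x / π.L) = 1 - ψ a / π.L := by
    simp only [mul_sub, mul_one, sum_sub_distrib, hp1, eψ a, sum_div, mul_div_assoc]
  have hd1 (a : VV g) : ∑ j ∈ s' ×ˢ {true} ∪ s ×ˢ {false}, d j * t j a =
      -(π.b / 2) * u a + β' * (1 - ψ a / π.L) := by
    rw [JL3X.last, ← hm, eu a, mul_sum, mul_sum]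
    refine congrArg₂ (· + ·) (sum_congr rfl fun y _ => ?_) (sum_congr rfl fun y _ => ?_)
    · simp only [d, t, if_true]
      field_simp
    · simp [d, t, mul_assoc]
  have hd2 : ∑ j ∈ s' ×ˢ {true} ∪ s ×ˢ {false}, |d j| ≤ CK * (2 * C2 + 2 + C1) * π.b * π.Rs := by
    have e1 (y : G) : |d (y, true)| = π.b * π.Rs / 2 * |c y| := by
      simp only [d, if_true]
      rw [abs_mul, abs_neg, abs_of_nonneg (by positivity)]
    have e2 (y : G) : |d (y, false)| = |β'| * p y := by simp [d, abs_of_nonneg (hp y)]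
    rw [JL3X.last]
    simp only [e1, e2, ← mul_sum, hp1]
    have := mul_le_mul_of_nonneg_left hc (show 0 ≤ π.b * π.Rs / 2 by positivity)
    have h3 : 0 ≤ CK * (2 * C2 + 1) * (π.b * π.Rs) := by positivity
    linarith
  refine ⟨(Fintype.piFinset fun _ => s) ×ˢ (s' ×ˢ {true} ∪ s ×ˢ {false}),
    fun i => (∏ j, p (i.1 j)) * d i.2 / √Z, fun a => ((deriv π.H (ψ a) - deriv π.H0 (ψ a)) * u a +
      β' * (π.H (ψ a) - π.H0 (ψ a))) / √Z, fun a => ?_, ?_, ?_⟩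
  · have e1 : π.H0 (ψ a) = (1 - ψ a / π.L) ^ (π.k - 1) * (1 - ψ a / π.L) := by
      rw [← pow_succ, Nat.sub_add_cancel (by linarith [hπ.L_ge.2]), Par.H0]
    have e2 := JL3X.expand s p (fun x => 1 - (labV h g).f a x / π.L) (π.k - 1)
    have e3 : ∑ i ∈ (Fintype.piFinset fun _ : Fin (π.k - 1) => s) ×ˢ
        (s' ×ˢ {true} ∪ s ×ˢ {false}), (∏ j, p (i.1 j)) * d i.2 / √Z *
          atom (A.sch g) π (fun j => pj g (i.1 j)) (pj g i.2.1) i.2.2 a =
        (1 - ψ a / π.L) ^ (π.k - 1) * (-(π.b / 2) * u a + β' * (1 - ψ a / π.L)) / √Z := by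
      rw [← hd1, ← hm, e2, sum_mul_sum, sum_product, sum_div]
      refine sum_congr rfl fun xs _ => ?_
      rw [sum_div]
      refine sum_congr rfl fun j _ => ?_
      rw [hat]
      ring
    beta_reduce
    rw [e3, hdB, hπ.deriv_H0, e1]
    ring
  · have e1 := JL3X.jensen s ((A.sch g).ball (2 * π.Rs) v) hp hp1
      (fun x a => 1 - (labV h g).f a x / π.L) (π.k - 1)
    have e2 : √(∑ a ∈ (A.sch g).ball (2 * π.Rs) v,
        (∑ x ∈ s, p x * (1 - (labV h g).f a x / π.L) ^ 2) ^ (π.k - 1)) ≤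
        √(12 * (C3 + 1)) * √Z := by
      rw [← Real.sqrt_mul (by linarith)]
      refine Real.sqrt_le_sqrt ((sum_le_sum fun a _ => JL3X.second hπ hp hp1 (f0 a) (f1 a) (eψ a)
        (hbd a).1 (hbd a).2).trans ?_)
      rw [← mul_sum]
      linarith
    calc _ ≤ ∑ i ∈ (Fintype.piFinset fun _ : Fin (π.k - 1) => s) ×ˢ
          (s' ×ˢ {true} ∪ s ×ˢ {false}), (∏ j, p (i.1 j)) * √(∑ a ∈ (A.sch g).ball (2 * π.Rs) v,
            (∏ j, (1 - (labV h g).f a (i.1 j) / π.L)) ^ 2) * |d i.2| / √Z := by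
          refine sum_le_sum fun i _ => ?_
          have e3 : 0 ≤ ∏ j, p (i.1 j) := prod_nonneg fun _ _ => hp _
          rw [abs_div, abs_mul, abs_of_nonneg e3, abs_of_pos hsZ, mul_right_comm _ _ |d i.2|,
            mul_div_right_comm _ (√_)]
          refine mul_le_mul_of_nonneg_left (Real.sqrt_le_sqrt (sum_le_sum fun a _ => ?_))
            (by positivity)
          rw [hat, mul_pow]
          exact mul_le_of_le_one_right (sq_nonneg _) (ht _ _)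
      _ ≤ √(12 * (C3 + 1)) * √Z * (CK * (2 * C2 + 2 + C1) * π.b * π.Rs) / √Z := by
          rw [← sum_div, sum_product]
          simp only [← mul_sum, ← sum_mul]
          gcongr
          exact e1.trans e2
      _ = _ := by field_simp
  · have e1 : (√Z)⁻¹ ≤ Real.exp (π.b * π.R / 2) := by
      rw [inv_le_comm₀ hsZ (Real.exp_pos _), ← Real.exp_neg, ← neg_div, Real.exp_half]
      exact Real.sqrt_le_sqrt hz
    have e2 := card_nsmul_le_sum ((A.sch g).ball (2 * π.Rs) v) (fun a => -|((deriv π.H (ψ a) -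
        deriv π.H0 (ψ a)) * u a + β' * (π.H (ψ a) - π.H0 (ψ a))) / √Z|)
      (-(CK * (2 * C2 + 2 + C1) * π.b * π.Rs * Real.exp (-(π.b * π.R)) *
        Real.exp (π.b * π.R / 2))) fun a _ => by
        rw [neg_le_neg_iff, abs_div, abs_of_pos hsZ, div_eq_mul_inv]
        refine mul_le_mul ((JL3X.err hπ (hbd a).1 (hbd a).2 (by linarith)
          (k2 π hπ _ (hbd a).1 (hbd a).2).1 (hua a)).trans ?_) e1 (by positivity) (by positivity)
        exact mul_le_mul_of_nonneg_right (by linarith) (Real.exp_pos _).le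
    rw [sum_neg_distrib, nsmul_eq_mul, mul_neg, neg_le_neg_iff] at e2
    have e3 : Real.exp (π.b * π.R / 4) * (Real.exp (-(π.b * π.R)) * Real.exp (π.b * π.R / 2)) ≤
        Real.exp (-(π.b * π.R / 8)) := by
      rw [← Real.exp_add, ← Real.exp_add, Real.exp_le_exp]
      have : 0 ≤ π.b * π.R := by positivity
      linarith
    calc _ ≤ _ := e2
      _ ≤ Real.exp (π.b * π.R / 4) * (CK * (2 * C2 + 2 + C1) * π.b * π.Rs *
          Real.exp (-(π.b * π.R)) * Real.exp (π.b * π.R / 2)) := by gcongr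
      _ = 1 * (CK * (2 * C2 + 2 + C1)) * π.b * π.Rs * (Real.exp (π.b * π.R / 4) *
          (Real.exp (-(π.b * π.R)) * Real.exp (π.b * π.R / 2))) := by ring
      _ ≤ _ := by gcongr

end

end Vale.Agent.P184L
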