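import Vale.Agent.P184L.JL3

/-! Good signs give the pair property. Hint: `dB ψ u` and `dB ψ' u'` vanish outside `U' = ball (2 Rs) v` (`labV_nb`, `Lab.B_zero`). Let `β w w' = (∑ q, (σ_q · w) (σ_q · w')) / Q - ⟨w, w'⟩` on `U'`, bilinear; the claim is `-e ≤ β (dB ψ u) (dB ψ' u')`. With `dB = w₀ + e₀` from `dB_atoms`: `|β w₀ w₀'| ≤ θ B ^ 2`, `B = C b Rs`; the positive semidefinite forms `(∑ q ...) / Q` and `⟨,⟩` satisfy Cauchy-Schwarz, both give `e₀` a norm at most `∑ |e₀ a|`, and `w₀` a norm at most `B`, resp. `√2 B`. -/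

namespace Vale.Agent.P184L

open Finset MeasureTheory ProbabilityTheory Classical Vale.Agent.P184
open scoped ContDiff

noncomputable section

universe u

variable {G : Type u} [Group G]

namespace JL4X

variable {V ι : Type*} {Q : ℕ} {U : Finset V} {s : V → Fin Q → Bool} {θ B D : ℝ}
  {α : ι → V → ℝ} {I I' : Finset ι} {c c' : ι → ℝ} {e e' : V → ℝ}

theorem hold {κ : Type*} {T : Finset κ} {f g : κ → ℝ} {a b : ℝ} (ha : 0 ≤ a)
    (hf : ∀ k ∈ T, |f k| ≤ a) (hg : ∑ k ∈ T, |g k| ≤ b) :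
    |∑ k ∈ T, f k * g k| ≤ a * b ∧ |∑ k ∈ T, g k * f k| ≤ a * b := by
  simp only [mul_comm (g _), and_self]
  refine (abs_sum_le_sum_abs _ _).trans (le_trans ?_ (mul_le_mul_of_nonneg_left hg ha))
  rw [mul_sum]
  exact sum_le_sum fun k hk => (abs_mul _ _).trans_le
    (mul_le_mul_of_nonneg_right (hf k hk) (abs_nonneg _))

theorem bil {κ : Type*} (T : Finset κ) (f g : ι → κ → ℝ) :
    ∑ k ∈ T, (∑ i ∈ I, c i * f i k) * ∑ j ∈ I', c' j * g j k =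
      ∑ i ∈ I, ∑ j ∈ I', c i * c' j * ∑ k ∈ T, f i k * g j k := by
  simp only [sum_mul_sum, mul_sum T]
  rw [sum_comm]
  refine sum_congr rfl fun i _ => sum_comm.trans (sum_congr rfl fun j _ => ?_)
  exact sum_congr rfl fun k _ => by ring

theorem lin (q : Fin Q) : ∑ a ∈ U, sg (s a q) * ∑ i ∈ I, c i * α i a =
    ∑ i ∈ I, c i * ∑ a ∈ U, sg (s a q) * α i a := by
  simp only [mul_sum, mul_left_comm (sg _)]
  exact sum_comm

theorem sup (hB : ∑ i ∈ I, |c i| * √(∑ a ∈ U, α i a ^ 2) ≤ B) :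
    ∀ a ∈ U, |∑ i ∈ I, c i * α i a| ≤ B := fun a ha =>
  (abs_sum_le_sum_abs _ _).trans (le_trans (sum_le_sum fun i _ => (abs_mul _ _).trans_le
    (mul_le_mul_of_nonneg_left (Real.abs_le_sqrt
      (single_le_sum (fun b _ => sq_nonneg (α i b)) ha)) (abs_nonneg _))) hB)

theorem err (hD : ∑ a ∈ U, |e a| ≤ D) (q : Fin Q) : |∑ a ∈ U, sg (s a q) * e a| ≤ D :=
  (hold zero_le_one (fun a _ => by unfold sg; split_ifs <;> simp) hD).1.trans_eq (one_mul D)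

theorem l1 (hQ : 1 ≤ Q) (h1 : θ ≤ 1) (hJ : ∀ i j, JL θ U s (α i) (α j))
    (hB : ∑ i ∈ I, |c i| * √(∑ a ∈ U, α i a ^ 2) ≤ B) :
    ∑ q, |∑ a ∈ U, sg (s a q) * ∑ i ∈ I, c i * α i a| ≤ 2 * Q * B := by
  have hQ' : (0 : ℝ) < Q := Nat.cast_pos.2 hQ
  simp only [lin]
  refine (sum_le_sum fun q _ => abs_sum_le_sum_abs _ _).trans (sum_comm.trans_le
    (le_trans ?_ (mul_le_mul_of_nonneg_left hB (by positivity))))
  rw [mul_sum]
  refine sum_le_sum fun i _ => ?_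
  simp only [abs_mul, ← mul_sum, mul_left_comm _ |c i|]
  refine mul_le_mul_of_nonneg_left (abs_le_of_sq_le_sq' ?_ (by positivity)).2 (abs_nonneg _)
  have h2 := (abs_le.1 (hJ i i)).2
  have h3 := sq_sum_le_card_mul_sum_sq (s := univ) (f := fun q => |∑ a ∈ U, sg (s a q) * α i a|)
  have h4 : 0 ≤ ∑ a ∈ U, α i a ^ 2 := sum_nonneg fun a _ => sq_nonneg _
  simp only [sq_abs, card_univ, Fintype.card_fin] at h3
  simp only [← sq, mul_assoc, Real.sq_sqrt h4, sub_le_iff_le_add, div_le_iff₀ hQ'] at h2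
  rw [mul_pow, Real.sq_sqrt h4]
  have h5 := mul_le_mul_of_nonneg_left h2 hQ'.le
  have h6 := mul_le_mul_of_nonneg_right h1 (mul_nonneg h4 (sq_nonneg (Q : ℝ)))
  have h7 := mul_nonneg h4 (sq_nonneg (Q : ℝ))
  linarith

theorem main (h0 : 0 ≤ θ) (hJ : ∀ i j, JL θ U s (α i) (α j))
    (hB : ∑ i ∈ I, |c i| * √(∑ a ∈ U, α i a ^ 2) ≤ B)
    (hB' : ∑ i ∈ I', |c' i| * √(∑ a ∈ U, α i a ^ 2) ≤ B) :
    |(∑ q, (∑ a ∈ U, sg (s a q) * ∑ i ∈ I, c i * α i a) *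
      ∑ a ∈ U, sg (s a q) * ∑ i ∈ I', c' i * α i a) / Q -
      ∑ a ∈ U, (∑ i ∈ I, c i * α i a) * ∑ i ∈ I', c' i * α i a| ≤ θ * (B * B) := by
  simp only [lin]
  rw [bil, bil]
  simp only [sum_div _ (fun i => ∑ j ∈ I', _), sum_div I', ← sum_sub_distrib, mul_div_assoc,
    ← mul_sub]
  refine le_trans ?_ (mul_le_mul_of_nonneg_left (mul_le_mul hB hB' (by positivity)
    (le_trans (by positivity) hB)) h0)
  rw [sum_mul_sum, mul_sum]
  refine (abs_sum_le_sum_abs _ _).trans (sum_le_sum fun i _ => ?_)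
  rw [mul_sum]
  refine (abs_sum_le_sum_abs _ _).trans (sum_le_sum fun j _ => ?_)
  rw [abs_mul, abs_mul]
  exact (mul_le_mul_of_nonneg_left (hJ i j) (by positivity)).trans_eq (by ring)

theorem core (hQ : 1 ≤ Q) (h0 : 0 ≤ θ) (h1 : θ ≤ 1) (hJ : ∀ i j, JL θ U s (α i) (α j))
    (hB : ∑ i ∈ I, |c i| * √(∑ a ∈ U, α i a ^ 2) ≤ B)
    (hB' : ∑ i ∈ I', |c' i| * √(∑ a ∈ U, α i a ^ 2) ≤ B)
    (hD : ∑ a ∈ U, |e a| ≤ D) (hD' : ∑ a ∈ U, |e' a| ≤ D) {w w' : V → ℝ}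
    (hw : ∀ a, w a = ∑ i ∈ I, c i * α i a + e a) (hw' : ∀ a, w' a = ∑ i ∈ I', c' i * α i a + e' a) :
    ∑ a ∈ U, w a * w' a - (θ * (B * B) + 6 * (B * D) + 2 * (D * D)) ≤
      (∑ q, (∑ a ∈ U, sg (s a q) * w a) * ∑ a ∈ U, sg (s a q) * w' a) / Q := by
  have hQ' : (0 : ℝ) < Q := Nat.cast_pos.2 hQ
  have hB0 : 0 ≤ B := le_trans (by positivity) hB
  have hD0 : 0 ≤ D := le_trans (by positivity) hD
  have e1 := (abs_le.1 (main h0 hJ hB hB')).1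
  have e2 := (abs_le.1 (hold hB0 (sup hB) hD').1).2
  have e3 := (abs_le.1 (hold hB0 (sup hB') hD).2).2
  have e4 := (abs_le.1 (hold hD0 (fun a ha =>
    (single_le_sum (fun b _ => abs_nonneg (e b)) ha).trans hD) hD').1).2
  have e5 := (abs_le.1 (hold hD0 (fun q _ => err (s := s) hD' q) (l1 hQ h1 hJ hB)).2).1
  have e6 := (abs_le.1 (hold hD0 (fun q _ => err (s := s) hD q) (l1 hQ h1 hJ hB')).1).1
  have e7 := (abs_le.1 (hold hD0 (fun q _ => err (s := s) hD q)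
    (sum_le_card_nsmul univ _ D fun q _ => err (s := s) hD' q)).1).1
  rw [card_univ, Fintype.card_fin, nsmul_eq_mul] at e7
  rw [le_sub_iff_add_le, le_div_iff₀ hQ'] at e1
  have e8 := mul_le_mul_of_nonneg_right (add_le_add (add_le_add e2 e3) e4) hQ'.le
  simp only [hw, hw', mul_add, add_mul, sum_add_distrib, le_div_iff₀ hQ']
  linarith

theorem sk_eq {w : V → ℝ} (hw : ∀ a, a ∉ U → w a = 0) (q : Fin Q) :
    Lab.sk (etaV s q) w = (((∑ a ∈ U, sg (s a q) * w a) / √(Q : ℝ) : ℝ) : ℂ) := by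
  rw [Lab.sk, finsum_eq_sum_of_support_subset (s := U) _
    (Function.support_subset_iff'.2 fun a ha => by rw [hw a ha, Complex.ofReal_zero, mul_zero]),
    sum_div, Complex.ofReal_sum]
  exact sum_congr rfl fun a _ => by rw [etaV, ← Complex.ofReal_mul, div_mul_eq_mul_div]

end JL4X

theorem jl_pair (G : Type u) [Group G] : ∃ C : ℝ, 1 ≤ C ∧ ∀ (A : Gen G) (π : Par) (h : A.Ok π)
    (g : G) (Q : ℕ) (θ : ℝ), 1 ≤ Q → 0 ≤ θ → θ ≤ 1 → ∀ (s : VV g → Fin Q → Bool) (v : VV g),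
    GoodJ (A.sch g) π θ s v → (labV h g).Pair univ (etaV s)
      (C * (π.b * π.Rs) ^ 2 * (θ + Real.exp (-(π.b * π.R / 8)))) v := by
  obtain ⟨C, hC, H⟩ := dB_atoms G
  refine ⟨8 * C ^ 2, by nlinarith, fun A π h g Q θ hQ h0 h1 s v hJ U hU hv ψ ψ' u u' a1 a2 b1 b2
    c1 c2 => ?_⟩
  obtain ⟨I, c, e, hw, hB, hD⟩ := H A π h g v ψ u a1 b1
  obtain ⟨I', c', e', hw', hB', hD'⟩ := H A π h g v ψ' u' a2 b2
  have hz : ∀ {ψ : VV g → ℝ} (u : VV g → ℝ), (∀ l, ψ l < π.Rt → l ∈ U) →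
      ∀ a, a ∉ (A.sch g).ball (2 * π.Rs) v → (labV h g).dB ψ u a = 0 := fun u hψ a ha =>
    (Lab.B_zero (not_lt.1 fun h2 => ha (labV_nb h g (hU a (hψ a h2) v hv))) u).2
  have h2 := JL4X.core hQ h0 h1 (fun i j => hJ _ _ _ _ _ _) hB hB' hD hD' hw hw'
  rw [finsum_eq_sum_of_support_subset (s := (A.sch g).ball (2 * π.Rs) v) _
    (Function.support_subset_iff'.2 fun a ha => by rw [hz u c1 a ha, zero_mul])]
  simp only [JL4X.sk_eq (hz u c1), JL4X.sk_eq (hz u' c2), Complex.conj_ofReal,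
    ← Complex.ofReal_mul, Complex.ofReal_re, div_mul_div_comm,
    Real.mul_self_sqrt (Nat.cast_nonneg Q), ← sum_div]
  refine le_trans (sub_le_sub_left ?_ _) h2
  have h3 : 0 ≤ π.b := le_trans (by norm_num) h.1.1
  have h4 : Real.exp (-(π.b * π.R / 8)) ≤ 1 := Real.exp_le_one_iff.2 (neg_nonpos.2 (by positivity))
  have h5 := Real.exp_pos (-(π.b * π.R / 8))
  generalize Real.exp (-(π.b * π.R / 8)) = x at h4 h5 ⊢
  have h6 := sq_nonneg (C * π.b * π.Rs)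
  have h7 := mul_le_mul_of_nonneg_left h4 (mul_nonneg h6 h5.le)
  have h8 := mul_nonneg h6 h0
  linarith

end

end Vale.Agent.P184L
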