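import Vale.Agent.P184L.K3

/-! Windows of the step loop. Hint for `av_window`: use `av_eq_sum`, `wt_nonneg`, `av_const`; keep only the pairs `(p, i)` with nonzero weight and push the weights forward along `(p, i) ↦ g ^ p * x i`. Index vertices by integers `a = p * (k + 1) + i` (`Int.ediv`, `Int.emod`): positions `X a`, jump times `S a = T i + p` (monotone in `a` for `Ord T`), step sizes `W a = w i`, `X a ∈ ball (W a) (X (a - 1))` (`cay_left`). A nonzero weight means `-r < S (a + 1) - t` and `S a - t < r`; for `a < a'` both nonzero all jumps `b ∈ (a, a']` have `|S b - t| ≤ r`. Let `n = ∑ W b` over the finite set of `b` with `|S b - t| ≤ r`; it equals `wl`. `int_wl`: `int_per`. -/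

namespace Vale.Agent.P184L

open Finset MeasureTheory ProbabilityTheory Classical Vale.Agent.P184
open scoped ContDiff

noncomputable section

universe u

variable {G : Type u} [Group G]

namespace K4X

theorem chain {V : Type*} [DecidableEq V] (Γ : Gr V) {X : ℤ → V} {W : ℤ → ℕ}
    (h : ∀ a, X (a + 1) ∈ Γ.ball (W (a + 1)) (X a)) {a a' : ℤ} (ha : a ≤ a') :
    X a' ∈ Γ.ball (∑ b ∈ Ioc a a', W b) (X a) := by
  induction a', ha using Int.le_induction with
  | base => exact Γ.mem_ball_self _ _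
  | succ c hc ih =>
    have e : Ioc a (c + 1) = insert (c + 1) (Ioc a c) := by
      ext b
      simp only [mem_Ioc, mem_insert]
      omega
    rw [e, sum_insert (by simp), add_comm (W _)]
    exact Γ.ball_trans ih (h c)

theorem cases (k : ℕ) (a : ℤ) :
    (∃ (p : ℤ) (j : Fin k), Int.divModEquiv (k + 1) a = (p, j.castSucc) ∧
      Int.divModEquiv (k + 1) (a + 1) = (p, j.succ)) ∨
    ∃ p : ℤ, Int.divModEquiv (k + 1) a = (p, Fin.last k) ∧
      Int.divModEquiv (k + 1) (a + 1) = (p + 1, 0) := by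
  obtain ⟨⟨p, i⟩, rfl⟩ := (Int.divModEquiv (k + 1)).symm.surjective a
  rw [Equiv.apply_symm_apply]
  induction i using Fin.lastCases with
  | last =>
    refine Or.inr ⟨p, rfl, (Equiv.apply_eq_iff_eq_symm_apply _).2 ?_⟩
    simp only [Int.divModEquiv_symm_apply, Fin.val_last, Fin.val_zero]
    push_cast
    ring
  | cast j =>
    refine Or.inl ⟨p, j, rfl, (Equiv.apply_eq_iff_eq_symm_apply _).2 ?_⟩
    simp only [Int.divModEquiv_symm_apply, Fin.val_castSucc, Fin.val_succ]
    push_cast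
    ring

/-- jump times -/
def S {k : ℕ} (T : E (k + 1)) (a : ℤ) : ℝ :=
  T (Int.divModEquiv (k + 1) a).2 + (Int.divModEquiv (k + 1) a).1

theorem S_succ {k : ℕ} (T : E (k + 1)) (a : ℤ) : S T (a + 1) =
    nx T (Int.divModEquiv (k + 1) a).2.succ + (Int.divModEquiv (k + 1) a).1 := by
  rcases cases k a with ⟨p, j, h1, h2⟩ | ⟨p, h1, h2⟩
  · rw [S, h1, h2, nx, Fin.succ_castSucc, Fin.snoc_castSucc]
  · rw [S, h1, h2, nx, Fin.succ_last, Fin.snoc_last]
    push_cast
    ring

theorem S_mono {k : ℕ} {T : E (k + 1)} (hT : Ord T) : Monotone (S T) := by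
  refine monotone_int_of_le_succ fun a => ?_
  rcases cases k a with ⟨p, j, h1, h2⟩ | ⟨p, h1, h2⟩
  · rw [S, S, h1, h2]
    exact add_le_add (hT.1 Fin.castSucc_lt_succ.le) le_rfl
  · rw [S, S, h1, h2]
    have := hT.2 (Fin.last k)
    push_cast
    linarith

theorem step (A : Gen G) (g : G) {k : ℕ} {x : Fin (k + 1) → G} {w : Fin (k + 1) → ℕ}
    (hw : A.Steps g x w) (a : ℤ) :
    g ^ (Int.divModEquiv (k + 1) (a + 1)).1 * x (Int.divModEquiv (k + 1) (a + 1)).2 ∈
      A.cay.ball (w (Int.divModEquiv (k + 1) (a + 1)).2)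
        (g ^ (Int.divModEquiv (k + 1) a).1 * x (Int.divModEquiv (k + 1) a).2) := by
  rcases cases k a with ⟨p, j, h1, h2⟩ | ⟨p, h1, h2⟩
  · have h := (hw j.succ).2
    rw [prv, ← Fin.succ_castSucc, Fin.cons_succ] at h
    rw [h1, h2]
    exact (cay_left A _).2 h
  · have h := (cay_left A (g ^ (p + 1))).2 (hw 0).2
    rw [prv, Fin.castSucc_zero, Fin.cons_zero, ← mul_assoc, zpow_add_one g p, mul_inv_cancel_right,
      ← zpow_add_one] at h
    rw [h1, h2]
    exact h

theorem wt_ne {r : ℝ} (hr : 0 < r) {k : ℕ} {T : E (k + 1)} (hT : Ord T) (t : ℝ) {a : ℤ}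
    (h : wt (Pr r) T t (Int.divModEquiv (k + 1) a).1 (Int.divModEquiv (k + 1) a).2 ≠ 0) :
    -r < S T (a + 1) - t ∧ S T a - t < r := by
  obtain ⟨-, -, h1, h2⟩ := ker_Pr hr
  have h3 := S_mono hT (le_add_of_nonneg_right zero_le_one : a ≤ a + 1)
  rw [wt, ← S_succ, sub_ne_zero] at h
  change Pr r (S T (a + 1) - t) ≠ Pr r (S T a - t) at h
  constructor
  · by_contra hn
    exact h ((h1 _ (not_lt.1 hn)).trans (h1 _ (by linarith)).symm)
  · by_contra hn
    exact h ((h2 _ (by linarith)).trans (h2 _ (not_lt.1 hn)).symm)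

end K4X

theorem av_window (A : Gen G) (g : G) {r : ℝ} (hr : 0 < r) {k : ℕ} {x : Fin (k + 1) → G}
    {w : Fin (k + 1) → ℕ} (hw : A.Steps g x w) {T : E (k + 1)} (hT : Ord T) (t : ℝ) :
    ∃ (s : Finset G) (c : G → ℝ) (n : ℕ), (∀ u, 0 ≤ c u) ∧ ∑ u ∈ s, c u = 1 ∧
      (∀ y : G → ℝ, av g (Pr r) y x T t = ∑ u ∈ s, c u * y u) ∧
      (n : ℝ) ≤ wl (fun j => w j) r T t ∧ ∀ u ∈ s, ∀ u' ∈ s, u' ∈ A.cay.ball n u := by
  have hB : ∀ i, |T i| ≤ ‖T‖ + |t| := fun i =>
    (norm_le_pi_norm T i).trans (le_add_of_nonneg_right (abs_nonneg t))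
  have ht : |t| ≤ ‖T‖ + |t| := le_add_of_nonneg_left (norm_nonneg T)
  obtain ⟨N, hN⟩ := exists_nat_ge (2 * (‖T‖ + |t|) + r + 1)
  have hmem : ∀ (p : ℤ) i, |T i + p - t| ≤ r → p ∈ Icc (-(N : ℤ)) N := by
    intro p i h
    have h1 := abs_le.1 h
    have h2 := abs_le.1 (hB i)
    have h3 := abs_le.1 ht
    have h4 : (-(N : ℝ)) ≤ p := by linarith
    have h5 : (p : ℝ) ≤ N := by linarith
    exact mem_Icc.2 ⟨by exact_mod_cast h4, by exact_mod_cast h5⟩
  set D : Finset (ℤ × Fin (k + 1)) :=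
    (Icc (-(N : ℤ)) N ×ˢ univ).filter fun q => wt (Pr r) T t q.1 q.2 ≠ 0 with hD
  set J : Finset (ℤ × Fin (k + 1)) :=
    (Icc (-(N : ℤ)) N ×ˢ univ).filter fun q => |T q.2 + q.1 - t| ≤ r with hJ
  have hav : ∀ y : G → ℝ, av g (Pr r) y x T t = ∑ u ∈ D.image fun q => g ^ q.1 * x q.2,
      (∑ q ∈ D with g ^ q.1 * x q.2 = u, wt (Pr r) T t q.1 q.2) * y u := by
    intro y
    rw [av_eq_sum g (ker_Pr hr) y x hB ht hN, ← sum_product', ← sum_filter_of_ne
      (p := fun q : ℤ × Fin (k + 1) => wt (Pr r) T t q.1 q.2 ≠ 0)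
      fun q _ h => right_ne_zero_of_mul h]
    refine (sum_image' _ fun q _ => ?_).symm
    rw [sum_mul]
    exact sum_congr rfl fun q' hq' => by rw [(mem_filter.1 hq').2, mul_comm]
  have key : ∀ a a' : ℤ, a ≤ a' → Int.divModEquiv (k + 1) a ∈ D → Int.divModEquiv (k + 1) a' ∈ D →
      g ^ (Int.divModEquiv (k + 1) a').1 * x (Int.divModEquiv (k + 1) a').2 ∈
        A.cay.ball (∑ q ∈ J, w q.2)
          (g ^ (Int.divModEquiv (k + 1) a).1 * x (Int.divModEquiv (k + 1) a).2) := by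
    intro a a' h ha ha'
    refine A.cay.ball_mono ?_ (K4X.chain A.cay
      (X := fun a => g ^ (Int.divModEquiv (k + 1) a).1 * x (Int.divModEquiv (k + 1) a).2)
      (W := fun a => w (Int.divModEquiv (k + 1) a).2) (K4X.step A g hw) h)
    rw [← sum_image (f := fun q : ℤ × Fin (k + 1) => w q.2)
      (Int.divModEquiv (k + 1)).injective.injOn]
    refine sum_le_sum_of_subset (image_subset_iff.2 fun b hb => ?_)
    have h1 := (K4X.wt_ne hr hT t (mem_filter.1 ha).2).1
    have h2 := (K4X.wt_ne hr hT t (mem_filter.1 ha').2).2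
    have h3 := K4X.S_mono hT (Int.add_one_le_of_lt (mem_Ioc.1 hb).1)
    have h4 := K4X.S_mono hT (mem_Ioc.1 hb).2
    have h5 : |K4X.S T b - t| ≤ r := abs_le.2 ⟨by linarith, by linarith⟩
    exact mem_filter.2 ⟨mem_product.2 ⟨hmem _ _ h5, mem_univ _⟩, h5⟩
  refine ⟨_, _, ∑ q ∈ J, w q.2, fun u => sum_nonneg fun q _ => wt_nonneg hr hT t _ _, ?_, hav,
    le_of_eq ?_, fun u hu u' hu' => ?_⟩
  · have h := hav fun _ => 1
    rw [av_const g (ker_Pr hr), (Pr_ends hr).1, (Pr_ends hr).2] at h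
    simpa using h.symm
  · rw [hJ, sum_filter, sum_product_right, Nat.cast_sum, wl]
    refine sum_congr rfl fun j _ => ?_
    have e : ∀ p : ℤ, |Set.indicator (Set.Icc (-r) r) (1 : ℝ → ℝ) (T j - t + p)| =
        if |T j + p - t| ≤ r then 1 else 0 := fun p => by
      simp only [Set.indicator_apply, Set.mem_Icc, ← abs_le, sub_add_eq_add_sub]
      split_ifs <;> simp
    rw [per, finsum_eq_sum_of_support_subset (s := Icc (-(N : ℤ)) N) _ fun p hp => by
      rw [Function.mem_support, e] at hp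
      exact mem_coe.2 (hmem p j (by_contra fun h => hp (if_neg h)))]
    simp only [e, mul_sum]
    push_cast
    exact sum_congr rfl fun p _ => by split_ifs <;> simp
  · obtain ⟨q, hq, rfl⟩ := mem_image.1 hu
    obtain ⟨q', hq', rfl⟩ := mem_image.1 hu'
    obtain ⟨a, rfl⟩ := (Int.divModEquiv (k + 1)).surjective q
    obtain ⟨a', rfl⟩ := (Int.divModEquiv (k + 1)).surjective q'
    rcases le_total a a' with h | h
    · exact key a a' h hq hq'
    · exact A.cay.ball_symm (key a' a h hq' hq)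

theorem int_wl {k : ℕ} (w : E (k + 1)) {r : ℝ} (hr : 0 < r) (T : E (k + 1)) :
    IntervalIntegrable (wl w r T) volume 0 1 ∧
      ∫ t in (0 : ℝ)..1, wl w r T t = 2 * r * ∑ j, w j := by
  have hq : Integrable (Set.indicator (Set.Icc (-r) r) (1 : ℝ → ℝ)) :=
    (integrable_indicator_iff measurableSet_Icc).2 (continuous_one.integrableOn_Icc)
  have h0 : ∀ u, r < |u| → Set.indicator (Set.Icc (-r) r) (1 : ℝ → ℝ) u = 0 := fun u hu =>
    Set.indicator_of_notMem (s := Set.Icc (-r) r) (fun h => hu.not_ge (abs_le.2 h)) _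
  have e : ∫ u, |Set.indicator (Set.Icc (-r) r) (1 : ℝ → ℝ) u| = 2 * r := by
    have : ∀ u, |Set.indicator (Set.Icc (-r) r) (1 : ℝ → ℝ) u| =
        Set.indicator (Set.Icc (-r) r) (1 : ℝ → ℝ) u := fun u =>
      abs_of_nonneg (Set.indicator_nonneg (fun _ _ => zero_le_one) u)
    simp only [this]
    rw [integral_indicator_one measurableSet_Icc, Real.volume_real_Icc_of_le (by linarith)]
    ring
  have h1 := fun j => (int_per hq h0 (T j)).1.const_mul (w j)
  unfold wl
  refine ⟨by simpa [sum_fn] using IntervalIntegrable.sum univ fun j _ => h1 j, ?_⟩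
  rw [intervalIntegral.integral_finsetSum fun j _ => h1 j, mul_sum]
  refine sum_congr rfl fun j _ => ?_
  rw [intervalIntegral.integral_const_mul, (int_per hq h0 (T j)).2, e, mul_comm]

end

end Vale.Agent.P184L
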