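import Vale.Agent.P184L.Junc1
import Vale.Agent.P184L.K4
import Vale.Agent.P184L.Gb4b

/-! Bottom scale and junction of the two label systems. Hint: `av_window` gives at each time a probability `c` on a set `s` of diameter `n ≤ wl`. `bottom`: the label `pj u`, `u ∈ s`, has potential `≤ n`; `F_upper`; `int_wl`. `junction`: if `n ≤ ρ0` use `junction_pt`, otherwise `FG ≤ R`, `-C ≤ FV`, `1 ≤ wl / ρ0`; integrate. Integrability: `continuous_F_Psi`, `int_wl`. -/

namespace Vale.Agent.P184L

open Finset MeasureTheory ProbabilityTheory Classical Vale.Agent.P184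
open scoped ContDiff

noncomputable section

universe u

variable {G : Type u} [Group G]

theorem bottom (G : Type u) [Group G] : ∃ C : ℝ, 1 ≤ C ∧ ∀ (A : Gen G) (π : Par) (h : A.Ok π)
    (g : G) (r : ℝ), 0 < r → ∀ (k : ℕ) (x : Fin (k + 1) → G) (w : Fin (k + 1) → ℕ)
    (T : E (k + 1)), A.Steps g x w → Ord T →
    (labV h g).A r x T ≤ C + 4 * r * ∑ j, (w j : ℝ) := by
  obtain ⟨C, hC, H⟩ := F_upper G
  refine ⟨C, hC, fun A π h g r hr k x w T hw hT => ?_⟩
  obtain ⟨i1, i2⟩ := int_wl (fun j => (w j : ℝ)) hr T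
  have key : ∀ t, (labV h g).F ((labV h g).Psi r x T t) ≤ C + 2 * wl (fun j => w j) r T t := by
    intro t
    obtain ⟨s, c, n, c0, c1, e, hn, hs⟩ := av_window A g hr hw hT t
    obtain ⟨u, hu⟩ : s.Nonempty := nonempty_of_sum_ne_zero (c1.trans_ne one_ne_zero)
    have := H π g _ (labV h g) h.1 _ (adm_Psi _ hr x hT t) {pj g u} n (by simp [labV])
      fun l hl => by
        rw [mem_singleton.1 hl, Lab.Psi, e, ← one_mul (n : ℝ), ← c1, sum_mul]
        refine sum_le_sum fun u' hu' => mul_le_mul_of_nonneg_left ?_ (c0 u')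
        exact Nat.cast_le.2 (Gr.dd_le_iff.2 (Or.inr (sch_proj A g (hs u hu u' hu'))))
    linarith
  have := intervalIntegral.integral_mono_on zero_le_one
    ((continuous_F_Psi (labV h g) h.1 hr x T).intervalIntegrable 0 1)
    (intervalIntegrable_const.add (i1.const_mul 2)) fun t _ => key t
  rw [intervalIntegral.integral_add intervalIntegrable_const (i1.const_mul 2),
    intervalIntegral.integral_const_mul, i2, intervalIntegral.integral_const] at this
  simp only [sub_zero, one_smul] at this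
  exact this.trans (le_of_eq (by ring))

theorem junction (G : Type u) [Group G] : ∃ C : ℝ, 1 ≤ C ∧ ∀ (A : Gen G) (π : Par) (g : G)
    (ρ : ℕ) (ι : ℝ) (M P : ℕ) (h : GOk A π g ρ ι M P) (ρ0 : ℕ), 1 ≤ ρ0 → ρ0 + 2 * π.Rs ≤ ρ →
    ∀ r : ℝ, 0 < r → ∀ (k : ℕ) (x : Fin (k + 1) → G) (w : Fin (k + 1) → ℕ) (T : E (k + 1)),
    A.Steps g x w → Ord T → (labG h).A r x T ≤ 4 * (labV h.ok g).A r x T + C +
      (π.R + C) * (2 * r * ∑ j, (w j : ℝ)) / ρ0 := by
  obtain ⟨C, hC, H⟩ := junction_pt G
  obtain ⟨C', hC', H'⟩ := F_lower G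
  refine ⟨C + 4 * C', by linarith, ?_⟩
  intro A π g ρ ι M P h ρ0 h1 h2 r hr k x w T hw hT
  obtain ⟨i1, i2⟩ := int_wl (fun j => (w j : ℝ)) hr T
  have hρ : (0 : ℝ) < ρ0 := by exact_mod_cast h1
  have hR : (0 : ℝ) ≤ π.R := Nat.cast_nonneg _
  have key : ∀ t, (labG h).F ((labG h).Psi r x T t) ≤
      4 * (labV h.ok g).F ((labV h.ok g).Psi r x T t) + (C + 4 * C') +
        (π.R + (C + 4 * C')) / ρ0 * wl (fun j => w j) r T t := by
    intro t
    obtain ⟨s, c, n, c0, c1, e, hn, hs⟩ := av_window A g hr hw hT t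
    have a0 : 0 ≤ (π.R + (C + 4 * C')) / ρ0 := by positivity
    have a1 := mul_le_mul_of_nonneg_left hn a0
    rcases le_or_gt n ρ0 with hl | hl
    · have := H A π g ρ ι M P h n (by omega) s c c0 c1 hs
      have e1 : (labG h).Psi r x T t = fun l => ∑ u ∈ s, c u * (labG h).f l u :=
        funext fun l => e _
      have e2 : (labV h.ok g).Psi r x T t = fun l => ∑ u ∈ s, c u * (labV h.ok g).f l u :=
        funext fun l => e _
      rw [e1, e2]
      have := mul_nonneg a0 (Nat.cast_nonneg n)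
      linarith
    · have b1 := Lab.F_le (Λ := labG h) h.ok.1 ((labG h).Psi r x T t)
      have ad := adm_Psi (labV h.ok g) hr x hT t
      have b2 := H' π g _ (labV h.ok g) h.ok.1 (labV_sumLe _ _) _ ad 0 fun l => (ad.bounds l).1
      rw [zero_div, min_eq_right hR] at b2
      have b3 := mul_le_mul_of_nonneg_left (Nat.cast_le.2 hl.le : (ρ0 : ℝ) ≤ n) a0
      rw [div_mul_cancel₀ _ hρ.ne'] at b3
      linarith
  have j1 := ((continuous_F_Psi (labV h.ok g) h.ok.1 hr x T).intervalIntegrable
    (μ := volume) 0 1).const_mul 4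
  have := intervalIntegral.integral_mono_on zero_le_one
    ((continuous_F_Psi (labG h) h.ok.1 hr x T).intervalIntegrable 0 1)
    ((j1.add intervalIntegrable_const).add (i1.const_mul _)) fun t _ => key t
  rw [intervalIntegral.integral_add (j1.add intervalIntegrable_const) (i1.const_mul _),
    intervalIntegral.integral_add j1 intervalIntegrable_const,
    intervalIntegral.integral_const_mul, intervalIntegral.integral_const_mul, i2,
    intervalIntegral.integral_const] at this
  simp only [sub_zero, one_smul] at this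
  exact this.trans (le_of_eq (by rw [Lab.A]; ring))

end

end Vale.Agent.P184L
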