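import Vale.Agent.P184L.LabG
import Vale.Agent.P184L.Gb3

/-! Comparison of the free energies on small windows. Hint: let `a` minimise `ψV` (finitely many values below `Rs`); `F_lower` gives `min R (ψV a / 2) - C ≤ FV`. If no `x ∈ s` has `dd a (pj x) < Rs` then `ψV a = Rs` and `F_le` suffices. Otherwise lift (`sch_lift`): `y x` in the orbit `a` with `dd (y x) x ≤ dd a (pj x)`, `y x = g ^ (k x) * y₀` with `g ^ (k x) * y₀ ∈ ball ρ y₀`. Ordinary `y₀`: the label `lab y₀` (prior `1`) has `f ≤ fV a` (`fG_le`). Exceptional `y₀`: `|k x| ≤ M`, the labels `{g ^ j y₀}`, `0 ≤ j ≤ ⌈1 / ι⌉`, are distinct, have total prior `≥ 1` and `f ≤ fV a + 3`. Then `F_upper` and `F_le`: `FG ≤ min R (2 ψV a + C) ≤ 4 min R (ψV a / 2) + C`. -/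

namespace Vale.Agent.P184L

open Finset MeasureTheory ProbabilityTheory Classical Vale.Agent.P184
open scoped ContDiff

noncomputable section

universe u

variable {G : Type u} [Group G]

namespace Junc1X

variable {A : Gen G} {π : Par} {ρ : ℕ} {ι : ℝ} {g : G} {M P : ℕ}

theorem lift {R : ℕ} {a : VV g} {x : G} (h : (A.sch g).dd R a (pj g x) < R) :
    ∃ y ∈ A.cay.ball ((A.sch g).dd R a (pj g x)) x, pj g y = a :=
  sch_lift A g (Gr.ball_symm (dd_lt h))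

theorem pr_lab (y : G) : A.prG ρ ι g (A.lab ρ g y) = if A.Exc ρ g y then ι else 1 := by
  have hv : A.Val ρ g (A.lab ρ g y) := ⟨y, rfl⟩
  simp only [Gen.prG, if_pos hv, (hv.orb (mem_lab_self y)).2.1]

theorem labels (h : GOk A π g ρ ι M P) (y : G) : ∃ T : Finset (Set G),
    1 ≤ ∑ l ∈ T, A.prG ρ ι g l ∧ ∀ l ∈ T, ∀ k : ℤ, g ^ k * y ∈ A.cay.ball ρ y → ∀ u,
      A.fG π ρ ι g l u ≤ A.cay.dd π.Rs (g ^ k * y) u + 2 := by
  by_cases hy : A.Exc ρ g y
  · have he : ∀ j : ℕ, A.Exc ρ g (g ^ j * y) := fun j =>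
      (Zs_left ((Commute.refl g).pow_left j).eq y).trans hy
    refine ⟨(range ⌈1 / ι⌉₊).image fun j : ℕ => A.lab ρ g (g ^ j * y), ?_, fun l hl k hk u => ?_⟩
    · rw [sum_image fun i _ j _ e => by
        simp only [Gen.lab, if_pos (he _), Set.singleton_eq_singleton_iff, mul_left_inj] at e
        exact injective_pow_iff_not_isOfFinOrder.2 (h.inf y hy) e]
      simp only [pr_lab, if_pos (he _), sum_const, card_range, nsmul_eq_mul]
      exact (div_le_iff₀ h.ι_pos).1 (Nat.le_ceil _)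
    · obtain ⟨j, hj, rfl⟩ := mem_image.1 hl
      have h1 := (lt_div_iff₀ h.ι_pos).1 (Nat.lt_ceil.1 (mem_range.1 hj))
      have h2 := fG_le (π := π) h.ι_pos (g ^ j * y) u (k - j) (.inl (he j))
      rw [if_pos (he j), ← mul_assoc, ← zpow_natCast, ← zpow_add, sub_add_cancel] at h2
      have h3 : |(k : ℝ)| ≤ M := by exact_mod_cast h.hM y k hy hk
      have h4 : |((k - j : ℤ) : ℝ)| ≤ M + j := by
        push_cast
        exact (abs_sub _ _).trans (add_le_add h3 (Nat.abs_cast j).le)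
      rw [← zpow_natCast]
      nlinarith [mul_le_mul_of_nonneg_left h4 h.ι_pos.le, h.hιM]
  · refine ⟨{A.lab ρ g y}, by simp [pr_lab, hy], fun l hl k hk u => ?_⟩
    have h2 := fG_le (π := π) h.ι_pos y u k (.inr (AddSubgroup.subset_closure hk))
    rw [if_neg hy] at h2
    rw [mem_singleton.1 hl]
    linarith

end Junc1X

theorem junction_pt (G : Type u) [Group G] : ∃ C : ℝ, 1 ≤ C ∧ ∀ (A : Gen G) (π : Par) (g : G)
    (ρ : ℕ) (ι : ℝ) (M P : ℕ) (h : GOk A π g ρ ι M P) (n : ℕ), n + 2 * π.Rs ≤ ρ →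
    ∀ (s : Finset G) (c : G → ℝ), (∀ u, 0 ≤ c u) → ∑ u ∈ s, c u = 1 →
    (∀ u ∈ s, ∀ u' ∈ s, u' ∈ A.cay.ball n u) →
    (labG h).F (fun l => ∑ u ∈ s, c u * (labG h).f l u) ≤
      4 * (labV h.ok g).F (fun a => ∑ u ∈ s, c u * (labV h.ok g).f a u) + C := by
  obtain ⟨C1, h1, H1⟩ := F_upper G
  obtain ⟨C2, h2, H2⟩ := F_lower G
  refine ⟨4 * C2 + C1 + 4, by linarith, fun A π g ρ ι M P h n hn s c hc hs hb => ?_⟩
  set ψ := fun a => ∑ u ∈ s, c u * (labV h.ok g).f a u with hψ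
  set φ := fun l => ∑ u ∈ s, c u * (labG h).f l u with hφ
  have aψ : (labV h.ok g).Adm ψ := ⟨s, c, hc, hs, fun _ => rfl⟩
  have aφ : (labG h).Adm φ := ⟨s, c, hc, hs, fun _ => rfl⟩
  have hR := (labG h).F_le h.ok.1 φ
  have hR0 : (0 : ℝ) ≤ π.R := Nat.cast_nonneg _
  have hL := H2 π g _ _ h.ok.1 (labV_sumLe h.ok g) ψ aψ
  by_cases hA : ∀ a, (π.Rs : ℝ) ≤ ψ a
  · have h3 := hL _ hA
    rw [min_eq_left (by rw [π.Rs_eq, π.Rt_eq]; linarith)] at h3
    linarith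
  obtain ⟨a, ha, hm⟩ := Set.exists_min_image _ ψ aψ.fin
    ((not_forall.1 hA).imp fun _ => not_le.1)
  have ha' : ψ a < π.Rs := ha
  have h3 := hL (ψ a) fun l => (lt_or_ge (ψ l) π.Rs).elim (hm l) ha'.le.trans
  obtain ⟨x, hx, hd⟩ : ∃ x ∈ s, (A.sch g).dd π.Rs a (pj g x) < π.Rs := by
    by_contra hcon
    push Not at hcon
    refine ha'.not_ge ?_
    rw [← one_mul (π.Rs : ℝ), ← hs, sum_mul]
    exact sum_le_sum fun u hu => mul_le_mul_of_nonneg_left (Nat.cast_le.2 (hcon u hu)) (hc u)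
  obtain ⟨y, hy, e⟩ := Junc1X.lift hd
  obtain ⟨T, hT, hf⟩ := Junc1X.labels h y
  have h4 := H1 π g _ _ h.ok.1 φ aφ T (ψ a + 2) hT fun l hl => by
    rw [← one_mul (2 : ℝ), ← hs, sum_mul, ← sum_add_distrib]
    refine sum_le_sum fun u hu => ?_
    rw [← mul_add]
    refine mul_le_mul_of_nonneg_left ?_ (hc u)
    rcases lt_or_ge ((A.sch g).dd π.Rs a (pj g u)) π.Rs with h5 | h5
    · obtain ⟨y', hy', e'⟩ := Junc1X.lift h5
      obtain ⟨k, rfl⟩ := pj_eq.1 (e.trans e'.symm)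
      refine (hf l hl k (Gr.ball_trans' (Gr.ball_trans (Gr.ball_symm hy) (hb x hx u hu)) hy'
        (by omega)) u).trans (add_le_add_left ?_ 2)
      exact Nat.cast_le.2 (Gr.dd_le_iff.2 (.inr (Gr.ball_symm hy')))
    · exact ((labG h).f_le l u).trans ((Nat.cast_le.2 h5).trans
        (le_add_of_nonneg_right zero_le_two))
  rcases min_cases (π.R : ℝ) (ψ a / 2) with h5 | h5 <;> rw [h5.1] at h3 <;> linarith

end

end Vale.Agent.P184L
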