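import Vale.Agent.P184L.Defs3

/-! Kernels. Hint: `Real.smoothTransition` is smooth, monotone, `0` left of `0`, `1` right of `1`; `deriv P0` and `deriv (deriv P0)` are continuous with compact support, hence bounded (`le_ciSup`). `deriv P1 = P0` (`intervalIntegral.integral_hasDerivAt_right`), `contDiff_infty_iff_deriv`. For `u ≥ 1`, `P1 u = P1 1 + (u - 1)`; for `u ≤ -1`, `P1 u = 0`. Mean value inequality for the `Qr` bounds: for `|u| ≤ r'` one has `|u / r - u / r'| ≤ γ`; outside both terms agree. `per`: only the integers `p` with `|u + p| ≤ w` matter, at most `2 w + 1` of them; `int_per`: on `t ∈ [0, 1]` the finsum is a fixed finite sum, `∑ p, ∫ t in 0..1, |q (a - t + p)|` is an integral over adjacent intervals (`intervalIntegral.sum_integral_adjacent_intervals`). -/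

namespace Vale.Agent.P184L

open Finset MeasureTheory ProbabilityTheory Classical Vale.Agent.P184
open scoped ContDiff

noncomputable section

universe u

variable {G : Type u} [Group G]

namespace K1X

theorem smooth0 : ContDiff ℝ ∞ P0 :=
  Real.smoothTransition.contDiff.comp ((contDiff_id.add contDiff_const).div_const 2)

theorem P0_lo {u : ℝ} (h : u ≤ -1) : P0 u = 0 :=
  Real.smoothTransition.zero_of_nonpos (by linarith)

theorem P0_hi {u : ℝ} (h : 1 ≤ u) : P0 u = 1 :=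
  Real.smoothTransition.one_of_one_le (by linarith)

theorem ker0 : Ker P0 1 :=
  ⟨smooth0, one_pos, fun _ hu => by rw [P0_lo hu, P0_lo le_rfl],
    fun _ hu => by rw [P0_hi hu, P0_hi le_rfl]⟩

theorem ker_deriv {P : ℝ → ℝ} {w : ℝ} (h : Ker P w) :
    Ker (deriv P) w ∧ ∀ u, w ≤ |u| → deriv P u = 0 := by
  obtain ⟨hs, hw, hl, hr⟩ := h
  obtain ⟨hd, hs'⟩ := contDiff_infty_iff_deriv.1 hs
  have h1 : ∀ u, u ≤ -w → deriv P u = 0 := fun u hu => by
    refine (uniqueDiffWithinAt_Iic u).eq_deriv _ (hd u).hasDerivAt.hasDerivWithinAt ?_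
    exact (hasDerivWithinAt_const u (Set.Iic u) (P (-w))).congr
      (fun x hx => hl x (le_trans hx hu)) (hl u hu)
  have h2 : ∀ u, w ≤ u → deriv P u = 0 := fun u hu => by
    refine (uniqueDiffWithinAt_Ici u).eq_deriv _ (hd u).hasDerivAt.hasDerivWithinAt ?_
    exact (hasDerivWithinAt_const u (Set.Ici u) (P w)).congr
      (fun x hx => hr x (le_trans hu hx)) (hr u hu)
  refine ⟨⟨hs', hw, fun u hu => by rw [h1 u hu, h1 _ le_rfl],
    fun u hu => by rw [h2 u hu, h2 _ le_rfl]⟩, fun u hu => ?_⟩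
  rcases le_abs'.1 hu with h | h
  · exact h1 u h
  · exact h2 u h

theorem bdd {q : ℝ → ℝ} {w : ℝ} (hq : Continuous q) (h0 : ∀ u, w ≤ |u| → q u = 0) :
    BddAbove (Set.range fun u => |q u|) := by
  obtain ⟨C, hC⟩ := (isCompact_Icc (a := -w) (b := w)).exists_bound_of_continuousOn hq.continuousOn
  refine ⟨max C 0, ?_⟩
  rintro _ ⟨u, rfl⟩
  by_cases hu : w ≤ |u|
  · simp [h0 u hu]
  · exact (hC u (abs_le.1 (not_le.1 hu).le)).trans (le_max_left _ _)

theorem sup1 : 0 ≤ ⨆ u, |deriv P0 u| := Real.iSup_nonneg fun _ => abs_nonneg _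

theorem sup2 : 0 ≤ ⨆ u, |deriv (deriv P0) u| := Real.iSup_nonneg fun _ => abs_nonneg _

theorem d1_le (u : ℝ) : |deriv P0 u| ≤ CK := by
  have h := ker_deriv ker0
  have := le_ciSup (bdd h.1.1.continuous h.2) u
  unfold CK
  linarith [sup2]

theorem d2_le (u : ℝ) : |deriv (deriv P0) u| ≤ CK := by
  have h := ker_deriv (ker_deriv ker0).1
  have := le_ciSup (bdd h.1.1.continuous h.2) u
  unfold CK
  linarith [sup1]

theorem lip {P : ℝ → ℝ} (hP : Differentiable ℝ P) (h : ∀ u, |deriv P u| ≤ CK) (x y : ℝ) :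
    |P x - P y| ≤ CK * |x - y| :=
  Convex.norm_image_sub_le_of_norm_deriv_le (s := Set.univ) (fun z _ => hP z) (fun z _ => h z)
    convex_univ (Set.mem_univ y) (Set.mem_univ x)

theorem hasDeriv1 (u : ℝ) : HasDerivAt P1 (P0 u) u :=
  intervalIntegral.integral_hasDerivAt_right (smooth0.continuous.intervalIntegrable _ _)
    (smooth0.continuous.stronglyMeasurableAtFilter _ _) smooth0.continuous.continuousAt

theorem smooth1 : ContDiff ℝ ∞ P1 := by
  refine contDiff_infty_iff_deriv.2 ⟨fun u => (hasDeriv1 u).differentiableAt, ?_⟩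
  rw [show deriv P1 = P0 from funext fun u => (hasDeriv1 u).deriv]
  exact smooth0

theorem P1_lo {u : ℝ} (h : u ≤ -1) : P1 u = 0 := by
  rw [P1, intervalIntegral.integral_congr (g := fun _ => 0), intervalIntegral.integral_zero]
  intro v hv
  rw [Set.uIcc_of_ge h] at hv
  exact P0_lo hv.2

theorem P1_hi {u : ℝ} (h : 1 ≤ u) : P1 u = P1 1 + (u - 1) := by
  rw [P1, P1, ← intervalIntegral.integral_add_adjacent_intervals
    (smooth0.continuous.intervalIntegrable (-1) 1) (smooth0.continuous.intervalIntegrable 1 u),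
    intervalIntegral.integral_congr (a := 1) (b := u) (g := fun _ => 1)]
  · simp
  · intro v hv
    rw [Set.uIcc_of_le h] at hv
    exact P0_hi hv.1

theorem hasDeriv_sc {P : ℝ → ℝ} {y u : ℝ} (r : ℝ) (h : HasDerivAt P y (u / r)) :
    HasDerivAt (fun u => P (u / r)) (y / r) u := by
  have := h.comp u ((hasDerivAt_id u).div_const r)
  simpa [div_eq_mul_inv, Function.comp_def] using this

theorem diff0 : Differentiable ℝ P0 := (contDiff_infty_iff_deriv.1 smooth0).1

theorem diff1 : Differentiable ℝ (deriv P0) :=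
  (contDiff_infty_iff_deriv.1 (contDiff_infty_iff_deriv.1 smooth0).2).1

theorem hasDeriv_Pr (r u : ℝ) : HasDerivAt (Pr r) (deriv P0 (u / r) / r) u :=
  hasDeriv_sc r (diff0 _).hasDerivAt

theorem deriv_Pr (r : ℝ) : deriv (Pr r) = fun u => deriv P0 (u / r) / r :=
  funext fun u => (hasDeriv_Pr r u).deriv

theorem per_eq {q : ℝ → ℝ} {u : ℝ} (s : Finset ℤ) (h : ∀ p : ℤ, p ∉ s → q (u + p) = 0) :
    per q u = ∑ p ∈ s, |q (u + p)| :=
  finsum_eq_sum_of_support_subset _ fun p hp => by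
    by_contra hn
    exact hp (by simp [h p hn])

theorem out {q : ℝ → ℝ} {w u : ℝ} {N : ℕ} (h0 : ∀ u, w < |u| → q u = 0) (hN : |u| + w ≤ N)
    (p : ℤ) (hp : p ∉ Icc (-(N : ℤ)) N) : q (u + p) = 0 := by
  refine h0 _ ?_
  have h1 : (N : ℤ) < |p| := by
    by_contra hn
    exact hp (mem_Icc.2 (abs_le.1 (not_lt.1 hn)))
  have h2 : (N : ℝ) < |(p : ℝ)| := by exact_mod_cast h1
  have h3 : |(p : ℝ)| ≤ |u + p| + |u| := by
    have := abs_sub (u + p) u
    rwa [add_sub_cancel_left] at this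
  linarith

end K1X

theorem one_le_CK : 1 ≤ CK := by
  unfold CK
  linarith [K1X.sup1, K1X.sup2]

theorem contDiff_P0 : ContDiff ℝ ∞ P0 := K1X.smooth0

theorem Pr_mono {r : ℝ} (hr : 0 < r) : Monotone (Pr r) := fun _ _ h =>
  Real.smoothTransition.monotone (by gcongr)

theorem Pr_ends {r : ℝ} (hr : 0 < r) : Pr r (-r) = 0 ∧ Pr r r = 1 := ⟨K1X.P0_lo (by rw [neg_div, div_self hr.ne']),
    K1X.P0_hi (by rw [div_self hr.ne'])⟩

theorem ker_Pr {r : ℝ} (hr : 0 < r) : Ker (Pr r) r := by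
  refine ⟨contDiff_P0.comp (contDiff_id.div_const r), hr, fun u hu => ?_, fun u hu => ?_⟩
  · rw [(Pr_ends hr).1]
    exact K1X.P0_lo (by rw [div_le_iff₀ hr]; linarith)
  · rw [(Pr_ends hr).2]
    exact K1X.P0_hi (by rw [le_div_iff₀ hr]; linarith)

theorem ker_Qr {r r' : ℝ} (hr : 0 < r) (h : r ≤ r') : Ker (Qr r r') r' := by
  have hr' : 0 < r' := hr.trans_le h
  have h1 : ∀ u, u ≤ -r' → Qr r r' u = 0 := fun u hu => by
    rw [Qr, K1X.P1_lo (by rw [div_le_iff₀ hr]; linarith),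
      K1X.P1_lo (by rw [div_le_iff₀ hr']; linarith)]
    ring
  have h2 : ∀ u, r' ≤ u → Qr r r' u = (r - r') * (P1 1 - 1) := fun u hu => by
    rw [Qr, K1X.P1_hi (u := u / r) (by rw [le_div_iff₀ hr]; linarith),
      K1X.P1_hi (u := u / r') (by rw [le_div_iff₀ hr']; linarith)]
    field_simp
    ring
  refine ⟨(contDiff_const.mul (K1X.smooth1.comp (contDiff_id.div_const r))).sub
    (contDiff_const.mul (K1X.smooth1.comp (contDiff_id.div_const r'))), hr', fun u hu => ?_,
    fun u hu => ?_⟩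
  · rw [h1 u hu, h1 _ le_rfl]
  · rw [h2 u hu, h2 _ le_rfl]

theorem Ker.deriv {P : ℝ → ℝ} {w : ℝ} (h : Ker P w) :
    Ker (deriv P) w ∧ ∀ u, w ≤ |u| → deriv P u = 0 := K1X.ker_deriv h

theorem Ker.mono {P : ℝ → ℝ} {w w' : ℝ} (h : Ker P w) (hw : w ≤ w') : Ker P w' := by
  obtain ⟨hs, h0, hl, hr⟩ := h
  exact ⟨hs, h0.trans_le hw, fun u hu => by rw [hl u (by linarith), hl (-w') (by linarith)],
    fun u hu => by rw [hr u (by linarith), hr w' hw]⟩

theorem deriv_Qr {r r' : ℝ} (hr : 0 < r) (hr' : 0 < r') :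
    deriv (Qr r r') = fun u => Pr r u - Pr r' u := by
  funext u
  have h1 := ((K1X.hasDeriv_sc (u := u) r (K1X.hasDeriv1 _)).const_mul r).sub
    ((K1X.hasDeriv_sc (u := u) r' (K1X.hasDeriv1 _)).const_mul r')
  have h2 : HasDerivAt (Qr r r') _ u := h1
  rw [h2.deriv, Pr, Pr]
  field_simp

theorem Pr_bounds {r : ℝ} (hr : 0 < r) (u : ℝ) :
    |deriv (Pr r) u| ≤ CK / r ∧ |deriv (deriv (Pr r)) u| ≤ CK / r ^ 2 := by
  rw [K1X.deriv_Pr]
  constructor
  · rw [abs_div, abs_of_pos hr]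
    exact div_le_div_of_nonneg_right (K1X.d1_le _) hr.le
  · rw [((K1X.hasDeriv_sc (u := u) r (K1X.diff1 _).hasDerivAt).div_const r).deriv, div_div, ← sq,
      abs_div, abs_of_pos (pow_pos hr 2)]
    exact div_le_div_of_nonneg_right (K1X.d2_le _) (pow_pos hr 2).le

theorem Qr_bounds {r γ : ℝ} (hr : 0 < r) (h0 : 0 ≤ γ) (h1 : γ ≤ 1) (u : ℝ) :
    |deriv (Qr r (r * (1 + γ))) u| ≤ CK * γ ∧
      |deriv (deriv (Qr r (r * (1 + γ)))) u| ≤ 2 * CK * γ / r := by
  have hC : 0 ≤ CK := zero_le_one.trans one_le_CK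
  have hg : 0 < 1 + γ := by linarith
  have hr' : 0 < r * (1 + γ) := mul_pos hr hg
  have hk := (ker_Qr hr (by nlinarith : r ≤ r * (1 + γ))).deriv
  by_cases hu : r * (1 + γ) ≤ |u|
  · rw [hk.2 u hu, hk.1.deriv.2 u hu, abs_zero]
    exact ⟨by positivity, by positivity⟩
  have hd : |u / r - u / (r * (1 + γ))| ≤ γ := by
    have e : u / r - u / (r * (1 + γ)) = u / (r * (1 + γ)) * γ := by
      field_simp
      ring
    rw [e, abs_mul, abs_of_nonneg h0, abs_div, abs_of_pos hr']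
    exact mul_le_of_le_one_left h0 ((div_le_one hr').2 (not_le.1 hu).le)
  rw [deriv_Qr hr hr']
  constructor
  · exact (K1X.lip K1X.diff0 K1X.d1_le _ _).trans (mul_le_mul_of_nonneg_left hd hC)
  · have h2 : HasDerivAt (fun u => Pr r u - Pr (r * (1 + γ)) u) _ u :=
      (K1X.hasDeriv_Pr r u).sub (K1X.hasDeriv_Pr (r * (1 + γ)) u)
    rw [h2.deriv]
    have h3 := (K1X.lip K1X.diff1 K1X.d2_le _ _).trans (mul_le_mul_of_nonneg_left hd hC)
    have h4 := K1X.d1_le (u / (r * (1 + γ)))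
    generalize deriv P0 (u / (r * (1 + γ))) = y at h3 h4 ⊢
    generalize deriv P0 (u / r) = x at h3 ⊢
    have e : x / r - y / (r * (1 + γ)) = ((x - y) + y * (γ / (1 + γ))) / r := by
      field_simp
      ring
    rw [e, abs_div, abs_of_pos hr]
    refine div_le_div_of_nonneg_right ((abs_add_le _ _).trans ?_) hr.le
    have h5 : |y * (γ / (1 + γ))| ≤ CK * γ := by
      rw [abs_mul, abs_of_nonneg (div_nonneg h0 hg.le)]
      exact mul_le_mul h4 (div_le_self h0 (by linarith)) (div_nonneg h0 hg.le) hC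
    linarith

theorem per_nonneg (q : ℝ → ℝ) (u : ℝ) : 0 ≤ per q u := finsum_nonneg fun _ => abs_nonneg _

theorem per_le {q : ℝ → ℝ} {w C : ℝ} (hw : 0 ≤ w) (h0 : ∀ u, w < |u| → q u = 0)
    (hC : ∀ u, |q u| ≤ C) (u : ℝ) : per q u ≤ (2 * w + 1) * C := by
  have hC0 : 0 ≤ C := (abs_nonneg _).trans (hC 0)
  rw [K1X.per_eq (Icc ⌈-w - u⌉ ⌊w - u⌋)]
  · refine (sum_le_card_nsmul _ _ C fun p _ => hC _).trans ?_
    rw [nsmul_eq_mul, Int.card_Icc]
    refine mul_le_mul_of_nonneg_right ?_ hC0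
    rcases le_total (⌊w - u⌋ + 1 - ⌈-w - u⌉) 0 with h | h
    · rw [Int.toNat_of_nonpos h, Nat.cast_zero]
      linarith
    · have e : (((⌊w - u⌋ + 1 - ⌈-w - u⌉).toNat : ℤ) : ℝ) = ((⌊w - u⌋ + 1 - ⌈-w - u⌉ : ℤ) : ℝ) := by
        rw [Int.toNat_of_nonneg h]
      push_cast at e
      rw [e]
      linarith [Int.floor_le (w - u), Int.le_ceil (-w - u)]
  · intro p hp
    refine h0 _ ?_
    by_contra hn
    have := abs_le.1 (not_lt.1 hn)
    exact hp (mem_Icc.2 ⟨Int.ceil_le.2 (by linarith [this.1]), Int.le_floor.2 (by linarith [this.2])⟩)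

theorem continuous_per {q : ℝ → ℝ} {w : ℝ} (hq : Continuous q) (h0 : ∀ u, w < |u| → q u = 0) :
    Continuous (per q) := by
  refine continuous_iff_continuousAt.2 fun a => ?_
  obtain ⟨N, hN⟩ := exists_nat_ge (|a| + 1 + w)
  have hc : Continuous fun u : ℝ => ∑ p ∈ Icc (-(N : ℤ)) N, |q (u + p)| :=
    continuous_finsetSum _ fun p _ => (hq.comp (continuous_id.add continuous_const)).abs
  refine hc.continuousAt.congr ?_
  filter_upwards [Metric.ball_mem_nhds a one_pos] with u hu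
  rw [Metric.mem_ball, Real.dist_eq] at hu
  refine (K1X.per_eq _ (K1X.out h0 ?_)).symm
  have := abs_add_le (u - a) a
  rw [sub_add_cancel] at this
  linarith

theorem int_per {q : ℝ → ℝ} {w : ℝ} (hq : Integrable q) (h0 : ∀ u, w < |u| → q u = 0) (a : ℝ) :
    IntervalIntegrable (fun t => per q (a - t)) volume 0 1 ∧
      ∫ t in (0 : ℝ)..1, per q (a - t) = ∫ u, |q u| := by
  obtain ⟨N, hN⟩ := exists_nat_ge (|a| + 1 + w)
  have hb : ∀ t ∈ Set.uIcc (0 : ℝ) 1, |a - t| + w ≤ N := fun t ht => by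
    rw [Set.uIcc_of_le zero_le_one] at ht
    have := abs_sub a t
    rw [abs_of_nonneg ht.1] at this
    linarith [ht.2]
  have he : ∀ t ∈ Set.uIcc (0 : ℝ) 1, per q (a - t) = ∑ p ∈ Icc (-(N : ℤ)) N, |q (a + p - t)| :=
    fun t ht => by
      rw [K1X.per_eq _ (K1X.out h0 (hb t ht))]
      exact sum_congr rfl fun p _ => by rw [sub_add_eq_add_sub]
  have hi : ∀ p : ℤ, IntervalIntegrable (fun t => |q (a + p - t)|) volume 0 1 := fun p =>
    (hq.abs.comp_sub_left (a + p)).intervalIntegrable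
  constructor
  · refine (IntervalIntegrable.sum (Icc (-(N : ℤ)) N) fun p _ => hi p).congr fun t ht => ?_
    rw [he t (Set.uIoc_subset_uIcc ht), Finset.sum_apply]
  · rw [intervalIntegral.integral_congr he, intervalIntegral.integral_finsetSum fun p _ => hi p]
    have h1 := hq.abs.hasSum_intervalIntegral (a - 1)
    have h2 : ∀ p : ℤ, ∫ t in (0 : ℝ)..1, |q (a + p - t)| =
        ∫ x in (a - 1 + p)..(a - 1 + p + 1), |q x| := fun p => by
      rw [intervalIntegral.integral_comp_sub_left (fun x => |q x|)]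
      congr 1 <;> ring
    simp only [← h2] at h1
    refine (hasSum_sum_of_ne_finset_zero fun p hp => ?_).unique h1
    rw [intervalIntegral.integral_congr (g := fun _ => 0), intervalIntegral.integral_zero]
    intro t ht
    have := K1X.out h0 (hb t ht) p hp
    rw [sub_add_eq_add_sub] at this
    simp [this]

theorem int_per_le {q : ℝ → ℝ} {w C : ℝ} (hq : Continuous q) (hw : 0 ≤ w)
    (h0 : ∀ u, w < |u| → q u = 0) (hC : ∀ u, |q u| ≤ C) (a : ℝ) :
    ∫ t in (0 : ℝ)..1, per q (a - t) ≤ 2 * w * C ∧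
      ∫ t in (0 : ℝ)..1, per q (a - t) ^ 2 ≤ (2 * w + 1) * C * (2 * w * C) := by
  have hC0 : 0 ≤ C := (abs_nonneg _).trans (hC 0)
  have hz : ∀ u, u ∉ Set.Icc (-w) w → q u = 0 := fun u hu =>
    h0 u (not_le.1 fun h => hu (abs_le.1 h))
  have hi : Integrable q :=
    hq.integrable_of_hasCompactSupport (HasCompactSupport.intro isCompact_Icc hz)
  obtain ⟨h1, h2⟩ := int_per hi h0 a
  have h3 : ∫ t in (0 : ℝ)..1, per q (a - t) ≤ 2 * w * C := by
    rw [h2, ← setIntegral_eq_integral_of_forall_compl_eq_zero (s := Set.Icc (-w) w)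
      fun u hu => by simp [hz u hu]]
    have h4 := norm_setIntegral_le_of_norm_le_const (μ := volume) (s := Set.Icc (-w) w)
      (f := fun u => |q u|) (C := C) measure_Icc_lt_top fun u _ => by simpa using hC u
    rw [Real.volume_real_Icc_of_le (by linarith)] at h4
    refine ((le_abs_self _).trans h4).trans (le_of_eq ?_)
    ring
  refine ⟨h3, le_trans ?_ (mul_le_mul_of_nonneg_left h3 (by positivity))⟩
  rw [← intervalIntegral.integral_const_mul]
  have hc : Continuous fun t => per q (a - t) :=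
    (continuous_per hq h0).comp (continuous_const.sub continuous_id)
  refine intervalIntegral.integral_mono_on zero_le_one ((hc.pow 2).intervalIntegrable _ _)
    (h1.const_mul _) fun t _ => ?_
  rw [sq]
  exact mul_le_mul_of_nonneg_right (per_le hw h0 hC _) (per_nonneg _ _)

end

end Vale.Agent.P184L
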