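import Vale.Agent.P184L.K1

/-! Calculus of the averages `av`. Hint: `av_eq_sum` first (for `|T i| ≤ B`, `|t| ≤ B` and `|p| > 2 B + w + 1` both arguments of `P` are on the same side of `[-w, w]`). Then smoothness is local (`ContDiffAt.congr_of_eventuallyEq`). `wt_sum`: the sum over `i` telescopes to `P (T 0 + p + 1 - t) - P (T 0 + p - t)`, then the sum over `p` telescopes. `av_rot`: shift `p` by one in the term that wraps around (`finsum_comp_equiv`, `finsum_add_distrib`). `av_face`: the weight of vertex `j` vanishes (no hypothesis on `P` is needed). `av_fderiv`: `T j` occurs in the weights of `(p, j)` and of the previous vertex. -/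

namespace Vale.Agent.P184L

open Finset MeasureTheory ProbabilityTheory Classical Vale.Agent.P184
open scoped ContDiff

noncomputable section

universe u

variable {G : Type u} [Group G]

namespace K2X

/-- The index of a jump time. -/
def ix {k : ℕ} : Fin (k + 2) → Fin (k + 1) := Fin.snoc (α := fun _ => Fin (k + 1)) id 0

/-- The period of a jump time. -/
def cst {k : ℕ} : Fin (k + 2) → ℝ := Fin.snoc (α := fun _ => ℝ) (fun _ => 0) 1

theorem nx_cast {k : ℕ} (T : E (k + 1)) (i : Fin (k + 1)) : nx T i.castSucc = T i := by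
  simp [nx]

theorem nx_last {k : ℕ} (T : E (k + 1)) : nx T (Fin.last (k + 1)) = T 0 + 1 := by
  simp [nx]

theorem nx_eq {k : ℕ} (T : E (k + 1)) (j : Fin (k + 2)) : nx T j = T (ix j) + cst j := by
  induction j using Fin.lastCases with
  | last => simp [nx, ix, cst]
  | cast j => simp [nx, ix, cst]

theorem nl_eq {k : ℕ} (v : E (k + 1)) (j : Fin (k + 2)) :
    Fin.snoc (α := fun _ => ℝ) v (v 0) j = v (ix j) := by
  induction j using Fin.lastCases with
  | last => simp [ix]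
  | cast j => simp [ix]

theorem cst_mem {k : ℕ} (j : Fin (k + 2)) : 0 ≤ cst j ∧ cst j ≤ 1 := by
  induction j using Fin.lastCases with
  | last => simp [cst]
  | cast j => simp [cst]

theorem nx_bd {k : ℕ} {T : E (k + 1)} {B : ℝ} (hT : ∀ i, |T i| ≤ B) (j : Fin (k + 2)) :
    -B ≤ nx T j ∧ nx T j ≤ B + 1 := by
  have h1 := abs_le.1 (hT (ix j))
  have h2 := cst_mem j
  rw [nx_eq]
  constructor <;> linarith

theorem far {w t B : ℝ} (ht : |t| ≤ B) {N : ℕ} (hN : 2 * B + w + 1 ≤ N) {p : ℤ}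
    (hp : p ∉ Icc (-(N : ℤ)) N) : (∀ a, -B ≤ a → a ≤ B + 1 → w ≤ a + p - t) ∨
      ∀ a, -B ≤ a → a ≤ B + 1 → a + p - t ≤ -w := by
  have h := abs_le.1 ht
  rw [mem_Icc, not_and_or, not_le, not_le] at hp
  rcases hp with hp | hp
  · have : (p : ℝ) ≤ -N := by exact_mod_cast hp.le
    exact Or.inr fun a h1 h2 => by linarith
  · have : (N : ℝ) ≤ p := by exact_mod_cast hp.le
    exact Or.inl fun a h1 h2 => by linarith

theorem exists_bd (w : ℝ) {k : ℕ} (T : E (k + 1)) (t : ℝ) : ∃ (B : ℝ) (N : ℕ),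
    2 * B + w + 1 ≤ N ∧ (∀ i, |T i| ≤ B) ∧ |t| ≤ B ∧
      ∀ᶠ q : E (k + 1) × ℝ in nhds (T, t), (∀ i, |q.1 i| ≤ B) ∧ |q.2| ≤ B := by
  have h : ∀ q : E (k + 1) × ℝ, ‖q‖ < ‖(T, t)‖ + 1 →
      (∀ i, |q.1 i| ≤ ‖(T, t)‖ + 1) ∧ |q.2| ≤ ‖(T, t)‖ + 1 := fun q hq =>
    ⟨fun i => (norm_le_pi_norm q.1 i).trans ((norm_fst_le q).trans hq.le),
      (norm_snd_le q).trans hq.le⟩
  have h0 := h (T, t) (by linarith)
  refine ⟨‖(T, t)‖ + 1, _, Nat.le_ceil _, h0.1, h0.2, ?_⟩
  filter_upwards [(isOpen_lt continuous_norm continuous_const).mem_nhds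
    (show ‖(T, t)‖ < ‖(T, t)‖ + 1 by linarith)] with q hq using h q hq

theorem tele (f : ℤ → ℝ) (a : ℤ) (b : ℤ) (h : a ≤ b) :
    ∑ p ∈ Icc a b, (f (p + 1) - f p) = f (b + 1) - f a := by
  induction b, h using Int.leInduction with
  | base => simp
  | succ b hb ih =>
    have e : Icc a (b + 1) = insert (b + 1) (Icc a b) := by
      ext p
      simp only [mem_Icc, mem_insert]
      omega
    rw [e, sum_insert (by simp), ih]
    ring

theorem wt_sum (P : ℝ → ℝ) {k : ℕ} (T : E (k + 1)) (t : ℝ) (p : ℤ) :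
    ∑ i, wt P T t p i = P (T 0 + (p + 1 : ℤ) - t) - P (T 0 + p - t) := by
  have h1 := Fin.sum_univ_succ fun j : Fin (k + 2) => P (nx T j + p - t)
  have h2 := Fin.sum_univ_castSucc fun j : Fin (k + 2) => P (nx T j + p - t)
  have h3 : nx T 0 = T 0 := nx_cast T 0
  simp only [nx_cast, nx_last, h3] at h1 h2
  have e : T 0 + ((p + 1 : ℤ) : ℝ) - t = T 0 + 1 + p - t := by
    push_cast
    ring
  simp only [wt, sum_sub_distrib, e]
  linarith

theorem pa_succ {k : ℕ} (j : Fin (k + 2)) (i : Fin (k + 1)) :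
    j.predAbove (j.succAbove i).succ = i.succ ∧
      j.predAbove (j.succAbove i).castSucc = i.castSucc := by
  have hv : ∀ m : Fin (k + 3), (j.predAbove m : ℕ) = if (j : ℕ) < m then (m : ℕ) - 1 else (m : ℕ) :=
      fun m => by
    unfold Fin.predAbove
    by_cases h : j.castSucc < m
    · rw [dif_pos h, if_pos (show (j : ℕ) < m from h), Fin.val_pred]
    · rw [dif_neg h, if_neg (show ¬(j : ℕ) < m from h), Fin.coe_castPred]
  have hs : (j.succAbove i : ℕ) = if (i : ℕ) < j then (i : ℕ) else i + 1 := by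
    unfold Fin.succAbove
    by_cases h : i.castSucc < j
    · rw [if_pos h, if_pos (show (i : ℕ) < j from h), Fin.val_castSucc]
    · rw [if_neg h, if_neg (show ¬(i : ℕ) < j from h), Fin.val_succ]
  constructor <;> apply Fin.ext <;> simp only [hv, hs, Fin.val_castSucc, Fin.val_succ] <;>
    split_ifs <;> omega

theorem nx_face {k : ℕ} (j : Fin (k + 2)) (T : E (k + 1)) (m : Fin (k + 3)) :
    nx (faceA j T) m = nx T (j.predAbove m) := by
  induction m using Fin.lastCases with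
  | last =>
    rw [nx_last, Fin.predAbove_right_last, nx_last, faceA, Fin.castSucc_zero,
      Fin.predAbove_right_zero]
    exact congrArg (· + 1) (nx_cast T 0)
  | cast m => rw [nx_cast, faceA]

end K2X

open K2X

theorem wt_zero {P : ℝ → ℝ} {w : ℝ} (hP : Ker P w) {k : ℕ} {T : E (k + 1)} {t B : ℝ}
    (hT : ∀ i, |T i| ≤ B) (ht : |t| ≤ B) {N : ℕ} (hN : 2 * B + w + 1 ≤ N) {p : ℤ}
    (hp : p ∉ Icc (-(N : ℤ)) N) (i : Fin (k + 1)) : wt P T t p i = 0 := by
  have h1 := nx_bd hT i.succ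
  have h2 := abs_le.1 (hT i)
  rw [wt, sub_eq_zero]
  rcases far ht hN hp with h | h
  · rw [hP.2.2.2 _ (h _ h1.1 h1.2), hP.2.2.2 _ (h _ h2.1 (by linarith))]
  · rw [hP.2.2.1 _ (h _ h1.1 h1.2), hP.2.2.1 _ (h _ h2.1 (by linarith))]

theorem K2X.fin_of {F : ℤ → ℝ} {N : ℕ} (h : ∀ p, p ∉ Icc (-(N : ℤ)) N → F p = 0) :
    Function.support F ⊆ (Icc (-(N : ℤ)) N : Finset ℤ) := fun p hp => by
  by_contra h'
  exact hp (h p h')

theorem K2X.wt_fin {P : ℝ → ℝ} {w : ℝ} (hP : Ker P w) {k : ℕ} (T : E (k + 1)) (t : ℝ)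
    {ι : Type} [Fintype ι] (c : ℤ → ι → ℝ) (e : ι → Fin (k + 1)) :
    Function.HasFiniteSupport fun p : ℤ => ∑ i, c p i * wt P T t p (e i) := by
  obtain ⟨B, N, hN, hT, ht, -⟩ := exists_bd w T t
  exact (finite_toSet _).subset (K2X.fin_of (N := N) fun p hp => by
    simp [wt_zero hP hT ht hN hp])

theorem av_eq_sum (g : G) {P : ℝ → ℝ} {w : ℝ} (hP : Ker P w) (y : G → ℝ) {k : ℕ}
    (x : Fin (k + 1) → G) {T : E (k + 1)} {t B : ℝ} (hT : ∀ i, |T i| ≤ B) (ht : |t| ≤ B) {N : ℕ}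
    (hN : 2 * B + w + 1 ≤ N) :
    av g P y x T t = ∑ p ∈ Icc (-(N : ℤ)) N, ∑ i, y (g ^ p * x i) * wt P T t p i :=
  finsum_eq_sum_of_support_subset _ (K2X.fin_of fun p hp => by simp [wt_zero hP hT ht hN hp])

theorem av_const (g : G) {P : ℝ → ℝ} {w : ℝ} (hP : Ker P w) (c : ℝ) {k : ℕ}
    (x : Fin (k + 1) → G) (T : E (k + 1)) (t : ℝ) :
    av g P (fun _ => c) x T t = c * (P w - P (-w)) := by
  obtain ⟨B, N, hN, hT, ht, -⟩ := exists_bd w T t
  have h1 := abs_le.1 (hT 0)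
  have h2 := abs_le.1 ht
  rw [av_eq_sum g hP _ x hT ht hN]
  simp only [← mul_sum, wt_sum]
  rw [tele (fun p => P (T 0 + p - t)) _ _ (by omega), hP.2.2.2 _ (by push_cast; linarith),
    hP.2.2.1 (T 0 + (-(N : ℤ) : ℤ) - t) (by push_cast; linarith)]

theorem K2X.av_ev (g : G) {P : ℝ → ℝ} {w : ℝ} (hP : Ker P w) (y : G → ℝ) {k : ℕ}
    (x : Fin (k + 1) → G) (T : E (k + 1)) (t : ℝ) : ∃ (B : ℝ) (N : ℕ),
    2 * B + w + 1 ≤ N ∧ (∀ i, |T i| ≤ B) ∧ |t| ≤ B ∧
      (fun q : E (k + 1) × ℝ => av g P y x q.1 q.2) =ᶠ[nhds (T, t)] fun q =>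
        ∑ p ∈ Icc (-(N : ℤ)) N, ∑ i, y (g ^ p * x i) *
          (P (q.1 (ix i.succ) + cst i.succ + p - q.2) - P (q.1 i + p - q.2)) := by
  obtain ⟨B, N, hN, hT, ht, h⟩ := exists_bd w T t
  refine ⟨B, N, hN, hT, ht, h.mono fun q hq => ?_⟩
  simp only [av_eq_sum g hP y x hq.1 hq.2 hN, wt, nx_eq]

theorem contDiff_av (g : G) {P : ℝ → ℝ} {w : ℝ} (hP : Ker P w) (y : G → ℝ) {k : ℕ}
    (x : Fin (k + 1) → G) : ContDiff ℝ ∞ fun p : E (k + 1) × ℝ => av g P y x p.1 p.2 := by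
  refine contDiff_iff_contDiffAt.2 fun q => ?_
  obtain ⟨B, N, -, -, -, h⟩ := K2X.av_ev g hP y x q.1 q.2
  refine ContDiffAt.congr_of_eventuallyEq (ContDiff.contDiffAt ?_) h
  have h1 := hP.1
  refine ContDiff.sum fun p _ => ContDiff.sum fun i _ => contDiff_const.mul
    ((h1.comp ?_).sub (h1.comp ?_)) <;> fun_prop

theorem av_transl (g : G) (P : ℝ → ℝ) (y : G → ℝ) {k : ℕ} (x : Fin (k + 1) → G) (T : E (k + 1))
    (s t : ℝ) : av g P y x (T + fun _ => s) t = av g P y x T (t - s) := by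
  refine finsum_congr fun p => sum_congr rfl fun i _ => ?_
  simp only [wt, nx_eq, Pi.add_apply]
  congr 3 <;> ring

theorem av_shift (g : G) (P : ℝ → ℝ) (y : G → ℝ) {k : ℕ} (x : Fin (k + 1) → G) (T : E (k + 1))
    (t : ℝ) : av g P y x T (t + 1) = av g P (fun u => y (g * u)) x T t := by
  rw [av, ← finsum_comp_equiv (Equiv.addRight (1 : ℤ))]
  refine finsum_congr fun p => sum_congr rfl fun i _ => ?_
  simp only [wt, Equiv.coe_addRight, Int.cast_add, Int.cast_one]
  rw [add_comm p 1, zpow_one_add, mul_assoc]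
  congr 3 <;> ring

theorem av_rot (g : G) {P : ℝ → ℝ} {w : ℝ} (hP : Ker P w) (y : G → ℝ) {k : ℕ}
    (x : Fin (k + 1) → G) (T : E (k + 1)) (t : ℝ) :
    av g P y (rotX g x) (rotA T) t = av g P y x T t := by
  have h0 := K2X.wt_fin hP T t (ι := Unit) (fun p _ => y (g ^ p * x 0)) fun _ => 0
  have h1 := K2X.wt_fin hP T t (fun p (i : Fin k) => y (g ^ p * x i.succ)) Fin.succ
  simp only [univ_unique, sum_singleton] at h0
  have h2 : Function.HasFiniteSupport fun p : ℤ =>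
      y (g ^ (p + 1) * x 0) * wt P T t (p + 1) 0 :=
    h0.preimage (f := fun p : ℤ => p + 1) (add_left_injective 1).injOn
  have e : ∀ p : ℤ, ∑ i, y (g ^ p * rotX g x i) * wt P (rotA T) t p i =
      ∑ i : Fin k, y (g ^ p * x i.succ) * wt P T t p i.succ +
        y (g ^ (p + 1) * x 0) * wt P T t (p + 1) 0 := fun p => by
    rw [Fin.sum_univ_castSucc]
    congr 1
    · refine sum_congr rfl fun i _ => ?_
      simp only [wt, rotX, rotA, Fin.succ_castSucc, nx_cast, Fin.snoc_castSucc]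
    · simp only [wt, rotX, rotA, Fin.succ_last, nx_last, Fin.snoc_last, Int.cast_add, Int.cast_one,
        zpow_add_one, mul_assoc]
      congr 3 <;> ring
  simp only [av, e, Fin.sum_univ_succ]
  rw [finsum_add_distrib h1 h2, finsum_add_distrib h0 h1, add_comm]
  congr 1
  exact finsum_comp_equiv (Equiv.addRight (1 : ℤ))
    (f := fun p => y (g ^ p * x 0) * wt P T t p 0)

theorem av_face (g : G) (P : ℝ → ℝ) (y : G → ℝ) {k : ℕ} (x : Fin (k + 2) → G) (j : Fin (k + 2))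
    (T : E (k + 1)) (t : ℝ) :
    av g P y x (faceA j T) t = av g P y (fun i => x (j.succAbove i)) T t := by
  refine finsum_congr fun p => ?_
  rw [Fin.sum_univ_succAbove _ j]
  simp only [wt, nx_face, faceA, Fin.predAbove_succ_self, Fin.predAbove_castSucc_self, sub_self,
    mul_zero, zero_add, (pa_succ j _).1, (pa_succ j _).2, nx_cast]

theorem av_left {g u : G} (hu : u * g = g * u) (P : ℝ → ℝ) (y : G → ℝ) {k : ℕ}
    (x : Fin (k + 1) → G) (T : E (k + 1)) (t : ℝ) :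
    av g P y (fun i => u * x i) T t = av g P (fun a => y (u * a)) x T t := by
  refine finsum_congr fun p => sum_congr rfl fun i _ => ?_
  simp only [← mul_assoc, ((show Commute u g from hu).zpow_right p).eq]

theorem av_sub (g : G) {P P' : ℝ → ℝ} {w w' : ℝ} (hP : Ker P w) (hP' : Ker P' w') (y : G → ℝ)
    {k : ℕ} (x : Fin (k + 1) → G) (T : E (k + 1)) (t : ℝ) :
    av g (fun u => P u - P' u) y x T t = av g P y x T t - av g P' y x T t := by
  rw [av, av, av, ← finsum_sub_distrib (K2X.wt_fin hP T t _ fun i => i)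
    (K2X.wt_fin hP' T t _ fun i => i)]
  refine finsum_congr fun p => ?_
  rw [← sum_sub_distrib]
  refine sum_congr rfl fun i _ => ?_
  simp only [wt]
  ring

theorem av_hasDerivAt (g : G) {P : ℝ → ℝ} {w : ℝ} (hP : Ker P w) (y : G → ℝ) {k : ℕ}
    (x : Fin (k + 1) → G) (T : E (k + 1)) (t : ℝ) :
    HasDerivAt (av g P y x T) (-av g (deriv P) y x T t) t := by
  obtain ⟨B, N, hN, hT, ht, h⟩ := K2X.av_ev g hP y x T t
  have hd : ∀ a : ℝ, HasDerivAt (fun s => P (a - s)) (-deriv P (a - t)) t := fun a => by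
    simpa using ((hP.1.differentiable (by simp)) (a - t)).hasDerivAt.comp_const_sub a t
  have h1 : HasDerivAt (fun s => ∑ p ∈ Icc (-(N : ℤ)) N, ∑ i, y (g ^ p * x i) *
      (P (T (ix i.succ) + cst i.succ + p - s) - P (T i + p - s))) _ t :=
    HasDerivAt.fun_sum fun p _ => HasDerivAt.fun_sum fun i _ =>
      ((hd _).fun_sub (hd _)).const_mul _
  have h2 : Filter.Tendsto (fun s : ℝ => (T, s)) (nhds t) (nhds (T, t)) :=
    (continuous_const.prodMk continuous_id).tendsto t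
  refine (h1.congr_of_eventuallyEq (h2.eventually h)).congr_deriv ?_
  rw [av_eq_sum g hP.deriv.1 y x hT ht hN, ← sum_neg_distrib]
  refine sum_congr rfl fun p _ => ?_
  rw [← sum_neg_distrib]
  refine sum_congr rfl fun i _ => ?_
  simp only [wt, nx_eq]
  ring

theorem K2X.av_fd (g : G) {P : ℝ → ℝ} {w : ℝ} (hP : Ker P w) (y : G → ℝ) {k : ℕ}
    (x : Fin (k + 1) → G) (T : E (k + 1)) (t : ℝ) (v : E (k + 1)) :
    fderiv ℝ (fun S => av g P y x S t) T v = ∑ᶠ p : ℤ, ∑ i, y (g ^ p * x i) *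
      (deriv P (nx T i.succ + p - t) * v (ix i.succ) - deriv P (T i + p - t) * v i) := by
  obtain ⟨B, N, hN, hT, ht, h⟩ := K2X.av_ev g hP y x T t
  have hd : ∀ (j : Fin (k + 1)) (a b : ℝ), HasFDerivAt (fun S : E (k + 1) => P (S j + a + b - t))
      (deriv P (T j + a + b - t) • (ContinuousLinearMap.proj j : E (k + 1) →L[ℝ] ℝ)) T :=
    fun j a b => ((hP.1.differentiable (by simp)) (T j + a + b - t)).hasDerivAt.comp_hasFDerivAt T
      ((((ContinuousLinearMap.proj j : E (k + 1) →L[ℝ] ℝ).hasFDerivAt.add_const a).add_const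
        b).sub_const t)
  have hd' : ∀ (j : Fin (k + 1)) (b : ℝ), HasFDerivAt (fun S : E (k + 1) => P (S j + b - t))
      (deriv P (T j + b - t) • (ContinuousLinearMap.proj j : E (k + 1) →L[ℝ] ℝ)) T :=
    fun j b => by simpa using hd j 0 b
  have h1 : HasFDerivAt (fun S : E (k + 1) => ∑ p ∈ Icc (-(N : ℤ)) N, ∑ i, y (g ^ p * x i) *
      (P (S (ix i.succ) + cst i.succ + p - t) - P (S i + p - t))) _ T :=
    HasFDerivAt.fun_sum fun p _ => HasFDerivAt.fun_sum fun i _ =>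
      ((hd _ _ _).fun_sub (hd' _ _)).const_mul _
  have h2 : Filter.Tendsto (fun S : E (k + 1) => (S, t)) (nhds T) (nhds (T, t)) :=
    (continuous_id.prodMk continuous_const).tendsto T
  rw [(h1.congr_of_eventuallyEq (h2.eventually h)).fderiv,
    finsum_eq_sum_of_support_subset _ (K2X.fin_of (N := N) fun p hp => ?_)]
  · simp [nx_eq, mul_sub]
  · refine sum_eq_zero fun i _ => ?_
    have h3 := nx_bd hT i.succ
    have h4 := abs_le.1 (hT i)
    have h5 : ∀ a, -B ≤ a → a ≤ B + 1 → deriv P (a + p - t) = 0 := fun a h6 h7 =>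
      hP.deriv.2 _ ((far ht hN hp).elim (fun h => le_abs.2 (Or.inl (h a h6 h7)))
        fun h => le_abs.2 (Or.inr (by linarith [h a h6 h7])))
    rw [h5 _ h3.1 h3.2, h5 _ h4.1 (by linarith)]
    simp

theorem av_fderiv_one (g : G) {P : ℝ → ℝ} {w : ℝ} (hP : Ker P w) (y : G → ℝ) {k : ℕ}
    (x : Fin (k + 1) → G) (T : E (k + 1)) (t : ℝ) :
    fderiv ℝ (fun S => av g P y x S t) T (fun _ => 1) = av g (deriv P) y x T t := by
  rw [K2X.av_fd g hP]
  simp only [mul_one, av, wt]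

theorem K2X.d_fin {P : ℝ → ℝ} {w : ℝ} (hP : Ker P w) (a t : ℝ) (c : ℤ → ℝ) :
    Function.HasFiniteSupport fun p : ℤ => c p * deriv P (a + p - t) := by
  obtain ⟨B, N, hN, hT, ht, -⟩ := exists_bd w (k := 0) (fun _ => a) t
  have h4 := abs_le.1 (hT 0)
  refine (finite_toSet _).subset (K2X.fin_of (N := N) fun p hp => ?_)
  rw [hP.deriv.2 _ ((far ht hN hp).elim (fun h => le_abs.2 (Or.inl (h a h4.1 (by linarith))))
    fun h => le_abs.2 (Or.inr (by linarith [h a h4.1 (by linarith)]))), mul_zero]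

theorem av_fderiv (g : G) {P : ℝ → ℝ} {w : ℝ} (hP : Ker P w) (y : G → ℝ) {k : ℕ}
    (x : Fin (k + 1) → G) (T : E (k + 1)) (t : ℝ) (j : Fin (k + 1)) :
    fderiv ℝ (fun S => av g P y x S t) T (ev j) =
      ∑ᶠ p : ℤ, (y (g ^ p * prv g x j) - y (g ^ p * x j)) * deriv P (T j + p - t) := by
  rw [K2X.av_fd g hP]
  have e2 : ∀ p : ℤ, ∑ i, y (g ^ p * x i) * (deriv P (T i + p - t) * ev j i) =
      y (g ^ p * x j) * deriv P (T j + p - t) := fun p => by
    simp [ev, Pi.single_apply]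
  simp only [mul_sub, sub_mul, sum_sub_distrib, e2]
  induction j using Fin.cases with
  | zero =>
    have e1 : ∀ p : ℤ, ∑ i, y (g ^ p * x i) * (deriv P (nx T i.succ + p - t) * ev 0 (ix i.succ)) =
        y (g ^ p * x (Fin.last k)) * deriv P (T 0 + 1 + p - t) := fun p => by
      rw [Fin.sum_univ_castSucc]
      simp only [Fin.succ_castSucc, Fin.succ_last, nx_last, ix, Fin.snoc_castSucc, Fin.snoc_last]
      simp [ev]
    simp only [e1]
    rw [finsum_sub_distrib (K2X.d_fin hP _ _ _) (K2X.d_fin hP _ _ _),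
      finsum_sub_distrib (K2X.d_fin hP _ _ _) (K2X.d_fin hP _ _ _),
      ← finsum_comp_equiv (Equiv.addRight (1 : ℤ))
        (f := fun p : ℤ => y (g ^ p * prv g x 0) * deriv P (T 0 + p - t))]
    congr 1
    refine finsum_congr fun p => ?_
    simp only [prv, Equiv.coe_addRight, Fin.castSucc_zero, Fin.cons_zero, zpow_add_one, mul_assoc,
      mul_inv_cancel_left, Int.cast_add, Int.cast_one]
    congr 2
    ring
  | succ j =>
    refine finsum_congr fun p => ?_
    congr 1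
    rw [Fin.sum_univ_castSucc]
    simp only [Fin.succ_castSucc, Fin.succ_last, nx_cast, ix, Fin.snoc_castSucc, Fin.snoc_last]
    simp [ev, prv, Pi.single_apply]

theorem faceA_aff {k : ℕ} (j : Fin (k + 2)) : ∃ A : E (k + 1) →L[ℝ] E (k + 2),
    (∀ v, faceL j v = A v) ∧ ∀ T, faceA j T = A T + faceA j 0 :=
  ⟨ContinuousLinearMap.pi fun i => ContinuousLinearMap.proj (ix (j.predAbove i.castSucc)),
    fun v => funext fun i => nl_eq v _, fun T => funext fun i => by simp [faceA, nx_eq]⟩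

theorem rotA_aff (k : ℕ) : ∃ A : E (k + 1) →L[ℝ] E (k + 1),
    (∀ v, rotL v = A v) ∧ ∀ T, rotA T = A T + rotA 0 :=
  ⟨ContinuousLinearMap.pi fun i => ContinuousLinearMap.proj (ix i.succ),
    fun v => funext fun i => nl_eq v _, fun T => funext fun i => by simp [rotA, nx_eq]⟩

end

end Vale.Agent.P184L
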