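import Vale.Agent.P184L.LabV

/-! The fine labels. Hint: `Zs` is unchanged under left multiplication by an element commuting with `g` (`cay_left`); `lab (u * y) = u * lab y`; if `y' ∈ lab y` then `lab y' = lab y`; `rep l ∈ l` for valid `l` (`Classical.epsilon_spec`). `fG_lt` unfolds the infima (`exists_lt_of_ciInf_lt`; all values lie in `[0, Rs]`). If `fG l x < Rs` then `l = lab (g ^ (-k) * y')` with `y' ∈ ball Rs x`, and `k = 0` (ordinary case) or `ι |k| < Rs` (exceptional case): this gives finiteness and the mass bound `D ^ Rs * (1 + ι (2 Rs / ι + 1))` (`Gen.Ok.mass`, `ι ≤ 1`). -/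

namespace Vale.Agent.P184L

open Finset MeasureTheory ProbabilityTheory Classical Vale.Agent.P184
open scoped ContDiff

noncomputable section

universe u

variable {G : Type u} [Group G]

variable {A : Gen G} {π : Par} {ρ : ℕ} {ι : ℝ} {g : G}

namespace LabGX

theorem zp (g : G) (k : ℤ) : g ^ k * g = g * g ^ k := ((Commute.refl g).zpow_left k).eq

theorem comm {u : G} (hu : u * g = g * u) (y : G) (k : ℤ) : g ^ k * (u * y) = u * (g ^ k * y) := by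
  rw [← mul_assoc, ← mul_assoc, (Commute.zpow_right hu k).eq]

theorem bdd0 (hι : 0 < ι) (y x : G) : BddBelow (Set.range fun k : ℤ =>
    min (π.Rs : ℝ) (A.cay.dd π.Rs (g ^ k * y) x + ι * |(k : ℝ)|)) :=
  ⟨0, by rintro _ ⟨k, rfl⟩; positivity⟩

theorem fE_bd (hι : 0 < ι) (y x : G) : 0 ≤ A.fE π ρ ι g y x ∧ A.fE π ρ ι g y x ≤ π.Rs := by
  unfold Gen.fE
  split_ifs
  · exact ⟨Real.iInf_nonneg fun k => by positivity,
      ciInf_le_of_le (bdd0 hι y x) 0 (min_le_left _ _)⟩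
  · exact ⟨Nat.cast_nonneg _, Nat.cast_le.2 (Gr.dd_le _ _ _)⟩

theorem bdd (hι : 0 < ι) (l : Set G) (x : G) :
    BddBelow (Set.range fun y : l => A.fE π ρ ι g y x) :=
  ⟨0, by rintro _ ⟨y, rfl⟩; exact (fE_bd hι _ x).1⟩

end LabGX

theorem Zs_left {u : G} (hu : u * g = g * u) (y : G) : A.Zs ρ g (u * y) = A.Zs ρ g y := by
  have h : ∀ k : ℤ, g ^ k * (u * y) = u * (g ^ k * y) := LabGX.comm hu y
  simp only [Gen.Zs, h, cay_left]

theorem mem_lab_self (y : G) : y ∈ A.lab ρ g y := by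
  unfold Gen.lab
  split_ifs
  · rfl
  · exact ⟨0, zero_mem _, by simp⟩

theorem lab_eq {y y' : G} (h : y' ∈ A.lab ρ g y) : A.lab ρ g y' = A.lab ρ g y := by
  unfold Gen.lab at h
  split_ifs at h with h0
  · rw [Set.mem_singleton_iff.1 h]
  · obtain ⟨k, hk, rfl⟩ := h
    have e : A.Zs ρ g (g ^ k * y) = A.Zs ρ g y := Zs_left (LabGX.zp g k) y
    have h1 : ¬ A.Exc ρ g (g ^ k * y) := by rwa [Gen.Exc, e]
    rw [Gen.lab, Gen.lab, if_neg h0, if_neg h1, e]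
    ext z
    constructor
    · rintro ⟨j, hj, rfl⟩
      exact ⟨j + k, add_mem hj hk, by rw [zpow_add, mul_assoc]⟩
    · rintro ⟨j, hj, rfl⟩
      exact ⟨j - k, sub_mem hj hk, by rw [← mul_assoc, ← zpow_add, sub_add_cancel]⟩

theorem lab_left {u : G} (hu : u * g = g * u) (y : G) :
    shS u (A.lab ρ g y) = A.lab ρ g (u * y) := by
  change (fun a => u * a) '' _ = _
  have e : A.Exc ρ g (u * y) ↔ A.Exc ρ g y := by rw [Gen.Exc, Gen.Exc, Zs_left hu]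
  simp only [Gen.lab, e, Zs_left hu, LabGX.comm hu]
  split_ifs
  · exact Set.image_singleton
  · ext z
    constructor
    · rintro ⟨_, ⟨j, hj, rfl⟩, rfl⟩
      exact ⟨j, hj, rfl⟩
    · rintro ⟨j, hj, rfl⟩
      exact ⟨_, ⟨j, hj, rfl⟩, rfl⟩

theorem val_left {u : G} (hu : u * g = g * u) (l : Set G) :
    A.Val ρ g (shS u l) ↔ A.Val ρ g l := by
  constructor
  · rintro ⟨y, hy⟩
    refine ⟨u⁻¹ * y, (shS u).injective ?_⟩
    rw [hy, lab_left hu, mul_inv_cancel_left]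
  · rintro ⟨y, rfl⟩
    exact ⟨u * y, lab_left hu y⟩

theorem Gen.Val.rep {l : Set G} (h : A.Val ρ g l) : rep l ∈ l ∧ l = A.lab ρ g (rep l) := by
  obtain ⟨y, rfl⟩ := h
  have h1 : P184L.rep (A.lab ρ g y) ∈ A.lab ρ g y :=
    Classical.epsilon_spec (p := (· ∈ A.lab ρ g y)) ⟨y, mem_lab_self y⟩
  exact ⟨h1, (lab_eq h1).symm⟩

theorem Gen.Val.orb {l : Set G} (h : A.Val ρ g l) {y : G} (hy : y ∈ l) :
    pj g y = pj g (P184L.rep l) ∧ (A.Exc ρ g y ↔ A.Exc ρ g (P184L.rep l)) ∧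
      (A.Exc ρ g y → y = P184L.rep l) := by
  rw [h.rep.2, Gen.lab] at hy
  split_ifs at hy with h0
  · have h1 : y = P184L.rep l := hy
    exact ⟨by rw [← h1], by rw [← h1], fun _ => h1⟩
  · obtain ⟨k, -, hk⟩ := hy
    have e : A.Exc ρ g y ↔ A.Exc ρ g (P184L.rep l) := by
      rw [Gen.Exc, Gen.Exc, hk, Zs_left (LabGX.zp g k)]
    exact ⟨(pj_eq.2 ⟨k, hk⟩).symm, e, fun h1 => absurd (e.1 h1) h0⟩

theorem fG_left {u : G} (hu : u * g = g * u) (l : Set G) (x : G) :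
    A.fG π ρ ι g (shS u l) (u * x) = A.fG π ρ ι g l x := by
  have hd : ∀ a b, A.cay.dd π.Rs (u * a) (u * b) = A.cay.dd π.Rs a b := fun a b =>
    le_antisymm (Gr.dd_le_iff.2 (by rw [cay_left]; exact Gr.dd_le_iff.1 le_rfl))
      (Gr.dd_le_iff.2 (by rw [← cay_left A u]; exact Gr.dd_le_iff.1 le_rfl))
  have hE : ∀ y, A.fE π ρ ι g (u * y) (u * x) = A.fE π ρ ι g y x := fun y => by
    have e : A.Exc ρ g (u * y) ↔ A.Exc ρ g y := by rw [Gen.Exc, Gen.Exc, Zs_left hu]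
    simp only [Gen.fE, e, LabGX.comm hu, hd]
  simp only [Gen.fG, val_left hu]
  split_ifs
  · exact ((Equiv.mulLeft u).image l).iInf_comp.symm.trans (iInf_congr fun y => hE y)
  · rfl

theorem prG_left {u : G} (hu : u * g = g * u) (l : Set G) :
    A.prG ρ ι g (shS u l) = A.prG ρ ι g l := by
  simp only [Gen.prG, val_left hu]
  split_ifs with h0 h1 h2 h2
  · rfl
  · refine absurd ?_ h2
    have h3 := (((val_left hu l).2 h0).orb (y := u * rep l) ⟨_, h0.rep.1, rfl⟩).2.1.2 h1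
    rwa [Gen.Exc, Zs_left hu] at h3
  · refine absurd ((((val_left hu l).2 h0).orb (y := u * rep l) ⟨_, h0.rep.1, rfl⟩).2.1.1 ?_) h1
    rwa [Gen.Exc, Zs_left hu]
  · rfl
  · rfl

theorem fG_bounds (hι : 0 < ι) (l : Set G) (x : G) :
    0 ≤ A.fG π ρ ι g l x ∧ A.fG π ρ ι g l x ≤ π.Rs := by
  unfold Gen.fG
  split_ifs with h0
  · exact ⟨Real.iInf_nonneg fun y => (LabGX.fE_bd hι _ x).1,
      ciInf_le_of_le (LabGX.bdd hι l x) ⟨_, h0.rep.1⟩ (LabGX.fE_bd hι _ x).2⟩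
  · exact ⟨Nat.cast_nonneg _, le_rfl⟩

theorem fG_le (hι : 0 < ι) (y x : G) (k : ℤ) (hk : A.Exc ρ g y ∨ k ∈ A.Zs ρ g y) :
    A.fG π ρ ι g (A.lab ρ g y) x ≤ A.cay.dd π.Rs (g ^ k * y) x +
      if A.Exc ρ g y then ι * |(k : ℝ)| else 0 := by
  rw [Gen.fG, if_pos ⟨y, rfl⟩]
  split_ifs with h0
  · refine ciInf_le_of_le (LabGX.bdd hι _ x) ⟨y, mem_lab_self y⟩ ?_
    rw [Gen.fE, if_pos h0]
    exact ciInf_le_of_le (LabGX.bdd0 hι y x) k (min_le_right _ _)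
  · have h1 : g ^ k * y ∈ A.lab ρ g y := by
      rw [Gen.lab, if_neg h0]
      exact ⟨k, hk.resolve_left h0, rfl⟩
    refine ciInf_le_of_le (LabGX.bdd hι _ x) ⟨_, h1⟩ ?_
    rw [Gen.fE, if_neg (by rwa [Gen.Exc, Zs_left (LabGX.zp g k)]), add_zero]

theorem fG_lt (hι : 0 < ι) {l : Set G} {x : G} (h : A.fG π ρ ι g l x < π.Rs) :
    A.Val ρ g l ∧ ∃ y ∈ l, ∃ k : ℤ, g ^ k * y ∈ A.cay.ball π.Rs x ∧ ι * |(k : ℝ)| < π.Rs ∧
      (¬ A.Exc ρ g y → k = 0) := by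
  have hd : ∀ a, (A.cay.dd π.Rs a x : ℝ) < π.Rs → a ∈ A.cay.ball π.Rs x := fun a ha =>
    Gr.ball_symm (Gr.ball_mono (Gr.dd_le _ _ _) (dd_lt (Nat.cast_lt.1 ha)))
  unfold Gen.fG at h
  split_ifs at h with h0
  swap
  · exact absurd h (lt_irrefl _)
  refine ⟨h0, ?_⟩
  have : Nonempty l := ⟨⟨_, h0.rep.1⟩⟩
  obtain ⟨⟨y, hy⟩, h1⟩ := exists_lt_of_ciInf_lt h
  refine ⟨y, hy, ?_⟩
  unfold Gen.fE at h1
  split_ifs at h1 with h2
  · obtain ⟨k, h3⟩ := exists_lt_of_ciInf_lt h1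
    have h4 := (min_lt_iff.1 h3).resolve_left (lt_irrefl _)
    have h5 : 0 ≤ ι * |(k : ℝ)| := by positivity
    have h6 : (0 : ℝ) ≤ A.cay.dd π.Rs (g ^ k * y) x := Nat.cast_nonneg _
    exact ⟨k, hd _ (by linarith), by linarith, fun h7 => absurd h2 h7⟩
  · refine ⟨0, by simpa using hd _ h1, ?_, fun _ => rfl⟩
    simpa using (Nat.cast_nonneg _).trans_lt h1

theorem LabG_cover (hι : 0 < ι) {l : Set G} {x : G} (h : A.fG π ρ ι g l x < π.Rs) :
    l ∈ (A.cay.ball π.Rs x ×ˢ Icc (-(⌊π.Rs / ι⌋₊ : ℤ)) ⌊π.Rs / ι⌋₊).image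
      fun q => A.lab ρ g (g ^ (-q.2) * q.1) := by
  obtain ⟨⟨y₀, rfl⟩, y, hy, k, h1, h2, -⟩ := fG_lt hι h
  refine mem_image.2 ⟨(g ^ k * y, k), mem_product.2 ⟨h1, ?_⟩, ?_⟩
  · have h3 : k.natAbs ≤ ⌊π.Rs / ι⌋₊ := Nat.le_floor (by
      rw [le_div_iff₀ hι, Nat.cast_natAbs, Int.cast_abs, mul_comm]
      exact h2.le)
    rw [mem_Icc]
    omega
  · simpa using lab_eq hy

theorem labG_fin (hι : 0 < ι) (x : G) : {l | A.fG π ρ ι g l x < π.Rs}.Finite :=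
  (Finset.finite_toSet _).subset fun _ hl => LabG_cover hι hl

theorem labG_count (hι : 0 < ι) {a : Set G → ℝ} {c : ℝ} (hc : 0 ≤ c)
    (ha : ∀ l, a l ≤ if A.Exc ρ g (rep l) then c else 1) (x : G) (s : Finset (Set G))
    (hs : ∀ l ∈ s, A.fG π ρ ι g l x < π.Rs) :
    ∑ l ∈ s, a l ≤ (A.S.card : ℝ) ^ π.Rs * (1 + c * (2 * π.Rs / ι + 1)) := by
  have hb : ((A.cay.ball π.Rs x).card : ℝ) ≤ (A.S.card : ℝ) ^ π.Rs := by
    exact_mod_cast Gr.card_ball (Γ := A.cay) π.Rs x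
  rw [← sum_filter_add_sum_filter_not s fun l => A.Exc ρ g (rep l), mul_add, mul_one, add_comm]
  refine add_le_add ?_ ?_
  · have h1 : (s.filter fun l => ¬ A.Exc ρ g (rep l)) ⊆
        (A.cay.ball π.Rs x).image (A.lab ρ g) := by
      intro l hl
      obtain ⟨h2, h3⟩ := mem_filter.1 hl
      obtain ⟨h4, y, hy, k, h5, -, h6⟩ := fG_lt hι (hs l h2)
      rw [h6 fun h7 => h3 ((h4.orb hy).2.1.1 h7), zpow_zero, one_mul] at h5
      exact mem_image.2 ⟨y, h5, by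
        obtain ⟨y₀, rfl⟩ := h4
        exact lab_eq hy⟩
    refine (sum_le_card_nsmul _ _ 1 fun l hl => ?_).trans ?_
    · simpa only [if_neg (mem_filter.1 hl).2] using ha l
    · rw [nsmul_eq_mul, mul_one]
      exact (Nat.cast_le.2 ((card_le_card h1).trans card_image_le)).trans hb
  · refine (sum_le_card_nsmul _ _ c fun l hl => ?_).trans ?_
    · simpa only [if_pos (mem_filter.1 hl).2] using ha l
    · rw [nsmul_eq_mul, mul_left_comm, mul_comm]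
      refine mul_le_mul_of_nonneg_left ?_ hc
      have h1 := (card_le_card fun l (hl : l ∈ s.filter fun l => A.Exc ρ g (rep l)) =>
        LabG_cover hι (hs l (mem_filter.1 hl).1)).trans card_image_le
      rw [card_product, Int.card_Icc] at h1
      have h2 : ((⌊π.Rs / ι⌋₊ : ℤ) + 1 - -(⌊π.Rs / ι⌋₊ : ℤ)).toNat = 2 * ⌊π.Rs / ι⌋₊ + 1 := by
        omega
      rw [h2] at h1
      refine (Nat.cast_le.2 h1).trans ?_
      push_cast
      have h3 : (⌊π.Rs / ι⌋₊ : ℝ) ≤ π.Rs / ι := Nat.floor_le (by positivity)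
      refine mul_le_mul hb ?_ (by positivity) (by positivity)
      rw [mul_div_assoc]
      linarith

theorem labG_mass {M P : ℕ} (h : GOk A π g ρ ι M P) (x : G) (s : Finset (Set G))
    (hs : ∀ l ∈ s, A.fG π ρ ι g l x < π.Rs) : ∑ l ∈ s, A.prG ρ ι g l ≤ π.Qm := by
  refine (labG_count h.ι_pos h.ι_pos.le (fun l => ?_) x s hs).trans (le_trans ?_ h.ok.mass)
  · unfold Gen.prG
    split_ifs
    exacts [le_rfl, le_rfl, h.ι_pos.le, zero_le_one]
  · refine mul_le_mul_of_nonneg_left ?_ (by positivity)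
    have h1 := h.ι_pos
    have h2 := h.hb
    have h3 := h.ok.1.1
    rw [mul_add, mul_div_cancel₀ _ h1.ne']
    nlinarith

theorem prG_nonneg (hι : 0 < ι) (l : Set G) : 0 ≤ A.prG ρ ι g l := by
  unfold Gen.prG
  split_ifs
  exacts [hι.le, zero_le_one, le_rfl]

/-- The fine labels. -/
def labG {M P : ℕ} (h : GOk A π g ρ ι M P) : Lab π g (Set G) where
  sh := shS g
  f := A.fG π ρ ι g
  pr := A.prG ρ ι g
  f_sh := fG_left rfl
  pr_sh := prG_left rfl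
  f_nonneg l x := (fG_bounds h.ι_pos l x).1
  f_le l x := (fG_bounds h.ι_pos l x).2
  pr_nonneg := prG_nonneg h.ι_pos
  fin := labG_fin h.ι_pos
  mass_le := labG_mass h

end

end Vale.Agent.P184L
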