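import Vale.Agent.P184L.LabG

/-! Geometry of the fine labels. Hint: `labG_step`: infima of `1`-Lipschitz functions (`dd_sub_le`). `labG_sparse`: ordinary label seeing `g ^ p x` by `y` and `g ^ (p + 1) x` by `y' = g ^ j y`, `j ∈ Zs y`: then `g ^ (j - 1) * (g y) ∈ ball (2 Rs) (g y)`, so `j - 1 ∈ Zs`, `1 ∈ Zs`, contradiction; exceptional label `{y}`: `g ^ (k - p) y` and `g ^ (k' - p') y` are both within `Rs` of `x`, so `|k - p - k' + p'| ≤ M` and `|p - p'| ≤ M + 2 Rs / ι ≤ P`. `labG_same`: as for `labG_sparse`. Use `fG_lt`, `Gen.Val.orb`, `sch_proj`, `cay_left`. -/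

namespace Vale.Agent.P184L

open Finset MeasureTheory ProbabilityTheory Classical Vale.Agent.P184
open scoped ContDiff

noncomputable section

universe u

variable {G : Type u} [Group G]

namespace LabG2X

variable {A : Gen G} {π : Par} {ρ : ℕ} {ι : ℝ} {g : G} {M P : ℕ}

theorem comm (g : G) (j : ℤ) : g ^ j * g = g * g ^ j := by
  rw [← zpow_add_one, ← zpow_one_add, add_comm]

theorem exc_iff (j : ℤ) (y : G) : A.Exc ρ g (g ^ j * y) ↔ A.Exc ρ g y := by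
  unfold Gen.Exc
  rw [Zs_left (comm g j)]

theorem pj_zpow (j : ℤ) (y : G) : pj g (g ^ j * y) = pj g y := (pj_eq.2 ⟨j, rfl⟩).symm

theorem term_nonneg (hι : 0 < ι) (y x : G) (k : ℤ) :
    0 ≤ min (π.Rs : ℝ) (A.cay.dd π.Rs (g ^ k * y) x + ι * |(k : ℝ)|) :=
  le_min (Nat.cast_nonneg _) (by positivity)

theorem bdd (hι : 0 < ι) (y x : G) : BddBelow (Set.range fun k : ℤ =>
    min (π.Rs : ℝ) (A.cay.dd π.Rs (g ^ k * y) x + ι * |(k : ℝ)|)) :=
  ⟨0, by rintro _ ⟨k, rfl⟩; exact term_nonneg hι y x k⟩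

theorem fE_nonneg (hι : 0 < ι) (y x : G) : 0 ≤ A.fE π ρ ι g y x := by
  unfold Gen.fE
  split_ifs
  · exact le_ciInf fun k => term_nonneg hι y x k
  · exact Nat.cast_nonneg _

theorem min_add {a b c d : ℝ} (hd : 0 ≤ d) (h : b ≤ c + d) : min a b ≤ min a c + d := by
  rcases le_total a c with h1 | h1
  · rw [min_eq_left h1]
    exact (min_le_left _ _).trans (by linarith)
  · rw [min_eq_right h1]
    exact (min_le_right _ _).trans h

theorem fE_lip (hι : 0 < ι) (y : G) {n : ℕ} {x x' : G} (hx : x' ∈ A.cay.ball n x) :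
    A.fE π ρ ι g y x' ≤ A.fE π ρ ι g y x + n := by
  unfold Gen.fE
  split_ifs
  · rw [← sub_le_iff_le_add]
    refine le_ciInf fun k => ?_
    rw [sub_le_iff_le_add]
    refine (ciInf_le (bdd hι y x') k).trans (min_add (Nat.cast_nonneg _) ?_)
    have := (abs_le.1 (dd_sub_le π.Rs (g ^ k * y) hx)).2
    linarith
  · have := (abs_le.1 (dd_sub_le π.Rs y hx)).2
    linarith

theorem fG_lip (hι : 0 < ι) (l : Set G) {n : ℕ} {x x' : G} (hx : x' ∈ A.cay.ball n x) :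
    A.fG π ρ ι g l x' ≤ A.fG π ρ ι g l x + n := by
  unfold Gen.fG
  split_ifs with hl
  · have : Nonempty l := ⟨⟨_, hl.rep.1⟩⟩
    rw [← sub_le_iff_le_add]
    refine le_ciInf fun y => ?_
    rw [sub_le_iff_le_add]
    refine (ciInf_le ⟨0, ?_⟩ y).trans (fE_lip hι _ hx)
    rintro _ ⟨z, rfl⟩
    exact fE_nonneg hι _ _
  · have : (0 : ℝ) ≤ n := Nat.cast_nonneg _
    linarith

theorem fE_shift (hι : 0 < ι) {y : G} (hy : A.Exc ρ g y) (j : ℤ) (x : G) :
    A.fE π ρ ι g (g ^ j * y) x ≤ A.fE π ρ ι g y x + ι * |(j : ℝ)| := by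
  unfold Gen.fE
  rw [if_pos hy, if_pos ((exc_iff j y).2 hy), ← sub_le_iff_le_add]
  refine le_ciInf fun k => ?_
  rw [sub_le_iff_le_add]
  refine (ciInf_le (bdd hι _ x) (k - j)).trans ?_
  rw [← mul_assoc, ← zpow_add, sub_add_cancel]
  refine min_add (by positivity) ?_
  have h1 : |((k - j : ℤ) : ℝ)| ≤ |(k : ℝ)| + |(j : ℝ)| := by
    push_cast
    exact abs_sub _ _
  have := mul_le_mul_of_nonneg_left h1 hι.le
  linarith

theorem lab_exc {y : G} (hy : A.Exc ρ g y) : A.lab ρ g y = {y} := by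
  unfold Gen.lab
  rw [if_pos hy]

theorem fG_single {y : G} (hy : A.Exc ρ g y) (x : G) :
    A.fG π ρ ι g {y} x = A.fE π ρ ι g y x := by
  unfold Gen.fG
  rw [if_pos ⟨y, (lab_exc hy).symm⟩, ciInf_unique]
  rfl

theorem two_ball (h : GOk A π g ρ ι M P) {x y : G} {a b : ℤ} (ha : g ^ a * y ∈ A.cay.ball π.Rs x)
    (hb : g ^ b * y ∈ A.cay.ball π.Rs x) : g ^ (a - b) * y ∈ A.cay.ball ρ y := by
  have h1 : g ^ a * y ∈ A.cay.ball ρ (g ^ b * y) :=
    Gr.ball_trans' (Gr.ball_symm hb) ha (by have := h.hρ; omega)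
  rw [← cay_left A (g ^ b), ← mul_assoc, ← zpow_add, add_sub_cancel]
  exact h1

theorem small (h : GOk A π g ρ ι M P) {j k k' : ℤ} (hj : |j + k - k'| ≤ M)
    (hk : ι * |(k : ℝ)| < π.Rs) (hk' : ι * |(k' : ℝ)| < π.Rs) : |j| < P := by
  have h1 : |(j : ℝ) + k - k'| ≤ M := by exact_mod_cast hj
  have h2 : |(k : ℝ)| < π.Rs / ι := by rwa [lt_div_iff₀ h.ι_pos, mul_comm]
  have h3 : |(k' : ℝ)| < π.Rs / ι := by rwa [lt_div_iff₀ h.ι_pos, mul_comm]
  have h4 := h.hP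
  have h5 : 2 * (π.Rs : ℝ) / ι = π.Rs / ι + π.Rs / ι := by ring
  have h6 : |(j : ℝ)| < P := by
    rw [abs_le] at h1
    rw [abs_lt] at h2 h3 ⊢
    constructor <;> linarith [h1.1, h1.2, h2.1, h2.2, h3.1, h3.2]
  exact_mod_cast h6

theorem lab_of_mem {l : Set G} (hl : A.Val ρ g l) {y : G} (hy : y ∈ l) : A.lab ρ g y = l := by
  have h1 := hl.rep.2
  rw [h1] at hy
  rw [lab_eq hy, ← h1]

end LabG2X

open LabG2X

variable {A : Gen G} {π : Par} {ρ : ℕ} {ι : ℝ} {g : G} {M P : ℕ} (h : GOk A π g ρ ι M P)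

theorem labG_step {k : ℕ} {x : Fin (k + 1) → G} {w : Fin (k + 1) → ℕ} (hw : A.Steps g x w) :
    (labG h).Step x fun j => (min (w j) π.Rs : ℕ) := by
  intro j
  obtain ⟨h1, h2⟩ := hw j
  refine ⟨?_, fun l => ?_⟩
  · have : 1 ≤ min (w j) π.Rs := le_min h1 (by unfold Par.Rs; omega)
    exact Nat.one_le_cast.2 this
  · have a1 := fG_lip (π := π) (ρ := ρ) (g := g) h.ι_pos l h2
    have a2 := fG_lip (π := π) (ρ := ρ) (g := g) h.ι_pos l (Gr.ball_symm h2)
    have a3 := fG_bounds (A := A) (π := π) (ρ := ρ) (g := g) h.ι_pos l (x j)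
    have a4 := fG_bounds (A := A) (π := π) (ρ := ρ) (g := g) h.ι_pos l (prv g x j)
    change |A.fG π ρ ι g l (x j) - A.fG π ρ ι g l (prv g x j)| ≤ ((min (w j) π.Rs : ℕ) : ℝ)
    rw [Nat.cast_min, le_min_iff, abs_le, abs_le]
    refine ⟨⟨?_, ?_⟩, ?_, ?_⟩ <;> linarith [a3.1, a3.2, a4.1, a4.2]

theorem labG_sparse : (labG h).Sparse (2 * P + 1) := by
  intro l x
  by_cases he : A.Exc ρ g (rep l)
  · refine Or.inr fun s hs => ?_
    have key : ∀ p ∈ s, ∃ k : ℤ, g ^ (k - p) * rep l ∈ A.cay.ball π.Rs x ∧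
        ι * |(k : ℝ)| < π.Rs := by
      intro p hp
      obtain ⟨hv, y, hy, k, h1, h2, -⟩ := fG_lt h.ι_pos (hs p hp)
      obtain ⟨-, o2, o3⟩ := hv.orb hy
      rw [o3 (o2.2 he)] at h1
      refine ⟨k, ?_, h2⟩
      rw [← cay_left A (g ^ p), ← mul_assoc, ← zpow_add, add_sub_cancel]
      exact h1
    rcases s.eq_empty_or_nonempty with rfl | ⟨p0, hp0⟩
    · simp
    · have hsub : s ⊆ Icc (p0 - P) (p0 + P) := by
        intro p hp
        obtain ⟨k, h1, h2⟩ := key p hp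
        obtain ⟨k', h1', h2'⟩ := key p0 hp0
        have h3 := h.hM _ _ he (two_ball h h1 h1')
        have e : k - p - (k' - p0) = p0 - p + k - k' := by ring
        rw [e] at h3
        have h4 := abs_lt.1 (small h h3 h2 h2')
        rw [mem_Icc]
        constructor <;> omega
      refine (card_le_card hsub).trans ?_
      rw [Int.card_Icc]
      omega
  · refine Or.inl fun p hp => ?_
    obtain ⟨hv, y, hy, k, h1, -, h3⟩ := fG_lt h.ι_pos hp.1
    obtain ⟨-, y', hy', k', h1', -, h3'⟩ := fG_lt h.ι_pos hp.2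
    have ne : ¬ A.Exc ρ g y := fun hh => he ((hv.orb hy).2.1.1 hh)
    have ne' : ¬ A.Exc ρ g y' := fun hh => he ((hv.orb hy').2.1.1 hh)
    rw [h3 ne, zpow_zero, one_mul] at h1
    rw [h3' ne', zpow_zero, one_mul] at h1'
    rw [← lab_of_mem hv hy] at hy'
    unfold Gen.lab at hy'
    rw [if_neg ne] at hy'
    obtain ⟨j, hj, rfl⟩ := hy'
    have h4 : g ^ (1 : ℤ) * y ∈ A.cay.ball π.Rs (g ^ (p + 1) * x) := by
      rw [add_comm, zpow_add, mul_assoc, cay_left]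
      exact h1
    have h5 : j - 1 ∈ A.Zs ρ g y := AddSubgroup.subset_closure (two_ball h h1' h4)
    have h6 : (1 : ℤ) ∈ A.Zs ρ g y := by
      have := (A.Zs ρ g y).sub_mem hj h5
      rwa [sub_sub_cancel] at this
    refine ne ((AddSubgroup.eq_top_iff' _).2 fun n => ?_)
    have := (A.Zs ρ g y).zsmul_mem h6 n
    rwa [smul_eq_mul, mul_one] at this

theorem labG_grad {y : G} (hy : A.Exc ρ g y) (x : G) :
    |(labG h).f ((labG h).sh {y}) x - (labG h).f {y} x| ≤ ι := by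
  have hy' : A.Exc ρ g (g ^ (1 : ℤ) * y) := (exc_iff 1 y).2 hy
  have e : shS g {y} = {g ^ (1 : ℤ) * y} := by
    rw [← lab_exc hy, lab_left rfl, ← lab_exc hy', zpow_one]
  change |A.fG π ρ ι g (shS g {y}) x - A.fG π ρ ι g {y} x| ≤ ι
  rw [e, fG_single hy, fG_single hy']
  have a1 := fE_shift (π := π) h.ι_pos hy 1 x
  have a2 := fE_shift (π := π) h.ι_pos hy' (-1) x
  rw [← mul_assoc, ← zpow_add, neg_add_cancel, zpow_zero, one_mul] at a2
  simp only [Int.cast_one, abs_one, mul_one, Int.cast_neg, abs_neg] at a1 a2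
  rw [abs_le]
  constructor <;> linarith

theorem LabG2X.near {l : Set G} {p : ℤ} {x : G} (hl : (labG h).f l (g ^ p * x) < π.Rs) :
    pj g (rep l) ∈ (A.sch g).ball π.Rs (pj g x) := by
  obtain ⟨hv, y, hy, k, h1, -, -⟩ := fG_lt h.ι_pos hl
  have h2 := sch_proj A g h1
  rwa [pj_zpow, pj_zpow, (hv.orb hy).1] at h2

theorem labG_nb {l l' : Set G} (hl : (labG h).Nb l l') :
    pj g (rep l) ∈ (A.sch g).ball (2 * π.Rs) (pj g (rep l')) := by
  obtain ⟨x, h1, h2⟩ := hl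
  have a1 := LabG2X.near h (l := l) (p := 0) (x := x) (by rwa [zpow_zero, one_mul])
  have a2 := LabG2X.near h (l := l') (p := 0) (x := x) (by rwa [zpow_zero, one_mul])
  exact Gr.ball_trans' (Gr.ball_symm a2) a1 (by omega)

theorem labG_near {l : Set G} {p : ℤ} {x : G} (hl : (labG h).f l (g ^ p * x) < π.Rs) :
    pj g (rep l) ∈ (A.sch g).ball π.Rs (pj g x) := LabG2X.near h hl

theorem labG_same {l l' : Set G} (hl : (labG h).Nb l l') (ho : pj g (rep l) = pj g (rep l')) :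
    (¬ A.Exc ρ g (rep l) → l = l') ∧ (A.Exc ρ g (rep l) →
      ∃ j : ℤ, |j| < P ∧ rep l' = g ^ j * rep l ∧ l = {rep l} ∧ l' = {rep l'}) := by
  obtain ⟨x, hx, hx'⟩ := hl
  obtain ⟨hv, y, hy, k, h1, h2, h3⟩ := fG_lt h.ι_pos hx
  obtain ⟨hv', y', hy', k', h1', h2', h3'⟩ := fG_lt h.ι_pos hx'
  obtain ⟨o1, o2, o3⟩ := hv.orb hy
  obtain ⟨o1', o2', o3'⟩ := hv'.orb hy'
  obtain ⟨j, rfl⟩ := pj_eq.1 (o1.trans (ho.trans o1'.symm))
  rw [← mul_assoc, ← zpow_add] at h1'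
  have h4 := two_ball h h1' h1
  refine ⟨fun he => ?_, fun he => ?_⟩
  · have ne : ¬ A.Exc ρ g y := fun hh => he (o2.1 hh)
    have ne' : ¬ A.Exc ρ g (g ^ j * y) := fun hh => ne ((exc_iff j y).1 hh)
    rw [h3 ne, h3' ne', zero_add, sub_zero] at h4
    have h5 : g ^ j * y ∈ A.lab ρ g y := by
      unfold Gen.lab
      rw [if_neg ne]
      exact ⟨j, AddSubgroup.subset_closure h4, rfl⟩
    rw [← lab_of_mem hv hy, ← lab_of_mem hv' hy', lab_eq h5]
  · have e : A.Exc ρ g y := o2.2 he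
    have e' : A.Exc ρ g (g ^ j * y) := (exc_iff j y).2 e
    have h5 := h.hM _ _ e h4
    rw [add_comm k' j] at h5
    refine ⟨j, small h h5 h2' h2, by rw [← o3 e, ← o3' e'], ?_, ?_⟩
    · rw [← lab_exc he]
      exact hv.rep.2
    · rw [← lab_exc (o2'.1 e')]
      exact hv'.rep.2

end

end Vale.Agent.P184L
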