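import Vale.Agent.P184L.Gb2
import Vale.Agent.P184L.K3

/-! Labels on the Schreier graph. Hint: `A.Ok π` gives `D ^ n ≤ exp (b n / 200)`; `Gr.card_ball`, `Gr.dd_le_iff`. `sch_lift`, `sch_proj` by induction on the radius (`mem_schreier`, `rmul_pj`). `SumLe`: group the labels by their distance `d`, at most `D ^ d` of them, `∑ d, exp (b d / 200 - b d / 2) ≤ 2`. -/

namespace Vale.Agent.P184L

open Finset MeasureTheory ProbabilityTheory Classical Vale.Agent.P184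
open scoped ContDiff

noncomputable section

universe u

variable {G : Type u} [Group G]

theorem Gen.Ok.pow_le {A : Gen G} {π : Par} (h : A.Ok π) (n : ℕ) :
    (A.S.card : ℝ) ^ n ≤ Real.exp (π.b * n / 200) := by
  have h1 : (A.S.card : ℝ) ≤ Real.exp (π.b / 200) := by
    refine le_of_pow_le_pow_left₀ (n := 200) (by norm_num) (Real.exp_pos _).le (h.2.trans_eq ?_)
    rw [← Real.exp_nat_mul]
    congr 1
    push_cast
    ring
  refine (pow_le_pow_left₀ (Nat.cast_nonneg _) h1 n).trans_eq ?_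
  rw [← Real.exp_nat_mul]
  congr 1
  ring

theorem Gen.Ok.mass {A : Gen G} {π : Par} (h : A.Ok π) :
    (A.S.card : ℝ) ^ π.Rs * (2 * π.Rs + 2) ≤ π.Qm := by
  have h1 := h.pow_le π.Rs
  have hb := h.1.1
  have hR : (8 : ℝ) ≤ π.R := by exact_mod_cast h.1.2.1
  have h2 := π.Rt_eq
  have h3 := π.Rs_eq
  have h4 : (36 : ℝ) ≤ π.Rt := by linarith
  have h5 : (2 * π.Rs + 2 : ℝ) ≤ Real.exp (4 / 5 * π.Rt) := by
    refine le_trans ?_ (Real.quadratic_le_exp_of_nonneg (by linarith))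
    nlinarith
  refine (mul_le_mul h1 h5 (by positivity) (Real.exp_pos _).le).trans ?_
  rw [← Real.exp_add, Par.Qm, Real.exp_le_exp, h3]
  nlinarith

theorem sch_proj (A : Gen G) (g : G) {n : ℕ} {x y : G} (h : y ∈ A.cay.ball n x) :
    pj g y ∈ (A.sch g).ball n (pj g x) := by
  induction n generalizing y with
  | zero =>
    rw [Gr.mem_ball_zero] at h ⊢
    rw [h]
  | succ n ih =>
    obtain ⟨z, hz, h2⟩ := Gr.mem_ball_succ.1 h
    obtain ⟨a, ha, rfl⟩ := mem_image.1 h2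
    exact Gr.mem_ball_succ.2 ⟨_, ih hz, mem_schreier g A.S A.h1 A.hS z ha⟩

theorem sch_lift (A : Gen G) (g : G) {n : ℕ} {x : G} {v : VV g}
    (h : v ∈ (A.sch g).ball n (pj g x)) : ∃ y ∈ A.cay.ball n x, pj g y = v := by
  induction n generalizing v with
  | zero => exact ⟨x, Gr.mem_ball_self _ _, (Gr.mem_ball_zero.1 h).symm⟩
  | succ n ih =>
    obtain ⟨z, hz, h2⟩ := Gr.mem_ball_succ.1 h
    obtain ⟨y, hy, rfl⟩ := ih hz
    obtain ⟨a, ha, rfl⟩ := mem_image.1 h2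
    exact ⟨y * a, Gr.mem_ball_succ.2 ⟨y, hy, mem_image.2 ⟨a, ha, rfl⟩⟩, rfl⟩

theorem dd_lt {V : Type*} [DecidableEq V] {Γ : Gr V} {R : ℕ} {a x : V} (h : Γ.dd R a x < R) :
    x ∈ Γ.ball (Γ.dd R a x) a :=
  (Gr.dd_le_iff.1 le_rfl).resolve_left (not_le.2 h)

theorem dd_sub_le {V : Type*} [DecidableEq V] {Γ : Gr V} (R : ℕ) (a : V) {n : ℕ} {x y : V}
    (h : y ∈ Γ.ball n x) : |(Γ.dd R a y : ℝ) - Γ.dd R a x| ≤ n := by
  have key : ∀ {x y : V}, y ∈ Γ.ball n x → (Γ.dd R a y : ℝ) ≤ Γ.dd R a x + n := fun {x y} h => by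
    have h1 : Γ.dd R a y ≤ Γ.dd R a x + n := by
      rcases (Gr.dd_le_iff (Γ := Γ) (R := R) (a := a) (x := x)).1 le_rfl with h1 | h1
      · exact Gr.dd_le_iff.2 (Or.inl (by omega))
      · exact Gr.dd_le_iff.2 (Or.inr (Gr.ball_trans h1 h))
    exact_mod_cast h1
  have h1 := key h
  have h2 := key (Gr.ball_symm h)
  exact abs_le.2 ⟨by linarith, by linarith⟩

theorem LabVX.near {V : Type*} [DecidableEq V] {Γ : Gr V} {R : ℕ} {a x : V}
    (h : ((Γ.dd R a x : ℕ) : ℝ) < R) : a ∈ Γ.ball R x :=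
  Gr.ball_mono (Gr.dd_le R a x) (Gr.ball_symm (dd_lt (Nat.cast_lt.1 h)))

theorem labV_fin (A : Gen G) (π : Par) (g x : G) :
    {a : VV g | (((A.sch g).dd π.Rs a (pj g x) : ℕ) : ℝ) < π.Rs}.Finite :=
  ((A.sch g).ball π.Rs (pj g x)).finite_toSet.subset fun _ ha => mem_coe.2 (LabVX.near ha)

theorem labV_mass {A : Gen G} {π : Par} (h : A.Ok π) (g x : G) (s : Finset (VV g))
    (hs : ∀ a ∈ s, (((A.sch g).dd π.Rs a (pj g x) : ℕ) : ℝ) < π.Rs) :
    ∑ _a ∈ s, (1 : ℝ) ≤ π.Qm := by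
  have h1 : s.card ≤ A.S.card ^ π.Rs :=
    (card_le_card fun a ha => LabVX.near (hs a ha)).trans (Gr.card_ball π.Rs (pj g x))
  have h2 : (s.card : ℝ) ≤ (A.S.card : ℝ) ^ π.Rs := by exact_mod_cast h1
  rw [sum_const, nsmul_eq_mul, mul_one]
  refine (h2.trans (le_mul_of_one_le_right (by positivity) ?_)).trans h.mass
  linarith [(Nat.cast_nonneg π.Rs : (0 : ℝ) ≤ π.Rs)]

/-- The coarse labels. -/
def labV {A : Gen G} {π : Par} (h : A.Ok π) (g : G) : Lab π g (VV g) where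
  sh := Equiv.refl _
  f a x := (A.sch g).dd π.Rs a (pj g x)
  pr _ := 1
  f_sh l x := by rw [pj_g]; rfl
  pr_sh _ := rfl
  f_nonneg _ _ := Nat.cast_nonneg _
  f_le _ _ := Nat.cast_le.2 (Gr.dd_le _ _ _)
  pr_nonneg _ := zero_le_one
  fin := labV_fin A π g
  mass_le := labV_mass h g

variable {A : Gen G} {π : Par} (h : A.Ok π) (g : G)

theorem labV_sumLe : (labV h g).SumLe := by
  intro x s hs
  have hb := h.1.1
  have hs' : ∀ a ∈ s, (A.sch g).dd π.Rs a (pj g x) < π.Rs := fun a ha => Nat.cast_lt.1 (hs a ha)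
  rw [← sum_fiberwise_of_maps_to (g := fun a => (A.sch g).dd π.Rs a (pj g x)) (t := range π.Rs)
    fun a ha => mem_range.2 (hs' a ha)]
  refine le_trans (sum_le_sum fun d _ => ?_) ((sum_geometric_two_le π.Rs).trans
    (by linarith [Real.add_one_le_exp π.b]))
  have h1 : (s.filter fun a => (A.sch g).dd π.Rs a (pj g x) = d).card ≤ A.S.card ^ d :=
    (card_le_card fun a ha => by
      obtain ⟨h2, h3⟩ := mem_filter.1 ha
      exact h3 ▸ Gr.ball_symm (dd_lt (hs' a h2))).trans (Gr.card_ball (Γ := A.sch g) d (pj g x))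
  have h2 : ((s.filter fun a => (A.sch g).dd π.Rs a (pj g x) = d).card : ℝ) ≤
      Real.exp (π.b * d / 200) := le_trans (by exact_mod_cast h1) (h.pow_le d)
  rw [sum_congr rfl (g := fun _ => Real.exp (-(π.b / 2 * d))) fun a ha => by
    rw [← (mem_filter.1 ha).2]
    exact one_mul _, sum_const, nsmul_eq_mul]
  refine (mul_le_mul_of_nonneg_right h2 (Real.exp_pos _).le).trans ?_
  have h3 : Real.exp (-1) ≤ 1 / 2 := by
    rw [Real.exp_neg, one_div]
    exact inv_anti₀ two_pos (by linarith [Real.add_one_le_exp 1])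
  refine le_trans ?_ (pow_le_pow_left₀ (Real.exp_pos _).le h3 d)
  rw [← Real.exp_add, ← Real.exp_nat_mul, Real.exp_le_exp]
  nlinarith [(Nat.cast_nonneg d : (0 : ℝ) ≤ d)]

omit h in
theorem LabVX.step {L : Type u} (Λ : Lab π g L) (l : L) (x y : G) :
    |Λ.f l x - Λ.f l y| ≤ π.Rs :=
  abs_le.2 ⟨by linarith [Λ.f_nonneg l x, Λ.f_le l y], by linarith [Λ.f_nonneg l y, Λ.f_le l x]⟩

theorem labV_step {k : ℕ} {x : Fin (k + 1) → G} {w : Fin (k + 1) → ℕ} (hw : A.Steps g x w) :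
    (labV h g).Step x fun j => (min (w j) π.Rs : ℕ) := by
  intro j
  obtain ⟨h1, h2⟩ := hw j
  refine ⟨Nat.one_le_cast.2 (le_min h1 (by unfold Par.Rs; omega)), fun l => ?_⟩
  simp only [Nat.cast_min]
  exact le_min (dd_sub_le _ _ (sch_proj A g h2)) (LabVX.step g _ _ _ _)

theorem Lab.step_Rs {L : Type u} (Λ : Lab π g L) {k : ℕ} (x : Fin (k + 1) → G) :
    Λ.Step x fun _ => (π.Rs : ℝ) := fun _ =>
  ⟨Nat.one_le_cast.2 (by unfold Par.Rs; omega), fun _ => LabVX.step g _ _ _ _⟩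

theorem labV_eig {Q : ℕ} (s : VV g → Fin Q → Bool) (q : Fin Q) :
    (labV h g).Eig (etaV s q) 0 := by
  refine ⟨by simpa using Real.pi_pos.le, fun l => by simp [labV], fun x t ht => ?_⟩
  refine le_trans (sum_le_sum fun a _ => ?_) (labV_mass h g x t ht)
  have hQ : (1 : ℝ) ≤ Q := Nat.one_le_cast.2 q.pos
  have h1 : sg (s a q) ^ 2 = 1 := by
    unfold sg
    split_ifs <;> norm_num
  rw [etaV, Complex.norm_real, Real.norm_eq_abs, sq_abs, div_pow, h1,
    Real.sq_sqrt (by linarith)]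
  exact div_le_one_of_le₀ hQ (by linarith)

theorem labV_nb {a a' : VV g} (ha : (labV h g).Nb a a') :
    a ∈ (A.sch g).ball (2 * π.Rs) a' := by
  obtain ⟨x, h1, h2⟩ := ha
  exact Gr.ball_trans' (Gr.ball_symm (LabVX.near h2)) (LabVX.near h1) (by omega)

theorem labV_near {a : VV g} {p : ℤ} {x : G} (ha : (labV h g).f a (g ^ p * x) < π.Rs) :
    a ∈ (A.sch g).ball π.Rs (pj g x) := by
  have h1 := LabVX.near (Γ := A.sch g) ha
  rwa [← pj_eq.2 ⟨p, rfl⟩] at h1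

theorem labV_act {u : G} (hu : u * g = g * u) (a : VV g) (x : G) :
    (labV h g).f (act g u hu a) (u * x) = (labV h g).f a x :=
  congrArg Nat.cast ((schreier_aut g A.S A.h1 A.hS u hu).dd π.Rs a (pj g x))

end

end Vale.Agent.P184L
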