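import Vale.Agent.P184L.Defs4

/-! The scales. Hint: `y (i + 1) / y i = 1 + 1 / (i0 + i)`; `one_add_mul_le_pow` (Bernoulli), `(1 + x) ^ c ≤ exp (c x) ≤ 1 + 2 c x` for `c x ≤ 1`; `∑ 1 / (i0 + i) ^ 2 ≤ 1 / (i0 - 1)` by telescoping; `γ ≤ 2 log (1 + γ)` for `0 ≤ γ ≤ 1` and `∑ log (1 + γ i)` telescopes to `log (y I ^ c)`. `exists_scale`: `Nat.find`. -/

namespace Vale.Agent.P184L

open Finset MeasureTheory ProbabilityTheory Classical Vale.Agent.P184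
open scoped ContDiff

noncomputable section

universe u

variable {G : Type u} [Group G]

namespace NumAX

theorem tele {a : ℝ} (ha : 2 ≤ a) (I : ℕ) :
    ∑ i ∈ range I, 1 / (a + i) ^ 2 ≤ 1 / (a - 1) - 1 / (a - 1 + I) := by
  induction I with
  | zero => simp
  | succ I ih =>
    have h0 : (0 : ℝ) ≤ I := Nat.cast_nonneg I
    have h1 : 0 < a - 1 + I := by linarith
    have h2 : 0 < a + I := by linarith
    have h3 : 1 / (a + I) ^ 2 ≤ 1 / (a - 1 + I) - 1 / (a + I) := by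
      rw [div_sub_div _ _ h1.ne' h2.ne', div_le_div_iff₀ (by positivity) (by positivity)]
      nlinarith
    have h4 : a - 1 + ((I + 1 : ℕ) : ℝ) = a + I := by push_cast; ring
    rw [sum_range_succ, h4]
    linarith

theorem tele2 {a : ℝ} (ha : 2 ≤ a) (F : Finset ℕ) : ∑ i ∈ F, 1 / (a + i) ^ 2 ≤ 2 / a := by
  have h1 : F ⊆ range (F.sup id + 1) := fun i hi =>
    mem_range.2 (Nat.lt_succ_of_le (le_sup (f := id) hi))
  have h2 := sum_le_sum_of_subset_of_nonneg (f := fun i : ℕ => 1 / (a + i) ^ 2) h1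
    fun i _ _ => by positivity
  have h3 := tele ha (F.sup id + 1)
  have h4 : 0 ≤ 1 / (a - 1 + ((F.sup id + 1 : ℕ) : ℝ)) :=
    div_nonneg zero_le_one (add_nonneg (by linarith) (Nat.cast_nonneg _))
  have h5 : 1 / (a - 1) ≤ 2 / a := by
    rw [div_le_div_iff₀ (by linarith) (by linarith)]
    linarith
  linarith

theorem pow_le {x : ℝ} {c : ℕ} (hx : 0 ≤ x) (h : c * x ≤ 1) : (1 + x) ^ c ≤ 1 + 2 * (c * x) := by
  have h0 : 0 ≤ c * x := by positivity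
  have h1 : (1 + x) ^ c ≤ Real.exp x ^ c :=
    pow_le_pow_left₀ (by linarith) (by linarith [Real.add_one_le_exp x]) c
  rw [← Real.exp_nat_mul] at h1
  have h2 := (abs_le.1 (Real.abs_exp_sub_one_le (x := c * x) (by rwa [abs_of_nonneg h0]))).2
  rw [abs_of_nonneg h0] at h2
  linarith

theorem le_log {x : ℝ} (h0 : 0 ≤ x) (h1 : x ≤ 1) : x ≤ 2 * Real.log (1 + x) := by
  have h2 := Real.one_sub_inv_le_log_of_pos (x := 1 + x) (by linarith)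
  have h3 : (1 + x)⁻¹ ≤ 1 - x / 2 := by
    rw [inv_eq_one_div, div_le_iff₀ (by linarith)]
    nlinarith
  linarith

theorem ceil_bd {a : ℕ} {y : ℝ} (ha : 1 ≤ a) (hy : 1 ≤ y) :
    1 ≤ a * y ∧ 1 ≤ ⌈a * y⌉₊ ∧ a * y ≤ ⌈a * y⌉₊ ∧ (⌈a * y⌉₊ : ℝ) ≤ a * y + 1 := by
  have h1 : (1 : ℝ) ≤ a := by exact_mod_cast ha
  have h2 : 1 ≤ a * y := one_le_mul_of_one_le_of_one_le h1 hy
  exact ⟨h2, Nat.one_le_ceil_iff.2 (by linarith), Nat.le_ceil _,
    (Nat.ceil_lt_add_one (by linarith)).le⟩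

variable {s : Sc} (h : s.Ok)
include h

theorem c_ge : (14 : ℝ) ≤ s.c := by exact_mod_cast h.1

theorem ci : 2 * (s.c : ℝ) ≤ s.i0 := by exact_mod_cast h.2.1

theorem i0_ge : (28 : ℝ) ≤ s.i0 := by linarith [c_ge h, ci h]

theorem m_ge : (1 : ℝ) ≤ s.m := by exact_mod_cast h.2.2.1

theorem mul_y (i : ℕ) : s.i0 * s.y i = s.i0 + i := by
  have h1 := i0_ge h
  rw [Sc.y]
  field_simp

theorem y_pos (i : ℕ) : 0 < s.y i := by
  rw [Sc.y]
  positivity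

theorem γ_eq (i : ℕ) : 1 + s.γ i = (1 + 1 / ((s.i0 : ℝ) + i)) ^ s.c := by
  have h1 := i0_ge h
  have h2 := m_ge h
  have h3 := y_pos h i
  have h4 : s.y (i + 1) = s.y i * (1 + 1 / ((s.i0 : ℝ) + i)) := by
    rw [Sc.y, Sc.y]
    push_cast
    field_simp
    ring
  rw [Sc.γ, Sc.r, Sc.r, h4, mul_pow]
  field_simp
  ring

theorem y_succ (i : ℕ) : s.y (i + 1) ^ s.c = s.y i ^ s.c * (1 + s.γ i) := by
  have h2 := m_ge h
  have h3 := y_pos h i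
  rw [Sc.γ, Sc.r, Sc.r]
  field_simp
  ring

end NumAX

open NumAX

variable {s : Sc} (h : s.Ok)
include h

theorem Sc.Ok.one_le_y (i : ℕ) : 1 ≤ s.y i := by
  have h1 := i0_ge h
  rw [Sc.y]
  exact le_add_of_nonneg_right (by positivity)

theorem Sc.Ok.y_mono {i j : ℕ} (hij : i ≤ j) : s.y i ≤ s.y j := by
  have h1 := i0_ge h
  have h2 : (i : ℝ) ≤ j := by exact_mod_cast hij
  rw [Sc.y, Sc.y]
  gcongr

theorem Sc.Ok.y_i0 : s.y s.i0 = 2 := by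
  have h1 := i0_ge h
  rw [Sc.y, div_self (by linarith)]
  norm_num

theorem Sc.Ok.r_pos (i : ℕ) : 0 < s.r i := by
  have h2 := m_ge h
  have h3 := y_pos h i
  rw [Sc.r]
  positivity

theorem Sc.Ok.r_zero : s.r 0 = 1 / s.m := by
  have h1 := i0_ge h
  simp [Sc.r, Sc.y]

theorem Sc.Ok.r_succ (i : ℕ) : s.r (i + 1) = s.r i * (1 + s.γ i) := by
  rw [Sc.r, y_succ h, Sc.r]
  ring

theorem Sc.Ok.γ_bounds (i : ℕ) : 0 < s.γ i ∧ s.γ i ≤ 1 ∧ 1 / (s.i0 * s.y i) ≤ s.γ i ∧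
    s.γ i ≤ 2 * s.c / (s.i0 + i) := by
  have h1 := i0_ge h
  have h2 := c_ge h
  have h3 := ci h
  have h0 : (0 : ℝ) ≤ i := Nat.cast_nonneg i
  have h4 : (0 : ℝ) < s.i0 + i := by linarith
  have hx : 0 < 1 / ((s.i0 : ℝ) + i) := by positivity
  have h5 : 2 * (s.c * (1 / ((s.i0 : ℝ) + i))) = 2 * s.c / (s.i0 + i) := by ring
  have h6 : 2 * (s.c : ℝ) / (s.i0 + i) ≤ 1 := by
    rw [div_le_one h4]
    linarith
  have h7 := pow_le (c := s.c) hx.le (by linarith)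
  have h8 := one_add_mul_le_pow (a := 1 / ((s.i0 : ℝ) + i)) (by linarith) s.c
  rw [← γ_eq h] at h7 h8
  have h9 : 1 / ((s.i0 : ℝ) + i) ≤ s.γ i := by nlinarith
  exact ⟨by linarith, by linarith, by rwa [mul_y h], by linarith⟩

theorem Sc.Ok.sum_γ_sq (I : ℕ) : ∑ i ∈ range I, s.γ i ^ 2 ≤ 8 * s.c ^ 2 / s.i0 := by
  have h1 := i0_ge h
  have h2 : ∀ i ∈ range I, s.γ i ^ 2 ≤ 4 * s.c ^ 2 * (1 / ((s.i0 : ℝ) + i) ^ 2) := fun i _ => by
    refine (pow_le_pow_left₀ (h.γ_bounds i).1.le (h.γ_bounds i).2.2.2 2).trans (le_of_eq ?_)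
    rw [div_pow]
    ring
  refine (sum_le_sum h2).trans ?_
  rw [← mul_sum]
  refine (mul_le_mul_of_nonneg_left (tele2 (by linarith) _) (by positivity)).trans (le_of_eq ?_)
  ring

theorem Sc.Ok.sum_γ (I : ℕ) : ∑ i ∈ range I, s.γ i ≤ 2 * Real.log (s.y I ^ s.c) := by
  induction I with
  | zero => simp [Sc.y]
  | succ I ih =>
    have h1 := h.γ_bounds I
    have h2 := le_log h1.1.le h1.2.1
    rw [sum_range_succ, y_succ h, Real.log_mul (pow_pos (y_pos h I) _).ne' (by linarith [h1.1])]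
    linarith

theorem Sc.Ok.sum_y (F : Finset ℕ) : ∑ i ∈ F, 1 / s.y i ^ 2 ≤ (2 * s.i0 : ℝ) := by
  have h1 := i0_ge h
  have h2 : ∀ i ∈ F, 1 / s.y i ^ 2 = s.i0 ^ 2 * (1 / ((s.i0 : ℝ) + i) ^ 2) := fun i _ => by
    have h3 := y_pos h i
    rw [← mul_y h]
    field_simp
  rw [sum_congr rfl h2, ← mul_sum]
  refine (mul_le_mul_of_nonneg_left (tele2 (by linarith) _) (by positivity)).trans (le_of_eq ?_)
  field_simp

theorem Sc.Ok.p_bounds (i : ℕ) :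
    1 ≤ s.p i ∧ s.p0 * s.y i ≤ s.p i ∧ (s.p i : ℝ) ≤ 2 * s.p0 * s.y i := by
  obtain ⟨h1, h2, h3, h4⟩ := ceil_bd h.2.2.2.1 (h.one_le_y i)
  exact ⟨h2, h3, h4.trans (by linarith)⟩

theorem Sc.Ok.n_bounds (i : ℕ) :
    1 ≤ s.n i ∧ s.n0 * s.y i ≤ s.n i ∧ (2 * s.n i + 1 : ℝ) ≤ 5 * s.n0 * s.y i := by
  obtain ⟨h1, h2, h3, h4⟩ := ceil_bd h.2.2.2.2 (h.one_le_y i)
  refine ⟨h2, h3, ?_⟩
  rw [Sc.n]
  linarith

theorem Sc.Ok.K_bounds (i : ℕ) : 4 * s.p i / (s.r i * s.γ i) ≤ s.K i ∧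
    (s.K i : ℝ) ≤ 8 * s.p0 * s.i0 * s.y i ^ 2 * s.m / s.y i ^ s.c + 1 := by
  have h1 := i0_ge h
  have h2 := m_ge h
  have h3 := y_pos h i
  have h4 := h.r_pos i
  obtain ⟨h5, -, h6, -⟩ := h.γ_bounds i
  have h7 := (h.p_bounds i).2.2
  refine ⟨Nat.le_ceil _, (Nat.ceil_lt_add_one (by positivity)).le.trans (add_le_add_left ?_ 1)⟩
  have h8 : 4 * (s.p i : ℝ) / (s.r i * s.γ i) ≤
      4 * (2 * s.p0 * s.y i) / (s.r i * (1 / (s.i0 * s.y i))) := by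
    gcongr
  refine h8.trans (le_of_eq ?_)
  rw [Sc.r]
  field_simp
  ring

theorem Sc.Ok.exists_scale {X : ℝ} (hX : 1 ≤ X) :
    ∃ I, X ≤ s.y I ^ s.c ∧ s.y I ^ s.c ≤ 2 * X ∧ (∀ i, X ≤ s.y i ^ s.c → I ≤ i) := by
  have h1 := i0_ge h
  have he : ∃ I, X ≤ s.y I ^ s.c := by
    refine ⟨s.i0 * ⌈X⌉₊, le_trans ?_ (le_self_pow₀ (h.one_le_y _) (by linarith [h.1]))⟩
    rw [Sc.y, Nat.cast_mul, mul_div_cancel_left₀ _ (by linarith)]
    linarith [Nat.le_ceil X]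
  refine ⟨Nat.find he, Nat.find_spec he, ?_, fun i hi => Nat.find_min' he hi⟩
  rcases h2 : Nat.find he with _ | I
  · simp only [Sc.y, Nat.cast_zero, zero_div, add_zero, one_pow]
    linarith
  · have h3 := not_le.1 (Nat.find_min he (m := I) (by omega))
    have h4 := h.γ_bounds I
    have h5 := pow_pos (y_pos h I) s.c
    rw [y_succ h]
    nlinarith [h4.1, h4.2.1]

end

end Vale.Agent.P184L
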