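import Vale.Agent.P184L.NumA

/-! The total logarithmic size and the total loss. Hint for `lg_le`: `r ^ 2 (m + 1) (K + 1) ≤ 20 p0 i0 y ^ (2 c + 2)`, `log y ≤ y`. `PP_le`: for `I1 ≤ i < i0` use `y ≤ 2`, `X1 ≤ y ^ c`; for `i ≥ i0` use `y ^ 4 / y ^ c ≤ 64 / (2 ^ c y ^ 2)`, `sum_y`, and `I3 ≤ i0 * y I3`, `y ^ 3 ≤ √(y ^ c)`. `Err_le`: each group of terms is at most `1`; `(1 / 4) ^ p i ≤ (1 / 4) ^ p0 * 24 / y ^ 3` because `p i ≥ p0 + (y - 1)` and `4 ^ y ≥ exp y ≥ y ^ 3 / 6`. -/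

namespace Vale.Agent.P184L

open Finset MeasureTheory ProbabilityTheory Classical Vale.Agent.P184
open scoped ContDiff

noncomputable section

universe u

variable {G : Type u} [Group G]

namespace NumBX

theorem basic {s : Sc} (h : s.Ok) :
    (1 : ℝ) ≤ s.i0 ∧ (1 : ℝ) ≤ s.m ∧ (1 : ℝ) ≤ s.p0 ∧ (1 : ℝ) ≤ s.n0 := by
  obtain ⟨h1, h2, h3, h4, h5⟩ := h
  exact ⟨Nat.one_le_cast.2 (by omega), Nat.one_le_cast.2 h3, Nat.one_le_cast.2 h4,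
    Nat.one_le_cast.2 h5⟩

theorem a1 {P y Y m K : ℝ} (hP : 1 ≤ P) (hy : 1 ≤ y) (hY : 1 ≤ Y) (hm : 1 ≤ m) (hK0 : 0 ≤ K)
    (hK : K ≤ 8 * P * y ^ 2 * m / Y + 1) :
    (Y / m) ^ 2 * (m + 1) * (K + 1) ≤ 20 * P * (Y ^ 2 * y ^ 2) := by
  have h1 : (Y / m) ^ 2 * (m + 1) * (K + 1) ≤
      (Y / m) ^ 2 * (2 * m) * (8 * P * y ^ 2 * m / Y + 2) :=
    mul_le_mul (mul_le_mul_of_nonneg_left (by linarith) (sq_nonneg _)) (by linarith)
      (by linarith) (by positivity)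
  have h2 : (Y / m) ^ 2 * (2 * m) * (8 * P * y ^ 2 * m / Y + 2) =
      16 * (P * y ^ 2 * Y) + 4 * (Y ^ 2 / m) := by
    field_simp
    ring
  have h3 : 1 ≤ P * y ^ 2 := one_le_mul_of_one_le_of_one_le hP (one_le_pow₀ hy)
  have h4 : Y ^ 2 / m ≤ Y ^ 2 := div_le_self (sq_nonneg _) hm
  have h5 := le_mul_of_one_le_left (sq_nonneg Y) h3
  have h6 := le_mul_of_one_le_right (show 0 ≤ P * y ^ 2 * Y by positivity) hY
  linarith

theorem sum_Ico (a b : ℕ) {f : ℕ → ℝ} {B : ℝ} (hB : 0 ≤ B) (h : ∀ i ∈ Ico a b, f i ≤ B) :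
    ∑ i ∈ Ico a b, f i ≤ b * B := by
  refine (sum_le_card_nsmul _ _ _ h).trans ?_
  rw [nsmul_eq_mul, Nat.card_Ico]
  exact mul_le_mul_of_nonneg_right (Nat.cast_le.2 (Nat.sub_le _ _)) hB

theorem quarter {s : Sc} (h : s.Ok) (i : ℕ) : (1 / 4 : ℝ) ^ s.p i ≤ (1 / 4) ^ s.p0 ∧
    (1 / 4 : ℝ) ^ s.p i * s.y i ^ 3 ≤ (1 / 4) ^ s.p0 * 24 := by
  have hy := h.one_le_y i
  have hp := (basic h).2.2.1
  have h1 := (h.p_bounds i).2.1
  have h2 := mul_le_mul_of_nonneg_right hp (sub_nonneg.2 hy)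
  have h3 : s.p0 ≤ s.p i := Nat.cast_le (α := ℝ).1 (by linarith)
  refine ⟨pow_le_pow_of_le_one (by norm_num) (by norm_num) h3, ?_⟩
  obtain ⟨d, hd⟩ := Nat.exists_eq_add_of_le h3
  rw [hd] at h1 ⊢
  push_cast at h1
  have h4 := Real.pow_div_factorial_le_exp (s.y i) (by linarith) 3
  have h5 : Real.exp (s.y i) ≤ 4 ^ (d + 1) := by
    refine (Real.exp_le_exp.2 (show s.y i ≤ (d + 1 : ℕ) by
      push_cast
      linarith)).trans ?_
    rw [← Real.exp_one_pow]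
    exact pow_le_pow_left₀ (Real.exp_pos 1).le (by linarith [Real.exp_one_lt_d9]) _
  rw [pow_add, mul_assoc]
  refine mul_le_mul_of_nonneg_left ?_ (by positivity)
  rw [one_div, inv_pow, inv_mul_le_iff₀ (by positivity)]
  rw [pow_succ] at h5
  norm_num [Nat.factorial] at h4
  linarith

theorem err1 {s : Sc} (h : s.Ok) {a b : ℝ} (ha : 0 ≤ a) (hb : 0 ≤ b) (I1 : ℕ) :
    ∑ i ∈ Ico I1 s.i0, (a + b * (1 / 4) ^ s.p i) ≤ s.i0 * (a + b * (1 / 4) ^ s.p0) :=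
  sum_Ico _ _ (by positivity) fun i _ =>
    add_le_add le_rfl (mul_le_mul_of_nonneg_left (quarter h i).1 hb)

theorem err2 {s : Sc} (h : s.Ok) {a b : ℝ} (ha : 0 ≤ a) (hb : 0 ≤ b) (F : Finset ℕ) :
    ∑ i ∈ F, (a / s.n i ^ 2 + b * ((1 / 4) ^ s.p i * (2 * s.n i + 1))) ≤
      a * (2 * s.i0) / s.n0 ^ 2 + b * (1 / 4) ^ s.p0 * (240 * s.n0 * s.i0) := by
  have hn := (basic h).2.2.2
  have h1 : ∀ i ∈ F, a / s.n i ^ 2 + b * ((1 / 4) ^ s.p i * (2 * s.n i + 1)) ≤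
      (a / s.n0 ^ 2 + b * (1 / 4) ^ s.p0 * (120 * s.n0)) * (1 / s.y i ^ 2) := fun i _ => by
    have hy := h.one_le_y i
    obtain ⟨-, n1, n2⟩ := h.n_bounds i
    rw [add_mul]
    refine add_le_add ?_ ?_
    · rw [div_mul_div_comm, mul_one, ← mul_pow]
      exact div_le_div_of_nonneg_left ha (by positivity) (pow_le_pow_left₀ (by positivity) n1 2)
    · rw [mul_assoc, mul_assoc]
      refine mul_le_mul_of_nonneg_left ((mul_le_mul_of_nonneg_left n2 (by positivity)).trans ?_) hb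
      rw [mul_one_div, ← mul_div_assoc, le_div_iff₀ (by positivity)]
      have := mul_le_mul_of_nonneg_left (quarter h i).2 (show (0 : ℝ) ≤ 5 * s.n0 by positivity)
      linarith
  refine (sum_le_sum h1).trans ?_
  rw [← mul_sum]
  refine (mul_le_mul_of_nonneg_left (h.sum_y F) (by positivity)).trans (le_of_eq ?_)
  ring

end NumBX

theorem lg_le {s : Sc} (h : s.Ok) {X : ℝ} (hX : 1 ≤ X) (i : ℕ) : s.lg X i ≤
    (32 * s.p0 * s.i0 * s.m * s.y i ^ 3 / s.y i ^ s.c + 6 * s.y i) *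
      (Real.log (21 * X * s.p0 * s.i0) + 2 * s.c + 2) := by
  have hy := h.one_le_y i
  have hY : 1 ≤ s.y i ^ s.c := one_le_pow₀ hy
  obtain ⟨hi, hm, hp, -⟩ := NumBX.basic h
  have hP : (1 : ℝ) ≤ s.p0 * s.i0 := one_le_mul_of_one_le_of_one_le hp hi
  have hK := (h.K_bounds i).2
  have h1 := NumBX.a1 hP hy hY hm (Nat.cast_nonneg (s.K i)) (hK.trans (le_of_eq (by ring)))
  have hW : 1 ≤ (s.y i ^ s.c) ^ 2 * s.y i ^ 2 :=
    one_le_mul_of_one_le_of_one_le (one_le_pow₀ hY) (one_le_pow₀ hy)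
  have hXP : (1 : ℝ) ≤ X * (s.p0 * s.i0) := one_le_mul_of_one_le_of_one_le hX hP
  have h0 : 0 ≤ X * (s.r i ^ 2 * (s.m + 1) * (s.K i + 1)) := by positivity
  have h2 : 1 + X * (s.r i ^ 2 * (s.m + 1) * (s.K i + 1)) ≤
      21 * X * s.p0 * s.i0 * s.y i ^ (2 * s.c + 2) := by
    have a := mul_le_mul_of_nonneg_left h1 (zero_le_one.trans hX)
    have b := one_le_mul_of_one_le_of_one_le hXP hW
    rw [pow_add, mul_comm 2 s.c, pow_mul, Sc.r]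
    linarith
  have hL : 0 ≤ Real.log (21 * X * s.p0 * s.i0) := Real.log_nonneg (by linarith)
  have h3 : Real.log (1 + X * (s.r i ^ 2 * (s.m + 1) * (s.K i + 1))) ≤
      s.y i * (Real.log (21 * X * s.p0 * s.i0) + 2 * s.c + 2) := by
    refine (Real.log_le_log (by linarith) h2).trans ?_
    rw [Real.log_mul (by linarith) (by positivity), Real.log_pow]
    have a := mul_le_mul_of_nonneg_left (Real.log_le_self (zero_le_one.trans hy))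
      (Nat.cast_nonneg (α := ℝ) (2 * s.c + 2))
    have b := le_mul_of_one_le_left hL hy
    push_cast at a ⊢
    linarith
  have h4 : 2 * (2 * (s.K i : ℝ) + 1) ≤ 32 * s.p0 * s.i0 * s.m * s.y i ^ 2 / s.y i ^ s.c + 6 := by
    have e : 32 * s.p0 * s.i0 * s.m * s.y i ^ 2 / s.y i ^ s.c =
        4 * (8 * s.p0 * s.i0 * s.y i ^ 2 * s.m / s.y i ^ s.c) := by ring
    linarith
  refine (mul_le_mul h4 h3 (Real.log_nonneg (by linarith)) (by positivity)).trans (le_of_eq ?_)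
  ring

theorem NumBX.pp {s : Sc} (h : s.Ok) {X Y X1 Λ : ℝ} {Q Dc I1 I3 : ℕ} (hX : 1 ≤ X)
    (hY : Y = Real.log (21 * X * s.p0 * s.i0) + 2 * s.c + 2) (x1 : 1 ≤ X1)
    (g1 : 2048 * Q * s.p0 * s.i0 ^ 2 * Y ≤ X1)
    (g2 : 163840 * (Dc + 1) * s.n0 * s.p0 * s.i0 ^ 2 * Y ≤ 2 ^ s.c)
    (m1 : 96 * Q * s.i0 * Y ≤ s.m) (m2 : 16 * (60 * (Dc + 1) * s.n0 * Y * s.i0) ^ 2 * Λ ≤ s.m)
    (a1 : X1 ≤ s.y I1 ^ s.c) (a3 : s.y I3 ^ s.c ≤ Λ * s.m) : s.PP X Q Dc I1 I3 ≤ s.m := by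
  obtain ⟨hi, hm, hp, hn⟩ := NumBX.basic h
  have hY0 : 0 ≤ Y := by
    have a := one_le_mul_of_one_le_of_one_le (one_le_mul_of_one_le_of_one_le hX hp) hi
    have b : 0 ≤ Real.log (21 * X * s.p0 * s.i0) := Real.log_nonneg (by linarith)
    rw [hY]
    positivity
  have hlg : ∀ i, s.lg X i ≤
      (32 * s.p0 * s.i0 * s.m * s.y i ^ 3 / s.y i ^ s.c + 6 * s.y i) * Y := fun i =>
    hY ▸ lg_le h hX i
  have hX1 : 0 < X1 := one_pos.trans_le x1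
  have s1 : ∑ i ∈ Ico I1 s.i0, 2 * Q * s.lg X i ≤
      s.i0 * (2 * Q * ((32 * s.p0 * s.i0 * s.m * 2 ^ 3 / X1 + 6 * 2) * Y)) := by
    refine NumBX.sum_Ico _ _ (by positivity) fun i hi' => ?_
    rw [mem_Ico] at hi'
    have y1 := h.one_le_y i
    have y2 : s.y i ≤ 2 := h.y_i0 ▸ h.y_mono hi'.2.le
    have y3 : X1 ≤ s.y i ^ s.c :=
      a1.trans (pow_le_pow_left₀ (zero_le_one.trans (h.one_le_y I1)) (h.y_mono hi'.1) _)
    refine mul_le_mul_of_nonneg_left ((hlg i).trans (mul_le_mul_of_nonneg_right ?_ hY0))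
      (by positivity)
    gcongr
  have s2 : s.i0 * (2 * Q * ((32 * s.p0 * s.i0 * s.m * 2 ^ 3 / X1 + 6 * 2) * Y)) ≤ s.m / 2 := by
    have a := mul_le_mul_of_nonneg_left ((div_le_one hX1).2 g1) (show (0 : ℝ) ≤ s.m by positivity)
    have e : s.i0 * (2 * Q * ((32 * s.p0 * s.i0 * s.m * 2 ^ 3 / X1 + 6 * 2) * Y)) =
        s.m * (2048 * Q * s.p0 * s.i0 ^ 2 * Y / X1) / 4 + 96 * Q * s.i0 * Y / 4 := by ring
    linarith
  have z1 := h.one_le_y I3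
  have s3 : ∀ i ∈ Ico s.i0 I3, 2 * (Dc + 1) * (2 * s.n i + 1) * s.lg X i ≤
      20480 * (Dc + 1) * s.n0 * s.p0 * s.i0 * Y * s.m / 2 ^ s.c * (1 / s.y i ^ 2) +
        60 * (Dc + 1) * s.n0 * Y * s.y I3 ^ 2 := fun i hi' => by
    rw [mem_Ico] at hi'
    have y1 := h.one_le_y i
    have y2 : 2 ≤ s.y i := h.y_i0 ▸ h.y_mono hi'.1
    have y3 := pow_le_pow_left₀ (zero_le_one.trans y1) (h.y_mono hi'.2.le) 2
    have y4 : s.y i ^ 4 / s.y i ^ s.c ≤ 64 / 2 ^ s.c * (1 / s.y i ^ 2) := by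
      obtain ⟨d, hd⟩ := Nat.exists_eq_add_of_le (show 6 ≤ s.c from le_trans (by norm_num) h.1)
      rw [div_mul_div_comm, div_le_div_iff₀ (by positivity) (by positivity), hd, pow_add, pow_add]
      have := mul_le_mul_of_nonneg_left (pow_le_pow_left₀ zero_le_two y2 d)
        (show 0 ≤ s.y i ^ 6 by positivity)
      linarith
    have b1 : 2 * (Dc + 1) * (2 * s.n i + 1) * s.lg X i ≤ 2 * (Dc + 1) * (5 * s.n0 * s.y i) *
        ((32 * s.p0 * s.i0 * s.m * s.y i ^ 3 / s.y i ^ s.c + 6 * s.y i) * Y) :=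
      (mul_le_mul_of_nonneg_left (hlg i) (by positivity)).trans (mul_le_mul_of_nonneg_right
        (mul_le_mul_of_nonneg_left (h.n_bounds i).2.2 (by positivity)) (by positivity))
    have b2 := mul_le_mul_of_nonneg_left y4
      (show 0 ≤ 320 * (Dc + 1) * s.n0 * s.p0 * s.i0 * Y * s.m by positivity)
    have b3 := mul_le_mul_of_nonneg_left y3 (show 0 ≤ 60 * (Dc + 1) * s.n0 * Y by positivity)
    refine b1.trans ((le_of_eq ?_).trans ((add_le_add b2 b3).trans (le_of_eq ?_)))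
    · ring
    · ring
  have s4 := sum_le_sum s3
  rw [sum_add_distrib, ← mul_sum] at s4
  have s5 := mul_le_mul_of_nonneg_left (h.sum_y (Ico s.i0 I3))
    (show 0 ≤ 20480 * (Dc + 1) * s.n0 * s.p0 * s.i0 * Y * s.m / 2 ^ s.c by positivity)
  have s6 : 20480 * (Dc + 1) * s.n0 * s.p0 * s.i0 * Y * s.m / 2 ^ s.c * (2 * s.i0) ≤ s.m / 4 := by
    have a := mul_le_mul_of_nonneg_left ((div_le_one (by positivity)).2 g2)
      (show (0 : ℝ) ≤ s.m by positivity)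
    have e : 20480 * (Dc + 1) * s.n0 * s.p0 * s.i0 * Y * s.m / 2 ^ s.c * (2 * s.i0) =
        s.m * (163840 * (Dc + 1) * s.n0 * s.p0 * s.i0 ^ 2 * Y / 2 ^ s.c) / 4 := by ring
    linarith
  have s7 := NumBX.sum_Ico s.i0 I3 (f := fun _ => 60 * (Dc + 1) * s.n0 * Y * s.y I3 ^ 2)
    (by positivity) fun _ _ => le_rfl
  have s8 : (I3 : ℝ) ≤ s.i0 * s.y I3 := by
    rw [Sc.y, mul_add, mul_div_cancel₀ _ (one_pos.trans_le hi).ne']
    linarith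
  have s9 := mul_le_mul_of_nonneg_right s8
    (show 0 ≤ 60 * (Dc + 1) * s.n0 * Y * s.y I3 ^ 2 by positivity)
  have s10 : 60 * (Dc + 1) * s.n0 * Y * s.i0 * s.y I3 ^ 3 ≤ s.m / 4 := by
    refine (abs_le_of_sq_le_sq' ?_ (by positivity)).2
    have a := (pow_le_pow_right₀ z1 (show 3 * 2 ≤ s.c from le_trans (by norm_num) h.1)).trans a3
    have b := mul_le_mul_of_nonneg_left a (sq_nonneg (60 * (Dc + 1) * s.n0 * Y * s.i0))
    have c := mul_le_mul_of_nonneg_right m2 (show (0 : ℝ) ≤ s.m by positivity)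
    have e : ((s.m : ℝ) / 4) ^ 2 = s.m * s.m / 16 := by ring
    rw [mul_pow, ← pow_mul, e]
    generalize (60 * (Dc + 1) * s.n0 * Y * s.i0) ^ 2 = B at *
    generalize s.y I3 ^ (3 * 2) = W at *
    linarith
  unfold Sc.PP
  linarith

variable {C z A0 θ X1 : ℝ} {D : ℕ} {π : Par} {c i0 p0 n0 Q Dc ρ0 : ℕ}

theorem PP_le (hC : 1 ≤ C) (hz : 1 ≤ z) (h : NumOk C z A0 θ X1 D π c i0 p0 n0 Q Dc ρ0) (Λ : ℝ) :
    ∃ m0 : ℕ, ∀ m, m0 ≤ m → 1 ≤ m → ∀ I1 I3, X1 ≤ Sc.y ⟨c, i0, m, p0, n0⟩ I1 ^ c →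
      Sc.y ⟨c, i0, m, p0, n0⟩ I3 ^ c ≤ Λ * m →
      Sc.PP ⟨c, i0, m, p0, n0⟩ (z * C * π.b ^ 2 * π.Qm) Q Dc I1 I3 ≤ m := by
  have hb : 8 ≤ π.b := h.ok.1
  have hQm : 1 ≤ π.Qm := Real.one_le_exp (by positivity)
  have hX : 1 ≤ z * C * π.b ^ 2 * π.Qm := one_le_mul_of_one_le_of_one_le
    (one_le_mul_of_one_le_of_one_le (one_le_mul_of_one_le_of_one_le hz hC)
      (one_le_pow₀ (by linarith))) hQm
  obtain ⟨m0, hm0⟩ := exists_nat_ge (max (96 * Q * i0 * YY C z π c i0 p0)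
    (16 * (60 * (Dc + 1) * n0 * YY C z π c i0 p0 * i0) ^ 2 * Λ))
  refine ⟨m0, fun m hm h1 I1 I3 a1 a3 => ?_⟩
  have hm' := hm0.trans (Nat.cast_le.2 hm)
  exact NumBX.pp (s := ⟨c, i0, m, p0, n0⟩) ⟨h.hc, h.hi, h1, h.hp, h.hn⟩ hX rfl h.x1 h.g1 h.g2
    ((le_max_left _ _).trans hm') ((le_max_right _ _).trans hm') a1 a3

theorem Err_le (hC : 1 ≤ C) (h : NumOk C z A0 θ X1 D π c i0 p0 n0 Q Dc ρ0) {m : ℕ} (hm : 1 ≤ m)
    (I1 I3 : ℕ) : Sc.Err ⟨c, i0, m, p0, n0⟩ π C θ A0 Q Dc I1 I3 ρ0 ≤ 3 / 4 * π.R := by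
  have hs : Sc.Ok ⟨c, i0, m, p0, n0⟩ := ⟨h.hc, h.hi, hm, h.hp, h.hn⟩
  obtain ⟨hi, -, -, hn⟩ := NumBX.basic hs
  have hC0 : 0 ≤ C := zero_le_one.trans hC
  have hθ := h.θ_pos
  have hQm : 0 < π.Qm := Real.exp_pos _
  have hρ : (0 : ℝ) < ρ0 := Nat.cast_pos.2 h.hρ
  have a1 := (div_le_one hρ).2 h.e6
  have a2 := mul_le_mul_of_nonneg_left (hs.sum_γ_sq I3)
    (show 0 ≤ C * π.b ^ 2 * π.Rs ^ 3 by positivity)
  have a3 := (div_le_one (one_pos.trans_le hi)).2 h.e1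
  rw [mul_div_assoc] at a3
  have a4 := NumBX.err1 hs (a := C * (π.b * π.Rs) ^ 2 * (θ + Real.exp (-(π.b * π.R / 8))))
    (b := C * Q * π.Qm * (π.b * π.Rs) ^ 2) (by positivity) (by positivity) I1
  have a5 := NumBX.err2 hs (a := C * (π.b ^ 2 * π.Rs ^ 2) ^ 2)
    (b := C * (Dc + 1) * π.Qm * (π.b * π.Rs) ^ 2) (by positivity) (by positivity) (Ico i0 I3)
  have a6 := (div_le_one (pow_pos (one_pos.trans_le hn) 2)).2 h.e4
  have e2 := h.e2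
  have e3 := h.e3
  have e5 := h.e5
  have e7 := h.e7
  unfold Sc.Err
  refine (add_le_add (add_le_add le_rfl ((le_of_eq (sum_congr rfl fun i _ => ?_)).trans a4))
    ((le_of_eq (sum_congr rfl fun i _ => ?_)).trans a5)).trans ?_
  · ring
  · ring
  · dsimp only at a2 a3 a6 ⊢
    linarith

end

end Vale.Agent.P184L
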