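import Vale.Agent.P184L.Defs4
import Vale.Agent.P184L.Gb1

/-! Existence of parameters. Hint: `b = 8 + 200 log D`. For a natural number `R` (real `T`) larger than `C, z, b, 14, 100 A0 + 100 C`, take `k = ⌈b ^ 2 Rs ^ 2⌉`, `c = R ^ 5`, `i0 = R ^ 20`, `p0 = R ^ 4`, `n0 = R ^ 20`, `Q = R ^ 80`, `θ = 1 / T ^ 30`, `Dc = 4 D ^ (28 Rs)`, `X1 = T ^ 140`, `ρ0 = ⌈(R + C) 2 2 ^ c A0⌉`. Use `Rs = 12 R + 15 ≤ T ^ 2`, `b Rs ≤ T ^ 3`, `k ≤ T ^ 7`, `Qm ≤ exp (T ^ 2)`, `D ^ n ≤ exp (b n / 200)`, `Dc + 1 ≤ exp (2 T ^ 3)`, `YY ≤ T ^ 6`, `pJ ≤ 16 exp (4 T ^ 10 - T ^ 19)`, `T ^ j ≤ exp (j T)`, `(1 / 4) ^ p ≤ exp (-p)`, `exp (c / 2) ≤ 2 ^ c`. Only `e2` (`2 T ^ 27 ≤ exp T`) and `l1` (`log T / T → 0`) need a limit. Prove each field as a separate lemma. -/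

namespace Vale.Agent.P184L

open Finset MeasureTheory ProbabilityTheory Classical Vale.Agent.P184
open scoped ContDiff

noncomputable section

universe u

variable {G : Type u} [Group G]

namespace NumDX

theorem pw_le {T : ℝ} (h : 0 ≤ T) (j : ℕ) : T ^ j ≤ Real.exp (j * T) := by
  rw [Real.exp_nat_mul]
  exact pow_le_pow_left₀ h (by linarith [Real.add_one_le_exp T]) j

theorem pm {T : ℝ} (h : 100 ≤ T) {a : ℝ} (ha : a ≤ 100) {i j : ℕ} (hij : i < j) :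
    a * T ^ i ≤ T ^ j :=
  calc a * T ^ i ≤ T * T ^ i := by gcongr; linarith
    _ = T ^ (i + 1) := by ring
    _ ≤ T ^ j := pow_le_pow_right₀ (by linarith) hij

theorem quarter (p : ℕ) : (1 / 4 : ℝ) ^ p ≤ Real.exp (-(p : ℝ)) := by
  rw [show -(p : ℝ) = p * (-1) by ring, Real.exp_nat_mul]
  refine pow_le_pow_left₀ (by norm_num) ?_ p
  rw [Real.exp_neg, one_div]
  exact inv_anti₀ (Real.exp_pos _) (by linarith [Real.exp_one_lt_d9])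

theorem half (p : ℕ) : Real.exp (p / 2) ≤ (2 : ℝ) ^ p := by
  rw [show (p : ℝ) / 2 = p * (1 / 2) by ring, Real.exp_nat_mul]
  refine pow_le_pow_left₀ (Real.exp_pos _).le ?_ p
  have h : Real.exp (1 / 2) ^ 2 = Real.exp 1 := by rw [← Real.exp_nat_mul]; norm_num
  nlinarith [Real.exp_one_lt_d9, Real.exp_pos (1 / 2)]

theorem exp_le_one' {x : ℝ} (h : x ≤ 0) : Real.exp x ≤ 1 := Real.exp_le_one_iff.2 h

/-- Size relations between the constants. -/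
structure Ctx (C z b T : ℝ) (D R : ℕ) (π : Par) : Prop where
  hC : 1 ≤ C
  hz : 1 ≤ z
  hb : 8 ≤ b
  hDR : (1 : ℝ) ≤ D
  hT : T = R
  h100 : 100 ≤ T
  hCT : C ≤ T
  hbT : b ≤ T
  r1 : (9024 * (z * C * b)) ^ 2 ≤ T
  r3 : 2 * (Nat.factorial 28 : ℝ) ≤ T
  r4 : z * C * b ≤ T
  hπb : π.b = b
  hπR : (π.R : ℝ) = T
  hRs2 : (π.Rs : ℝ) ≤ T ^ 2
  hbR2 : (b * π.Rs) ^ 2 ≤ T ^ 6
  hk : (π.k : ℝ) ≤ T ^ 7
  hQm : π.Qm ≤ Real.exp (T ^ 2)
  hDn : ∀ j : ℕ, j ≤ 200 → (D : ℝ) ^ (j * π.Rs) ≤ Real.exp (T ^ 3)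
  hE : 5 * Real.exp (T ^ 3) ≤ Real.exp (2 * T ^ 3)
  hE1 : 1 ≤ Real.exp (T ^ 3)
  hDc : (((4 * D ^ (28 * π.Rs) : ℕ) : ℝ) + 1) ≤ Real.exp (2 * T ^ 3)

theorem qs {T : ℝ} (h100 : 100 ≤ T) : 100 * T ≤ T ^ 2 ∧ 100 * T ^ 2 ≤ T ^ 3 ∧ 100 * T ^ 3 ≤ T ^ 4 ∧
    100 * T ^ 4 ≤ T ^ 5 ∧ 100 * T ^ 5 ≤ T ^ 6 ∧ 100 * T ^ 3 ≤ T ^ 10 ∧ 100 * T ^ 10 ≤ T ^ 18 ∧
    100 * T ^ 18 ≤ T ^ 19 :=
  ⟨by simpa using pm h100 (a := 100) le_rfl (show 1 < 2 by norm_num),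
    pm h100 le_rfl (by norm_num), pm h100 le_rfl (by norm_num), pm h100 le_rfl (by norm_num),
    pm h100 le_rfl (by norm_num), pm h100 le_rfl (by norm_num), pm h100 le_rfl (by norm_num),
    pm h100 le_rfl (by norm_num)⟩

variable {C z b T : ℝ} {D R : ℕ} {π : Par} (h : Ctx C z b T D R π)
include h

theorem Ctx.hpJ :
    pJ C (1 / T ^ 30) D (R ^ 80) π ≤ Real.exp (-T ^ 18) := by
  obtain ⟨hC, hz, hb, hDR, hT, h100, hCT, hbT, r1, r3, r4, hπb, hπR, hRs2, hbR2, hk, hQm, hDn, hE,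
    hE1, hDc⟩ := id h
  obtain ⟨q1, q2, q3, q4, q5, q6, q7, q8⟩ := qs h100
  have hT0 : 0 < T := by linarith
  have hQm0 : 0 < π.Qm := Real.exp_pos _
  have hb0 : 0 ≤ b := by linarith
  have h1 : ((D : ℝ) ^ (3 * π.Rs) + 1) ^ π.k ≤ Real.exp (2 * T ^ 10) := by
    refine (pow_le_pow_left₀ (by positivity)
      (show _ ≤ Real.exp (2 * T ^ 3) by linarith [hDn 3 (by norm_num)]) _).trans ?_
    rw [← Real.exp_nat_mul]
    refine Real.exp_le_exp.2 ?_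
    calc _ ≤ T ^ 7 * (2 * T ^ 3) := by gcongr
      _ = _ := by ring
  have h2 : T ^ 19 ≤ ((R ^ 80 : ℕ) : ℝ) * (1 / T ^ 30) ^ 2 / C := by
    rw [le_div_iff₀ (by linarith), Nat.cast_pow, ← hT]
    calc _ ≤ T ^ 19 * T := by gcongr
      _ = _ := by field_simp
  calc _ ≤ (2 * Real.exp (2 * T ^ 10)) ^ 2 * (4 * Real.exp (-T ^ 19)) := by
        unfold pJ
        gcongr
    _ = 16 * Real.exp (2 * T ^ 10 + 2 * T ^ 10 + -T ^ 19) := by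
        rw [Real.exp_add, Real.exp_add]; ring
    _ ≤ Real.exp T * Real.exp (2 * T ^ 10 + 2 * T ^ 10 + -T ^ 19) := by
        gcongr
        linarith [Real.add_one_le_exp T]
    _ ≤ _ := by
        rw [← Real.exp_add]
        exact Real.exp_le_exp.2 (by linarith)

theorem Ctx.hq : (1 / 4 : ℝ) ^ (R ^ 4) ≤ Real.exp (-T ^ 4) := by
  have := quarter (R ^ 4)
  rwa [Nat.cast_pow, ← h.hT] at this

theorem Ctx.hh : Real.exp (T ^ 5 / 2) ≤ (2 : ℝ) ^ (R ^ 5) := by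
  have := half (R ^ 5)
  rwa [Nat.cast_pow, ← h.hT] at this

theorem Ctx.hY :
    YY C z π (R ^ 5) (R ^ 20) (R ^ 4) ≤ T ^ 6 := by
  obtain ⟨hC, hz, hb, hDR, hT, h100, hCT, hbT, r1, r3, r4, hπb, hπR, hRs2, hbR2, hk, hQm, hDn, hE,
    hE1, hDc⟩ := id h
  obtain ⟨q1, q2, q3, q4, q5, q6, q7, q8⟩ := qs h100
  have hT0 : 0 < T := by linarith
  have hQm0 : 0 < π.Qm := Real.exp_pos _
  have hb0 : 0 ≤ b := by linarith
  have h1 : Real.log (21 * (z * C * b ^ 2 * π.Qm) * T ^ 4 * T ^ 20) ≤ 27 * T + T ^ 2 := by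
    refine (Real.log_le_iff_le_exp (by positivity)).2 ?_
    calc _ = 21 * (z * C * b) * b * T ^ 24 * π.Qm := by ring
      _ ≤ T * T * T * T ^ 24 * Real.exp (T ^ 2) := by gcongr; linarith
      _ = T ^ 27 * Real.exp (T ^ 2) := by ring
      _ ≤ Real.exp ((27 : ℕ) * T) * Real.exp (T ^ 2) := by gcongr; exact pw_le hT0.le 27
      _ = _ := by rw [← Real.exp_add]; norm_num
  unfold YY
  push_cast
  rw [← hT, hπb]
  linarith

theorem Ctx.hY0 {x : ℝ} (hx : 0 ≤ x) : x * YY C z π (R ^ 5) (R ^ 20) (R ^ 4) ≤ x * T ^ 6 :=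
  mul_le_mul_of_nonneg_left h.hY hx

theorem Ctx.hγ :
    C * π.Rs * (2 * ((R ^ 5 : ℕ) : ℝ)) ≤ ((R ^ 20 : ℕ) : ℝ) := by
  obtain ⟨hC, hz, hb, hDR, hT, h100, hCT, hbT, r1, r3, r4, hπb, hπR, hRs2, hbR2, hk, hQm, hDn, hE,
    hE1, hDc⟩ := id h
  obtain ⟨q1, q2, q3, q4, q5, q6, q7, q8⟩ := qs h100
  have hT0 : 0 < T := by linarith
  have hQm0 : 0 < π.Qm := Real.exp_pos _
  have hb0 : 0 ≤ b := by linarith
  push_cast
  rw [← hT]
  calc _ ≤ T * T ^ 2 * (2 * T ^ 5) := by gcongr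
    _ = 2 * T ^ 8 := by ring
    _ ≤ _ := pm h100 (by norm_num) (by norm_num)

theorem Ctx.j1 :
    4 * ((R ^ 80 : ℕ) : ℝ) * (D : ℝ) ^ (4 * π.Rs) * pJ C (1 / T ^ 30) D (R ^ 80) π ≤ 1 := by
  obtain ⟨hC, hz, hb, hDR, hT, h100, hCT, hbT, r1, r3, r4, hπb, hπR, hRs2, hbR2, hk, hQm, hDn, hE,
    hE1, hDc⟩ := id h
  obtain ⟨q1, q2, q3, q4, q5, q6, q7, q8⟩ := qs h100
  have hT0 : 0 < T := by linarith
  have hQm0 : 0 < π.Qm := Real.exp_pos _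
  have hb0 : 0 ≤ b := by linarith
  have hpJ := h.hpJ
  calc _ ≤ T * T ^ 80 * Real.exp (T ^ 3) * Real.exp (-T ^ 18) := by
        have := hDn 4 (by norm_num)
        have h0 : 0 ≤ pJ C (1 / T ^ 30) D (R ^ 80) π := by unfold pJ; positivity
        push_cast
        rw [← hT]
        gcongr
        linarith
    _ = T ^ 81 * Real.exp (T ^ 3) * Real.exp (-T ^ 18) := by ring
    _ ≤ Real.exp ((81 : ℕ) * T) * Real.exp (T ^ 3) * Real.exp (-T ^ 18) := by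
        gcongr; exact pw_le hT0.le 81
    _ ≤ 1 := by
        rw [← Real.exp_add, ← Real.exp_add]
        exact exp_le_one' (by push_cast; linarith)

theorem Ctx.j3 :
    (D : ℝ) ^ (12 * (2 * π.Rs)) * (pJ C (1 / T ^ 30) D (R ^ 80) π +
      (D : ℝ) ^ (4 * π.Rs) / (((4 * D ^ (28 * π.Rs) : ℕ) : ℝ) + 1)) ≤ 1 / 2 := by
  obtain ⟨hC, hz, hb, hDR, hT, h100, hCT, hbT, r1, r3, r4, hπb, hπR, hRs2, hbR2, hk, hQm, hDn, hE,
    hE1, hDc⟩ := id h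
  obtain ⟨q1, q2, q3, q4, q5, q6, q7, q8⟩ := qs h100
  have hT0 : 0 < T := by linarith
  have hQm0 : 0 < π.Qm := Real.exp_pos _
  have hb0 : 0 ≤ b := by linarith
  have hpJ := h.hpJ
  have h1 : (D : ℝ) ^ (12 * (2 * π.Rs)) * pJ C (1 / T ^ 30) D (R ^ 80) π ≤ 1 / 4 := by
    have h0 : 0 ≤ pJ C (1 / T ^ 30) D (R ^ 80) π := by unfold pJ; positivity
    have h2 := hDn 24 (by norm_num)
    rw [show 24 * π.Rs = 12 * (2 * π.Rs) by ring] at h2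
    calc _ ≤ Real.exp (T ^ 3) * Real.exp (-T ^ 18) := by gcongr
      _ ≤ Real.exp (-3) := by
          rw [← Real.exp_add]
          exact Real.exp_le_exp.2 (by linarith)
      _ ≤ _ := by
          rw [Real.exp_neg, one_div]
          exact inv_anti₀ (by norm_num) (by linarith [Real.add_one_le_exp 3])
  have h2 : (D : ℝ) ^ (12 * (2 * π.Rs)) *
      ((D : ℝ) ^ (4 * π.Rs) / (((4 * D ^ (28 * π.Rs) : ℕ) : ℝ) + 1)) ≤ 1 / 4 := by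
    rw [mul_div_assoc', ← pow_add, show 12 * (2 * π.Rs) + 4 * π.Rs = 28 * π.Rs by ring,
      div_le_iff₀ (by positivity)]
    push_cast
    linarith
  rw [mul_add]
  linarith

theorem Ctx.e1 :
    C * π.b ^ 2 * π.Rs ^ 3 * (8 * ((R ^ 5 : ℕ) : ℝ) ^ 2) ≤ ((R ^ 20 : ℕ) : ℝ) := by
  obtain ⟨hC, hz, hb, hDR, hT, h100, hCT, hbT, r1, r3, r4, hπb, hπR, hRs2, hbR2, hk, hQm, hDn, hE,
    hE1, hDc⟩ := id h
  obtain ⟨q1, q2, q3, q4, q5, q6, q7, q8⟩ := qs h100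
  have hT0 : 0 < T := by linarith
  have hQm0 : 0 < π.Qm := Real.exp_pos _
  have hb0 : 0 ≤ b := by linarith
  push_cast
  rw [← hT, hπb]
  calc _ ≤ T * T ^ 2 * (T ^ 2) ^ 3 * (8 * (T ^ 5) ^ 2) := by gcongr
    _ = 8 * T ^ 19 := by ring
    _ ≤ _ := pm h100 (by norm_num) (by norm_num)

theorem Ctx.e2 :
    ((R ^ 20 : ℕ) : ℝ) * (C * (π.b * π.Rs) ^ 2 *
      (1 / T ^ 30 + Real.exp (-(π.b * π.R / 8)))) ≤ 1 := by
  obtain ⟨hC, hz, hb, hDR, hT, h100, hCT, hbT, r1, r3, r4, hπb, hπR, hRs2, hbR2, hk, hQm, hDn, hE,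
    hE1, hDc⟩ := id h
  obtain ⟨q1, q2, q3, q4, q5, q6, q7, q8⟩ := qs h100
  have hT0 : 0 < T := by linarith
  have hQm0 : 0 < π.Qm := Real.exp_pos _
  have hb0 : 0 ≤ b := by linarith
  have h1 : Real.exp (-(b * T / 8)) ≤ 1 / (2 * T ^ 27) := by
    have h2 := Real.pow_div_factorial_le_exp T hT0.le 28
    have h3 : 2 * T ^ 27 ≤ Real.exp (b * T / 8) := by
      refine le_trans ?_ (h2.trans (Real.exp_le_exp.2 (by nlinarith)))
      rw [le_div_iff₀ (by positivity)]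
      calc _ = 2 * (Nat.factorial 28 : ℝ) * T ^ 27 := by ring
        _ ≤ T * T ^ 27 := by gcongr
        _ = _ := by ring
    rw [Real.exp_neg, one_div]
    exact inv_anti₀ (by positivity) h3
  have h2 : 1 / T ^ 30 ≤ 1 / (2 * T ^ 27) :=
    one_div_le_one_div_of_le (by positivity) (pm h100 (by norm_num) (by norm_num))
  push_cast
  rw [← hT, hπb, hπR]
  calc _ ≤ T ^ 20 * (T * T ^ 6 * (1 / (2 * T ^ 27) + 1 / (2 * T ^ 27))) := by gcongr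
    _ = 1 := by field_simp; norm_num

theorem Ctx.e3 :
    ((R ^ 20 : ℕ) : ℝ) * (C * (1 / 4) ^ (R ^ 4) * ((R ^ 80 : ℕ) : ℝ) * π.Qm *
      (π.b * π.Rs) ^ 2) ≤ 1 := by
  obtain ⟨hC, hz, hb, hDR, hT, h100, hCT, hbT, r1, r3, r4, hπb, hπR, hRs2, hbR2, hk, hQm, hDn, hE,
    hE1, hDc⟩ := id h
  obtain ⟨q1, q2, q3, q4, q5, q6, q7, q8⟩ := qs h100
  have hT0 : 0 < T := by linarith
  have hQm0 : 0 < π.Qm := Real.exp_pos _
  have hb0 : 0 ≤ b := by linarith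
  have hq := h.hq
  push_cast
  rw [← hT, hπb]
  calc _ ≤ T ^ 20 * (T * Real.exp (-T ^ 4) * T ^ 80 * Real.exp (T ^ 2) * T ^ 6) := by gcongr
    _ = T ^ 107 * Real.exp (-T ^ 4) * Real.exp (T ^ 2) := by ring
    _ ≤ Real.exp ((107 : ℕ) * T) * Real.exp (-T ^ 4) * Real.exp (T ^ 2) := by
        gcongr; exact pw_le hT0.le 107
    _ ≤ 1 := by
        rw [← Real.exp_add, ← Real.exp_add]
        exact exp_le_one' (by push_cast; linarith)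

theorem Ctx.e4 :
    C * (π.b ^ 2 * π.Rs ^ 2) ^ 2 * (2 * ((R ^ 20 : ℕ) : ℝ)) ≤ ((R ^ 20 : ℕ) : ℝ) ^ 2 := by
  obtain ⟨hC, hz, hb, hDR, hT, h100, hCT, hbT, r1, r3, r4, hπb, hπR, hRs2, hbR2, hk, hQm, hDn, hE,
    hE1, hDc⟩ := id h
  obtain ⟨q1, q2, q3, q4, q5, q6, q7, q8⟩ := qs h100
  have hT0 : 0 < T := by linarith
  have hQm0 : 0 < π.Qm := Real.exp_pos _
  have hb0 : 0 ≤ b := by linarith
  push_cast
  rw [← hT, hπb, ← mul_pow]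
  calc _ ≤ T * (T ^ 6) ^ 2 * (2 * T ^ 20) := by gcongr
    _ = 2 * T ^ 33 := by ring
    _ ≤ T ^ 40 := pm h100 (by norm_num) (by norm_num)
    _ = _ := by ring

theorem Ctx.e5 :
    C * (1 / 4) ^ (R ^ 4) * (((4 * D ^ (28 * π.Rs) : ℕ) : ℝ) + 1) * π.Qm *
      (π.b * π.Rs) ^ 2 * (240 * ((R ^ 20 : ℕ) : ℝ) * ((R ^ 20 : ℕ) : ℝ)) ≤ 1 := by
  obtain ⟨hC, hz, hb, hDR, hT, h100, hCT, hbT, r1, r3, r4, hπb, hπR, hRs2, hbR2, hk, hQm, hDn, hE,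
    hE1, hDc⟩ := id h
  obtain ⟨q1, q2, q3, q4, q5, q6, q7, q8⟩ := qs h100
  have hT0 : 0 < T := by linarith
  have hQm0 : 0 < π.Qm := Real.exp_pos _
  have hb0 : 0 ≤ b := by linarith
  have hq := h.hq
  rw [Nat.cast_pow, ← hT, hπb]
  calc _ ≤ T * Real.exp (-T ^ 4) * Real.exp (2 * T ^ 3) * Real.exp (T ^ 2) * T ^ 6 *
        (T ^ 2 * T ^ 20 * T ^ 20) := by gcongr; linarith
    _ = T ^ 49 * Real.exp (-T ^ 4) * Real.exp (2 * T ^ 3) * Real.exp (T ^ 2) := by ring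
    _ ≤ Real.exp ((49 : ℕ) * T) * Real.exp (-T ^ 4) * Real.exp (2 * T ^ 3) *
        Real.exp (T ^ 2) := by gcongr; exact pw_le hT0.le 49
    _ ≤ 1 := by
        rw [← Real.exp_add, ← Real.exp_add, ← Real.exp_add]
        exact exp_le_one' (by push_cast; linarith)

theorem Ctx.x2 :
    T ^ 140 ≤ 2 ^ (R ^ 5) := by
  obtain ⟨hC, hz, hb, hDR, hT, h100, hCT, hbT, r1, r3, r4, hπb, hπR, hRs2, hbR2, hk, hQm, hDn, hE,
    hE1, hDc⟩ := id h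
  obtain ⟨q1, q2, q3, q4, q5, q6, q7, q8⟩ := qs h100
  have hT0 : 0 < T := by linarith
  have hQm0 : 0 < π.Qm := Real.exp_pos _
  have hb0 : 0 ≤ b := by linarith
  have hh := h.hh
  exact (pw_le hT0.le 140).trans ((Real.exp_le_exp.2 (by push_cast; linarith)).trans hh)

theorem Ctx.g1 :
    2048 * ((R ^ 80 : ℕ) : ℝ) * ((R ^ 4 : ℕ) : ℝ) * ((R ^ 20 : ℕ) : ℝ) ^ 2 *
      YY C z π (R ^ 5) (R ^ 20) (R ^ 4) ≤ T ^ 140 := by
  obtain ⟨hC, hz, hb, hDR, hT, h100, hCT, hbT, r1, r3, r4, hπb, hπR, hRs2, hbR2, hk, hQm, hDn, hE,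
    hE1, hDc⟩ := id h
  obtain ⟨q1, q2, q3, q4, q5, q6, q7, q8⟩ := qs h100
  have hT0 : 0 < T := by linarith
  have hQm0 : 0 < π.Qm := Real.exp_pos _
  have hb0 : 0 ≤ b := by linarith
  refine (h.hY0 (by positivity)).trans ?_
  push_cast
  rw [← hT]
  calc _ ≤ T ^ 2 * T ^ 80 * T ^ 4 * (T ^ 20) ^ 2 * T ^ 6 := by gcongr; linarith
    _ = 1 * T ^ 132 := by ring
    _ ≤ _ := pm h100 (by norm_num) (by norm_num)

theorem Ctx.g2 :
    163840 * (((4 * D ^ (28 * π.Rs) : ℕ) : ℝ) + 1) * ((R ^ 20 : ℕ) : ℝ) * ((R ^ 4 : ℕ) : ℝ) *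
      ((R ^ 20 : ℕ) : ℝ) ^ 2 * YY C z π (R ^ 5) (R ^ 20) (R ^ 4) ≤ 2 ^ (R ^ 5) := by
  obtain ⟨hC, hz, hb, hDR, hT, h100, hCT, hbT, r1, r3, r4, hπb, hπR, hRs2, hbR2, hk, hQm, hDn, hE,
    hE1, hDc⟩ := id h
  obtain ⟨q1, q2, q3, q4, q5, q6, q7, q8⟩ := qs h100
  have hT0 : 0 < T := by linarith
  have hQm0 : 0 < π.Qm := Real.exp_pos _
  have hb0 : 0 ≤ b := by linarith
  have hh := h.hh
  refine (h.hY0 (by positivity)).trans (le_trans ?_ hh)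
  rw [Nat.cast_pow, Nat.cast_pow, ← hT]
  calc _ ≤ T ^ 3 * Real.exp (2 * T ^ 3) * T ^ 20 * T ^ 4 * (T ^ 20) ^ 2 * T ^ 6 := by
        gcongr; linarith
    _ = T ^ 73 * Real.exp (2 * T ^ 3) := by ring
    _ ≤ Real.exp ((73 : ℕ) * T) * Real.exp (2 * T ^ 3) := by gcongr; exact pw_le hT0.le 73
    _ ≤ _ := by
        rw [← Real.exp_add]
        exact Real.exp_le_exp.2 (by push_cast; linarith)

theorem Ctx.l1 :
    32 * z * C * π.b * Real.log (2 * T ^ 140) ≤ π.R := by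
  obtain ⟨hC, hz, hb, hDR, hT, h100, hCT, hbT, r1, r3, r4, hπb, hπR, hRs2, hbR2, hk, hQm, hDn, hE,
    hE1, hDc⟩ := id h
  obtain ⟨q1, q2, q3, q4, q5, q6, q7, q8⟩ := qs h100
  have hT0 : 0 < T := by linarith
  have hQm0 : 0 < π.Qm := Real.exp_pos _
  have hb0 : 0 ≤ b := by linarith
  have h1 : Real.log (2 * T ^ 140) ≤ 282 * √T := by
    have h2 : Real.log T ≤ 2 * √T := by
      have h3 := Real.log_le_sub_one_of_pos (Real.sqrt_pos.2 hT0)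
      rw [Real.log_sqrt hT0.le] at h3
      linarith
    calc _ ≤ Real.log (T ^ 141) :=
          Real.log_le_log (by positivity) (pm h100 (by norm_num) (by norm_num))
      _ = 141 * Real.log T := by rw [Real.log_pow]; norm_num
      _ ≤ _ := by linarith
  have h2 : 9024 * (z * C * b) ≤ √T := Real.le_sqrt_of_sq_le r1
  rw [hπb, hπR]
  calc _ ≤ 32 * z * C * b * (282 * √T) := by gcongr
    _ = 9024 * (z * C * b) * √T := by ring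
    _ ≤ √T * √T := by gcongr
    _ = T := Real.mul_self_sqrt hT0.le

end NumDX

open NumDX in
theorem exists_num {C z A0 : ℝ} (hC : 1 ≤ C) (hz : 1 ≤ z) (hA : 1 ≤ A0) {D : ℕ} (hD : 1 ≤ D) :
    ∃ (θ X1 : ℝ) (π : Par) (c i0 p0 n0 Q Dc ρ0 : ℕ),
      NumOk C z A0 θ X1 D π c i0 p0 n0 Q Dc ρ0 := by
  have hDR : (1 : ℝ) ≤ D := by exact_mod_cast hD
  obtain ⟨b, hb, hDb⟩ : ∃ b : ℝ, 8 ≤ b ∧ (D : ℝ) ≤ Real.exp (b / 200) := by
    refine ⟨8 + 200 * Real.log D, by linarith [Real.log_nonneg hDR], ?_⟩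
    exact (Real.log_le_iff_le_exp (by linarith)).1 (by linarith)
  have hzCb : 8 ≤ z * C * b := by nlinarith [mul_le_mul hz hC zero_le_one (by linarith)]
  obtain ⟨R, r1, r2, r3, r4⟩ : ∃ R : ℕ, (9024 * (z * C * b)) ^ 2 ≤ (R : ℝ) ∧
      100 * (A0 + C) ≤ (R : ℝ) ∧ 2 * (Nat.factorial 28 : ℝ) ≤ R ∧ z * C * b ≤ R := by
    obtain ⟨R, hR⟩ := exists_nat_ge ((9024 * (z * C * b)) ^ 2 + 100 * (A0 + C) +
      2 * (Nat.factorial 28 : ℝ))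
    have : (0 : ℝ) ≤ Nat.factorial 28 := Nat.cast_nonneg _
    exact ⟨R, by linarith, by nlinarith, by nlinarith, by nlinarith⟩
  obtain ⟨T, hT⟩ : ∃ T : ℝ, T = R := ⟨_, rfl⟩
  rw [← hT] at r1 r2 r3 r4
  have h100 : 100 ≤ T := by linarith
  have hR : 100 ≤ R := by rw [hT] at h100; exact_mod_cast h100
  have hT0 : 0 < T := by linarith
  have hT1 : 1 ≤ T := by linarith
  have hCT : C ≤ T := by linarith
  have hbT : b ≤ T := by nlinarith [mul_le_mul hz hC zero_le_one (by linarith)]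
  let π : Par := ⟨b, R, ⌈b ^ 2 * (12 * T + 15) ^ 2⌉₊⟩
  have hπb : π.b = b := rfl
  have hπR : (π.R : ℝ) = T := hT.symm
  have hRs : (π.Rs : ℝ) = 12 * T + 15 := by rw [π.Rs_eq, π.Rt_eq, hπR]; ring
  have hRs2 : (π.Rs : ℝ) ≤ T ^ 2 := by rw [hRs]; nlinarith
  have hRs0 : (0 : ℝ) ≤ π.Rs := Nat.cast_nonneg _
  have hb0 : 0 ≤ b := by linarith
  have hbR : b * π.Rs ≤ T ^ 3 := by
    calc _ ≤ T * T ^ 2 := by gcongr
      _ = _ := by ring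
  have hbR2 : (b * π.Rs) ^ 2 ≤ T ^ 6 := by
    calc _ ≤ (T ^ 3) ^ 2 := by gcongr
      _ = _ := by ring
  have hk : (π.k : ℝ) ≤ T ^ 7 := by
    have h1 : (π.k : ℝ) ≤ b ^ 2 * (12 * T + 15) ^ 2 + 1 := (Nat.ceil_lt_add_one (by positivity)).le
    have h2 := pm h100 (a := 2) (by norm_num) (show 6 < 7 by norm_num)
    have h3 : 1 ≤ T ^ 6 := one_le_pow₀ hT1
    rw [← hRs, ← mul_pow] at h1
    linarith
  have hQm : π.Qm ≤ Real.exp (T ^ 2) := by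
    refine Real.exp_le_exp.2 ?_
    rw [π.Rt_eq, hπR, hπb]
    nlinarith
  have hQm0 : 0 < π.Qm := Real.exp_pos _
  have hDn : ∀ j : ℕ, j ≤ 200 → (D : ℝ) ^ (j * π.Rs) ≤ Real.exp (T ^ 3) := fun j hj => by
    refine (pow_le_pow_left₀ (by linarith) hDb _).trans ?_
    rw [← Real.exp_nat_mul]
    refine Real.exp_le_exp.2 ?_
    have : (j : ℝ) ≤ 200 := by exact_mod_cast hj
    push_cast
    calc _ = j / 200 * (b * π.Rs) := by ring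
      _ ≤ 1 * T ^ 3 := by gcongr; linarith
      _ = _ := one_mul _
  have hT3 : 100 ≤ T ^ 3 := h100.trans (le_self_pow₀ hT1 (by norm_num))
  have hE : 5 * Real.exp (T ^ 3) ≤ Real.exp (2 * T ^ 3) := by
    rw [two_mul, Real.exp_add]
    gcongr
    linarith [Real.add_one_le_exp (T ^ 3)]
  have hE1 : 1 ≤ Real.exp (T ^ 3) := Real.one_le_exp (by linarith)
  have hDc : (((4 * D ^ (28 * π.Rs) : ℕ) : ℝ) + 1) ≤ Real.exp (2 * T ^ 3) := by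
    have := hDn 28 (by norm_num)
    push_cast
    linarith
  have h : Ctx C z b T D R π := ⟨hC, hz, hb, hDR, hT, h100, hCT, hbT, r1, r3, r4, hπb, hπR, hRs2,
    hbR2, hk, hQm, hDn, hE, hE1, hDc⟩
  have hR1 : ∀ j, 1 ≤ R ^ j := fun j => Nat.one_le_pow _ _ (by omega)
  refine ⟨1 / T ^ 30, T ^ 140, π, R ^ 5, R ^ 20, R ^ 4, R ^ 20, R ^ 80, 4 * D ^ (28 * π.Rs),
    ⌈(π.R + C) * (2 * 2 ^ (R ^ 5) * A0)⌉₊, ⟨hb, by change 8 ≤ R; omega, ?_⟩, ?_, by positivity,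
    (div_le_one (by positivity)).2 (one_le_pow₀ hT1), hR1 _, Nat.ceil_pos.2 (by positivity),
    ?_, ?_, hR1 _, hR1 _, h.hγ, h.j1, ?_, h.j3, h.e1, h.e2, h.e3, h.e4, h.e5, Nat.le_ceil _,
    by linarith, one_le_pow₀ hT1, h.x2, h.g1, h.g2, h.l1⟩
  · rw [hRs]
    exact Nat.le_ceil _
  · refine (pow_le_pow_left₀ (by linarith) hDb _).trans_eq ?_
    rw [← Real.exp_nat_mul]
    congr 1
    rw [hπb]
    push_cast
    ring
  · exact le_trans (by omega) (Nat.le_self_pow (by norm_num) R)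
  · have := pm h100 (a := 2) (by norm_num) (show 5 < 20 by norm_num)
    rw [hT] at this
    exact_mod_cast this
  · exact (Nat.pow_le_pow_right hD (by omega)).trans (Nat.le_mul_of_pos_left _ (by norm_num))

end

end Vale.Agent.P184L
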