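import Vale.Agent.P184L.PaM

/-! The trace vanishes if the constant cochain is cohomologous to small ones. Hint: `mu Tr = 0` by `mu_rot` and antisymmetry, so `t = mu 1 = mu Φ` (`mu_face`, `mu_one`, linearity by `mu_summable`). For `h` with all `W.e (h i) ≠ 0` the cell has steps `w j = max 1 (len (h (j - 1)))` (`cell_step`, left invariance of balls of `cay`). Put `f h = nm (e h) * w h * exp (κ / 2 * w h)`, summable with sum `Ce`. On good cells `|Φ| ≤ ∏ w * ε ^ m`, on the others `|Φ| ≤ ∏ w * |C1| ^ m * exp (κ / 2 * (∑ w - A0 m))`; so `‖t‖ ≤ Ce ^ (m + 1) * (ε ^ m + (|C1| exp (-κ A0 / 2)) ^ m)` (`hasSum_prod`). Choose `ε`, `A0` with `Ce ε ≤ 1 / 2` and `Ce |C1| exp (-κ A0 / 2) ≤ 1 / 2`. -/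

namespace Vale.Agent.P184L

open Finset MeasureTheory ProbabilityTheory Classical Vale.Agent.P184
open scoped ContDiff

noncomputable section

universe u

variable {G : Type u} [Group G]

namespace PaFX

theorem mu_sum {q : ℕ} (W : WI G q) (g : G) {k : ℕ} {ι : Type*} (F : Finset ι) (s : ι → ℝ)
    {Ψ : ι → (Fin (k + 1) → G) → ℝ} {K : ℝ} (hK : ∀ j x, |Ψ j x| ≤ K)
    {Φ : (Fin (k + 1) → G) → ℝ} (h : ∀ x, Φ x - 1 = ∑ j ∈ F, s j * Ψ j x) :
    mu W.e g Φ = mu W.e g (fun _ : Fin (k + 1) → G => 1) + ∑ j ∈ F, s j * mu W.e g (Ψ j) := by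
  unfold mu
  simp only [← tsum_mul_left]
  rw [← Summable.tsum_finsetSum fun j _ => (mu_summable W g (hK j)).mul_left _,
    ← Summable.tsum_add (mu_summable W g (Φ := fun _ => 1) (K := 1) fun _ => by simp)
      (summable_sum fun j _ => (mu_summable W g (hK j)).mul_left _)]
  refine tsum_congr fun x => ?_
  split_ifs
  · rw [sub_eq_iff_eq_add.1 (h _)]
    push_cast
    rw [mul_add, add_comm, mul_sum]
    congr 1
    exact sum_congr rfl fun j _ => by ring
  · simp

theorem mu_anti {q : ℕ} (W : WI G q) (g : G) {k : ℕ} {Φ : (Fin (k + 1) → G) → ℝ} (h : Inv g Φ)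
    (h' : ∀ x, Φ (rotX g x) = -Φ x) : mu W.e g Φ = 0 := by
  have h1 := mu_rot W g h
  have h2 : mu W.e g (fun x => Φ (rotX g x)) = -mu W.e g Φ := by
    unfold mu
    rw [← tsum_neg]
    refine tsum_congr fun x => ?_
    split_ifs <;> simp [h']
  linear_combination (h2 - h1) / 2

/-- Step sizes. -/
def ww {q : ℕ} (W : WI G q) (h : G) : ℕ := max 1 (W.len h)

theorem steps {q : ℕ} (W : WI G q) {g : G} {k : ℕ} {h : Fin (k + 1) → G}
    (hc : IsConj (List.ofFn h).prod g) (he : ∀ i, W.e (h i) ≠ 0) :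
    W.toGen.Steps g (cell g h) fun j => ww W (h ((finRotate _).symm j)) := fun j => by
  refine ⟨le_max_left _ _, ?_⟩
  have := (cay_left W.toGen (prv g (cell g h) j)).2
    (Gr.ball_mono (le_max_right 1 _) (W.mem _ (he ((finRotate _).symm j))))
  rwa [mul_one, ← cell_step hc] at this

theorem summable_f {q : ℕ} (W : WI G q) :
    Summable fun h => nm (W.e h) * (ww W h * Real.exp (W.κ / 2 * ww W h)) := by
  have hκ := W.κ_pos
  refine Summable.of_nonneg_of_le (fun h => mul_nonneg (nm_nonneg _) (by positivity)) (fun h => ?_)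
    (W.summ.mul_left (2 / W.κ * Real.exp W.κ))
  have h1 : (ww W h : ℝ) ≤ 1 + W.len h := by
    have : ww W h ≤ 1 + W.len h := max_le (by omega) (by omega)
    exact_mod_cast this
  have h2 : (ww W h : ℝ) ≤ 2 / W.κ * Real.exp (W.κ / 2 * ww W h) := by
    rw [div_mul_eq_mul_div, le_div_iff₀ hκ]
    linarith [Real.add_one_le_exp (W.κ / 2 * ww W h)]
  have := nm_nonneg (W.e h)
  calc _ ≤ nm (W.e h) * (2 / W.κ * Real.exp (W.κ / 2 * ww W h) * Real.exp (W.κ / 2 * ww W h)) := by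
        gcongr
    _ = nm (W.e h) * (2 / W.κ * Real.exp (W.κ * ww W h)) := by
        rw [mul_assoc (2 / W.κ), ← Real.exp_add]; congr 3; ring
    _ ≤ nm (W.e h) * (2 / W.κ * Real.exp (W.κ * (1 + W.len h))) := by gcongr
    _ = _ := by rw [mul_add, mul_one, Real.exp_add]; ring

end PaFX

open PaFX in
theorem trace_zero {q : ℕ} (W : WI G q) (C1 : ℝ) : ∃ A0 ε : ℝ, 1 ≤ A0 ∧ 0 < ε ∧ ∀ g : G,
    (∀ n0, ∃ n, n0 ≤ n ∧ Small W.toGen g C1 A0 ε n) →
    ∑' u : {u // IsConj u g}, (W.e u).trace = 0 := by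
  have hκ := W.κ_pos
  let f : G → ℝ := fun h => nm (W.e h) * (ww W h * Real.exp (W.κ / 2 * ww W h))
  have f0 : ∀ h, 0 ≤ f h := fun h => mul_nonneg (nm_nonneg _) (by positivity)
  obtain ⟨Ce, hCe⟩ : ∃ Ce, Ce = ∑' h, f h := ⟨_, rfl⟩
  have hC0 : 0 ≤ Ce := hCe ▸ tsum_nonneg f0
  obtain ⟨ε, hε, hε'⟩ : ∃ ε : ℝ, 0 < ε ∧ Ce * ε ≤ 1 / 2 :=
    ⟨1 / (2 * (Ce + 1)), by positivity, by
      rw [mul_one_div, div_le_iff₀ (by positivity)]; linarith⟩
  obtain ⟨A0, hA, hA'⟩ : ∃ A0 : ℝ, 1 ≤ A0 ∧ |C1| * Real.exp (-(W.κ / 2 * A0)) ≤ ε := by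
    refine ⟨1 + 2 / W.κ * (|C1| / ε), le_add_of_nonneg_right (by positivity), ?_⟩
    rw [Real.exp_neg, ← div_eq_mul_inv, div_le_iff₀ (Real.exp_pos _), ← div_le_iff₀' hε]
    have : W.κ / 2 * (1 + 2 / W.κ * (|C1| / ε)) = W.κ / 2 + |C1| / ε := by field_simp
    linarith [Real.add_one_le_exp (W.κ / 2 * (1 + 2 / W.κ * (|C1| / ε)))]
  refine ⟨A0, ε, hA, hε, fun g hg => ?_⟩
  have key : ∀ n, Small W.toGen g C1 A0 ε n →
      ‖∑' u : {u // IsConj u g}, (W.e u).trace‖ ≤ Ce * (1 / 2) ^ n := by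
    rintro n ⟨Φ, Tr, s, h1, h2, h3, h4⟩
    obtain ⟨K, hK⟩ := h3.1
    have h5 := mu_sum W g univ s (Ψ := fun j x => Tr fun i => x (j.succAbove i))
      (fun j x => hK _) h1
    simp only [mu_face W g h3, mu_anti W g h3 h2, mul_zero, sum_const_zero, add_zero, mu_one] at h5
    rw [← h5]
    have h6 := (hasSum_prod f0 (summable_f W) (2 * n + 1 + 1 + 1)).mul_right (ε ^ (2 * n + 2))
    refine (tsum_of_norm_bounded h6 fun h => ?_).trans ?_
    · have h7 : 0 ≤ (∏ i, f (h i)) * ε ^ (2 * n + 2) :=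
        mul_nonneg (prod_nonneg fun i _ => f0 _) (by positivity)
      split_ifs with hc
      swap
      · simpa using h7
      by_cases he : ∀ i, W.e (h i) ≠ 0
      swap
      · push Not at he
        obtain ⟨i, hi⟩ := he
        rw [List.prod_eq_zero (List.mem_ofFn.2 ⟨i, hi⟩)]
        simpa using h7
      obtain ⟨h8, h9⟩ := h4 _ _ (steps W hc he)
      rw [Equiv.prod_comp (finRotate _).symm fun j => (ww W (h j) : ℝ)] at h8 h9
      rw [Equiv.sum_comp (finRotate _).symm fun j => (ww W (h j) : ℝ)] at h9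
      have hp : 0 ≤ ∏ j, (ww W (h j) : ℝ) := prod_nonneg fun _ _ => Nat.cast_nonneg _
      have h10 : |Φ (cell g h)| ≤ (∏ j, (ww W (h j) : ℝ)) *
          (Real.exp (W.κ / 2 * ∑ j, (ww W (h j) : ℝ)) * ε ^ (2 * n + 2)) := by
        rcases le_total (∑ j, (ww W (h j) : ℝ)) (A0 * (2 * n + 2)) with h11 | h11
        · refine (h9 h11).trans (mul_le_mul_of_nonneg_left ?_ hp)
          exact le_mul_of_one_le_left (by positivity) (Real.one_le_exp (by positivity))
        · refine h8.trans (mul_le_mul_of_nonneg_left ?_ hp)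
          calc _ ≤ |C1| ^ (2 * n + 2) := (le_abs_self _).trans_eq (abs_pow _ _)
            _ = Real.exp (W.κ / 2 * (A0 * (2 * n + 2))) *
                (|C1| * Real.exp (-(W.κ / 2 * A0))) ^ (2 * n + 2) := by
                rw [mul_pow, ← Real.exp_nat_mul, mul_left_comm, ← Real.exp_add]
                push_cast
                rw [show W.κ / 2 * (A0 * (2 * n + 2)) + (2 * n + 2) * -(W.κ / 2 * A0) = 0 by ring,
                  Real.exp_zero, mul_one]
            _ ≤ _ := by gcongr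
      rw [norm_mul, Complex.norm_real, Real.norm_eq_abs]
      refine (mul_le_mul (norm_trace_prod_le _) h10 (abs_nonneg _)
        (prod_nonneg fun i _ => nm_nonneg _)).trans_eq ?_
      simp only [f, prod_mul_distrib, mul_sum, Real.exp_sum]
      ring
    · rw [← hCe]
      calc _ = Ce * (Ce * ε) ^ (2 * n + 2) := by ring
        _ ≤ Ce * (1 / 2) ^ (2 * n + 2) := by gcongr
        _ ≤ _ := by
          gcongr ?_ * ?_
          exact pow_le_pow_of_le_one (by norm_num) (by norm_num) (by omega)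
  refine norm_le_zero_iff.1 (ge_of_tendsto' (f := fun n : ℕ => Ce * (1 / 2 : ℝ) ^ n)
    (x := Filter.atTop) ?_ fun n0 => ?_)
  · simpa using (tendsto_pow_atTop_nhds_zero_of_lt_one (r := (1 / 2 : ℝ)) (by norm_num)
      (by norm_num)).const_mul Ce
  · obtain ⟨n, hn, h⟩ := hg n0
    refine (key n h).trans ?_
    gcongr ?_ * ?_
    exact pow_le_pow_of_le_one (by norm_num) (by norm_num) hn

end

end Vale.Agent.P184L
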