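import Vale.Agent.P184L.PaR

/-! Merging two letters. Hint: `Fin.contractNth j.castSucc (· * ·) h` has the same product and `cell g h ∘ j.succ.succAbove = cell g (contractNth ...)` (`Fin.partialProd_contractNth`). Reindex `h` by the pair (`h' = contractNth`, `a = h j.castSucc`), an `Equiv` with inverse built from `Fin.insertNth`; use `Summable.tsum_prod`, and `W.idem` pushed through the continuous linear map `M ↦ trace (P * M * Q)`. The face `0` reduces to the last face by `mu_rot`: `x ∘ (0).succAbove = rotX g x ∘ (last).succAbove`. -/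

namespace Vale.Agent.P184L

open Finset MeasureTheory ProbabilityTheory Classical Vale.Agent.P184
open scoped ContDiff

noncomputable section

universe u

variable {G : Type u} [Group G]

namespace PaMX

/-- Splitting the first letter. -/
def sp (G : Type u) [Group G] (k : ℕ) : (Fin (k + 1) → G) × G ≃ (Fin (k + 2) → G) where
  toFun p := Fin.cons p.2 (Fin.cons (p.2⁻¹ * p.1 0) (Fin.tail p.1))
  invFun h := (Fin.cons (h 0 * h 1) (Fin.tail (Fin.tail h)), h 0)
  left_inv p := by
    refine Prod.ext ?_ rfl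
    have : (1 : Fin (k + 2)) = Fin.succ 0 := rfl
    simp only [Fin.cons_zero, this, Fin.cons_succ, Fin.tail_cons, mul_inv_cancel_left,
      Fin.cons_self_tail]
  right_inv h := by
    simp only [Fin.cons_zero, Fin.tail_cons, inv_mul_cancel_left]
    rw [show h 1 = Fin.tail h 0 from rfl, Fin.cons_self_tail, Fin.cons_self_tail]

theorem sp_prod {k : ℕ} (h : Fin (k + 1) → G) (a : G) :
    (List.ofFn (sp G k (h, a))).prod = (List.ofFn h).prod := by
  simp [sp, List.ofFn_succ, Fin.tail, mul_assoc]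

theorem sp_cell (g : G) {k : ℕ} (h : Fin (k + 1) → G) (a : G) :
    (fun i => cell g (sp G k (h, a)) ((Fin.succ 0).succAbove i)) = cell g h := by
  funext i
  unfold cell
  rw [sp_prod]
  congr 1
  refine Fin.cases ?_ (fun i => ?_) i
  · simp
  · rw [Fin.succ_succAbove_succ, Fin.zero_succAbove, Fin.castSucc_succ, Fin.castSucc_succ,
      Fin.partialProd_succ', Fin.partialProd_succ']
    have : Fin.tail (sp G k (h, a)) = Fin.cons (a⁻¹ * h 0) (Fin.tail h) := rfl
    rw [this, Fin.partialProd_succ', Fin.tail_cons, Fin.cons_zero,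
      show sp G k (h, a) 0 = a from rfl, ← mul_assoc, mul_inv_cancel_left]

theorem sp_e {q k : ℕ} (e : G → Matrix (Fin q) (Fin q) ℂ) (h : Fin (k + 1) → G) (a : G) :
    (List.ofFn fun i => e (sp G k (h, a) i)).prod =
      e a * e (a⁻¹ * h 0) * (List.ofFn fun i : Fin k => e (h i.succ)).prod := by
  simp [sp, List.ofFn_succ, Fin.tail, mul_assoc]

theorem face1 {q : ℕ} (W : WI G q) (g : G) {k : ℕ} {Φ : (Fin (k + 1) → G) → ℝ} (h : Inv g Φ) :
    mu W.e g (fun x : Fin (k + 2) → G => Φ fun i => x ((Fin.succ 0).succAbove i)) =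
      mu W.e g Φ := by
  obtain ⟨K, hK⟩ := h.1
  have hs := (sp G k).summable_iff.2 (mu_summable W g
    (Φ := fun x : Fin (k + 2) → G => Φ fun i => x ((Fin.succ 0).succAbove i)) fun x => hK _)
  unfold mu
  rw [← (sp G k).tsum_eq]
  refine hs.tsum_prod.trans (tsum_congr fun x => ?_)
  simp only [Function.comp_apply, sp_prod, sp_cell, sp_e]
  split_ifs with hc
  · rw [List.ofFn_succ, List.prod_cons]
    exact ((((W.idem (x 0)).mul_right _).map (Matrix.traceAddMonoidHom (Fin q) ℂ)
      continuous_id.matrix_trace).mul_right _).tsum_eq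
  · exact tsum_zero

theorem inv_face {g : G} {k : ℕ} {Φ : (Fin (k + 1) → G) → ℝ} (h : Inv g Φ) (j : Fin (k + 2)) :
    Inv g fun x : Fin (k + 2) → G => Φ fun i => x (j.succAbove i) :=
  ⟨h.1.imp fun _ hK _ => hK _, fun z hz x => h.2 z hz fun i => x (j.succAbove i)⟩

theorem inv_rot {g : G} {k : ℕ} {Φ : (Fin (k + 1) → G) → ℝ} (h : Inv g Φ) :
    Inv g fun x => Φ (rotX g x) := by
  refine ⟨h.1.imp fun _ hK _ => hK _, fun z hz x => ?_⟩
  refine (congrArg Φ (funext fun i => ?_)).trans (h.2 z hz (rotX g x))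
  unfold rotX
  refine Fin.lastCases ?_ (fun i => ?_) i
  · rw [Fin.succ_last, Fin.snoc_last, Fin.snoc_last, ← mul_assoc, ← hz, mul_assoc]
  · rw [Fin.succ_castSucc, Fin.snoc_castSucc, Fin.snoc_castSucc]

theorem rot_face (g : G) {k : ℕ} (x : Fin (k + 2) → G) (j : Fin (k + 1)) :
    (fun i => rotX g x (j.castSucc.succAbove i)) = rotX g fun i => x (j.succ.succAbove i) := by
  funext i
  unfold rotX
  refine Fin.lastCases ?_ (fun i => ?_) i
  · rw [Fin.succAbove_ne_last_last (Fin.castSucc_ne_last j), Fin.succ_last, Fin.succ_last,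
      Fin.snoc_last, Fin.snoc_last]
    simp only [Fin.succ_succAbove_zero]
  · rw [Fin.castSucc_succAbove_castSucc, Fin.succ_castSucc, Fin.succ_castSucc, Fin.snoc_castSucc,
      Fin.snoc_castSucc, Fin.succ_succAbove_succ]

theorem step {q : ℕ} (W : WI G q) (g : G) {k : ℕ} (j : Fin (k + 1))
    (ih : ∀ Φ : (Fin (k + 1) → G) → ℝ, Inv g Φ →
      mu W.e g (fun x : Fin (k + 2) → G => Φ fun i => x (j.succ.succAbove i)) = mu W.e g Φ)
    (Φ : (Fin (k + 1) → G) → ℝ) (h : Inv g Φ) :
    mu W.e g (fun x : Fin (k + 2) → G => Φ fun i => x (j.castSucc.succAbove i)) = mu W.e g Φ := by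
  rw [← mu_rot W g (inv_face h j.castSucc), ← mu_rot W g h, ← ih _ (inv_rot h)]
  simp only [rot_face]

end PaMX

theorem mu_face {q : ℕ} (W : WI G q) (g : G) {k : ℕ} {Φ : (Fin (k + 1) → G) → ℝ} (h : Inv g Φ)
    (j : Fin (k + 2)) :
    mu W.e g (fun x : Fin (k + 2) → G => Φ fun i => x (j.succAbove i)) = mu W.e g Φ := by
  induction j using Fin.reverseInduction generalizing Φ with
  | cast j ih => exact PaMX.step W g j (fun _ => ih) _ h
  | last =>
    rw [← mu_rot W g (PaMX.inv_face h _), ← PaMX.step W g 0 (fun _ => PaMX.face1 W g) _ h]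
    refine congrArg _ (funext fun x => congrArg _ (funext fun i => ?_))
    rw [Fin.succAbove_last, rotX, Fin.succ_castSucc, Fin.snoc_castSucc]
    rfl

theorem mu_one {q : ℕ} (W : WI G q) (g : G) (k : ℕ) :
    mu W.e g (fun _ : Fin (k + 1) → G => 1) = ∑' u : {u // IsConj u g}, (W.e u).trace := by
  induction k with
  | zero =>
    unfold mu
    rw [← (Equiv.funUnique (Fin 1) G).symm.tsum_eq]
    refine Eq.trans ?_ (tsum_subtype {u | IsConj u g} fun u => (W.e u).trace).symm
    refine tsum_congr fun u => ?_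
    simp [Set.indicator]
  | succ k ih =>
    exact (mu_face W g (Φ := fun _ : Fin (k + 1) → G => 1)
      ⟨⟨1, fun _ => abs_one.le⟩, fun _ _ _ => rfl⟩ 0).trans ih

end

end Vale.Agent.P184L
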