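import Vale.Agent.P184L.Defs3

/-! Summability and rotation invariance of the pairing. Hint: `nm` is submultiplicative and dominates the trace; `summable_prod` by induction on `k` with `Fin.consEquiv`/`Fin.insertNthEquiv` and `summable_mul_of_summable_norm` (`tsum_mul_tsum`). For `mu_rot` reindex by the cyclic shift `h' i = h (finRotate _ i)`: the product of `h'` is conjugate to that of `h` by `h 0`, the trace is cyclic, and `rotX g (cell g h) = u * cell g h'` for some `u` commuting with `g`. -/

namespace Vale.Agent.P184L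

open Finset MeasureTheory ProbabilityTheory Classical Vale.Agent.P184
open scoped ContDiff

noncomputable section

universe u

variable {G : Type u} [Group G]

namespace PaRX

theorem rot_cast {k : ℕ} (i : Fin k) : finRotate (k + 1) i.castSucc = i.succ :=
  finRotate_of_lt i.2

theorem pp_last {M : Type*} [Monoid M] {k : ℕ} (h : Fin k → M) :
    Fin.partialProd h (Fin.last k) = (List.ofFn h).prod := by
  rw [Fin.partialProd, List.take_of_length_le (by simp)]

theorem pp_rot {M : Type*} [Monoid M] {k : ℕ} (h : Fin (k + 1) → M) (i : Fin (k + 1)) :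
    Fin.partialProd h i.succ =
      h 0 * Fin.partialProd (fun j => h (finRotate _ j)) i.castSucc := by
  induction i using Fin.induction with
  | zero => rw [Fin.partialProd_succ]; simp
  | succ i ih =>
    rw [Fin.partialProd_succ, ← Fin.succ_castSucc, ih, Fin.partialProd_succ, rot_cast, mul_assoc]

theorem prod_eq {M : Type*} [Monoid M] {k : ℕ} (h : Fin (k + 1) → M) :
    (List.ofFn h).prod =
      h 0 * Fin.partialProd (fun j => h (finRotate _ j)) (Fin.last k).castSucc := by
  rw [← pp_rot, Fin.succ_last, pp_last]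

theorem prod_rot {M : Type*} [Monoid M] {k : ℕ} (h : Fin (k + 1) → M) :
    (List.ofFn fun j => h (finRotate _ j)).prod =
      Fin.partialProd (fun j => h (finRotate _ j)) (Fin.last k).castSucc * h 0 := by
  rw [← pp_last, ← Fin.succ_last, Fin.partialProd_succ, finRotate_last]

theorem cj_spec {g u : G} (hc : IsConj u g) : cj g u * u * (cj g u)⁻¹ = g :=
  Classical.epsilon_spec (p := fun c => c * u * c⁻¹ = g) (isConj_iff.1 hc)

theorem conj_rot {k : ℕ} (h : Fin (k + 1) → G) :
    IsConj (List.ofFn fun j => h (finRotate _ j)).prod (List.ofFn h).prod :=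
  isConj_iff.2 ⟨h 0, by rw [prod_rot, prod_eq h]; group⟩

theorem rot_cell {g : G} {k : ℕ} {h : Fin (k + 1) → G} (hc : IsConj (List.ofFn h).prod g) :
    ∃ u, u * g = g * u ∧ rotX g (cell g h) = fun i => u * cell g (fun j => h (finRotate _ j)) i := by
  have e1 := cj_spec hc
  have e2 := cj_spec ((conj_rot h).trans hc)
  refine ⟨cj g (List.ofFn h).prod * h 0 * (cj g (List.ofFn fun j => h (finRotate _ j)).prod)⁻¹,
    ?_, funext fun i => ?_⟩
  · generalize cj g (List.ofFn h).prod = c at e1 ⊢
    generalize cj g (List.ofFn fun j => h (finRotate _ j)).prod = c' at e2 ⊢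
    rw [prod_eq h] at e1
    rw [prod_rot h] at e2
    generalize Fin.partialProd (fun j => h (finRotate _ j)) (Fin.last k).castSucc = P at e1 e2
    calc c * h 0 * c'⁻¹ * g = c * h 0 * c'⁻¹ * (c' * (P * h 0) * c'⁻¹) := by rw [e2]
      _ = c * (h 0 * P) * c⁻¹ * (c * h 0 * c'⁻¹) := by group
      _ = _ := by rw [e1]
  · have e3 : rotX g (cell g h) i = cj g (List.ofFn h).prod * Fin.partialProd h i.succ := by
      unfold rotX
      induction i using Fin.lastCases with
      | last =>
        rw [Fin.succ_last, Fin.snoc_last, pp_last, cell, Fin.castSucc_zero, Fin.partialProd_zero,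
          mul_one, ← mul_inv_eq_iff_eq_mul.1 e1]
      | cast i => rw [Fin.succ_castSucc, Fin.snoc_castSucc, cell]
    rw [e3, pp_rot, cell]
    group

end PaRX

theorem nm_nonneg {q : ℕ} (M : Matrix (Fin q) (Fin q) ℂ) : 0 ≤ nm M :=
  sum_nonneg fun _ _ => sum_nonneg fun _ _ => norm_nonneg _

theorem nm_mul_le {q : ℕ} (M N : Matrix (Fin q) (Fin q) ℂ) : nm (M * N) ≤ nm M * nm N := by
  unfold nm
  calc ∑ i, ∑ j, ‖(M * N) i j‖ ≤ ∑ i, ∑ j, ∑ l, ‖M i l‖ * ‖N l j‖ := by
        refine sum_le_sum fun i _ => sum_le_sum fun j _ => ?_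
        rw [Matrix.mul_apply]
        exact (norm_sum_le _ _).trans (sum_le_sum fun l _ => norm_mul_le _ _)
    _ = ∑ i, ∑ l, ‖M i l‖ * ∑ j, ‖N l j‖ := by
        refine sum_congr rfl fun i _ => ?_
        rw [sum_comm]
        exact sum_congr rfl fun l _ => (mul_sum _ _ _).symm
    _ ≤ ∑ i, ∑ l, ‖M i l‖ * ∑ a, ∑ j, ‖N a j‖ := by
        refine sum_le_sum fun i _ => sum_le_sum fun l _ =>
          mul_le_mul_of_nonneg_left ?_ (norm_nonneg _)
        exact single_le_sum (f := fun a => ∑ j, ‖N a j‖)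
          (fun _ _ => sum_nonneg fun _ _ => norm_nonneg _) (mem_univ l)
    _ = _ := by
        rw [sum_mul]
        exact sum_congr rfl fun i _ => (sum_mul _ _ _).symm

theorem norm_trace_le {q : ℕ} (M : Matrix (Fin q) (Fin q) ℂ) : ‖M.trace‖ ≤ nm M :=
  (norm_sum_le _ _).trans (sum_le_sum fun i _ =>
    single_le_sum (f := fun j => ‖M i j‖) (fun _ _ => norm_nonneg _) (mem_univ i))

theorem norm_trace_prod_le {q k : ℕ} (M : Fin (k + 1) → Matrix (Fin q) (Fin q) ℂ) :
    ‖(List.ofFn M).prod.trace‖ ≤ ∏ i, nm (M i) := by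
  refine (norm_trace_le _).trans ?_
  induction k with
  | zero => simp
  | succ k ih =>
    rw [List.ofFn_succ, List.prod_cons, Fin.prod_univ_succ]
    exact (nm_mul_le _ _).trans (mul_le_mul_of_nonneg_left (ih _) (nm_nonneg _))

theorem hasSum_prod {f : G → ℝ} (h0 : ∀ h, 0 ≤ f h) (hf : Summable f) (k : ℕ) :
    HasSum (fun h : Fin k → G => ∏ i, f (h i)) ((∑' h, f h) ^ k) := by
  induction k with
  | zero => simp
  | succ k ih =>
    have h2 : Summable fun p : G × (Fin k → G) => f p.1 * ∏ i, f (p.2 i) :=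
      Summable.mul_of_nonneg (f := f) (g := fun h : Fin k → G => ∏ i, f (h i)) hf ih.summable h0
        fun _ => prod_nonneg fun _ _ => h0 _
    have h1 : HasSum (fun p : G × (Fin k → G) => f p.1 * ∏ i, f (p.2 i))
        ((∑' h, f h) * (∑' h, f h) ^ k) :=
      HasSum.mul (f := f) (g := fun h : Fin k → G => ∏ i, f (h i)) hf.hasSum ih h2
    rw [pow_succ', ← (Fin.consEquiv fun _ : Fin (k + 1) => G).hasSum_iff]
    have e : ((fun h : Fin (k + 1) → G => ∏ i, f (h i)) ∘
        (Fin.consEquiv fun _ : Fin (k + 1) => G)) =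
        fun p : G × (Fin k → G) => f p.1 * ∏ i, f (p.2 i) := by
      funext p
      simp [Fin.consEquiv, Fin.prod_univ_succ]
    rw [e]
    exact h1

theorem WI.summable_nm {q : ℕ} (W : WI G q) : Summable fun h => nm (W.e h) :=
  W.summ.of_nonneg_of_le (fun _ => nm_nonneg _) fun _ =>
    le_mul_of_one_le_right (nm_nonneg _)
      (Real.one_le_exp (mul_nonneg W.κ_pos.le (Nat.cast_nonneg _)))

theorem mu_summable {q : ℕ} (W : WI G q) (g : G) {k : ℕ} {Φ : (Fin (k + 1) → G) → ℝ} {K : ℝ}
    (hK : ∀ x, |Φ x| ≤ K) : Summable fun h : Fin (k + 1) → G =>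
      if IsConj (List.ofFn h).prod g then
        (List.ofFn fun i => W.e (h i)).prod.trace * Φ (cell g h) else 0 := by
  have hK0 : 0 ≤ K := (abs_nonneg _).trans (hK fun _ => 1)
  refine ((hasSum_prod (fun h => nm_nonneg (W.e h)) W.summable_nm (k + 1)).summable.mul_right
    K).of_norm_bounded fun h => ?_
  split_ifs
  · rw [norm_mul, Complex.norm_real, Real.norm_eq_abs]
    exact mul_le_mul (norm_trace_prod_le _) (hK _) (abs_nonneg _)
      (prod_nonneg fun _ _ => nm_nonneg _)
  · rw [norm_zero]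
    exact mul_nonneg (prod_nonneg fun _ _ => nm_nonneg _) hK0

theorem cell_step {g : G} {k : ℕ} {h : Fin (k + 1) → G} (hc : IsConj (List.ofFn h).prod g)
    (j : Fin (k + 1)) : cell g h j = prv g (cell g h) j * h ((finRotate _).symm j) := by
  unfold prv
  induction j using Fin.cases with
  | zero =>
    have e : (finRotate (k + 1)).symm 0 = Fin.last k := by
      rw [Equiv.symm_apply_eq, finRotate_last]
    rw [e, Fin.castSucc_zero, Fin.cons_zero, cell, cell, mul_assoc, mul_assoc,
      ← Fin.partialProd_succ, Fin.succ_last, PaRX.pp_last, Fin.castSucc_zero, Fin.partialProd_zero,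
      mul_one, mul_inv_eq_iff_eq_mul.1 (PaRX.cj_spec hc), inv_mul_cancel_left]
  | succ i =>
    have e : (finRotate (k + 1)).symm i.succ = i.castSucc := by
      rw [Equiv.symm_apply_eq, PaRX.rot_cast]
    rw [e, ← Fin.succ_castSucc, Fin.cons_succ, cell, cell, mul_assoc, ← Fin.partialProd_succ,
      Fin.succ_castSucc]

theorem mu_rot {q : ℕ} (W : WI G q) (g : G) {k : ℕ} {Φ : (Fin (k + 1) → G) → ℝ} (h : Inv g Φ) :
    mu W.e g (fun x => Φ (rotX g x)) = mu W.e g Φ := by
  unfold mu
  rw [← ((finRotate (k + 1)).symm.arrowCongr (Equiv.refl G)).tsum_eq fun h : Fin (k + 1) → G =>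
    if IsConj (List.ofFn h).prod g then
      (List.ofFn fun i => W.e (h i)).prod.trace * Φ (cell g h) else 0]
  refine tsum_congr fun a => ?_
  have e : ((finRotate (k + 1)).symm.arrowCongr (Equiv.refl G)) a =
      fun j => a (finRotate _ j) := rfl
  rw [e]
  beta_reduce
  by_cases hc : IsConj (List.ofFn a).prod g
  · obtain ⟨u, hu, e1⟩ := PaRX.rot_cell hc
    rw [if_pos hc, if_pos ((PaRX.conj_rot a).trans hc), e1, h.2 u hu,
      PaRX.prod_rot fun i => W.e (a i), PaRX.prod_eq fun i => W.e (a i), Matrix.trace_mul_comm]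
  · rw [if_neg hc, if_neg fun h' => hc ((PaRX.conj_rot a).symm.trans h')]

end

end Vale.Agent.P184L
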