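import Vale.Agent.P184L.ExtD

/-! The transgression formula `d (β ∧ ∑ (da)^i (db)^(n-i)) = (da)^(n+1) - (db)^(n+1)`, `β = a - b`, in coordinates. Hint: define `Dr Ω Ω'` (at the point `τ`): `Ω σ = ∑ m, f m σ • X m` for all `σ`, the `f m` differentiable at `τ`, `Ω' v = ∑ m, fderiv (f m) τ v • X m`. Prove Leibniz for `Dr`, and `fderiv (φ ∘ Ω) τ v = φ (Ω' v)` for linear `φ`. Then `∑ i, ι (ev i) * ι (∂_i co β) = two (curv a) - two (curv b)`, and `∑ i, ι (ev i) * two (∂_i curv a) = 0` by symmetry of second derivatives (`ContDiffAt.isSymmSndFDerivAt`) and `ι x * ι y = - ι y * ι x`; `two _` is central (`two_comm`), so the sum over `i` of `ι (ev i) * ∂_i (two M ^ p * two N ^ q)` vanishes. Finish with `Commute.geom_sum₂_mul` or `Commute.mul_geom_sum₂`. -/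

namespace Vale.Agent.P184L

open Finset MeasureTheory ProbabilityTheory Classical Vale.Agent.P184
open scoped ContDiff

noncomputable section

universe u

variable {G : Type u} [Group G]

namespace PiolaX

variable {k : ℕ}

/-- The generators. -/
def e (i : Fin k) : Ext k := ExteriorAlgebra.ι ℝ (ev i)

/-- `Y` is the exterior derivative of `Ω` at `τ`, tested against linear functionals. -/
def DD (τ : E k) (Ω : E k → Ext k) (Y : Ext k) : Prop :=
  (∀ φ : Ext k →ₗ[ℝ] ℝ, DifferentiableAt ℝ (fun σ => φ (Ω σ)) τ) ∧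
    ∀ φ : Ext k →ₗ[ℝ] ℝ, ∑ i, fderiv ℝ (fun σ => φ (e i * Ω σ)) τ (ev i) = φ Y

variable {τ : E k}

theorem DD.left {Ω : E k → Ext k} {Y : Ext k} (h : DD τ Ω Y) (φ : Ext k →ₗ[ℝ] ℝ) (X : Ext k) :
    DifferentiableAt ℝ (fun σ => φ (X * Ω σ)) τ :=
  h.1 (φ.comp (LinearMap.mulLeft ℝ X))

theorem DD.congr {Ω Ω' : E k → Ext k} {Y Y' : Ext k} (h : DD τ Ω Y) (h1 : ∀ σ, Ω σ = Ω' σ)
    (h2 : Y = Y') : DD τ Ω' Y' := by
  rw [← funext h1, ← h2]
  exact h

theorem dd_const (X : Ext k) : DD τ (fun _ => X) 0 :=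
  ⟨fun _ => differentiableAt_const _, fun φ => by simp⟩

theorem DD.sum {ι : Type} (S : Finset ι) {Ω : ι → E k → Ext k} {Y : ι → Ext k}
    (h : ∀ m ∈ S, DD τ (Ω m) (Y m)) : DD τ (fun σ => ∑ m ∈ S, Ω m σ) (∑ m ∈ S, Y m) := by
  refine ⟨fun φ => ?_, fun φ => ?_⟩
  · simp only [map_sum]
    exact DifferentiableAt.fun_sum fun m hm => (h m hm).1 φ
  · simp only [mul_sum, map_sum]
    have e1 : ∀ i, fderiv ℝ (fun σ => ∑ m ∈ S, φ (e i * Ω m σ)) τ (ev i) =
        ∑ m ∈ S, fderiv ℝ (fun σ => φ (e i * Ω m σ)) τ (ev i) := fun i => by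
      rw [fderiv_fun_sum fun m hm => (h m hm).left φ (e i), ContinuousLinearMap.sum_apply]
    simp only [e1]
    rw [sum_comm]
    exact sum_congr rfl fun m hm => (h m hm).2 φ

theorem DD.mulR {Ω : E k → Ext k} {Y : Ext k} (h : DD τ Ω Y) (X : Ext k) :
    DD τ (fun σ => Ω σ * X) (Y * X) := by
  refine ⟨fun φ => h.1 (φ.comp (LinearMap.mulRight ℝ X)), fun φ => ?_⟩
  simp only [← mul_assoc]
  exact h.2 (φ.comp (LinearMap.mulRight ℝ X))

theorem DD.smul {Ω : E k → Ext k} {Y : Ext k} (h : DD τ Ω Y) {f : E k → ℝ}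
    (hf : DifferentiableAt ℝ f τ) :
    DD τ (fun σ => f σ • Ω σ) (f τ • Y + ∑ i, fderiv ℝ f τ (ev i) • (e i * Ω τ)) := by
  refine ⟨fun φ => ?_, fun φ => ?_⟩
  · simp only [map_smul, smul_eq_mul]
    exact hf.mul (h.1 φ)
  · simp only [mul_smul_comm, map_smul, smul_eq_mul, map_add, map_sum]
    have e1 : ∀ i, fderiv ℝ (fun σ => f σ * φ (e i * Ω σ)) τ (ev i) =
        f τ * fderiv ℝ (fun σ => φ (e i * Ω σ)) τ (ev i) +
          fderiv ℝ f τ (ev i) * φ (e i * Ω τ) := fun i => by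
      rw [fderiv_fun_mul hf (h.left φ (e i))]
      simp [mul_comm]
    simp only [e1]
    rw [sum_add_distrib, ← mul_sum, h.2 φ]

theorem two_eq (M : Matrix (Fin k) (Fin k) ℝ) : two M = ∑ i, ∑ j, M i j • (e i * e j) := rfl

theorem two_symm {M : Matrix (Fin k) (Fin k) ℝ} (h : ∀ i j, M i j = M j i) : two M = 0 := by
  rw [two_anti, two_eq]
  refine sum_eq_zero fun i _ => sum_eq_zero fun j _ => ?_
  simp [h i j]

theorem diff_co {a : Form k} (ha : ContDiff ℝ ∞ a) (j : Fin k) :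
    ContDiff ℝ ∞ fun σ => a σ (ev j) := ha.clm_apply contDiff_const

theorem curv_symm {a : Form k} (ha : ContDiff ℝ ∞ a) (i j l : Fin k) :
    fderiv ℝ (fun σ => curv a σ j l) τ (ev i) = fderiv ℝ (fun σ => curv a σ i l) τ (ev j) := by
  have hg := diff_co ha l
  have h1 : DifferentiableAt ℝ (fderiv ℝ fun σ => a σ (ev l)) τ :=
    ((contDiff_infty_iff_fderiv.1 hg).2.differentiable (by simp)).differentiableAt
  have h2 : IsSymmSndFDerivAt ℝ (fun σ => a σ (ev l)) τ :=
    hg.contDiffAt.isSymmSndFDerivAt (by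
      rw [minSmoothness_of_isRCLikeNormedField]
      exact WithTop.coe_le_coe.2 le_top)
  simp only [curv]
  rw [fderiv_clm_apply h1 (differentiableAt_const _), fderiv_clm_apply h1 (differentiableAt_const _)]
  simpa using h2 (ev i) (ev j)

theorem closed {a : Form k} (ha : ContDiff ℝ ∞ a) :
    ∑ i, e i * two (Matrix.of fun j l => fderiv ℝ (fun σ => curv a σ j l) τ (ev i)) = 0 := by
  have h : ∀ l : Fin k, two (Matrix.of fun i j => fderiv ℝ (fun σ => curv a σ j l) τ (ev i)) * e l = 0 :=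
    fun l => by rw [two_symm fun i j => by exact curv_symm ha i j l, zero_mul]
  rw [← sum_eq_zero (s := univ) fun l _ => h l]
  simp only [two_eq, Matrix.of_apply, mul_sum, sum_mul, mul_smul_comm, smul_mul_assoc, mul_assoc]
  conv_rhs => rw [sum_comm]
  exact sum_congr rfl fun i _ => sum_comm

theorem DD.mtwo {Ω : E k → Ext k} {Y : Ext k} (h : DD τ Ω Y) {a : Form k} (ha : ContDiff ℝ ∞ a) :
    DD τ (fun σ => Ω σ * two (curv a σ)) (Y * two (curv a τ)) := by
  have h1 := DD.sum univ fun j _ => DD.sum univ fun l _ => (h.mulR (e j * e l)).smul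
    ((contDiff_curv ha j l).differentiable (by simp)).differentiableAt
  refine h1.congr (fun σ => ?_) ?_
  · simp only [two_eq, mul_sum, mul_smul_comm]
  · simp only [sum_add_distrib]
    have h2 : ∑ j, ∑ l, ∑ i, fderiv ℝ (fun σ => curv a σ j l) τ (ev i) •
        (e i * (Ω τ * (e j * e l))) = 0 := by
      have h3 : ∑ i, e i * (Ω τ *
          two (Matrix.of fun j l => fderiv ℝ (fun σ => curv a σ j l) τ (ev i))) = 0 := by
        simp only [← (two_comm _ (Ω τ)).eq, ← mul_assoc]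
        rw [← sum_mul, closed ha, zero_mul]
      rw [← h3]
      simp only [two_eq, Matrix.of_apply, mul_sum, mul_smul_comm]
      conv_rhs => rw [sum_comm]
      exact sum_congr rfl fun j _ => sum_comm
    rw [h2, add_zero]
    simp only [two_eq, mul_sum, mul_smul_comm]

theorem DD.pow {Ω : E k → Ext k} {Y : Ext k} (h : DD τ Ω Y) {a : Form k} (ha : ContDiff ℝ ∞ a)
    (p : ℕ) : DD τ (fun σ => Ω σ * two (curv a σ) ^ p) (Y * two (curv a τ) ^ p) := by
  induction p with
  | zero => simpa using h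
  | succ p ih => exact (ih.mtwo ha).congr (fun σ => by rw [pow_succ, mul_assoc]) (by
      rw [pow_succ, mul_assoc])

theorem dd_one {a b : Form k} (ha : ContDiff ℝ ∞ a) (hb : ContDiff ℝ ∞ b) :
    DD τ (fun σ => ExteriorAlgebra.ι ℝ (co (a σ - b σ))) (two (curv a τ) - two (curv b τ)) := by
  have da := fun j => ((diff_co ha j).differentiable (by simp)).differentiableAt (x := τ)
  have db := fun j => ((diff_co hb j).differentiable (by simp)).differentiableAt (x := τ)
  have h1 := DD.sum univ fun j _ => (dd_const (τ := τ) (e j)).smul ((da j).fun_sub (db j))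
  refine h1.congr (fun σ => ?_) ?_
  · simp only [e, ← map_smul, ← map_sum]
    congr 1
    funext j
    simp [co, ev, Finset.sum_apply, Pi.single_apply]
  · simp only [smul_zero, zero_add, fderiv_fun_sub (da _) (db _), ContinuousLinearMap.sub_apply,
      sub_smul, sum_sub_distrib, two_eq, curv]
    congr 1 <;> exact sum_comm

end PiolaX

open PiolaX in
theorem piola {k : ℕ} (n : ℕ) {a b : Form k} (ha : ContDiff ℝ ∞ a) (hb : ContDiff ℝ ∞ b)
    (τ : E k) :
    ∑ i, fderiv ℝ (fun σ => vol k (ExteriorAlgebra.ι ℝ (ev i) * tf n a b σ)) τ (ev i) =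
      vol k (two (curv a τ) ^ (n + 1)) - vol k (two (curv b τ) ^ (n + 1)) := by
  have h1 := DD.sum (range (n + 1)) fun p _ => ((dd_one (τ := τ) ha hb).pow ha p).pow hb (n - p)
  have h2 : DD τ (tf n a b) (two (curv a τ) ^ (n + 1) - two (curv b τ) ^ (n + 1)) := by
    refine h1.congr (fun σ => ?_) ?_
    · simp only [tf, tp, mul_sum, mul_assoc]
    · rw [← (two_comm (curv a τ) (two (curv b τ))).mul_geom_sum₂ (n + 1)]
      simp only [mul_sum, mul_assoc, Nat.add_sub_cancel]
  rw [← map_sub]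
  exact h2.2 (vol k)

end

end Vale.Agent.P184L
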