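import Vale.Agent.P184L.Defs3

/-! Idempotents in complete normed rings. Hint for `exists_idem`: with `d = a * a - a`, `φ a = 3 a ^ 2 - 2 a ^ 3 = a + d - 2 a d` satisfies `φ a * φ a - φ a = 4 d ^ 3 - 3 d ^ 2`; iterate, the defects decay like `δ 2 ^ (-n)` and the iterates stay in the ball of radius `1` around `a`; Cauchy sequence. For `trace_close`: `D = (P - Q) ^ 2` commutes with `P`, `Q`, `(P - Q) ^ 3 - (P - Q) = Q P Q - P Q P`, so `τ (D ^ j * (P - Q))` does not depend on `j` and tends to `0`. -/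

namespace Vale.Agent.P184L

open Finset MeasureTheory ProbabilityTheory Classical Vale.Agent.P184
open scoped ContDiff

noncomputable section

universe u

variable {G : Type u} [Group G]

namespace RedAX

variable {A : Type*} [NormedRing A]

/-- One Newton step. -/
def st (a : A) : A := a + (a * a - a) - (a * (a * a - a) + a * (a * a - a))

theorem st_def (a : A) : st a * st a - st a =
    ((a * a - a) * ((a * a - a) * (a * a - a)) + (a * a - a) * ((a * a - a) * (a * a - a)) +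
      (a * a - a) * ((a * a - a) * (a * a - a)) + (a * a - a) * ((a * a - a) * (a * a - a))) -
    ((a * a - a) * (a * a - a) + (a * a - a) * (a * a - a) + (a * a - a) * (a * a - a)) := by
  unfold st
  noncomm_ring

theorem st_norm (a : A) (h : ‖a * a - a‖ ≤ 1 / 14) :
    ‖st a * st a - st a‖ ≤ ‖a * a - a‖ / 2 := by
  rw [st_def]
  generalize a * a - a = d at h ⊢
  have h0 := norm_nonneg d
  have h1 := norm_mul_le d d
  have h2 := norm_mul_le d (d * d)
  have h3 := norm_sub_le (d * (d * d) + d * (d * d) + d * (d * d) + d * (d * d))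
    (d * d + d * d + d * d)
  have h4 := norm_add_le (d * (d * d) + d * (d * d) + d * (d * d)) (d * (d * d))
  have h5 := norm_add₃_le (a := d * (d * d)) (b := d * (d * d)) (c := d * (d * d))
  have h6 := norm_add₃_le (a := d * d) (b := d * d) (c := d * d)
  have h7 : ‖d‖ * ‖d * d‖ ≤ 1 * ‖d * d‖ :=
    mul_le_mul_of_nonneg_right (by linarith) (norm_nonneg _)
  have h8 : ‖d‖ * ‖d‖ ≤ 1 / 14 * ‖d‖ := mul_le_mul_of_nonneg_right h h0
  linarith

theorem st_sub (a : A) : ‖st a - a‖ ≤ (1 + 2 * ‖a‖) * ‖a * a - a‖ := by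
  have e : st a - a = (a * a - a) - (a * (a * a - a) + a * (a * a - a)) := by
    unfold st
    abel
  rw [e]
  generalize a * a - a = d
  have h1 := norm_sub_le d (a * d + a * d)
  have h2 := norm_add_le (a * d) (a * d)
  have h3 := norm_mul_le a d
  linarith

theorem iter (a : A) {M δ : ℝ} (hM : ‖a‖ + 1 ≤ M) (hδ : δ ≤ 1 / 14)
    (hδ' : 2 * (1 + 2 * M) * δ ≤ 1) (h : ‖a * a - a‖ ≤ δ) (n : ℕ) :
    ‖st^[n] a * st^[n] a - st^[n] a‖ ≤ δ * (1 / 2) ^ n ∧
      ‖st^[n] a - a‖ ≤ 2 * (1 + 2 * M) * δ * (1 - (1 / 2) ^ n) ∧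
      ‖st^[n + 1] a - st^[n] a‖ ≤ (1 + 2 * M) * δ * (1 / 2) ^ n := by
  have hδ0 : 0 ≤ δ := (norm_nonneg _).trans h
  have hM0 : 0 ≤ M := by linarith [norm_nonneg a]
  have key : ∀ n : ℕ, ‖st^[n] a * st^[n] a - st^[n] a‖ ≤ δ * (1 / 2) ^ n →
      ‖st^[n] a - a‖ ≤ 2 * (1 + 2 * M) * δ * (1 - (1 / 2) ^ n) →
      ‖st^[n + 1] a - st^[n] a‖ ≤ (1 + 2 * M) * δ * (1 / 2) ^ n := by
    intro n h1 h2
    rw [Function.iterate_succ_apply']
    have h3 : ‖st^[n] a‖ ≤ M := by
      have h4 := norm_add_le (st^[n] a - a) a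
      rw [sub_add_cancel] at h4
      have h5 : 0 ≤ 2 * (1 + 2 * M) * δ * (1 / 2) ^ n := by positivity
      linarith
    refine (st_sub _).trans ?_
    rw [mul_assoc]
    exact mul_le_mul (by linarith) h1 (norm_nonneg _) (by linarith)
  suffices H : ‖st^[n] a * st^[n] a - st^[n] a‖ ≤ δ * (1 / 2) ^ n ∧
      ‖st^[n] a - a‖ ≤ 2 * (1 + 2 * M) * δ * (1 - (1 / 2) ^ n) from ⟨H.1, H.2, key n H.1 H.2⟩
  induction n with
  | zero => simpa using h
  | succ n ih =>
    have h3 := key n ih.1 ih.2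
    have h4 : δ * (1 / 2) ^ n ≤ δ * 1 :=
      mul_le_mul_of_nonneg_left (pow_le_one₀ (by norm_num) (by norm_num)) hδ0
    constructor
    · rw [Function.iterate_succ_apply', pow_succ]
      have := st_norm (st^[n] a) (by linarith [ih.1])
      linarith [ih.1]
    · have h5 := norm_add_le (st^[n + 1] a - st^[n] a) (st^[n] a - a)
      rw [sub_add_sub_cancel] at h5
      rw [pow_succ]
      linarith [ih.2]

end RedAX

open RedAX Filter Topology in
theorem exists_idem (K ε : ℝ) (hε : 0 < ε) : ∃ δ : ℝ, 0 < δ ∧ ∀ (A : Type u) [NormedRing A]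
    [CompleteSpace A] (a : A), ‖a‖ ≤ K → ‖a * a - a‖ ≤ δ → ∃ p : A, p * p = p ∧ ‖p - a‖ ≤ ε := by
  have hL : 0 < 2 * (1 + 2 * (|K| + 1)) := by positivity
  have hm : 0 < min ε 1 := lt_min hε one_pos
  refine ⟨min (1 / 14) (min ε 1 / (2 * (1 + 2 * (|K| + 1)))), lt_min (by norm_num) (by positivity),
    fun A _ _ a ha h => ?_⟩
  generalize hδ : min (1 / 14) (min ε 1 / (2 * (1 + 2 * (|K| + 1)))) = δ at h
  have h1 : δ ≤ 1 / 14 := hδ ▸ min_le_left _ _
  have h2 : 2 * (1 + 2 * (|K| + 1)) * δ ≤ min ε 1 := by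
    rw [← le_div_iff₀' hL, ← hδ]
    exact min_le_right _ _
  have hδ0 : 0 ≤ δ := (norm_nonneg _).trans h
  have H := iter a (M := |K| + 1) (by linarith [le_abs_self K]) h1
    (h2.trans (min_le_right _ _)) h
  have hc : CauchySeq fun n => st^[n] a :=
    cauchySeq_of_le_geometric (1 / 2) ((1 + 2 * (|K| + 1)) * δ) (by norm_num) fun n => by
      rw [dist_comm, dist_eq_norm]
      exact (H n).2.2
  obtain ⟨p, hp⟩ := cauchySeq_tendsto_of_complete hc
  refine ⟨p, ?_, ?_⟩
  · have t1 := ((hp.mul hp).sub hp).norm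
    have t2 : Tendsto (fun n : ℕ => δ * (1 / 2) ^ n) atTop (𝓝 (δ * 0)) :=
      (tendsto_pow_atTop_nhds_zero_of_lt_one (by norm_num) (by norm_num)).const_mul δ
    have t3 := le_of_tendsto_of_tendsto' t1 t2 fun n => (H n).1
    rw [mul_zero, norm_le_zero_iff, sub_eq_zero] at t3
    exact t3
  · refine le_of_tendsto' (hp.sub_const a).norm fun n => (H n).2.1.trans ?_
    have h5 : 0 ≤ 2 * (1 + 2 * (|K| + 1)) * δ * (1 / 2) ^ n := by positivity
    have h6 := h2.trans (min_le_left _ _)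
    linarith

open Filter Topology in
theorem trace_close {A : Type*} [NormedRing A] (τ : A →+ ℂ) (hτ : ∀ a, ‖τ a‖ ≤ ‖a‖)
    (hc : ∀ a b, τ (a * b) = τ (b * a)) {P Q : A} (hP : P * P = P) (hQ : Q * Q = Q)
    (h : ‖P - Q‖ < 1) : τ P = τ Q := by
  have hP' : ∀ x, P * (P * x) = P * x := fun x => by rw [← mul_assoc, hP]
  have hQ' : ∀ x, Q * (Q * x) = Q * x := fun x => by rw [← mul_assoc, hQ]
  have c1 : Commute P ((P - Q) * (P - Q)) := by
    simp only [Commute, SemiconjBy, mul_sub, sub_mul, mul_assoc, hP, hQ, hP']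
    abel
  have c2 : Commute Q ((P - Q) * (P - Q)) := by
    simp only [Commute, SemiconjBy, mul_sub, sub_mul, mul_assoc, hP, hQ, hQ']
    abel
  have e3 : (P - Q) * (P - Q) * (P - Q) = (P - Q) + (Q * P * Q - P * Q * P) := by
    simp only [mul_sub, sub_mul, mul_assoc, hP, hQ]
    abel
  have key : ∀ j : ℕ, τ (((P - Q) * (P - Q)) ^ j * (P - Q)) = τ (P - Q) := by
    intro j
    induction j with
    | zero => rw [pow_zero, one_mul]
    | succ j ih =>
      have d1 := (c1.pow_right j).eq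
      have d2 := (c2.pow_right j).eq
      rw [pow_succ, mul_assoc, e3, mul_add, map_add, ih, mul_sub (_ ^ j), map_sub τ (_ ^ j * _)]
      generalize ((P - Q) * (P - Q)) ^ j = D at d1 d2
      have t1 : τ (D * (Q * P * Q)) = τ (D * (Q * P)) := by
        rw [← mul_assoc, hc, ← mul_assoc, d2, mul_assoc, hQ']
      have t2 : τ (D * (P * Q * P)) = τ (D * (P * Q)) := by
        rw [← mul_assoc, hc, ← mul_assoc, d1, mul_assoc, hP']
      have t3 : τ (D * (Q * P)) = τ (D * (P * Q)) := by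
        rw [← mul_assoc, hc, ← mul_assoc, d1, mul_assoc]
      rw [t1, t2, t3, sub_self, add_zero]
  have hb : ∀ j : ℕ, ‖τ (P - Q)‖ ≤ ‖P - Q‖ ^ j := by
    intro j
    rw [← key j, ← sq, ← pow_mul, ← pow_succ]
    refine (hτ _).trans ((norm_pow_le' _ (Nat.succ_pos _)).trans ?_)
    exact pow_le_pow_of_le_one (norm_nonneg _) h.le (by omega)
  have t := ge_of_tendsto' (tendsto_pow_atTop_nhds_zero_of_lt_one (norm_nonneg _) h) hb
  rw [norm_le_zero_iff, map_sub, sub_eq_zero] at t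
  exact t

end

end Vale.Agent.P184L
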