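import Vale.Agent.P184L.PaR

/-! The weighted convolution algebra of matrix valued functions. Hint: take for `A` a type synonym of the additive subgroup of `f : H → Matrix` with `Summable fun h => nm (f h) * om h`, norm by `AddGroupNorm.toNormedAddCommGroup`; product `(a * b) g = ∑' h, a h * b (h⁻¹ * g)`, unit `Pi.single 1 1`. For sums of matrices work entrywise (`Pi.hasSum`, `Pi.summable`) or open scoped `Matrix.Norms.Elementwise` locally (same topology). Associativity: `Summable.tsum_comm` / reindex with `Equiv.mulLeft`. Completeness: `NormedAddCommGroup.completeSpace_of_summable_imp_tendsto`, or identify `A` with `lp (fun _ : H × Fin q × Fin q => ℂ) 1` through `f h i j * om h`. -/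

namespace Vale.Agent.P184L

open Finset MeasureTheory ProbabilityTheory Classical Vale.Agent.P184
open scoped ContDiff

noncomputable section

universe u

variable {G : Type u} [Group G]

namespace RedBX

section Nm

variable {q : ℕ}

theorem nm_nonneg (M : Matrix (Fin q) (Fin q) ℂ) : 0 ≤ nm M :=
  sum_nonneg fun _ _ => sum_nonneg fun _ _ => norm_nonneg _

theorem entry_le (M : Matrix (Fin q) (Fin q) ℂ) (i j : Fin q) : ‖M i j‖ ≤ nm M :=
  (single_le_sum (f := fun j => ‖M i j‖) (fun _ _ => norm_nonneg _) (mem_univ j)).trans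
    (single_le_sum (f := fun i => ∑ j, ‖M i j‖)
      (fun _ _ => sum_nonneg fun _ _ => norm_nonneg _) (mem_univ i))

theorem nm_zero : nm (0 : Matrix (Fin q) (Fin q) ℂ) = 0 := by simp [nm]

theorem nm_mul_le (M N : Matrix (Fin q) (Fin q) ℂ) : nm (M * N) ≤ nm M * nm N := by
  have h : ∀ i j, ‖(M * N) i j‖ ≤ ∑ k, ‖M i k‖ * ‖N k j‖ := fun i j => by
    rw [Matrix.mul_apply]
    exact (norm_sum_le _ _).trans (le_of_eq (sum_congr rfl fun k _ => norm_mul _ _))
  calc nm (M * N) ≤ ∑ i, ∑ j, ∑ k, ‖M i k‖ * ‖N k j‖ :=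
        sum_le_sum fun i _ => sum_le_sum fun j _ => h i j
    _ = ∑ i, ∑ k, ‖M i k‖ * ∑ j, ‖N k j‖ := by
        refine sum_congr rfl fun i _ => ?_
        rw [sum_comm]
        exact sum_congr rfl fun k _ => (mul_sum _ _ _).symm
    _ ≤ ∑ i, ∑ k, ‖M i k‖ * nm N := by
        refine sum_le_sum fun i _ => sum_le_sum fun k _ => ?_
        exact mul_le_mul_of_nonneg_left (single_le_sum (f := fun k => ∑ j, ‖N k j‖)
          (fun _ _ => sum_nonneg fun _ _ => norm_nonneg _) (mem_univ k)) (norm_nonneg _)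
    _ = nm M * nm N := by
        rw [nm, nm, sum_mul]
        exact sum_congr rfl fun i _ => (sum_mul _ _ _).symm

theorem summ_entry {ι : Type*} {f : ι → Matrix (Fin q) (Fin q) ℂ} {b : ι → ℝ} (hb : Summable b)
    (h : ∀ x, nm (f x) ≤ b x) (i j : Fin q) : Summable fun x => ‖f x i j‖ :=
  Summable.of_nonneg_of_le (fun _ => norm_nonneg _) (fun x => (entry_le _ i j).trans (h x)) hb

theorem summ_of {ι : Type*} {f : ι → Matrix (Fin q) (Fin q) ℂ} {b : ι → ℝ} (hb : Summable b)
    (h : ∀ x, nm (f x) ≤ b x) : Summable f :=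
  Pi.summable.2 fun i => Pi.summable.2 fun j => (summ_entry hb h i j).of_norm

theorem nm_tsum_le {ι : Type*} {f : ι → Matrix (Fin q) (Fin q) ℂ} {b : ι → ℝ} (hb : Summable b)
    (h : ∀ x, nm (f x) ≤ b x) : nm (∑' x, f x) ≤ ∑' x, b x := by
  have h1 : ∀ i j, HasSum (fun x => f x i j) ((∑' x, f x) i j) := fun i j =>
    Pi.hasSum.1 (Pi.hasSum.1 (summ_of hb h).hasSum i) j
  have h2 : HasSum (fun x => nm (f x)) (∑ i, ∑ j, ∑' x, ‖f x i j‖) :=
    hasSum_sum fun i _ => hasSum_sum fun j _ => (summ_entry hb h i j).hasSum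
  refine le_trans ?_ (hasSum_le h h2 hb.hasSum)
  refine sum_le_sum fun i _ => sum_le_sum fun j _ => ?_
  rw [← (h1 i j).tsum_eq]
  exact norm_tsum_le_tsum_norm (summ_entry hb h i j)

end Nm

section Conv

variable {H : Type u} [Group H] {q : ℕ} {om : H → ℝ}

/-- convolution -/
def cv (f f' : H → Matrix (Fin q) (Fin q) ℂ) (g : H) : Matrix (Fin q) (Fin q) ℂ :=
  ∑' h, f h * f' (h⁻¹ * g)

/-- shear -/
def sh (H : Type u) [Group H] : H × H ≃ H × H where
  toFun p := (p.2, p.2⁻¹ * p.1)
  invFun p := (p.1 * p.2, p.1)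
  left_inv p := by simp
  right_inv p := by simp

theorem hasSum_pair {a b : H → ℝ} {x y : ℝ} (ha : HasSum a x) (hb : HasSum b y)
    (ha0 : ∀ h, 0 ≤ a h) (hb0 : ∀ h, 0 ≤ b h) :
    HasSum (fun p : H × H => a p.2 * b (p.2⁻¹ * p.1)) (x * y) :=
  (sh H).hasSum_iff.2 (ha.mul hb (ha.summable.mul_of_nonneg hb.summable ha0 hb0))

theorem w_nonneg (h1 : ∀ h, 1 ≤ om h) (f : H → Matrix (Fin q) (Fin q) ℂ) (h : H) :
    0 ≤ nm (f h) * om h := mul_nonneg (nm_nonneg _) (zero_le_one.trans (h1 h))

theorem unw (h1 : ∀ h, 1 ≤ om h) {f : H → Matrix (Fin q) (Fin q) ℂ}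
    (hf : Summable fun h => nm (f h) * om h) : Summable fun h => nm (f h) :=
  Summable.of_nonneg_of_le (fun _ => nm_nonneg _)
    (fun h => le_mul_of_one_le_right (nm_nonneg _) (h1 h)) hf

theorem pair_summ {f f' : H → Matrix (Fin q) (Fin q) ℂ} (hf : Summable fun h => nm (f h))
    (hf' : Summable fun h => nm (f' h)) :
    Summable fun p : H × H => nm (f p.2) * nm (f' (p.2⁻¹ * p.1)) :=
  (hasSum_pair hf.hasSum hf'.hasSum (fun _ => nm_nonneg _) fun _ => nm_nonneg _).summable

theorem cv_summ {f f' : H → Matrix (Fin q) (Fin q) ℂ} (hf : Summable fun h => nm (f h))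
    (hf' : Summable fun h => nm (f' h)) (g : H) : Summable fun h => f h * f' (h⁻¹ * g) :=
  summ_of ((pair_summ hf hf').prod_factor g) fun _ => nm_mul_le _ _

theorem cv_bound (h1 : ∀ h, 1 ≤ om h) (hm : ∀ a b, om (a * b) ≤ om a * om b)
    {f f' : H → Matrix (Fin q) (Fin q) ℂ} {x y : ℝ} (hf : HasSum (fun h => nm (f h) * om h) x)
    (hf' : HasSum (fun h => nm (f' h) * om h) y) :
    (Summable fun g => nm (cv f f' g) * om g) ∧ ∑' g, nm (cv f f' g) * om g ≤ x * y := by
  have hp := hasSum_pair hf hf' (w_nonneg h1 f) (w_nonneg h1 f')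
  have hq := hp.prod_fiberwise fun g => (hp.summable.prod_factor g).hasSum
  have hle : ∀ g, nm (cv f f' g) * om g ≤
      ∑' h, nm (f h) * om h * (nm (f' (h⁻¹ * g)) * om (h⁻¹ * g)) := by
    intro g
    have h0 : 0 < om g := zero_lt_one.trans_le (h1 g)
    have hs := hp.summable.prod_factor g
    rw [← le_div_iff₀ h0, ← tsum_div_const]
    refine nm_tsum_le (hs.div_const _) fun h => ?_
    rw [le_div_iff₀ h0]
    have e := hm h (h⁻¹ * g)
    rw [mul_inv_cancel_left] at e
    calc _ ≤ nm (f h) * nm (f' (h⁻¹ * g)) * (om h * om (h⁻¹ * g)) :=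
          mul_le_mul (nm_mul_le _ _) e h0.le (mul_nonneg (nm_nonneg _) (nm_nonneg _))
      _ = _ := by ring
  have hs := Summable.of_nonneg_of_le (w_nonneg h1 (cv f f')) hle hq.summable
  exact ⟨hs, hasSum_le hle hs.hasSum hq⟩

theorem cv_assoc {f f' f'' : H → Matrix (Fin q) (Fin q) ℂ} (hf : Summable fun h => nm (f h))
    (hf' : Summable fun h => nm (f' h)) (hf'' : Summable fun h => nm (f'' h)) :
    cv (cv f f') f'' = cv f (cv f' f'') := by
  funext g
  have hb : ∀ x, nm (f'' x) ≤ ∑' h, nm (f'' h) := fun x =>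
    hf''.le_tsum x fun _ _ => nm_nonneg _
  have hp := (pair_summ hf hf').mul_right (∑' h, nm (f'' h))
  have hle : ∀ p : H × H, nm (f p.2 * f' (p.2⁻¹ * p.1) * f'' (p.1⁻¹ * g)) ≤
      nm (f p.2) * nm (f' (p.2⁻¹ * p.1)) * ∑' h, nm (f'' h) := fun p =>
    (nm_mul_le _ _).trans (mul_le_mul (nm_mul_le _ _) (hb _) (nm_nonneg _)
      (mul_nonneg (nm_nonneg _) (nm_nonneg _)))
  have hs : Summable (Function.uncurry fun k h => f h * f' (h⁻¹ * k) * f'' (k⁻¹ * g)) :=
    summ_of hp hle
  calc cv (cv f f') f'' g = ∑' k, ∑' h, f h * f' (h⁻¹ * k) * f'' (k⁻¹ * g) :=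
        tsum_congr fun k => ((cv_summ hf hf' k).tsum_mul_right _).symm
    _ = ∑' h, ∑' k, f h * f' (h⁻¹ * k) * f'' (k⁻¹ * g) := hs.tsum_comm.symm
    _ = cv f (cv f' f'') g := by
        refine tsum_congr fun h => ?_
        rw [cv, ← (cv_summ hf' hf'' _).tsum_mul_left, ← (Equiv.mulLeft h).tsum_eq]
        refine tsum_congr fun k => ?_
        simp only [Equiv.coe_mulLeft, inv_mul_cancel_left, mul_inv_rev, mul_assoc]

theorem cv_add_left {f f' f'' : H → Matrix (Fin q) (Fin q) ℂ} (hf : Summable fun h => nm (f h))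
    (hf' : Summable fun h => nm (f' h)) (hf'' : Summable fun h => nm (f'' h)) :
    cv (f + f') f'' = cv f f'' + cv f' f'' := by
  funext g
  simp only [cv, Pi.add_apply, add_mul]
  exact (cv_summ hf hf'' g).tsum_add (cv_summ hf' hf'' g)

theorem cv_add_right {f f' f'' : H → Matrix (Fin q) (Fin q) ℂ} (hf : Summable fun h => nm (f h))
    (hf' : Summable fun h => nm (f' h)) (hf'' : Summable fun h => nm (f'' h)) :
    cv f (f' + f'') = cv f f' + cv f f'' := by
  funext g
  simp only [cv, Pi.add_apply, mul_add]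
  exact (cv_summ hf hf' g).tsum_add (cv_summ hf hf'' g)

theorem cv_one_left (f : H → Matrix (Fin q) (Fin q) ℂ) : cv (Pi.single 1 1) f = f := by
  funext g
  rw [cv, tsum_eq_single 1]
  · simp
  · intro h hh
    simp [Pi.single_eq_of_ne hh]

theorem cv_one_right (f : H → Matrix (Fin q) (Fin q) ℂ) : cv f (Pi.single 1 1) = f := by
  funext g
  rw [cv, tsum_eq_single g]
  · simp
  · intro h hh
    have : h⁻¹ * g ≠ 1 := fun e => hh (inv_mul_eq_one.1 e)
    simp [Pi.single_eq_of_ne this]

theorem one_summ : Summable fun h => nm ((Pi.single 1 1 : H → Matrix (Fin q) (Fin q) ℂ) h) * om h :=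
  summable_of_ne_finset_zero (s := {1}) fun h hh => by
    rw [Pi.single_eq_of_ne (by simpa using hh), nm_zero, zero_mul]

end Conv

/-- the normed ring attached to a multiplication -/
@[reducible] def ringOf (A : Type u) [NormedAddCommGroup A] (m : A → A → A) (e : A)
    (ha : ∀ a b c, m (m a b) c = m a (m b c)) (hl : ∀ a b c, m a (b + c) = m a b + m a c)
    (hr : ∀ a b c, m (a + b) c = m a c + m b c) (h1 : ∀ a, m e a = a) (h2 : ∀ a, m a e = a)
    (hn : ∀ a b, ‖m a b‖ ≤ ‖a‖ * ‖b‖) : NormedRing A :=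
  { (inferInstance : NormedAddCommGroup A) with
    mul := m
    one := e
    mul_assoc := ha
    left_distrib := hl
    right_distrib := hr
    one_mul := h1
    mul_one := h2
    zero_mul := fun a => by
      have := hr 0 0 a
      rw [add_zero] at this
      exact left_eq_add.1 this
    mul_zero := fun a => by
      have := hl a 0 0
      rw [add_zero] at this
      exact left_eq_add.1 this
    norm_mul_le := hn }

theorem exists_space (H : Type u) (q : ℕ) (om : H → ℝ) (h1 : ∀ h, 1 ≤ om h) :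
    ∃ (A : Type u) (_ : NormedAddCommGroup A) (_ : CompleteSpace A)
      (c : A →+ H → Matrix (Fin q) (Fin q) ℂ), Function.Injective c ∧
      (∀ a, HasSum (fun h => nm (c a h) * om h) ‖a‖) ∧
      ∀ f : H → Matrix (Fin q) (Fin q) ℂ, (Summable fun h => nm (f h) * om h) →
        ∃ a, c a = f := by
  have h0 : ∀ h, 0 < om h := fun h => zero_lt_one.trans_le (h1 h)
  have h0' : ∀ h, (om h : ℂ) ≠ 0 := fun h => by exact_mod_cast (h0 h).ne'
  refine ⟨lp (fun _ : H × Fin q × Fin q => ℂ) 1, inferInstance, inferInstance,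
    { toFun := fun a h => Matrix.of fun i j => a (h, i, j) / om h
      map_zero' := ?_
      map_add' := ?_ }, ?_, ?_, ?_⟩
  · funext h
    ext i j
    simp
  · intro a b
    funext h
    ext i j
    simp [add_div]
  · intro a b hab
    ext ⟨h, i, j⟩
    have := congrFun (congrFun (congrFun hab h) i) j
    simpa [h0' h] using this
  · intro a
    have h2 := lp.hasSum_norm (by simp) a
    simp only [ENNReal.toReal_one, Real.rpow_one] at h2
    refine h2.prod_fiberwise fun h => ?_
    convert hasSum_fintype fun p : Fin q × Fin q => ‖a (h, p)‖ using 1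
    simp only [nm, AddMonoidHom.coe_mk, ZeroHom.coe_mk, Matrix.of_apply, Fintype.sum_prod_type,
      sum_mul, norm_div, Complex.norm_real, Real.norm_eq_abs, abs_of_pos (h0 h)]
    exact sum_congr rfl fun i _ => sum_congr rfl fun j _ => div_mul_cancel₀ _ (h0 h).ne'
  · intro f hf
    refine ⟨⟨fun p => f p.1 p.2.1 p.2.2 * om p.1, memℓp_gen ?_⟩, ?_⟩
    · simp only [ENNReal.toReal_one, Real.rpow_one]
      refine (summable_prod_of_nonneg fun _ => norm_nonneg _).2 ⟨fun _ => Summable.of_finite, ?_⟩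
      convert hf using 2 with h
      simp only [tsum_fintype, nm, Fintype.sum_prod_type, sum_mul, norm_mul, Complex.norm_real,
        Real.norm_eq_abs, abs_of_pos (h0 h)]
    · funext h
      ext i j
      simp [h0' h]

end RedBX

theorem exists_alg (H : Type u) [Group H] (q : ℕ) (om : H → ℝ) (h1 : ∀ h, 1 ≤ om h)
    (hm : ∀ a b, om (a * b) ≤ om a * om b) :
    ∃ (A : Type u) (_ : NormedRing A) (_ : CompleteSpace A)
      (c : A →+ H → Matrix (Fin q) (Fin q) ℂ),
      (∀ a, HasSum (fun h => nm (c a h) * om h) ‖a‖) ∧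
      (∀ a b g, HasSum (fun h => c a h * c b (h⁻¹ * g)) (c (a * b) g)) ∧
      ∀ f : H → Matrix (Fin q) (Fin q) ℂ, (Summable fun h => nm (f h) * om h) →
        ∃ a, c a = f := by
  obtain ⟨A, _, _, c, hi, hn, hs⟩ := RedBX.exists_space H q om h1
  have hu : ∀ a, Summable fun h => nm (c a h) := fun a => RedBX.unw h1 (hn a).summable
  choose m hmm using fun a b => hs _ (RedBX.cv_bound h1 hm (hn a) (hn b)).1
  obtain ⟨e, he⟩ := hs _ RedBX.one_summ
  refine ⟨A, RedBX.ringOf A m e (fun a b d => hi ?_) (fun a b d => hi ?_) (fun a b d => hi ?_)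
    (fun a => hi ?_) (fun a => hi ?_) (fun a b => ?_), ‹CompleteSpace A›, c, hn, fun a b g => ?_, hs⟩
  · simp only [hmm]
    exact RedBX.cv_assoc (hu a) (hu b) (hu d)
  · simp only [hmm, map_add]
    exact RedBX.cv_add_right (hu a) (hu b) (hu d)
  · simp only [hmm, map_add]
    exact RedBX.cv_add_left (hu a) (hu b) (hu d)
  · rw [hmm, he, RedBX.cv_one_left]
  · rw [hmm, he, RedBX.cv_one_right]
  · rw [← (hn (m a b)).tsum_eq, hmm]
    exact (RedBX.cv_bound h1 hm (hn a) (hn b)).2
  · change HasSum _ (c (m a b) g)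
    rw [hmm]
    exact (RedBX.cv_summ (hu a) (hu b) g).hasSum

end

end Vale.Agent.P184L
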