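import Vale.Agent.P184L.PaR

/-! Partial traces over conjugacy classes are traces. Hint: both sides equal the sum over pairs `(h, k)` with `IsConj (h * k) g` of `trace (a h * b k)`; write sums over the subtype with `tsum_subtype`/indicator, summability on `G × G` by `summable_mul_of_summable_norm`, reindex by `(u, h) ↦ (h, h⁻¹ u)` and `Prod.swap`; `Matrix.trace_mul_comm`. -/

namespace Vale.Agent.P184L

open Finset MeasureTheory ProbabilityTheory Classical Vale.Agent.P184
open scoped ContDiff

noncomputable section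

universe u

variable {G : Type u} [Group G]

theorem summable_trace {q : ℕ} {a : G → Matrix (Fin q) (Fin q) ℂ} (ha : Summable fun h => nm (a h))
    (p : G → Prop) : (Summable fun u : {u // p u} => (a u).trace) ∧
      ‖∑' u : {u // p u}, (a u).trace‖ ≤ ∑' h, nm (a h) := by
  have h1 : Summable fun u : {u // p u} => nm (a u) := ha.subtype _
  have h2 : Summable fun u : {u // p u} => ‖(a u).trace‖ :=
    Summable.of_nonneg_of_le (fun _ => norm_nonneg _) (fun u => norm_trace_le _) h1
  refine ⟨h2.of_norm, (norm_tsum_le_tsum_norm h2).trans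
    ((h2.tsum_le_tsum (fun u => norm_trace_le _) h1).trans ?_)⟩
  exact ha.tsum_subtype_le _ {u | p u} fun h => nm_nonneg _

namespace RedTX

theorem key {q : ℕ} {a b c : G → Matrix (Fin q) (Fin q) ℂ}
    (ha : Summable fun h => nm (a h)) (hb : Summable fun h => nm (b h))
    (hc : ∀ g, HasSum (fun h => a h * b (h⁻¹ * g)) (c g)) (g : G) :
    ∑' u : {u // IsConj u g}, (c u).trace =
      ∑' x : G × G, if IsConj (x.1 * x.2) g then (a x.1 * b x.2).trace else 0 := by
  have h1 : Summable fun x : G × G =>
      if IsConj (x.1 * x.2) g then (a x.1 * b x.2).trace else 0 := by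
    refine Summable.of_norm_bounded
      (ha.mul_of_nonneg hb (fun _ => nm_nonneg _) fun _ => nm_nonneg _) fun x => ?_
    split_ifs
    · exact (norm_trace_le _).trans (nm_mul_le _ _)
    · rw [norm_zero]
      exact mul_nonneg (nm_nonneg _) (nm_nonneg _)
  let e : G × G ≃ G × G :=
    { toFun := fun y => (y.2, y.2⁻¹ * y.1)
      invFun := fun x => (x.1 * x.2, x.1)
      left_inv := fun y => by simp
      right_inv := fun x => by simp }
  refine (tsum_subtype {u | IsConj u g} fun u => (c u).trace).trans (Eq.trans ?_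
    ((e.summable_iff.2 h1).tsum_prod.symm.trans (e.tsum_eq fun x : G × G =>
      if IsConj (x.1 * x.2) g then (a x.1 * b x.2).trace else 0)))
  refine tsum_congr fun u => ?_
  simp only [e, Function.comp, Equiv.coe_fn_mk, mul_inv_cancel_left, Set.indicator_apply,
    Set.mem_ofPred_eq]
  split_ifs
  · exact ((hc u).map (Matrix.traceAddMonoidHom (Fin q) ℂ)
      continuous_id.matrix_trace).tsum_eq.symm
  · exact tsum_zero.symm

end RedTX

theorem trace_conv_comm {q : ℕ} {a b c d : G → Matrix (Fin q) (Fin q) ℂ}
    (ha : Summable fun h => nm (a h)) (hb : Summable fun h => nm (b h))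
    (hc : ∀ g, HasSum (fun h => a h * b (h⁻¹ * g)) (c g))
    (hd : ∀ g, HasSum (fun h => b h * a (h⁻¹ * g)) (d g)) (g : G) :
    ∑' u : {u // IsConj u g}, (c u).trace = ∑' u : {u // IsConj u g}, (d u).trace := by
  rw [RedTX.key ha hb hc, RedTX.key hb ha hd, ← (Equiv.prodComm G G).tsum_eq]
  refine tsum_congr fun x => ?_
  have h1 : IsConj (x.2 * x.1) (x.1 * x.2) := isConj_iff.2 ⟨x.1, by group⟩
  have h2 : IsConj (x.2 * x.1) g ↔ IsConj (x.1 * x.2) g :=
    ⟨fun h => h1.symm.trans h, fun h => h1.trans h⟩
  simp only [Equiv.prodComm_apply, Prod.fst_swap, Prod.snd_swap, h2]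
  rw [Matrix.trace_mul_comm]

end

end Vale.Agent.P184L
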