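import Vale.Agent.P184L.RedA
import Vale.Agent.P184L.RedB
import Vale.Agent.P184L.RedT

/-! Reduction to idempotents with exponential decay. Hint: in the algebra `A₁` of `exists_alg G q 1` cut `e` to a finite set, giving `a` with `‖a - e‖ ≤ 1 / 4` and `‖a * a - a‖ < δ` (`δ` from `exists_idem (‖e‖ + 2) (1 / 4)`); `S` = support, inverses and `1`; `H = Subgroup.closure S`, `len h = sInf {n | h ∈ cay.ball n 1}` is subadditive on `H`; `om = exp (κ len)` with `κ` so small that the two finite sums `‖a‖`, `‖a * a - a‖` stay below `‖e‖ + 2` and `δ`; get `p` in the algebra of `H`, extend by zero to `G` (`Function.extend`/`dite`, `hasSum_subtype_iff_of_support_subset`); then `trace_close` in `A₁` for `τ a = ∑' u : C, trace (c a u)` (`summable_trace`, `trace_conv_comm`). -/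

namespace Vale.Agent.P184L

open Finset MeasureTheory ProbabilityTheory Classical Vale.Agent.P184
open scoped ContDiff

noncomputable section

universe u

variable {G : Type u} [Group G]

namespace RedCX

variable {q : ℕ}

theorem nm_zero : nm (0 : Matrix (Fin q) (Fin q) ℂ) = 0 := by simp [nm]

theorem nm_neg (M : Matrix (Fin q) (Fin q) ℂ) : nm (-M) = nm M := by simp [nm]

/-- The subgroup generated by `A.S`. -/
def sub (A : Gen G) : Subgroup G where
  carrier := {h | ∃ n, h ∈ A.cay.ball n 1}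
  one_mem' := ⟨0, Gr.mem_ball_self _ _⟩
  mul_mem' := fun {a b} ⟨n, hn⟩ ⟨m, hm⟩ =>
    ⟨n + m, Gr.ball_trans hn (by simpa using (cay_left A a).2 hm)⟩
  inv_mem' := fun {a} ⟨n, hn⟩ => ⟨n, by simpa using (cay_left A a⁻¹).2 (Gr.ball_symm hn)⟩

/-- Word length. -/
def len (A : Gen G) (h : G) : ℕ := sInf {n | h ∈ A.cay.ball n 1}

theorem len_mem {A : Gen G} {h : G} (hh : h ∈ sub A) : h ∈ A.cay.ball (len A h) 1 :=
  Nat.sInf_mem (s := {n | h ∈ A.cay.ball n 1}) hh

theorem len_mul {A : Gen G} {a b : G} (ha : a ∈ sub A) (hb : b ∈ sub A) :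
    len A (a * b) ≤ len A a + len A b :=
  Nat.sInf_le (s := {n | a * b ∈ A.cay.ball n 1})
    (Gr.ball_trans (len_mem ha) (by simpa using (cay_left A a).2 (len_mem hb)))

theorem exists_gen (F : Finset G) : ∃ A : Gen G, ∀ h ∈ F, h ∈ sub A := by
  refine ⟨⟨insert 1 (F ∪ F.image (·⁻¹)), mem_insert_self _ _, fun a ha => ?_⟩, fun h hh =>
    ⟨1, Gr.mem_ball_one (mem_image.2 ⟨h, by simp [hh], one_mul h⟩)⟩⟩
  simp only [mem_insert, mem_union, mem_image] at ha ⊢
  rcases ha with rfl | ha | ⟨b, hb, rfl⟩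
  · exact Or.inl inv_one
  · exact Or.inr (Or.inr ⟨a, ha, rfl⟩)
  · exact Or.inr (Or.inl (by rwa [inv_inv]))

theorem hasSum_sub {M : Type*} [AddCommMonoid M] [TopologicalSpace M] {H : Subgroup G} {f : G → M}
    (hf : ∀ h, h ∉ H → f h = 0) {a : M} : HasSum (fun h : H => f h) a ↔ HasSum f a :=
  Subtype.val_injective.hasSum_iff fun h hh => hf h fun h1 => hh ⟨⟨h, h1⟩, rfl⟩

theorem conv_ext {H : Subgroup G} {f : G → Matrix (Fin q) (Fin q) ℂ} (hf : ∀ h, h ∉ H → f h = 0)
    (h : ∀ g : H, HasSum (fun h : H => f h * f ((h⁻¹ * g : H) : G)) (f g)) (g : G) :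
    HasSum (fun h => f h * f (h⁻¹ * g)) (f g) := by
  by_cases hg : g ∈ H
  · exact (hasSum_sub (f := fun h => f h * f (h⁻¹ * g)) fun h hh => by
      rw [hf h hh, zero_mul]).1 (h ⟨g, hg⟩)
  · have e : (fun h => f h * f (h⁻¹ * g)) = fun _ => 0 := funext fun h => by
      by_cases hh : h ∈ H
      · rw [hf (h⁻¹ * g) fun h1 => hg (by simpa using H.mul_mem hh h1), mul_zero]
      · rw [hf h hh, zero_mul]
    rw [e, hf g hg]
    exact hasSum_zero

theorem exists_kap (T : Finset G) (u v : G → ℝ) (l : G → ℕ) {x y : ℝ} (hx : ∑ g ∈ T, u g < x)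
    (hy : ∑ g ∈ T, v g < y) : ∃ κ : ℝ, 0 < κ ∧ ∑ g ∈ T, u g * Real.exp (κ * l g) ≤ x ∧
      ∑ g ∈ T, v g * Real.exp (κ * l g) ≤ y := by
  have key : ∀ (u : G → ℝ) (x : ℝ), ∑ g ∈ T, u g < x →
      ∀ᶠ κ in nhdsWithin (0 : ℝ) (Set.Ioi 0), ∑ g ∈ T, u g * Real.exp (κ * l g) < x :=
    fun u x hx => by
    have hc : Continuous fun κ : ℝ => ∑ g ∈ T, u g * Real.exp (κ * l g) := by fun_prop
    exact (hc.continuousAt.eventually_lt continuousAt_const (by simpa using hx)).filter_mono
      nhdsWithin_le_nhds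
  obtain ⟨κ, h1, h2, h3⟩ := ((key u x hx).and ((key v y hy).and self_mem_nhdsWithin)).exists
  exact ⟨κ, h3, h1.le, h2.le⟩

/-- An almost idempotent with finite support is close to an idempotent with exponential decay. -/
theorem exists_wi {K δ : ℝ} (hδ : ∀ (A : Type u) [NormedRing A] [CompleteSpace A] (a : A),
    ‖a‖ ≤ K → ‖a * a - a‖ ≤ δ → ∃ p : A, p * p = p ∧ ‖p - a‖ ≤ 1 / 4) (T : Finset G)
    {a b : G → Matrix (Fin q) (Fin q) ℂ} (ha : ∀ g, g ∉ T → a g = 0) (hb : ∀ g, g ∉ T → b g = 0)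
    (hab : ∀ g, HasSum (fun h => a h * a (h⁻¹ * g)) (b g)) (h1 : ∑ g ∈ T, nm (a g) < K)
    (h2 : ∑ g ∈ T, nm (b g - a g) < δ) :
    ∃ W : WI G q, ∀ x, HasSum (fun g => nm (W.e g - a g)) x → x ≤ 1 / 4 := by
  obtain ⟨A, hA⟩ := exists_gen T
  obtain ⟨κ, hκ, h3, h4⟩ := exists_kap T _ _ (len A) h1 h2
  have h0 : ∀ h, 1 ≤ Real.exp (κ * len A h) := fun h => Real.one_le_exp (by positivity)
  obtain ⟨B, _, _, c, hn, hm, hs⟩ := exists_alg (sub A) q (fun h => Real.exp (κ * len A h))
    (fun h => h0 h) fun x y => by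
      rw [← Real.exp_add, ← mul_add]
      exact Real.exp_le_exp.2 (mul_le_mul_of_nonneg_left
        (by exact_mod_cast len_mul x.2 y.2) hκ.le)
  have fin : ∀ f : G → Matrix (Fin q) (Fin q) ℂ, (∀ g, g ∉ T → f g = 0) →
      HasSum (fun h : sub A => nm (f h) * Real.exp (κ * len A h))
        (∑ g ∈ T, nm (f g) * Real.exp (κ * len A g)) := fun f hf =>
    (hasSum_sub (f := fun g => nm (f g) * Real.exp (κ * len A g)) fun h hh => by
      rw [hf h fun h1 => hh (hA h h1), nm_zero, zero_mul]).2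
      (hasSum_sum_of_ne_finset_zero fun g hg => by rw [hf g hg, nm_zero, zero_mul])
  have ha' : ∀ g, g ∉ sub A → a g = 0 := fun g hg => ha g fun h1 => hg (hA g h1)
  obtain ⟨z, hz⟩ := hs (fun h => a h) (fin a ha).summable
  have hz2 : c (z * z - z) = fun h : sub A => b h - a h := by
    funext g
    have h5 := hm z z g
    rw [hz] at h5
    rw [map_sub, Pi.sub_apply, hz, h5.unique ((hasSum_sub (f := fun h => a h * a (h⁻¹ * g))
      fun h hh => by rw [ha' h hh, zero_mul]).2 (hab g))]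
  obtain ⟨p, hp, hpz⟩ := hδ B z
    (((hz ▸ hn z).unique (fin a ha)).trans_le h3)
    (((hz2 ▸ hn (z * z - z)).unique
      (fin (fun g => b g - a g) fun g hg => by rw [ha g hg, hb g hg, sub_zero])).trans_le h4)
  obtain ⟨f, hf, hf0⟩ : ∃ f : G → Matrix (Fin q) (Fin q) ℂ, (∀ h : sub A, f h = c p h) ∧
      ∀ g, g ∉ sub A → f g = 0 :=
    ⟨fun g => if h : g ∈ sub A then c p ⟨g, h⟩ else 0, fun h => dif_pos h.2, fun g hg => dif_neg hg⟩
  refine ⟨⟨A, κ, hκ, f, len A, fun h hh => len_mem (by_contra fun h1 => hh (hf0 h h1)),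
    ⟨_, (hasSum_sub (f := fun g => nm (f g) * Real.exp (κ * len A g)) fun h hh => by
      rw [hf0 h hh, nm_zero, zero_mul]).1 (by simpa only [hf] using hn p)⟩,
    conv_ext hf0 fun g => by simpa only [hf, hp] using hm p p g⟩, fun x hx => le_trans ?_ hpz⟩
  refine hasSum_le (fun h => ?_) ((hasSum_sub (H := sub A) fun h hh => by
    change nm (f h - a h) = 0
    rw [hf0 h hh, ha' h hh, sub_zero, nm_zero]).2 hx) (hn (p - z))
  change nm (f h - a h) ≤ _
  rw [map_sub, Pi.sub_apply, hz, hf]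
  exact le_mul_of_one_le_right (nm_nonneg _) (h0 h)

end RedCX

open RedCX in
theorem reduce {q : ℕ} (e : G → Matrix (Fin q) (Fin q) ℂ) (hs : Summable fun h => nm (e h))
    (he : ∀ g, HasSum (fun h => e h * e (h⁻¹ * g)) (e g)) :
    ∃ W : WI G q, ∀ g : G, ∑' u : {u // IsConj u g}, (e u).trace =
      ∑' u : {u // IsConj u g}, (W.e u).trace := by
  obtain ⟨B, _, _, c, hn, hm, hf⟩ := exists_alg G q (fun _ => 1) (fun _ => le_rfl)
    fun _ _ => (one_mul 1).ge
  simp only [mul_one] at hn hf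
  have inj : ∀ x y, c x = c y → x = y := fun x y h => by
    have h1 := hn (x - y)
    simp only [map_sub, h, sub_self, Pi.zero_apply, nm_zero] at h1
    exact sub_eq_zero.1 (norm_eq_zero.1 (h1.unique hasSum_zero))
  have idem : ∀ x, (∀ g, HasSum (fun h => c x h * c x (h⁻¹ * g)) (c x g)) → x * x = x :=
    fun x h => inj _ _ (funext fun g => (hm x x g).unique (h g))
  obtain ⟨E, rfl⟩ := hf e hs
  obtain ⟨δ, hδ, hid⟩ := exists_idem.{u} (‖E‖ + 2) (1 / 4) (by norm_num)
  have h1 : ∀ᶠ x in nhds E, ‖x * x - x‖ < δ :=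
    (by fun_prop : Continuous fun x : B => ‖x * x - x‖).continuousAt.eventually_lt
      continuousAt_const (by rwa [idem E he, sub_self, norm_zero])
  obtain ⟨η, hη, h2⟩ := Metric.eventually_nhds_iff.1 h1
  obtain ⟨F, hF⟩ := ((hn E).eventually (lt_mem_nhds
    (sub_lt_self ‖E‖ (lt_min hη (by norm_num : (0 : ℝ) < 1 / 4))))).exists
  have h3 : HasSum (fun h => nm (if h ∈ F then c E h else 0)) (∑ h ∈ F, nm (c E h)) := by
    rw [← sum_congr rfl fun h hh => congrArg nm (if_pos (c := h ∈ F) (e := 0) hh)]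
    exact hasSum_sum_of_ne_finset_zero fun h hh => by rw [if_neg hh, nm_zero]
  obtain ⟨a, ha⟩ := hf _ h3.summable
  have h4 : ‖a - E‖ < min η (1 / 4) := by
    have h5 : (fun h => nm (c (a - E) h)) =
        fun h => nm (c E h) - nm (if h ∈ F then c E h else 0) := funext fun h => by
      rw [map_sub, Pi.sub_apply, ha]
      by_cases hh : h ∈ F <;> simp [hh, nm_zero, nm_neg]
    have h6 := hn (a - E)
    rw [h5] at h6
    rw [h6.unique ((hn E).sub h3)]
    linarith
  have haF : ∀ g, g ∉ F → c a g = 0 := fun g hg => by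
    rw [ha]
    exact if_neg hg
  have ha0 : ∀ g, g ∉ F ∪ image₂ (· * ·) F F → c a g = 0 := fun g hg =>
    haF g fun h => hg (mem_union_left _ h)
  have hb0 : ∀ g, g ∉ F ∪ image₂ (· * ·) F F → c (a * a) g = 0 := fun g hg => by
    have e : (fun h => c a h * c a (h⁻¹ * g)) = fun _ => 0 := funext fun h => by
      by_cases hh : h ∈ F
      · rw [haF (h⁻¹ * g) fun h1 =>
          hg (mem_union_right _ (mem_image₂.2 ⟨h, hh, _, h1, mul_inv_cancel_left h g⟩)), mul_zero]
      · rw [haF h hh, zero_mul]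
    exact (e ▸ hm a a g).unique hasSum_zero
  obtain ⟨W, hW⟩ := exists_wi hid (F ∪ image₂ (· * ·) F F) ha0 hb0 (hm a a)
    (by
      rw [← (hn a).unique (hasSum_sum_of_ne_finset_zero fun g hg => by rw [ha0 g hg, nm_zero])]
      linarith [norm_le_norm_add_norm_sub' a E, min_le_right η (1 / 4)])
    (by
      have h5 := hn (a * a - a)
      simp only [map_sub, Pi.sub_apply] at h5
      rw [← h5.unique (hasSum_sum_of_ne_finset_zero fun g hg => by
        rw [ha0 g hg, hb0 g hg, sub_zero, nm_zero])]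
      exact h2 ((dist_eq_norm a E).trans_lt (h4.trans_le (min_le_left _ _))))
  obtain ⟨P, hP⟩ := hf _ W.summable_nm
  refine ⟨W, fun g => ?_⟩
  have h5 : ‖P - a‖ ≤ 1 / 4 := hW _ (by simpa only [map_sub, Pi.sub_apply, hP] using hn (P - a))
  have h6 : ‖E - P‖ < 1 := by
    have h7 := norm_sub_le_norm_sub_add_norm_sub E a P
    rw [norm_sub_rev E a, norm_sub_rev a P] at h7
    linarith [min_le_right η (1 / 4)]
  rw [← hP]
  exact trace_close (AddMonoidHom.mk' (fun x => ∑' u : {u // IsConj u g}, (c x u).trace)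
    fun x y => by
      simp only [map_add, Pi.add_apply, Matrix.trace_add]
      exact (summable_trace (hn x).summable _).1.tsum_add (summable_trace (hn y).summable _).1)
    (fun x => (summable_trace (hn x).summable _).2.trans_eq (hn x).tsum_eq)
    (fun x y => trace_conv_comm (hn x).summable (hn y).summable (hm x y) (hm y x) g)
    (idem E he) (idem P (by simpa only [hP] using W.idem)) h6

end

end Vale.Agent.P184L
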