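import Vale.Agent.P184L.ExtD

/-! Volume of the simplex and the characteristic number of the model connection. Hint for the volume: induction with `MeasurableEquiv.piFinSuccAbove` on the scaled simplex `{τ | Monotone τ ∧ ∀ i, 0 ≤ τ i ∧ τ i ≤ c}` (volume `c ^ d / d!`, slice in the last coordinate), or `div_simp` type argument. -/

namespace Vale.Agent.P184L

open Finset MeasureTheory ProbabilityTheory Classical Vale.Agent.P184
open scoped ContDiff

noncomputable section

universe u

variable {G : Type u} [Group G]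

namespace SimpX

/-- The simplex above height `c`. -/
def up (d : ℕ) (c : ℝ) : Set (E d) := {τ | Monotone τ ∧ ∀ i, c ≤ τ i ∧ τ i ≤ 1}

/-- The same, sliced in the first coordinate. -/
def sli (d : ℕ) (c : ℝ) : Set (ℝ × E d) := {p | p.1 ∈ Set.Icc c 1 ∧ p.2 ∈ up d p.1}

theorem closed_sli (d : ℕ) (c : ℝ) : IsClosed (sli d c) := by
  have e : sli d c = Prod.fst ⁻¹' Set.Icc c 1 ∩
      ((⋂ i, ⋂ j, ⋂ _ : i ≤ j, {p : ℝ × E d | p.2 i ≤ p.2 j}) ∩
      ⋂ i, {p : ℝ × E d | p.1 ≤ p.2 i} ∩ {p : ℝ × E d | p.2 i ≤ 1}) := by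
    ext p
    simp only [sli, up, Monotone, Set.mem_setOf_eq, Set.mem_inter_iff, Set.mem_iInter,
      Set.mem_preimage]
  rw [e]
  exact (isClosed_Icc.preimage continuous_fst).inter (IsClosed.inter
    (isClosed_iInter fun i => isClosed_iInter fun j => isClosed_iInter fun _ =>
      isClosed_le (by fun_prop) (by fun_prop))
    (isClosed_iInter fun i => (isClosed_le (by fun_prop) (by fun_prop)).inter
      (isClosed_le (by fun_prop) (by fun_prop))))

theorem mem_up {d : ℕ} {c : ℝ} (τ : E (d + 1)) :
    τ ∈ up (d + 1) c ↔ (τ 0, fun j => τ j.succ) ∈ sli d c := by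
  constructor
  · rintro ⟨h1, h2⟩
    exact ⟨h2 0, fun i j h => h1 (Fin.succ_le_succ_iff.2 h),
      fun i => ⟨h1 (Fin.zero_le _), (h2 _).2⟩⟩
  · rintro ⟨h0, h1, h2⟩
    refine ⟨fun i j h => ?_, fun i => ?_⟩
    · rcases Fin.eq_zero_or_eq_succ i with rfl | ⟨i, rfl⟩ <;>
        rcases Fin.eq_zero_or_eq_succ j with rfl | ⟨j, rfl⟩
      · exact le_rfl
      · exact (h2 j).1
      · exact absurd h (Fin.succ_pos i).not_ge
      · exact h1 (Fin.succ_le_succ_iff.1 h)
    · rcases Fin.eq_zero_or_eq_succ i with rfl | ⟨i, rfl⟩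
      · exact h0
      · exact ⟨h0.1.trans (h2 i).1, (h2 i).2⟩

theorem vol_up (d : ℕ) : ∀ c : ℝ, c ≤ 1 →
    volume (up d c) = ENNReal.ofReal ((1 - c) ^ d / d.factorial) := by
  induction d with
  | zero =>
    intro c _
    have e : up 0 c = Set.univ :=
      Set.eq_univ_of_forall fun τ => ⟨fun i => i.elim0, fun i => i.elim0⟩
    simp [e, volume_pi]
  | succ d ih =>
    intro c hc
    have hm := (closed_sli d c).measurableSet
    have e : up (d + 1) c = MeasurableEquiv.piFinSuccAbove (fun _ => ℝ) 0 ⁻¹' sli d c :=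
      Set.ext fun τ => mem_up τ
    have e2 : (fun x : ℝ => volume (Prod.mk x ⁻¹' sli d c)) = (Set.Icc c 1).indicator
        fun x => ENNReal.ofReal ((1 - x) ^ d / d.factorial) := funext fun x => by
      by_cases hx : x ∈ Set.Icc c 1
      · rw [Set.indicator_of_mem hx, ← ih x hx.2]
        exact congrArg volume (Set.ext fun τ => and_iff_right hx)
      · rw [Set.indicator_of_notMem hx, show Prod.mk x ⁻¹' sli d c = ∅ from
          Set.eq_empty_of_forall_notMem fun τ h => hx h.1, measure_empty]
    have hi : Continuous fun x : ℝ => (1 - x) ^ d / d.factorial := by fun_prop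
    rw [e, (volume_preserving_piFinSuccAbove (fun _ => ℝ) 0).measure_preimage hm.nullMeasurableSet,
      Measure.volume_eq_prod, Measure.prod_apply hm, e2, lintegral_indicator measurableSet_Icc,
      ← ofReal_integral_eq_lintegral_ofReal hi.integrableOn_Icc
        (ae_restrict_of_forall_mem measurableSet_Icc fun x hx =>
          div_nonneg (pow_nonneg (sub_nonneg.2 hx.2) _) (Nat.cast_nonneg _)),
      integral_Icc_eq_integral_Ioc, ← intervalIntegral.integral_of_le hc,
      intervalIntegral.integral_div, intervalIntegral.integral_comp_sub_left (fun x => x ^ d),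
      integral_pow, Nat.factorial_succ]
    refine congrArg ENNReal.ofReal ?_
    rw [sub_self, zero_pow d.succ_ne_zero, sub_zero, div_div]
    push_cast
    rfl

end SimpX

theorem volume_simp (d : ℕ) : volume.real (simp d) = 1 / d.factorial := by
  rw [Measure.real, show simp d = SimpX.up d 0 from rfl, SimpX.vol_up d 0 zero_le_one,
    ENNReal.toReal_ofReal (by positivity), sub_zero, one_pow]

theorem abs_int_simp {d : ℕ} {F : E d → ℝ} {B : ℝ} (h : ∀ τ ∈ simp d, |F τ| ≤ B) :
    |∫ τ in simp d, F τ| ≤ B / d.factorial := by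
  have h1 := norm_setIntegral_le_of_norm_le_const (μ := volume) (f := F)
    (isCompact_simp d).measure_lt_top h
  rwa [volume_simp, mul_one_div] at h1

end

end Vale.Agent.P184L
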