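import Vale.Agent.P184L.Gb9
import Vale.Agent.P184L.Gb7
import Vale.Agent.P184L.Fo
import Vale.Agent.P184L.Filt
import Vale.Agent.P184L.SkPt

/-! One sketched scale. Hint: take `κ` from `exists_filt` with `ℓ = r γ`; `gap_sm`; integrate `sm_pair` over `[0, 1]` (`continuous_sm`; `t ↦ ∫ φ' (t + u) dκ` is continuous); `sk_sm`, `continuous_dBt`, `sk_shift`, `fourier_lower` for `φ t = sk η (B (Psi t))`, `nn_skF`, and `r ^ 2 ‖φ'‖ ^ 2 ≤ C Qm (b Rs) ^ 2` (`gibbs_norm`, `sgn_dPsi`, `Sgn.abs_le`, `dB_smul`). -/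

namespace Vale.Agent.P184L

open Finset MeasureTheory ProbabilityTheory Classical Vale.Agent.P184
open scoped ContDiff

noncomputable section

universe u

variable {G : Type u} [Group G]

namespace SkStepX

theorem one {π : Par} {g : G} {L : Type u} (Λ : Lab π g L) (hπ : π.Ok) {r : ℝ} (hr : 0 < r)
    {κ : Measure ℝ} {ℓ Ξ ε : ℝ} (hκ : Filt κ ℓ Ξ ε) {K : ℕ} (hK : Ξ ≤ K) {η : L → ℂ} {ϑ : ℝ}
    (hη : Λ.Eig η ϑ) {k : ℕ} (x : Fin (k + 1) → G) (T : E (k + 1)) {D : ℝ}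
    (hD : ∀ t, ‖Lab.sk η (Λ.dBt r x T t)‖ ^ 2 ≤ D) :
    (Continuous fun t => ‖Lab.sk η (Λ.sm κ r x T t)‖ ^ 2) ∧
    ∫ t in (0 : ℝ)..1, ‖Lab.sk η (Λ.sm κ r x T t)‖ ^ 2 ≤
      ∑ n ∈ Icc (-(K : ℤ)) K, (2 * Real.pi * n + ϑ) ^ 2 *
        ‖Λ.hat r η (2 * Real.pi * n + ϑ) x T‖ ^ 2 + ε ^ 2 * D := by
  obtain ⟨-, hc, hd⟩ := continuous_dBt Λ hπ hr x T η
  haveI := hκ.1
  simp only [sk_sm Λ hπ hr hκ]
  constructor
  · refine (continuous_of_dominated (bound := fun _ => √D) (fun t => ?_) (fun t => ?_)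
      (integrable_const _) ?_).norm.pow 2
    · exact (hc.comp (continuous_const.add continuous_id)).aestronglyMeasurable
    · exact Filter.Eventually.of_forall fun u => Real.le_sqrt_of_sq_le (hD _)
    · exact Filter.Eventually.of_forall fun u => hc.comp (continuous_id.add continuous_const)
  · refine (fourier_lower hd hc hη.1 (sk_shift Λ hη r x T) hκ hK).trans (add_le_add le_rfl ?_)
    refine mul_le_mul_of_nonneg_left ?_ (sq_nonneg _)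
    have := intervalIntegral.integral_mono_on (μ := volume) zero_le_one
      ((hc.norm.pow 2).intervalIntegrable 0 1) (intervalIntegrable_const (c := D))
      fun t _ => hD t
    simpa using this

theorem fam {π : Par} {g : G} {L : Type u} (Λ : Lab π g L) (hπ : π.Ok) {r : ℝ} (hr : 0 < r)
    {κ : Measure ℝ} {ℓ Ξ ε : ℝ} (hκ : Filt κ ℓ Ξ ε) {K : ℕ} (hK : Ξ ≤ K) {ι : Type}
    (F : Finset ι) {η : ι → L → ℂ} {ϑ : ι → ℝ} (hη : ∀ q ∈ F, Λ.Eig (η q) (ϑ q)) {k : ℕ}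
    (x : Fin (k + 1) → G) (T : E (k + 1)) {D : ℝ}
    (hD : ∀ q ∈ F, ∀ t, ‖Lab.sk (η q) (Λ.dBt r x T t)‖ ^ 2 ≤ D) :
    IntervalIntegrable (fun t => ∑ q ∈ F, ‖Lab.sk (η q) (Λ.sm κ r x T t)‖ ^ 2) volume 0 1 ∧
    r ^ 2 * ∫ t in (0 : ℝ)..1, ∑ q ∈ F, ‖Lab.sk (η q) (Λ.sm κ r x T t)‖ ^ 2 ≤
      nn (Λ.skF F η ϑ 1 r K k x) T + F.card * ε ^ 2 * (r ^ 2 * D) := by
  have h := fun q hq => one Λ hπ hr hκ hK (hη q hq) x T (hD q hq)
  refine ⟨(continuous_finsetSum F fun q hq => (h q hq).1).intervalIntegrable 0 1, ?_⟩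
  rw [intervalIntegral.integral_finsetSum fun q hq => (h q hq).1.intervalIntegrable 0 1,
    nn_skF Λ hπ hr F hη]
  have := mul_le_mul_of_nonneg_left (sum_le_sum fun q hq => (h q hq).2) (sq_nonneg r)
  rw [sum_add_distrib, sum_const, nsmul_eq_mul] at this
  refine this.trans (le_of_eq ?_)
  ring

end SkStepX

theorem sk_step (G : Type u) [Group G] : ∃ C : ℝ, 1 ≤ C ∧ ∀ (π : Par) (g : G) (L : Type u)
    (Λ : Lab π g L), π.Ok → ∀ r γ : ℝ, 0 < r → 0 < γ → C * π.Rs * γ ≤ 1 →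
    ∀ (ι : Type) (F : Finset ι) (η η' : ι → L → ℂ) (ϑ : ι → ℝ),
    (∀ q ∈ F, Λ.Eig (η q) (ϑ q) ∧ Λ.Eig (η' q) (ϑ q)) → ∀ (p K : ℕ), 1 ≤ p →
    4 * p / (r * γ) ≤ K → ∀ (e : ℝ), 0 ≤ e → ∀ (k : ℕ) (x : Fin (k + 1) → G) (T : E (k + 1)),
    Ord T → (∀ l₀ (j : ℤ) i, Λ.f l₀ (g ^ j * x i) < π.Rs → Λ.Pair F η e l₀ ∨ Λ.Pair F η' e l₀) →
    Λ.A (r * (1 + γ)) x T - Λ.A r x T ≤
      nn (Λ.skF F η ϑ 1 r K k x) T + nn (Λ.skF F η' ϑ 1 r K k x) T +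
        (C * π.b ^ 2 * π.Rs ^ 3 * γ ^ 2 + e +
          C * (1 / 4) ^ p * F.card * π.Qm * (π.b * π.Rs) ^ 2) := by
  obtain ⟨C1, c1, h1⟩ := gap_sm G
  obtain ⟨C2, c2, h2⟩ := gibbs_norm G
  have ck := one_le_CK
  have c3 : 0 ≤ 8 * CK ^ 2 * C2 := by positivity
  refine ⟨C1 + 2 * CK + 8 * CK ^ 2 * C2, by linarith, ?_⟩
  intro π g L Λ hπ r γ hr hγ hC ι F η η' ϑ hη p K hp hK e he k x T hT hP
  have hRs : (1 : ℝ) ≤ π.Rs := by
    rw [Par.Rs_eq]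
    have : (0 : ℝ) ≤ π.Rt := Nat.cast_nonneg _
    linarith
  have hRγ : 0 < π.Rs * γ := by positivity
  have g1 : γ ≤ 1 := by nlinarith
  have g2 : 2 * CK * π.Rs * γ ≤ 1 := by nlinarith
  obtain ⟨κ, hκ⟩ := exists_filt (mul_pos hr hγ) hp
  have hD : ∀ (η : L → ℂ) (ϑ : ℝ), Λ.Eig η ϑ → ∀ t, ‖Lab.sk η (Λ.dBt r x T t)‖ ^ 2 ≤
      C2 * π.Qm * (π.b * (2 * CK * π.Rs / r)) ^ 2 := fun η ϑ h t => by
    refine ((h2 π g L Λ hπ _ (adm_Psi Λ hr x hT t)).2.2 η ϑ h).2 _ _ (by positivity) fun l => ?_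
    have := (sgn_dPsi Λ hr x hT t).abs_le l
    rw [abs_mul, abs_of_pos hr] at this
    rw [le_div_iff₀ hr]
    linarith
  obtain ⟨i1, f1⟩ := SkStepX.fam Λ hπ hr hκ hK F (fun q hq => (hη q hq).1) x T
    fun q hq => hD _ _ (hη q hq).1
  obtain ⟨i2, f2⟩ := SkStepX.fam Λ hπ hr hκ hK F (fun q hq => (hη q hq).2) x T
    fun q hq => hD _ _ (hη q hq).2
  have a1 := h1 π g L Λ hπ r γ hr hγ g1 κ _ _ hκ k x T hT
  have a2 := intervalIntegral.integral_mono_on (μ := volume) zero_le_one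
    (((continuous_sm Λ hπ hr hκ x T).2.intervalIntegrable 0 1).const_mul (r ^ 2))
    ((intervalIntegrable_const (c := e)).add ((i1.add i2).const_mul (r ^ 2)))
    fun t _ => sm_pair Λ hπ hr hγ g2 hκ F η η' he x hT hP t
  rw [intervalIntegral.integral_const_mul, intervalIntegral.integral_add intervalIntegrable_const
    ((i1.add i2).const_mul (r ^ 2)), intervalIntegral.integral_const_mul,
    intervalIntegral.integral_add i1 i2, intervalIntegral.integral_const, sub_zero, smul_eq_mul,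
    one_mul, mul_add] at a2
  have hQ : 0 < π.Qm := Real.exp_pos _
  have e1 : (F.card : ℝ) * ((1 / 2) ^ p) ^ 2 *
      (r ^ 2 * (C2 * π.Qm * (π.b * (2 * CK * π.Rs / r)) ^ 2)) =
      4 * CK ^ 2 * C2 * ((1 / 4) ^ p * F.card * π.Qm * (π.b * π.Rs) ^ 2) := by
    have : (((1 : ℝ) / 2) ^ p) ^ 2 = (1 / 4) ^ p := by
      rw [← pow_mul, mul_comm, pow_mul]; norm_num
    rw [this]
    field_simp
    ring
  rw [e1] at f1 f2
  have b1 : 0 ≤ (1 / 4 : ℝ) ^ p * F.card * π.Qm * (π.b * π.Rs) ^ 2 := by positivity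
  have b2 : 0 ≤ π.b ^ 2 * π.Rs ^ 3 * γ ^ 2 := by positivity
  have b3 := mul_nonneg (show 0 ≤ C1 + 2 * CK by linarith) b1
  have b4 := mul_nonneg (show 0 ≤ 2 * CK + 8 * CK ^ 2 * C2 by linarith) b2
  nlinarith

end

end Vale.Agent.P184L
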