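import Vale.Agent.P184L.Gb4b

/-! At very large scales no label is active. Hint: `Psi l ≥ Rs * (1 - near weight)` where near means `f l (g ^ p * x i) < Rs`; show near weight `≤ 2 / 3`, so `Psi ≥ Rs / 3 ≥ Rt` and `F = R` (`F_eq`). Fix `i`, `len i = nx T i.succ - T i`, `∑ len = 1`, `tot i = ∑ p, wt p i`, `∑ tot = 1`. Second case of `Sparse`: `wt p i ≤ len i * CK / r`. First case: `2 near i ≤ tot i + ∑ p, |wt (p + 1) i - wt p i|`, and `|wt (p + 1) i - wt p i| ≤ len i * CK / r ^ 2` (mean value inequality for `u ↦ Pr r (u + 1) - Pr r u`), nonzero for at most `2 r + 4` values of `p`. -/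

namespace Vale.Agent.P184L

open Finset MeasureTheory ProbabilityTheory Classical Vale.Agent.P184
open scoped ContDiff

noncomputable section

universe u

variable {G : Type u} [Group G]

namespace TopX

theorem mvt {f : ℝ → ℝ} (hf : Differentiable ℝ f) {C : ℝ} (h : ∀ u, |deriv f u| ≤ C) (a b : ℝ) :
    |f b - f a| ≤ C * |b - a| :=
  convex_univ.norm_image_sub_le_of_norm_deriv_le (fun u _ => hf u) (fun u _ => h u)
    (Set.mem_univ a) (Set.mem_univ b)

theorem second {f : ℝ → ℝ} (hf : Differentiable ℝ f) (hf' : Differentiable ℝ (deriv f)) {C : ℝ}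
    (h : ∀ u, |deriv (deriv f) u| ≤ C) (a b : ℝ) :
    |(f (b + 1) - f b) - (f (a + 1) - f a)| ≤ C * |b - a| := by
  have h1 : ∀ u, HasDerivAt (fun u => f (u + 1) - f u) (deriv f (u + 1) - deriv f u) u :=
    fun u => ((hf (u + 1)).hasDerivAt.comp_add_const u 1).sub (hf u).hasDerivAt
  refine mvt (f := fun u => f (u + 1) - f u) (fun u => (h1 u).differentiableAt) (fun u => ?_) a b
  rw [(h1 u).deriv]
  simpa using mvt hf' h u (u + 1)

theorem card_le {s : Finset ℤ} {c d : ℝ} (hd : 0 ≤ d) (h : ∀ p ∈ s, c < p ∧ (p : ℝ) < c + d) :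
    (s.card : ℝ) ≤ d + 1 := by
  have h1 : s ⊆ Ioo ⌊c⌋ ⌈c + d⌉ := fun p hp =>
    mem_Ioo.2 ⟨Int.floor_lt.2 (h p hp).1, Int.lt_ceil.2 (h p hp).2⟩
  have h2 := card_le_card h1
  rw [Int.card_Ioo] at h2
  have h3 := Int.ceil_lt_add_one (c + d)
  have h4 := Int.lt_floor_add_one c
  rcases le_total (⌈c + d⌉ - ⌊c⌋ - 1) 0 with h5 | h5
  · rw [Int.toNat_eq_zero.2 h5, Nat.le_zero] at h2
    rw [h2, Nat.cast_zero]
    linarith
  · have h6 : (s.card : ℤ) ≤ ⌈c + d⌉ - ⌊c⌋ - 1 := by omega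
    have h7 : (s.card : ℝ) ≤ ⌈c + d⌉ - ⌊c⌋ - 1 := by exact_mod_cast h6
    linarith

theorem pair_le {a : ℤ → ℝ} (ha : ∀ p, 0 ≤ a p) {I S : Finset ℤ} (hI : ∀ p, p ∉ I → a p = 0)
    (hS : ∀ p ∈ S, p + 1 ∉ S) : ∑ p ∈ S, a p + ∑ p ∈ S, a (p + 1) ≤ ∑ p ∈ I, a p := by
  have h1 : ∑ p ∈ S, a (p + 1) = ∑ p ∈ S.image (· + 1), a p :=
    (sum_image fun p _ q _ e => add_right_cancel e).symm
  have h2 : Disjoint S (S.image (· + 1)) := disjoint_right.2 fun p hp => by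
    obtain ⟨q, hq, rfl⟩ := mem_image.1 hp
    exact hS q hq
  rw [h1, ← sum_union h2, ← sum_subset (inter_subset_left (s₂ := I)) fun p hp hp' =>
    hI p fun h => hp' (mem_inter.2 ⟨hp, h⟩)]
  exact sum_le_sum_of_subset_of_nonneg inter_subset_right fun p _ _ => ha p

theorem len_nonneg {k : ℕ} {T : E (k + 1)} (hT : Ord T) (i : Fin (k + 1)) :
    0 ≤ nx T i.succ - T i := by
  rw [sub_nonneg]
  induction i using Fin.lastCases with
  | last =>
    rw [Fin.succ_last, nx, Fin.snoc_last]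
    exact hT.2 _
  | cast j =>
    rw [Fin.succ_castSucc, nx, Fin.snoc_castSucc]
    exact hT.1 (Fin.castSucc_lt_succ (i := j)).le

theorem len_sum {k : ℕ} (T : E (k + 1)) : ∑ i, (nx T i.succ - T i) = 1 := by
  have h1 := Fin.sum_univ_succ (nx T)
  have h2 := Fin.sum_univ_castSucc (nx T)
  have h3 : nx T 0 = T 0 := Fin.snoc_castSucc (α := fun _ => ℝ) (T 0 + 1) T 0
  simp only [nx, Fin.snoc_castSucc, Fin.snoc_last] at h2
  rw [sum_sub_distrib]
  simp only [nx] at h1 h3 ⊢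
  linarith

theorem near_one {r : ℝ} (hr : 12 * CK ≤ r) {α d : ℝ} (h0 : 0 ≤ d) (h1 : d ≤ 1) {a : ℤ → ℝ}
    (he : ∀ p, a p = Pr r (α + p + d) - Pr r (α + p)) {I S : Finset ℤ}
    (hI : ∀ p, p ∉ I → a p = 0) (hS : ∀ p ∈ S, p + 1 ∉ S) :
    ∑ p ∈ S, a p ≤ (∑ p ∈ I, a p) / 2 + d / 6 := by
  have hC := one_le_CK
  have hr0 : 0 < r := by linarith
  have hK := ker_Pr hr0
  have ha : ∀ p, 0 ≤ a p := fun p => by
    rw [he, sub_nonneg]
    exact Pr_mono hr0 (by linarith)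
  have h2 := pair_le ha hI hS
  have h3 : ∀ p, a p - a (p + 1) ≤ CK / r ^ 2 * d := fun p => by
    have h4 := second (hK.1.differentiable (by simp)) (hK.deriv.1.1.differentiable (by simp))
      (fun u => (Pr_bounds hr0 u).2) (α + p) (α + p + d)
    rw [add_sub_cancel_left, abs_of_nonneg h0] at h4
    have h5 := (abs_le.1 h4).1
    rw [he, he]
    push_cast
    rw [← add_assoc, add_right_comm (α + p) 1 d]
    linarith
  have h4 : ((S.filter fun p => a p ≠ 0).card : ℝ) ≤ (2 * r + 1) + 1 := by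
    refine card_le (c := -r - α - 1) (by linarith) fun p hp => ?_
    have h5 := (mem_filter.1 hp).2
    constructor
    · by_contra h6
      exact h5 (by rw [he, hK.2.2.1 _ (by linarith), hK.2.2.1 (α + p) (by linarith), sub_self])
    · by_contra h6
      exact h5 (by rw [he, hK.2.2.2 _ (by linarith), hK.2.2.2 (α + p) (by linarith), sub_self])
  have h5 : ∑ p ∈ S, (a p - a (p + 1)) ≤ d / 3 := by
    rw [← sum_filter_add_sum_filter_not S fun p => a p ≠ 0]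
    have h6 : ∑ p ∈ S with ¬a p ≠ 0, (a p - a (p + 1)) ≤ 0 := sum_nonpos fun p hp => by
      have h7 := not_not.1 (mem_filter.1 hp).2
      linarith [ha (p + 1)]
    have h7 := sum_le_card_nsmul (S.filter fun p => a p ≠ 0) _ _ fun p _ => h3 p
    rw [nsmul_eq_mul] at h7
    have h8 : ((S.filter fun p => a p ≠ 0).card : ℝ) * (CK / r ^ 2 * d) ≤
        4 * r * (CK / r ^ 2 * d) :=
      mul_le_mul_of_nonneg_right (by linarith) (by positivity)
    have h9 : 4 * r * (CK / r ^ 2 * d) = 4 * CK / r * d := by field_simp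
    have h10 : 4 * CK / r ≤ 1 / 3 := by
      rw [div_le_iff₀ hr0]
      linarith
    have h11 := mul_le_mul_of_nonneg_right h10 h0
    linarith
  rw [sum_sub_distrib] at h5
  linarith

theorem near_two {r : ℝ} {K : ℕ} (hr : 12 * CK * (K + 1) ≤ r) {α d : ℝ} (h0 : 0 ≤ d) {a : ℤ → ℝ}
    (he : ∀ p, a p = Pr r (α + p + d) - Pr r (α + p)) {S : Finset ℤ} (hS : S.card ≤ K) :
    ∑ p ∈ S, a p ≤ d / 6 := by
  have hC := one_le_CK
  have hK0 : (0 : ℝ) ≤ K := Nat.cast_nonneg K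
  have hr0 : 0 < r := lt_of_lt_of_le (by positivity) hr
  have h1 : ∀ p, a p ≤ CK / r * d := fun p => by
    have h2 := mvt ((ker_Pr hr0).1.differentiable (by simp)) (fun u => (Pr_bounds hr0 u).1)
      (α + p) (α + p + d)
    rw [add_sub_cancel_left, abs_of_nonneg h0] at h2
    rw [he]
    exact (abs_le.1 h2).2
  have h2 := sum_le_card_nsmul S _ _ fun p _ => h1 p
  rw [nsmul_eq_mul] at h2
  have h3 : (S.card : ℝ) * (CK / r * d) ≤ K * (CK / r * d) :=
    mul_le_mul_of_nonneg_right (by exact_mod_cast hS) (by positivity)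
  have h4 : K * CK / r ≤ 1 / 6 := by
    rw [div_le_iff₀ hr0]
    nlinarith
  have h5 := mul_le_mul_of_nonneg_right h4 h0
  have h6 : K * (CK / r * d) = K * CK / r * d := by ring
  linarith

theorem psi_ge {π : Par} {g : G} {L : Type u} (Λ : Lab π g L) {K : ℕ} (hK : Λ.Sparse K) {r : ℝ}
    (hr : 12 * CK * (K + 1) ≤ r) {k : ℕ} (x : Fin (k + 1) → G) {T : E (k + 1)} (hT : Ord T)
    (t : ℝ) (l : L) : (π.Rt : ℝ) ≤ Λ.Psi r x T t l := by
  have hC := one_le_CK
  have hK0 : (0 : ℝ) ≤ K := Nat.cast_nonneg K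
  have hr0 : 0 < r := lt_of_lt_of_le (by positivity) hr
  have hP := ker_Pr hr0
  have hB : ∀ i, |T i| ≤ ‖T‖ + |t| := fun i =>
    (norm_le_pi_norm T i).trans (le_add_of_nonneg_right (abs_nonneg t))
  have hB' : |t| ≤ ‖T‖ + |t| := le_add_of_nonneg_left (norm_nonneg T)
  obtain ⟨N, hN⟩ := exists_nat_ge (2 * (‖T‖ + |t|) + r + 1)
  have h1 : ∑ i, ∑ p ∈ Icc (-(N : ℤ)) N, wt (Pr r) T t p i = 1 := by
    have h2 := av_eq_sum g hP (fun _ => 1) x hB hB' hN
    rw [av_const g hP, (Pr_ends hr0).1, (Pr_ends hr0).2] at h2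
    simp only [one_mul, sub_zero] at h2
    rw [sum_comm, ← h2]
  have hRs : (0 : ℝ) ≤ π.Rs := Nat.cast_nonneg _
  have h2 : ∀ i, π.Rs * ((∑ p ∈ Icc (-(N : ℤ)) N, wt (Pr r) T t p i) / 2 -
      (nx T i.succ - T i) / 6) ≤
      ∑ p ∈ Icc (-(N : ℤ)) N, Λ.f l (g ^ p * x i) * wt (Pr r) T t p i := by
    intro i
    have d0 := len_nonneg hT i
    have d1 : nx T i.succ - T i ≤ 1 :=
      (single_le_sum (fun j _ => len_nonneg hT j) (mem_univ i)).trans (len_sum T).le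
    have he : ∀ p : ℤ, wt (Pr r) T t p i =
        Pr r (T i - t + p + (nx T i.succ - T i)) - Pr r (T i - t + p) := fun p => by
      unfold wt
      congr 2 <;> ring
    have ht : 0 ≤ ∑ p ∈ Icc (-(N : ℤ)) N, wt (Pr r) T t p i :=
      sum_nonneg fun p _ => wt_nonneg hr0 hT t p i
    have h3 : ∑ p ∈ Icc (-(N : ℤ)) N with Λ.f l (g ^ p * x i) < π.Rs, wt (Pr r) T t p i ≤
        (∑ p ∈ Icc (-(N : ℤ)) N, wt (Pr r) T t p i) / 2 + (nx T i.succ - T i) / 6 := by
      rcases hK l (x i) with h | h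
      · exact near_one (by nlinarith) d0 d1 he (fun p hp => wt_zero hP hB hB' hN hp i)
          fun p hp hp' => h p ⟨(mem_filter.1 hp).2, (mem_filter.1 hp').2⟩
      · have h4 := near_two hr d0 he (h _ fun p hp =>
          (mem_filter.1 (hp : p ∈ (Icc (-(N : ℤ)) N).filter
            fun p => Λ.f l (g ^ p * x i) < π.Rs)).2)
        linarith
    have h4 := sum_filter_add_sum_filter_not (Icc (-(N : ℤ)) N)
      (fun p => Λ.f l (g ^ p * x i) < π.Rs) fun p => wt (Pr r) T t p i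
    have h5 := sum_filter_add_sum_filter_not (Icc (-(N : ℤ)) N)
      (fun p => Λ.f l (g ^ p * x i) < π.Rs) fun p => Λ.f l (g ^ p * x i) * wt (Pr r) T t p i
    have h6 : 0 ≤ ∑ p ∈ Icc (-(N : ℤ)) N with Λ.f l (g ^ p * x i) < π.Rs,
        Λ.f l (g ^ p * x i) * wt (Pr r) T t p i :=
      sum_nonneg fun p _ => mul_nonneg (Λ.f_nonneg _ _) (wt_nonneg hr0 hT t p i)
    have h7 : π.Rs * ∑ p ∈ Icc (-(N : ℤ)) N with ¬Λ.f l (g ^ p * x i) < π.Rs,
        wt (Pr r) T t p i ≤ ∑ p ∈ Icc (-(N : ℤ)) N with ¬Λ.f l (g ^ p * x i) < π.Rs,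
        Λ.f l (g ^ p * x i) * wt (Pr r) T t p i := by
      rw [mul_sum]
      exact sum_le_sum fun p hp => mul_le_mul_of_nonneg_right (not_lt.1 (mem_filter.1 hp).2)
        (wt_nonneg hr0 hT t p i)
    refine le_trans (mul_le_mul_of_nonneg_left ?_ hRs) (h7.trans (by linarith))
    linarith
  have h3 := sum_le_sum fun i (_ : i ∈ univ) => h2 i
  rw [← mul_sum, sum_sub_distrib, ← sum_div, ← sum_div, h1, len_sum] at h3
  rw [Lab.Psi, av_eq_sum g hP _ x hB hB' hN, sum_comm]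
  have h4 := π.Rs_eq
  linarith

end TopX

theorem top_eq (G : Type u) [Group G] : ∃ C : ℝ, 1 ≤ C ∧ ∀ (π : Par) (g : G) (L : Type u)
    (Λ : Lab π g L), π.Ok → ∀ K : ℕ, Λ.Sparse K → ∀ r : ℝ, C * (K + 1) ≤ r →
    ∀ (k : ℕ) (x : Fin (k + 1) → G) (T : E (k + 1)), Ord T → Λ.A r x T = π.R := by
  refine ⟨12 * CK, by linarith [one_le_CK], fun π g L Λ hπ K hK r hr k x T hT => ?_⟩
  have h1 : ∀ t, Λ.F (Λ.Psi r x T t) = π.R := fun t =>
    Lab.F_eq hπ fun l => TopX.psi_ge Λ hK hr x hT t l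
  simp [Lab.A, h1]

end

end Vale.Agent.P184L
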