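import Vale.Agent.P184L.Gb4b

/-! Transport of the forms along a bijection of labels, and locality in the sketch. Hint: `av_left` gives `Psi r (u x) T t (φ l) = Psi r x T t l`, the same for `Xi`; `finsum_comp_equiv φ`. For `skF_congr`: a label with `B ≠ 0` has `Psi < Rt < Rs`, so `Psi_near` applies; prove `hat` equal as functions of `T` (`funext`). -/

namespace Vale.Agent.P184L

open Finset MeasureTheory ProbabilityTheory Classical Vale.Agent.P184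
open scoped ContDiff

noncomputable section

universe u

variable {G : Type u} [Group G]

variable {π : Par} {g : G} {L : Type u} (Λ : Lab π g L)

namespace TransX

theorem av_eq {u : G} (hu : u * g = g * u) (φ : L ≃ L) (hf : ∀ l a, Λ.f (φ l) (u * a) = Λ.f l a)
    (P : ℝ → ℝ) {k : ℕ} (x : Fin (k + 1) → G) (T : E (k + 1)) (t : ℝ) (l : L) :
    av g P (Λ.f (φ l)) (fun i => u * x i) T t = av g P (Λ.f l) x T t := by
  rw [av_left hu]
  simp only [hf]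

theorem B_eq (φ : L ≃ L) (hp : ∀ l, Λ.pr (φ l) = Λ.pr l) {ψ ψ' : L → ℝ}
    (h : ∀ l, ψ' (φ l) = ψ l) (l : L) : Λ.B ψ' (φ l) = Λ.B ψ l := by
  have hZ : Λ.Z ψ' = Λ.Z ψ := by
    rw [Lab.Z, Lab.Z, ← finsum_comp_equiv φ]
    simp only [hp, h]
  rw [Lab.B, Lab.B, hZ, hp, h]

theorem hat_left {u : G} (hu : u * g = g * u) (φ : L ≃ L)
    (hf : ∀ l a, Λ.f (φ l) (u * a) = Λ.f l a) (hp : ∀ l, Λ.pr (φ l) = Λ.pr l) (r : ℝ)
    (η : L → ℂ) (ξ : ℝ) {k : ℕ} (x : Fin (k + 1) → G) :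
    Λ.hat r η ξ (fun i => u * x i) = Λ.hat r (fun l => η (φ l)) ξ x := by
  funext T
  refine intervalIntegral.integral_congr fun t _ => ?_
  simp only [Lab.sk]
  rw [← finsum_comp_equiv φ]
  congr 2
  funext l
  rw [B_eq Λ φ hp (ψ := Λ.Psi r x T t) fun l => av_eq Λ hu φ hf _ x T t l]

theorem hat_congr {η η' : L → ℂ} {r : ℝ} (hr : 0 < r) (ξ : ℝ) {k : ℕ} (x : Fin (k + 1) → G)
    (h : ∀ l (p : ℤ) i, Λ.f l (g ^ p * x i) < π.Rs → η l = η' l) :
    Λ.hat r η ξ x = Λ.hat r η' ξ x := by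
  funext T
  refine intervalIntegral.integral_congr fun t _ => ?_
  simp only [Lab.sk]
  congr 2
  funext l
  by_cases hl : Λ.Psi r x T t l = π.Rs
  · have h0 : (π.Rt : ℝ) ≤ Λ.Psi r x T t l := by
      rw [hl, π.Rs_eq]
      have : (0 : ℝ) ≤ π.Rt := Nat.cast_nonneg _
      linarith
    rw [(Lab.B_zero h0 0).1]
    simp
  · obtain ⟨p, i, hi⟩ := Psi_near Λ hr x T t hl
    rw [h l p i hi]

end TransX

open TransX

theorem aI_left {u : G} (hu : u * g = g * u) (φ : L ≃ L) (hf : ∀ l a, Λ.f (φ l) (u * a) = Λ.f l a)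
    (hp : ∀ l, Λ.pr (φ l) = Λ.pr l) (r r' : ℝ) (k : ℕ) (x : Fin (k + 1) → G) :
    Λ.aI r r' k (fun i => u * x i) = Λ.aI r r' k x := by
  funext T
  simp only [Lab.aI]
  congr 2
  funext t
  rw [← finsum_comp_equiv φ]
  refine finsum_congr fun l => ?_
  rw [B_eq Λ φ hp (ψ := Λ.Psi r x T t) fun l => av_eq Λ hu φ hf _ x T t l]
  simp only [Lab.Xi, av_eq Λ hu φ hf]

theorem skF_left {u : G} (hu : u * g = g * u) (φ : L ≃ L) (hf : ∀ l a, Λ.f (φ l) (u * a) = Λ.f l a)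
    (hp : ∀ l, Λ.pr (φ l) = Λ.pr l) {ι : Type*} (F : Finset ι) (η : ι → L → ℂ) (ϑ : ι → ℝ)
    (a r : ℝ) (K k : ℕ) (x : Fin (k + 1) → G) :
    Λ.skF F η ϑ a r K k (fun i => u * x i) =
      Λ.skF F (fun q l => η q (φ l)) ϑ a r K k x := by
  funext T
  simp only [Lab.skF, Lab.aK, Lab.aF, hat_left Λ hu φ hf hp]

theorem skF_congr {ι : Type*} (F : Finset ι) {η η' : ι → L → ℂ} (ϑ : ι → ℝ) (a : ℝ) {r : ℝ}
    (hr : 0 < r) (K k : ℕ) (x : Fin (k + 1) → G)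
    (h : ∀ q l (p : ℤ) i, Λ.f l (g ^ p * x i) < π.Rs → η q l = η' q l) :
    Λ.skF F η ϑ a r K k x = Λ.skF F η' ϑ a r K k x := by
  funext T
  have e : ∀ q ξ, Λ.hat r (η q) ξ x = Λ.hat r (η' q) ξ x := fun q ξ =>
    hat_congr Λ hr ξ x (h q)
  simp only [Lab.skF, Lab.aK, Lab.aF, e]

theorem skF_scale {ι : Type*} (F : Finset ι) (η : ι → L → ℂ) (ϑ : ι → ℝ) (a r : ℝ) (K k : ℕ)
    (x : Fin (k + 1) → G) (T : E (k + 1)) :
    nn (Λ.skF F η ϑ a r K k x) T = a * nn (Λ.skF F η ϑ 1 r K k x) T := by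
  simp only [nn, Lab.skF, _root_.sum_apply, _root_.smul_apply, smul_eq_mul, mul_sum,
    one_mul, mul_assoc]

end

end Vale.Agent.P184L
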