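import Vale.Agent.P184L.Defs4
import Vale.Agent.P184L.NumA
import Vale.Agent.P184L.LabG2
import Vale.Agent.P184L.LabG3
import Vale.Agent.P184L.Gb5
import Vale.Agent.P184L.Gb7
import Vale.Agent.P184L.Trans

/-! Invariance, locality and equivariance of the total form. Hint: `aI_pre`, `skF_pre`, `labV_eig`, `labG_eig`, `IsPre.sum`. Locality: `skF_congr`, `labV_near`, `labG_near`. Equivariance: `aI_left`, `skF_left` with `φ = act g u hu` (`labV_act`) and `φ = shS u` (`fG_left`, `prG_left`); `τ a` adds `ht g (u * a.out)` to the shift; `etaG σ cn (shS u l) = etaG σ' cn l`: `rep (shS u l)` lies in the orbit of `u * rep l` (`Gen.Val.orb`, `lab_left`), equals it in the exceptional case, and then `ht_left` applies (`GOk.inf`). -/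

namespace Vale.Agent.P184L

open Finset MeasureTheory ProbabilityTheory Classical Vale.Agent.P184
open scoped ContDiff

noncomputable section

universe u

variable {G : Type u} [Group G]

variable {A : Gen G} {g : G} (t : Tot A g)

theorem Tot1X.eta {π : Par} {ρ M P Q Dc : ℕ} {ι : ℝ} (h : GOk A π g ρ ι M P) {u : G}
    (hu : u * g = g * u) {σ σ' : VV g → Alf Q Dc P}
    (h1 : ∀ a, (σ' a).2.1 = (σ (act g u hu a)).2.1)
    (h2 : ∀ a, (σ' a).2.2 = (σ (act g u hu a)).2.2 + (ht g (u * a.out) : ZMod (2 * P + 1)))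
    (cn : Fin (Dc + 1) × ℤ) (l : Set G) : etaG A ρ g σ' cn l = etaG A ρ g σ cn (shS u l) := by
  by_cases hv : A.Val ρ g l
  · have hv' := (val_left hu l).2 hv
    obtain ⟨e1, e2, e3⟩ := hv'.orb (y := u * rep l) ⟨rep l, hv.rep.1, rfl⟩
    have e4 : A.Exc ρ g (u * rep l) ↔ A.Exc ρ g (rep l) := by
      unfold Gen.Exc
      rw [Zs_left hu]
    unfold etaG
    rw [← e1, ← e2, e4, h1, h2, act_pj]
    by_cases he : A.Exc ρ g (rep l)
    · rw [← e3 (e4.2 he), ht_left (h.inf _ he) hu (rep l), Int.cast_add,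
        add_comm (ht g (rep l) : ZMod (2 * P + 1)), ← add_assoc]
      simp only [hv, hv']
    · simp only [hv, hv', he, if_false]
  · have hv' := mt (val_left hu l).1 hv
    simp only [etaG, hv, hv', false_and, if_false]

theorem al_pre (hs : t.s.Ok) (σ σ' : VV g → Alf t.Q t.Dc t.P) : IsPre g (t.al σ σ') := by
  have hπ : t.π.Ok := t.h.ok.1
  have h1 : IsPre g t.alI := IsPre.sum (range t.I1)
    (a := fun i k x T => (4 : ℝ) • (labV t.h.ok g).aI (t.s.r i) (t.s.r (i + 1)) k x T)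
    fun i _ => (aI_pre _ hπ (hs.r_pos i) (by
      rw [hs.r_succ]
      exact le_mul_of_one_le_right (hs.r_pos i).le
        (le_add_of_nonneg_right (hs.γ_bounds i).1.le))).smul 4
  have h2 : ∀ σ, IsPre g (t.alS σ) := fun σ =>
    (IsPre.sum (Ico t.I1 t.s.i0) fun i _ =>
      skF_pre _ hπ (hs.r_pos i) univ (fun q _ => labV_eig t.h.ok g _ q) 4 (t.s.K i)).add
    (IsPre.sum (Ico t.s.i0 t.I3) fun i _ =>
      skF_pre _ hπ (hs.r_pos i) _ (fun q _ => labG_eig t.h σ q) 1 (t.s.K i))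
  exact (h1.add (h2 σ)).add (h2 σ')

theorem alS_congr (hs : t.s.Ok) {σ σ' : VV g → Alf t.Q t.Dc t.P} {k : ℕ} {x : Fin (k + 1) → G}
    (h : ∀ i, ∀ a ∈ (A.sch g).ball t.π.Rs (pj g (x i)), σ a = σ' a) :
    t.alS σ k x = t.alS σ' k x := by
  funext T
  unfold Tot.alS
  refine congrArg₂ (· + ·) (sum_congr rfl fun i _ => congrFun ?_ T)
    (sum_congr rfl fun i _ => congrFun ?_ T)
  · refine skF_congr _ _ _ _ (hs.r_pos i) _ _ _ fun q l p j hl => ?_
    simp only [etaV, h j l (labV_near t.h.ok g hl)]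
  · refine skF_congr _ _ _ _ (hs.r_pos i) _ _ _ fun q l p j hl => ?_
    simp only [etaG, h j _ (labG_near t.h hl)]

theorem alI_left {u : G} (hu : u * g = g * u) (k : ℕ) (x : Fin (k + 1) → G) :
    t.alI k (fun i => u * x i) = t.alI k x := by
  funext T
  unfold Tot.alI
  refine sum_congr rfl fun i _ => ?_
  rw [aI_left (labV t.h.ok g) hu (act g u hu) (labV_act t.h.ok g hu) fun _ => rfl]

theorem alS_left {u : G} (hu : u * g = g * u) :
    ∃ τ : VV g → Alf t.Q t.Dc t.P ≃ Alf t.Q t.Dc t.P,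
      (∀ a X, (τ a X).1 = X.1 ∧ (τ a X).2.1 = X.2.1) ∧ ∀ σ k x,
        t.alS (fun a => τ a (σ (act g u hu a))) k x = t.alS σ k fun i => u * x i := by
  refine ⟨fun a => (Equiv.refl _).prodCongr ((Equiv.refl _).prodCongr
    (Equiv.addRight (ht g (u * a.out) : ZMod (2 * t.P + 1)))), fun a X => ⟨rfl, rfl⟩,
    fun σ k x => ?_⟩
  funext T
  unfold Tot.alS
  refine congrArg₂ (· + ·) (sum_congr rfl fun i _ => congrFun ?_ T)
    (sum_congr rfl fun i _ => congrFun ?_ T)
  · rw [skF_left (labV t.h.ok g) hu (act g u hu) (labV_act t.h.ok g hu) fun _ => rfl]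
    rfl
  · rw [skF_left (labG t.h) hu (shS u) (fG_left hu) (prG_left hu)]
    refine congrArg (fun η => (labG t.h).skF _ η _ _ _ _ k x)
      (funext fun cn => funext fun l => Tot1X.eta t.h hu (fun _ => ?_) (fun _ => ?_) cn l)
    · rfl
    · rfl

end

end Vale.Agent.P184L
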