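import Vale.Agent.P184L.Tot1
import Vale.Agent.P184L.Gb6
import Vale.Agent.P184L.Gb8

/-! Size of the total form. Hint: `est_aI` (with `r_succ`), `est_skF`, `Est.sum`, `Est.add`, `Est.mono`; smoothness from `aI_pre`, `skF_pre`; `card (univ ×ˢ Icc (-n) n) = (Dc + 1) (2 n + 1)`; monotonicity of the logarithm in the constant and in `k ≤ m`. -/

namespace Vale.Agent.P184L

open Finset MeasureTheory ProbabilityTheory Classical Vale.Agent.P184
open scoped ContDiff

noncomputable section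

universe u

variable {G : Type u} [Group G]

namespace Tot2X

theorem lg_le (s : Sc) {z a C C' b Qm : ℝ} (hz : 0 ≤ z) (ha : 0 ≤ a) (hC : 0 ≤ C)
    (haC : a * C ≤ C') (hQ : 0 ≤ Qm) {k : ℕ} (hk : k ≤ s.m) (i : ℕ) :
    2 * (2 * (s.K i : ℝ) + 1) *
      Real.log (1 + z * (a * s.r i ^ 2 * C * b ^ 2 * Qm * (k + 1) * (s.K i + 1))) ≤
      s.lg (z * C' * b ^ 2 * Qm) i := by
  unfold Sc.lg
  refine mul_le_mul_of_nonneg_left (Real.log_le_log (by positivity) ?_) (by positivity)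
  have hk' : (k : ℝ) + 1 ≤ s.m + 1 := by exact_mod_cast Nat.succ_le_succ hk
  have h1 : a * C * ((k : ℝ) + 1) ≤ C' * (s.m + 1) :=
    mul_le_mul haC hk' (by positivity) ((mul_nonneg ha hC).trans haC)
  have h2 : 0 ≤ z * b ^ 2 * Qm * s.r i ^ 2 * ((s.K i : ℝ) + 1) := by positivity
  have h3 := mul_le_mul_of_nonneg_left h1 h2
  nlinarith

end Tot2X

theorem al_est (G : Type u) [Group G] : ∃ C : ℝ, 1 ≤ C ∧ ∀ C' : ℝ, C ≤ C' → ∀ (A : Gen G) (g : G)
    (t : Tot A g), t.s.Ok → (∀ i < t.I1, t.s.r i ≤ 1) → ∀ (σ σ' : VV g → Alf t.Q t.Dc t.P) (z : ℝ),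
    0 ≤ z → ∀ k, k ≤ t.s.m → ∀ (x : Fin (k + 1) → G) (w T : E (k + 1)),
    (labV t.h.ok g).Step x w → (labG t.h).Step x w → Ord T →
    Est w z (t.al σ σ' k x) T (C' * t.π.b * (t.s.m + 1) * ∑ i ∈ range t.I1, t.s.γ i)
      (t.s.PP (z * C' * t.π.b ^ 2 * t.π.Qm) t.Q t.Dc t.I1 t.I3) := by
  obtain ⟨C1, hC1, H1⟩ := est_aI G
  obtain ⟨C2, hC2, H2⟩ := est_skF G
  refine ⟨4 * (C1 + C2), by linarith, ?_⟩
  intro C' hC' A g t hs hr σ σ' z hz k hk x w T hV hG hT
  have hπ : t.π.Ok := t.h.ok.1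
  have hb : 0 ≤ t.π.b := le_trans (by norm_num) hπ.1
  have hQ : 0 ≤ t.π.Qm := (Real.exp_pos _).le
  have hk' : (k : ℝ) + 1 ≤ t.s.m + 1 := by exact_mod_cast Nat.succ_le_succ hk
  have hrr : ∀ i, t.s.r i ≤ t.s.r (i + 1) := fun i => by
    rw [hs.r_succ i]
    have := hs.r_pos i
    have := (hs.γ_bounds i).1
    nlinarith
  have pI : ∀ i, IsPre g fun k x T =>
      (4 : ℝ) • (labV t.h.ok g).aI (t.s.r i) (t.s.r (i + 1)) k x T := fun i =>
    (aI_pre (labV t.h.ok g) hπ (hs.r_pos i) (hrr i)).smul 4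
  have pV : ∀ (τ : VV g → Alf t.Q t.Dc t.P) i, IsPre g ((labV t.h.ok g).skF univ
      (etaV fun a => (τ a).1) (fun _ => 0) 4 (t.s.r i) (t.s.K i)) := fun τ i =>
    skF_pre (labV t.h.ok g) hπ (hs.r_pos i) univ (fun q _ => labV_eig t.h.ok g _ q) 4 _
  have pG : ∀ (τ : VV g → Alf t.Q t.Dc t.P) i, IsPre g ((labG t.h).skF
      (univ ×ˢ Icc (-(t.s.n i : ℤ)) (t.s.n i)) (etaG A t.ρ g τ) (thG t.P) 1 (t.s.r i)
      (t.s.K i)) := fun τ i =>
    skF_pre (labG t.h) hπ (hs.r_pos i) _ (fun q _ => labG_eig t.h τ q) 1 _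
  have sI : ContDiff ℝ ∞ (t.alI k x) := (IsPre.sum (range t.I1) fun i _ => pI i).smooth k x
  have sS : ∀ τ : VV g → Alf t.Q t.Dc t.P, ContDiff ℝ ∞ (t.alS τ k x) := fun τ =>
    ((IsPre.sum (Ico t.I1 t.s.i0) fun i _ => pV τ i).add
      (IsPre.sum (Ico t.s.i0 t.I3) fun i _ => pG τ i)).smooth k x
  have eI : Est w z (t.alI k x) T (C' * t.π.b * (t.s.m + 1) * ∑ i ∈ range t.I1, t.s.γ i) 0 := by
    have h := Est.sum (w := w) (z := z) (T := T) (range t.I1) (fun i _ => (pI i).smooth k x)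
      (l := fun i => 4 * (C1 * t.π.b * t.s.γ i * (k + 1))) (P := fun _ => 0) (fun i hi => by
        have := H1 t.π g (VV g) (labV t.h.ok g) hπ (t.s.r i) (t.s.γ i) (hs.r_pos i)
          (hr i (mem_range.1 hi)) (hs.γ_bounds i).1 (hs.γ_bounds i).2.1 k x w T hV hT z 4
          (by norm_num)
        rw [← hs.r_succ i] at this
        exact this)
    refine Est.mono h ?_ (by simp)
    rw [mul_sum]
    refine sum_le_sum fun i _ => ?_
    have h1 : 4 * C1 * ((k : ℝ) + 1) ≤ C' * (t.s.m + 1) :=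
      mul_le_mul (by linarith) hk' (by positivity) (by linarith)
    have h2 : 0 ≤ t.π.b * t.s.γ i := mul_nonneg hb (hs.γ_bounds i).1.le
    have h3 := mul_le_mul_of_nonneg_left h1 h2
    nlinarith
  have eS : ∀ τ : VV g → Alf t.Q t.Dc t.P, Est w z (t.alS τ k x) T 0
      (t.s.PP (z * C' * t.π.b ^ 2 * t.π.Qm) t.Q t.Dc t.I1 t.I3 / 2) := fun τ => by
    have hv := Est.sum (w := w) (z := z) (T := T) (Ico t.I1 t.s.i0)
      (fun i _ => (pV τ i).smooth k x) (l := fun _ => 0)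
      (P := fun i => t.Q * t.s.lg (z * C' * t.π.b ^ 2 * t.π.Qm) i) (fun i _ => by
        have := H2 t.π g (VV g) (labV t.h.ok g) hπ (t.s.r i) (hs.r_pos i) (Fin t.Q) univ
          (etaV fun a => (τ a).1) (fun _ => 0) (fun q _ => labV_eig t.h.ok g _ q) 4 (t.s.K i) k x
          w T (by norm_num) hV hT z hz
        refine Est.mono this le_rfl ?_
        rw [card_univ, Fintype.card_fin]
        exact mul_le_mul_of_nonneg_left (Tot2X.lg_le t.s hz (by norm_num) (by linarith)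
          (by linarith) hQ hk i) (Nat.cast_nonneg _))
    have hg := Est.sum (w := w) (z := z) (T := T) (Ico t.s.i0 t.I3)
      (fun i _ => (pG τ i).smooth k x) (l := fun _ => 0)
      (P := fun i => (t.Dc + 1) * (2 * t.s.n i + 1) * t.s.lg (z * C' * t.π.b ^ 2 * t.π.Qm) i)
      (fun i _ => by
        have := H2 t.π g (Set G) (labG t.h) hπ (t.s.r i) (hs.r_pos i) (Fin (t.Dc + 1) × ℤ)
          (univ ×ˢ Icc (-(t.s.n i : ℤ)) (t.s.n i)) (etaG A t.ρ g τ) (thG t.P)
          (fun q _ => labG_eig t.h τ q) 1 (t.s.K i) k x w T (by norm_num) hG hT z hz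
        refine Est.mono this le_rfl ?_
        have hc : (((univ : Finset (Fin (t.Dc + 1))) ×ˢ Icc (-(t.s.n i : ℤ)) (t.s.n i)).card : ℝ) =
            (t.Dc + 1) * (2 * t.s.n i + 1) := by
          rw [card_product, card_univ, Fintype.card_fin, Int.card_Icc]
          have : ((t.s.n i : ℤ) + 1 - -(t.s.n i : ℤ)).toNat = 2 * t.s.n i + 1 := by omega
          rw [this]
          push_cast
          ring
        rw [hc]
        exact mul_le_mul_of_nonneg_left (Tot2X.lg_le t.s hz (by norm_num) (by linarith)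
          (by linarith) hQ hk i) (by positivity))
    have h := Est.add ((IsPre.sum (Ico t.I1 t.s.i0) fun i _ => pV τ i).smooth k x)
      ((IsPre.sum (Ico t.s.i0 t.I3) fun i _ => pG τ i).smooth k x) hv hg
    refine Est.mono h (by simp) (le_of_eq ?_)
    unfold Sc.PP
    rw [add_div, sum_div, sum_div]
    refine congrArg₂ (· + ·) (sum_congr rfl fun i _ => ?_) (sum_congr rfl fun i _ => ?_) <;> ring
  have h := Est.add (sI.add (sS σ)) (sS σ') (Est.add sI (sS σ) eI (eS σ)) (eS σ')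
  exact Est.mono h (by simp) (le_of_eq (by ring))

end

end Vale.Agent.P184L
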