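import Vale.Agent.P184L.Tot1
import Vale.Agent.P184L.SkStep
import Vale.Agent.P184L.Top
import Vale.Agent.P184L.Junc
import Vale.Agent.P184L.Col
import Vale.Agent.P184L.JL4

/-! Lower bound for the total energy. Hint: `nn` is additive. With `AV i`, `AG i` the mean free energies at scale `r i`: telescoping sums `AV i0 - AV 0` over `range I1` (`gap_I`) and `Ico I1 i0` (`sk_step`, `jl_pair`, `labV_near`, `skF_scale`), `AG I3 - AG i0` over `Ico i0 I3` (`sk_step`, `col_pair`, `labG_near`); `AG I3 = R` (`top_eq`, `labG_sparse`); `AG i0 ≤ 4 AV i0 + ...` (`junction`, `r i0 = 2 ^ c / m`); `AV 0 ≤ C + 4 A0` (`bottom`). Take for `C` ten times the maximum (or the sum) of all constants; `b Rs ^ 2 ≤ b ^ 2 Rs ^ 3`. -/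

namespace Vale.Agent.P184L

open Finset MeasureTheory ProbabilityTheory Classical Vale.Agent.P184
open scoped ContDiff

noncomputable section

universe u

variable {G : Type u} [Group G]

namespace Tot3X

theorem nn_al {A : Gen G} {g : G} (t : Tot A g) (σ σ' : VV g → Alf t.Q t.Dc t.P) (k : ℕ)
    (x : Fin (k + 1) → G) (T : E (k + 1)) : nn (t.al σ σ' k x) T =
      ∑ i ∈ range t.I1, 4 * nn ((labV t.h.ok g).aI (t.s.r i) (t.s.r (i + 1)) k x) T +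
      ∑ i ∈ Ico t.I1 t.s.i0, 4 *
        (nn ((labV t.h.ok g).skF univ (etaV fun a => (σ a).1) (fun _ => 0) 1
          (t.s.r i) (t.s.K i) k x) T +
        nn ((labV t.h.ok g).skF univ (etaV fun a => (σ' a).1) (fun _ => 0) 1
          (t.s.r i) (t.s.K i) k x) T) +
      ∑ i ∈ Ico t.s.i0 t.I3,
        (nn ((labG t.h).skF (univ ×ˢ Icc (-(t.s.n i : ℤ)) (t.s.n i))
          (etaG A t.ρ g σ) (thG t.P) 1 (t.s.r i) (t.s.K i) k x) T +
        nn ((labG t.h).skF (univ ×ˢ Icc (-(t.s.n i : ℤ)) (t.s.n i))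
          (etaG A t.ρ g σ') (thG t.P) 1 (t.s.r i) (t.s.K i) k x) T) := by
  simp only [mul_add, sum_add_distrib, ← skF_scale _ _ _ _ 4]
  simp only [nn, Tot.al, Tot.alI, Tot.alS, add_apply, _root_.sum_apply, smul_apply, smul_eq_mul]
  ring

theorem card_F (D n : ℕ) : (((univ : Finset (Fin (D + 1))) ×ˢ Icc (-(n : ℤ)) n).card : ℝ) =
    (D + 1) * (2 * n + 1) := by
  have h : ((n : ℤ) + 1 - -(n : ℤ)).toNat = 2 * n + 1 := by omega
  rw [card_product, card_univ, Fintype.card_fin, Int.card_Icc, h]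
  push_cast
  ring

end Tot3X

open Tot3X in
theorem al_low (G : Type u) [Group G] : ∃ C : ℝ, 1 ≤ C ∧ ∀ C' : ℝ, C ≤ C' → ∀ (A : Gen G) (g : G)
    (t : Tot A g), t.s.Ok → t.I1 ≤ t.s.i0 → t.s.i0 ≤ t.I3 → 1 ≤ t.Q →
    (∀ i, C' * t.π.Rs * t.s.γ i ≤ 1) → C' * (2 * t.P + 2) ≤ t.s.r t.I3 →
    ∀ (ρ0 : ℕ) (θ A0 : ℝ), 1 ≤ ρ0 → ρ0 + 2 * t.π.Rs ≤ t.ρ → 0 ≤ θ → θ ≤ 1 →
    ∀ (σ σ' : VV g → Alf t.Q t.Dc t.P) (k : ℕ) (x : Fin (k + 1) → G) (w : Fin (k + 1) → ℕ)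
    (T : E (k + 1)), A.Steps g x w → (∑ j, (w j : ℝ)) ≤ A0 * t.s.m → Ord T →
    (∀ i, ∀ v ∈ (A.sch g).ball t.π.Rs (pj g (x i)),
      ¬ (Bad (A.sch g) t.π θ σ v ∧ Bad (A.sch g) t.π θ σ' v)) →
    t.π.R - t.s.Err t.π C' θ A0 t.Q t.Dc t.I1 t.I3 ρ0 ≤ nn (t.al σ σ' k x) T := by
  obtain ⟨Cg, hg1, hg⟩ := gap_I G
  obtain ⟨Cs, hs1, hsk⟩ := sk_step G
  obtain ⟨Ct, ht1, htop⟩ := top_eq G
  obtain ⟨Cb, hb1, hbot⟩ := bottom G
  obtain ⟨Cj, hj1, hjun⟩ := junction G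
  obtain ⟨Cc, hc1, hcol⟩ := col_pair G
  obtain ⟨Cl, hl1, hjl⟩ := jl_pair G
  refine ⟨4 * (Cg + Cs + Ct + Cb + Cj + Cc + Cl), by linarith, ?_⟩
  intro C hC A g t hs h01 h13 hQ hγ hr3 ρ0 θ A0 hρ1 hρ hθ0 hθ1 σ σ' k x w T hw hA hT hbad
  have hπ : t.π.Ok := t.h.ok.1
  have hb : (1 : ℝ) ≤ t.π.b := le_trans (by norm_num) hπ.1
  have hRs : (1 : ℝ) ≤ t.π.Rs := by
    have : 1 ≤ t.π.Rs := by unfold Par.Rs; omega
    exact_mod_cast this
  have hQm : 0 ≤ t.π.Qm := (Real.exp_pos _).le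
  have hm : (1 : ℝ) ≤ t.s.m := by exact_mod_cast hs.2.2.1
  have hw0 : (0 : ℝ) ≤ ∑ j, (w j : ℝ) := sum_nonneg fun j _ => Nat.cast_nonneg _
  have hwm : (∑ j, (w j : ℝ)) / t.s.m ≤ A0 := (div_le_iff₀ (by linarith)).2 hA
  have hA0 : 0 ≤ A0 := le_trans (by positivity) hwm
  have hsγ : ∀ i, Cs * t.π.Rs * t.s.γ i ≤ 1 := fun i => by
    refine le_trans ?_ (hγ i)
    have := (hs.γ_bounds i).1
    gcongr
    linarith
  set AV : ℕ → ℝ := fun i => (labV t.h.ok g).A (t.s.r i) x T with hAV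
  set AG : ℕ → ℝ := fun i => (labG t.h).A (t.s.r i) x T with hAG
  set B : ℝ := t.π.b ^ 2 * t.π.Rs ^ 3 with hB
  have hB0 : 0 ≤ B := by positivity
  have h1 : ∀ i ∈ range t.I1, 4 * (AV (i + 1) - AV i) ≤
      4 * nn ((labV t.h.ok g).aI (t.s.r i) (t.s.r (i + 1)) k x) T + C * B * t.s.γ i ^ 2 := by
    intro i _
    have e1 := hg t.π g _ (labV t.h.ok g) hπ _ _ (hs.r_pos i) (hs.γ_bounds i).1.le
      (hs.γ_bounds i).2.1 k x T hT
    rw [← hs.r_succ] at e1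
    have e2 : t.π.b * t.π.Rs ^ 2 ≤ B := by
      rw [hB]
      gcongr
      · exact le_self_pow₀ hb two_ne_zero
      · norm_num
    have e3 : 4 * Cg * (t.π.b * t.π.Rs ^ 2) * t.s.γ i ^ 2 ≤ C * B * t.s.γ i ^ 2 := by
      gcongr
      · linarith
      · linarith
    simp only [hAV]
    nlinarith
  have h2 : ∀ i ∈ Ico t.I1 t.s.i0, 4 * (AV (i + 1) - AV i) ≤ 4 *
      (nn ((labV t.h.ok g).skF univ (etaV fun a => (σ a).1) (fun _ => 0) 1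
        (t.s.r i) (t.s.K i) k x) T +
      nn ((labV t.h.ok g).skF univ (etaV fun a => (σ' a).1) (fun _ => 0) 1
        (t.s.r i) (t.s.K i) k x) T) + C * B * t.s.γ i ^ 2 +
      (C * (t.π.b * t.π.Rs) ^ 2 * (θ + Real.exp (-(t.π.b * t.π.R / 8))) +
        C * (1 / 4) ^ t.s.p i * t.Q * t.π.Qm * (t.π.b * t.π.Rs) ^ 2) := by
    intro i _
    have e1 := hsk t.π g _ (labV t.h.ok g) hπ _ _ (hs.r_pos i) (hs.γ_bounds i).1 (hsγ i) _ univ
      (etaV fun a => (σ a).1) (etaV fun a => (σ' a).1) (fun _ => 0)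
      (fun q _ => ⟨labV_eig _ _ _ q, labV_eig _ _ _ q⟩) _ _ (hs.p_bounds i).1 (hs.K_bounds i).1
      (Cl * (t.π.b * t.π.Rs) ^ 2 * (θ + Real.exp (-(t.π.b * t.π.R / 8)))) (by positivity) k x T hT
      (fun l j i hl => by
        rcases not_and_or.1 (hbad i l (labV_near t.h.ok g hl)) with h | h
        · exact Or.inl (hjl A t.π t.h.ok g t.Q θ hQ hθ0 hθ1 _ l (not_not.1 (not_or.1 h).1))
        · exact Or.inr (hjl A t.π t.h.ok g t.Q θ hQ hθ0 hθ1 _ l (not_not.1 (not_or.1 h).1)))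
    rw [← hs.r_succ, card_univ, Fintype.card_fin] at e1
    have e2 : 4 * Cs * B * t.s.γ i ^ 2 ≤ C * B * t.s.γ i ^ 2 := by
      gcongr
      linarith
    have e3 : 4 * Cl * (t.π.b * t.π.Rs) ^ 2 * (θ + Real.exp (-(t.π.b * t.π.R / 8))) ≤
        C * (t.π.b * t.π.Rs) ^ 2 * (θ + Real.exp (-(t.π.b * t.π.R / 8))) := by
      gcongr
      linarith
    have e4 : 4 * Cs * (1 / 4) ^ t.s.p i * t.Q * t.π.Qm * (t.π.b * t.π.Rs) ^ 2 ≤
        C * (1 / 4) ^ t.s.p i * t.Q * t.π.Qm * (t.π.b * t.π.Rs) ^ 2 := by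
      gcongr
      linarith
    simp only [hAV]
    rw [hB] at e2 ⊢
    linarith
  have h3 : ∀ i ∈ Ico t.s.i0 t.I3, AG (i + 1) - AG i ≤
      (nn ((labG t.h).skF (univ ×ˢ Icc (-(t.s.n i : ℤ)) (t.s.n i))
        (etaG A t.ρ g σ) (thG t.P) 1 (t.s.r i) (t.s.K i) k x) T +
      nn ((labG t.h).skF (univ ×ˢ Icc (-(t.s.n i : ℤ)) (t.s.n i))
        (etaG A t.ρ g σ') (thG t.P) 1 (t.s.r i) (t.s.K i) k x) T) + C * B * t.s.γ i ^ 2 +
      (C * (t.π.b ^ 2 * t.π.Rs ^ 2) ^ 2 / t.s.n i ^ 2 + C * (1 / 4) ^ t.s.p i *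
        ((t.Dc + 1) * (2 * t.s.n i + 1)) * t.π.Qm * (t.π.b * t.π.Rs) ^ 2) := by
    intro i _
    have e1 := hsk t.π g _ (labG t.h) hπ _ _ (hs.r_pos i) (hs.γ_bounds i).1 (hsγ i) _
      (univ ×ˢ Icc (-(t.s.n i : ℤ)) (t.s.n i)) (etaG A t.ρ g σ) (etaG A t.ρ g σ') (thG t.P)
      (fun q _ => ⟨labG_eig _ _ q, labG_eig _ _ q⟩) _ _ (hs.p_bounds i).1 (hs.K_bounds i).1
      (Cc * (t.π.b ^ 2 * t.π.Rs ^ 2) ^ 2 / t.s.n i ^ 2) (by positivity) k x T hT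
      (fun l j i' hl => by
        rcases not_and_or.1 (hbad i' _ (labG_near t.h hl)) with h | h
        · exact Or.inl (hcol A t.π g _ _ _ _ t.h _ _ σ _ (hs.n_bounds i).1 l
            (not_not.1 (not_or.1 h).2))
        · exact Or.inr (hcol A t.π g _ _ _ _ t.h _ _ σ' _ (hs.n_bounds i).1 l
            (not_not.1 (not_or.1 h).2)))
    rw [← hs.r_succ, card_F] at e1
    have e2 : Cs * B * t.s.γ i ^ 2 ≤ C * B * t.s.γ i ^ 2 := by
      gcongr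
      linarith
    have e3 : Cc * (t.π.b ^ 2 * t.π.Rs ^ 2) ^ 2 / t.s.n i ^ 2 ≤
        C * (t.π.b ^ 2 * t.π.Rs ^ 2) ^ 2 / t.s.n i ^ 2 := by
      gcongr
      linarith
    have e4 : Cs * (1 / 4) ^ t.s.p i * ((t.Dc + 1) * (2 * t.s.n i + 1)) * t.π.Qm *
        (t.π.b * t.π.Rs) ^ 2 ≤ C * (1 / 4) ^ t.s.p i * ((t.Dc + 1) * (2 * t.s.n i + 1)) * t.π.Qm *
        (t.π.b * t.π.Rs) ^ 2 := by
      gcongr
      linarith
    simp only [hAG]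
    rw [hB] at e2 ⊢
    linarith
  have s1 := sum_le_sum h1
  have s2 := sum_le_sum h2
  have s3 := sum_le_sum h3
  rw [← mul_sum, sum_range_sub, sum_add_distrib, ← mul_sum _ _ (C * B)] at s1
  rw [← mul_sum, sum_Ico_sub _ h01, sum_add_distrib, sum_add_distrib, ← mul_sum _ _ (C * B)] at s2
  rw [sum_Ico_sub _ h13, sum_add_distrib, sum_add_distrib, ← mul_sum _ _ (C * B)] at s3
  have s4 : ∑ i ∈ range t.I3, t.s.γ i ^ 2 = ∑ i ∈ range t.I1, t.s.γ i ^ 2 +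
      ∑ i ∈ Ico t.I1 t.s.i0, t.s.γ i ^ 2 + ∑ i ∈ Ico t.s.i0 t.I3, t.s.γ i ^ 2 := by
    rw [sum_range_add_sum_Ico _ h01, sum_range_add_sum_Ico _ h13]
  have t1 : AG t.I3 = t.π.R := by
    refine htop t.π g _ (labG t.h) hπ _ (labG_sparse t.h) _ (le_trans ?_ hr3) k x T hT
    push_cast
    rw [add_assoc, one_add_one_eq_two]
    gcongr
    linarith
  have t2 : AV 0 ≤ Cb + 4 * A0 := by
    have e1 := hbot A t.π t.h.ok g _ (hs.r_pos 0) k x w T hw hT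
    have e2 : t.s.r 0 * ∑ j, (w j : ℝ) ≤ A0 := by
      rw [hs.r_zero, one_div_mul_eq_div]
      exact hwm
    simp only [hAV]
    linarith
  have t3 : AG t.s.i0 ≤ 4 * AV t.s.i0 + Cj + (t.π.R + C) * (2 * 2 ^ t.s.c * A0) / ρ0 := by
    have e1 := hjun A t.π g _ _ _ _ t.h ρ0 hρ1 hρ _ (hs.r_pos t.s.i0) k x w T hw hT
    have e2 : 2 * t.s.r t.s.i0 * ∑ j, (w j : ℝ) ≤ 2 * 2 ^ t.s.c * A0 := by
      rw [Sc.r, hs.y_i0, mul_assoc, mul_assoc, div_mul_eq_mul_div, mul_div_assoc]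
      gcongr
    have e3 : (t.π.R + Cj) * (2 * t.s.r t.s.i0 * ∑ j, (w j : ℝ)) / ρ0 ≤
        (t.π.R + C) * (2 * 2 ^ t.s.c * A0) / ρ0 := by
      have := (hs.r_pos t.s.i0).le
      gcongr
      · linarith [(Nat.cast_nonneg t.π.R : (0 : ℝ) ≤ _)]
      · linarith
    simp only [hAV, hAG]
    linarith
  rw [nn_al, Sc.Err, s4, mul_assoc C, ← hB, mul_add (C * B), mul_add (C * B)]
  linarith

end

end Vale.Agent.P184L
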